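import Crest.Agent.R66.Chain

/-!
# R66, task T2: removing vertices from cycles; the Morse lemma
-/

set_option autoImplicit false

namespace Crest.Agent.R66

variable {k : Type*} [CommRing k] [CharP k 2] {α : Type*} [DecidableEq α]

/-- Removing an independent set `B` of vertices, one at a time with `push` (`ρ = {v}`).
Invariant: each simplex of the current cycle lies in `K`, and either lies in `S` or has no
vertex in `B`; no simplex contains an already processed vertex. -/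
theorem pushes_indep {K : Set (Finset α)} (hK : IsLowerSet K) (S B : Finset α)
    (T : α → Finset α) (a : ℕ)
    (hB : ∀ σ ∈ K, ∀ v ∈ σ, ∀ u ∈ σ, v ∈ B → u ∈ B → u = v)
    (hT : 1 ≤ a → ∀ v ∈ B, Bounds k (res (lk K {v}) S) (res (lk K {v}) (T v)) (a - 1)) :
    Pushes k (res K S) (res K (((S ∪ B.biUnion T) \ B : Finset α) : Set α))
      (res K ((S ∪ B.biUnion T : Finset α) : Set α)) a := by
  intro z hz hz0
  have key : ∀ P : Finset α, P ⊆ B →
      ∃ w ∈ Cs k (res K ((S ∪ B.biUnion T : Finset α) : Set α)) (a + 1),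
        ∀ σ ∈ (z + bd k w).support, σ ∈ K ∧ σ.card = a ∧ σ ⊆ S ∪ B.biUnion T ∧
          (σ ⊆ S ∨ Disjoint σ B) ∧ Disjoint σ P := by
    intro P
    induction P using Finset.induction_on with
    | empty =>
      intro _
      refine ⟨0, Submodule.zero_mem _, fun σ hσ => ?_⟩
      rw [map_zero, add_zero] at hσ
      obtain ⟨⟨h1, h2⟩, h3⟩ := mem_Cs.1 hz σ hσ
      have h2' : σ ⊆ S := Finset.coe_subset.1 h2
      exact ⟨h1, h3, h2'.trans Finset.subset_union_left, Or.inl h2', Finset.disjoint_empty_right _⟩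
    | insert v P hvP ih =>
      intro hP
      have hvB : v ∈ B := hP (Finset.mem_insert_self _ _)
      obtain ⟨w, hw, hinv⟩ := ih ((Finset.subset_insert _ _).trans hP)
      by_cases hex : ∃ σ ∈ (z + bd k w).support, v ∈ σ
      swap
      · push Not at hex
        refine ⟨w, hw, fun σ hσ => ?_⟩
        obtain ⟨h1, h2, h3, h4, h5⟩ := hinv σ hσ
        exact ⟨h1, h2, h3, h4, Finset.disjoint_insert_right.2 ⟨hex σ hσ, h5⟩⟩
      have hS : ∀ σ ∈ (z + bd k w).support, v ∈ σ → σ ⊆ S := fun σ hσ hv =>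
        (hinv σ hσ).2.2.2.1.resolve_right fun h => Finset.disjoint_left.1 h hv hvB
      obtain ⟨σ₀, hσ₀, hv₀⟩ := hex
      have hvS : v ∈ S := hS σ₀ hσ₀ hv₀ hv₀
      have ha : 1 ≤ a := by
        rw [← (hinv σ₀ hσ₀).2.1]
        exact Finset.card_pos.2 ⟨v, hv₀⟩
      obtain ⟨u, hu, hu'⟩ := push (res (lk K {v}) S) (res (lk K {v}) (T v)) {v} a (by simpa using ha)
        (z + bd k w) (fun σ hσ => (hinv σ hσ).2.1)
        (by rw [map_add, hz0, bd_bd]; simp)
        (fun σ hσ hv => by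
          have hv' : v ∈ σ := by simpa using hv
          refine ⟨⟨Finset.sdiff_disjoint, ?_⟩, ?_⟩
          · rw [Finset.sdiff_union_of_subset hv]
            exact (hinv σ hσ).1
          · exact Finset.coe_subset.2 (Finset.sdiff_subset.trans (hS σ hσ hv')))
        (fun τ hτ => hτ.1.1) (by simpa using hT ha v hvB)
      have hTv : T v ⊆ S ∪ B.biUnion T :=
        (Finset.subset_biUnion_of_mem T hvB).trans Finset.subset_union_right
      refine ⟨w + u, Submodule.add_mem _ hw (mem_Cs.2 fun σ hσ => ?_), fun σ hσ => ?_⟩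
      · obtain ⟨h1, τ, hτ, rfl⟩ := hu σ hσ
        refine ⟨⟨hτ.1.2, Finset.coe_subset.2 (Finset.union_subset ?_ ?_)⟩, h1⟩
        · exact (Finset.coe_subset.1 hτ.2).trans hTv
        · simp [hvS]
      · rw [map_add, ← add_assoc] at hσ
        rcases hu' σ hσ with ⟨h, hv⟩ | ⟨h1, v', hv', τ, hτ, rfl⟩
        · obtain ⟨h1, h2, h3, h4, h5⟩ := hinv σ h
          exact ⟨h1, h2, h3, h4, Finset.disjoint_insert_right.2 ⟨by simpa using hv, h5⟩⟩
        · obtain rfl : v' = v := by simpa using hv'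
          rw [Finset.erase_singleton, Finset.union_empty] at h1 ⊢
          have hd : Disjoint τ B := by
            rw [Finset.disjoint_left]
            intro x hx hxB
            have := hB _ hτ.1.2 v' (by simp) x (by simp [hx]) hvB hxB
            subst this
            exact Finset.disjoint_left.1 hτ.1.1 hx (by simp)
          exact ⟨hK Finset.subset_union_left hτ.1.2, h1, (Finset.coe_subset.1 hτ.2).trans hTv,
            Or.inr hd, hd.mono_right hP⟩
  obtain ⟨w, hw, hinv⟩ := key B subset_rfl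
  refine ⟨w, hw, mem_Cs.2 fun σ hσ => ?_⟩
  obtain ⟨h1, h2, h3, -, h5⟩ := hinv σ hσ
  exact ⟨⟨h1, Finset.coe_subset.2 (Finset.subset_sdiff.2 ⟨h3, h5⟩)⟩, h2⟩

omit [CharP k 2] in
theorem dismantle_pushes_refl {K K' K'' : Set (Finset α)} (h : K ⊆ K') (a : ℕ) :
    Pushes k K K' K'' a := fun z hz _ =>
  ⟨0, Submodule.zero_mem _, by rw [map_zero, add_zero]; exact Cs_mono h a hz⟩

theorem dismantle_step (adj : α → α → Prop) (hrefl : ∀ v, adj v v)
    (hsymm : ∀ u v, adj u v → adj v u) (S : Set α) (v x : α) (a : ℕ) (hx : x ∈ S) (hxv : x ≠ v)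
    (hvx : adj v x) (hdom : ∀ u ∈ S, adj v u → adj u x) :
    Pushes k (Cl adj S) (Cl adj (S \ {v})) (Cl adj S) a := by
  intro z hz hz0
  by_cases hex : ∃ σ ∈ z.support, v ∈ σ
  swap
  · push Not at hex
    refine ⟨0, Submodule.zero_mem _, ?_⟩
    rw [map_zero, add_zero]
    refine mem_Cs.2 fun σ hσ => ?_
    obtain ⟨⟨h1, h2⟩, h3⟩ := mem_Cs.1 hz σ hσ
    refine ⟨⟨fun y hy => ⟨h1 hy, ?_⟩, h2⟩, h3⟩
    rintro rfl
    exact hex σ hσ hy
  obtain ⟨σ₀, hσ₀, hv₀⟩ := hex
  have ha : 1 ≤ a := by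
    rw [← (mem_Cs.1 hz σ₀ hσ₀).2]
    exact Finset.card_pos.2 ⟨v, hv₀⟩
  obtain ⟨u, hu, hu'⟩ := push (lk (Cl adj S) {v}) (lk (Cl adj S) {v}) {v} a (by simpa using ha)
    z (fun σ hσ => (mem_Cs.1 hz σ hσ).2) (by rw [hz0]; simp)
    (fun σ hσ hv => ⟨Finset.sdiff_disjoint, by
      rw [Finset.sdiff_union_of_subset hv]
      exact (mem_Cs.1 hz σ hσ).1⟩)
    (fun τ hτ => hτ.1)
    (bounds_of_cone_vertex x fun τ hτ _ => by
      obtain ⟨h1, h2, h3⟩ := hτ
      have hall : ∀ y ∈ τ ∪ {v}, adj y x := fun y hy =>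
        hdom y (h2 hy) (h3 v (by simp) y hy)
      refine ⟨?_, ?_, ?_⟩
      · rw [Finset.disjoint_insert_left]
        exact ⟨by simpa using hxv, h1⟩
      · rw [Finset.insert_union, Finset.coe_insert]
        exact Set.insert_subset hx h2
      · rw [Finset.insert_union]
        intro y hy y' hy'
        rcases Finset.mem_insert.1 hy with h | h <;> rcases Finset.mem_insert.1 hy' with h' | h'
        · rw [h, h']
          exact hrefl _
        · rw [h]
          exact hsymm _ _ (hall y' h')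
        · rw [h']
          exact hall y h
        · exact h3 y h y' h')
  refine ⟨u, mem_Cs.2 fun σ hσ => ?_, mem_Cs.2 fun σ hσ => ?_⟩
  · obtain ⟨h1, τ, hτ, rfl⟩ := hu σ hσ
    exact ⟨hτ.2, h1⟩
  · rcases hu' σ hσ with ⟨h, hv⟩ | ⟨h1, v', hv', τ, hτ, rfl⟩
    · obtain ⟨⟨h1, h2⟩, h3⟩ := mem_Cs.1 hz σ h
      refine ⟨⟨fun y hy => ⟨h1 hy, ?_⟩, h2⟩, h3⟩
      rintro rfl
      exact hv (by simpa using hy)
    · obtain rfl : v' = v := by simpa using hv'
      rw [Finset.erase_singleton, Finset.union_empty] at h1 ⊢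
      have h4 := isLowerSet_Cl adj S Finset.subset_union_left hτ.2
      refine ⟨⟨fun y hy => ⟨h4.1 hy, ?_⟩, h4.2⟩, h1⟩
      rintro rfl
      exact Finset.disjoint_left.1 hτ.1 hy (by simp)

/-- Dismantling: remove the vertices of `B` in decreasing order of rank, replacing `v` by the
dominating vertex `φ v` (`push` with `ρ = {v}`, the link being coned off from `φ v`). -/
theorem pushes_dismantle (adj : α → α → Prop) (hrefl : ∀ v, adj v v)
    (hsymm : ∀ u v, adj u v → adj v u) (S : Set α) (B : Finset α) (φ : α → α) (rk : α → ℤ)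
    (a : ℕ) (hφ : ∀ v ∈ B, v ∈ S → φ v ∈ S ∧ φ v ∉ B ∧ adj v (φ v))
    (hdom : ∀ v ∈ B, v ∈ S → ∀ u ∈ S, adj v u → (u ∉ B ∨ rk u ≤ rk v) → adj u (φ v)) :
    Pushes k (Cl adj S) (Cl adj (S \ B)) (Cl adj S) a := by
  have hCl : ∀ {X Y : Set α}, X ⊆ Y → Cl adj X ⊆ Cl adj Y := fun h σ hσ => ⟨hσ.1.trans h, hσ.2⟩
  have key : ∀ n, ∀ R : Finset α, R.card = n → R ⊆ B →
      Pushes k (Cl adj (S \ ((B \ R : Finset α) : Set α))) (Cl adj (S \ B)) (Cl adj S) a := by
    intro n
    induction n with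
    | zero =>
      intro R hR _
      rw [Finset.card_eq_zero.1 hR, Finset.sdiff_empty]
      exact dismantle_pushes_refl subset_rfl a
    | succ n ih =>
      intro R hR hRB
      obtain ⟨v, hv, hmax⟩ := R.exists_max_image rk (Finset.card_pos.1 (by omega))
      refine Pushes.trans ?_ (ih (R.erase v) (by rw [Finset.card_erase_of_mem hv]; omega)
        ((Finset.erase_subset _ _).trans hRB))
      have hsub : (S \ ((B \ R : Finset α) : Set α)) \ {v} ⊆
          S \ ((B \ R.erase v : Finset α) : Set α) := by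
        rintro y ⟨⟨h1, h2⟩, h3⟩
        refine ⟨h1, fun h => h2 ?_⟩
        simp only [Finset.coe_sdiff, Set.mem_sdiff, Finset.mem_coe, Finset.mem_erase, not_and]
          at h ⊢
        exact ⟨h.1, h.2 h3⟩
      by_cases hvS : v ∈ S
      · obtain ⟨h1, h2, h3⟩ := hφ v (hRB hv) hvS
        refine (dismantle_step adj hrefl hsymm (S \ ((B \ R : Finset α) : Set α)) v (φ v) a
          ⟨h1, fun h => h2 (Finset.mem_sdiff.1 h).1⟩ (fun h => h2 (by rw [h]; exact hRB hv)) h3 ?_).mono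
          subset_rfl (hCl hsub) (hCl Set.sdiff_subset)
        intro u hu huv
        refine hdom v (hRB hv) hvS u hu.1 huv ?_
        by_cases huB : u ∈ B
        · right
          by_contra h
          exact hu.2 (Finset.mem_sdiff.2 ⟨huB, fun huR => h (hmax u huR)⟩)
        · exact Or.inl huB
      · refine dismantle_pushes_refl (hCl fun y hy => hsub ⟨hy, ?_⟩) a
        rintro rfl
        exact hvS hy.1
  have := key _ B rfl subset_rfl
  simpa using this

/-- The Morse lemma.  `I v` is the finite set of "inversions" of the vertex `v`, the height of a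
simplex is the size of the union.  Fill the cycle `z` by `w` in `K`.  While some simplex `τ` of
`w` has positive height, take one of maximal height `m`, let `ρ` be the set of its essential
vertices (`¬ I v ⊆ ⋃ u ∈ τ.erase v, I u`); by `hess`, `ρ` has the same inversions as `τ` (so is
nonempty); all simplices of `w` over `ρ` have the inversions of `ρ` (maximality); `push`
replaces them by simplices `τ' ∪ ρ.erase v` of smaller height (each `v ∈ ρ` stays essential in
`τ' ∪ ρ`: by `hess` applied to `τ' ∪ ρ`, whose essential vertices all lie in `ρ`).  Induct on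
(max height, number of simplices of that height). -/
theorem acyc_of_morse {β : Type*} {K : Set (Finset α)} (hK : IsLowerSet K) (I : α → Set β)
    (hI : ∀ v, (I v).Finite) (a : ℕ)
    (hess : ∀ σ ∈ K, ∀ p ∈ ⋃ v ∈ σ, I v, ∃ v ∈ σ, p ∈ I v ∧ ¬ I v ⊆ ⋃ u ∈ σ.erase v, I u)
    (hlk : ∀ ρ ∈ K, ρ.Nonempty → ρ.card ≤ a + 1 →
      Acyc k (res (lk K ρ) {v | I v ⊆ ⋃ u ∈ ρ, I u}) (a + 1 - ρ.card))
    (hacyc : Acyc k K a) : Acyc k (res K {v | I v = ∅}) a := by
  classical
  intro z hz hz0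
  let U : Finset α → Set β := fun σ => ⋃ v ∈ σ, I v
  have hUf : ∀ σ, (U σ).Finite := fun σ => σ.finite_toSet.biUnion fun v _ => hI v
  have hUm : ∀ {σ τ : Finset α}, σ ⊆ τ → U σ ⊆ U τ := fun h =>
    Set.biUnion_subset_biUnion_left h
  have hIU : ∀ {σ : Finset α} {v : α}, v ∈ σ → I v ⊆ U σ := fun {σ v} h =>
    Set.subset_biUnion_of_mem (u := I) h
  have step : ∀ m n : ℕ, ∀ w ∈ Cs k K (a + 1), bd k w = z →
      (∀ σ ∈ w.support, (U σ).ncard ≤ m + 1) →
      (w.support.filter fun σ => (U σ).ncard = m + 1).card = n →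
      ∃ w' ∈ Cs k K (a + 1), bd k w' = z ∧ ∀ σ ∈ w'.support, (U σ).ncard ≤ m := by
    intro m n
    induction n using Nat.strong_induction_on with
    | _ n ih =>
    intro w hw hwz hle hn
    by_cases hex : ∃ τ ∈ w.support, (U τ).ncard = m + 1
    swap
    · push Not at hex
      refine ⟨w, hw, hwz, fun σ hσ => ?_⟩
      have h1 := hle σ hσ
      have h2 := hex σ hσ
      omega
    obtain ⟨τ, hτ, hτm⟩ := hex
    obtain ⟨hτK, hτc⟩ := mem_Cs.1 hw τ hτ
    set ρ := τ.filter fun v => ¬ I v ⊆ U (τ.erase v) with hρ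
    have hρτ : ρ ⊆ τ := Finset.filter_subset _ _
    have hUρ : U ρ = U τ := by
      refine (hUm hρτ).antisymm fun p hp => ?_
      obtain ⟨v, hv, hpv, hv'⟩ := hess τ hτK p hp
      exact hIU (Finset.mem_filter.2 ⟨hv, hv'⟩) hpv
    have hne : (U ρ).Nonempty := by
      rw [hUρ]
      exact Set.nonempty_of_ncard_ne_zero (by omega)
    have hρne : ρ.Nonempty := by
      obtain ⟨p, hp⟩ := hne
      simp only [U, Set.mem_iUnion] at hp
      obtain ⟨v, hv, -⟩ := hp
      exact ⟨v, hv⟩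
    have hρc : ρ.card ≤ a + 1 := hτc ▸ Finset.card_le_card hρτ
    obtain ⟨u, -, hu'⟩ := push (res (lk K ρ) {v | I v ⊆ U ρ}) (res (lk K ρ) {v | I v ⊆ U ρ}) ρ
      (a + 1) hρc w (fun σ hσ => (mem_Cs.1 hw σ hσ).2)
      (fun σ hσ hρσ => by
        rw [hwz] at hσ
        obtain ⟨p, hp⟩ := hne
        simp only [U, Set.mem_iUnion] at hp
        obtain ⟨v, hv, hp⟩ := hp
        have h0 : I v = ∅ := (mem_Cs.1 hz σ hσ).1.2 (hρσ hv)
        rw [h0] at hp
        exact hp)
      (fun σ hσ hρσ => by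
        refine ⟨⟨Finset.sdiff_disjoint, ?_⟩, fun v hv => ?_⟩
        · rw [Finset.sdiff_union_of_subset hρσ]
          exact (mem_Cs.1 hw σ hσ).1
        · have : U ρ = U σ := Set.eq_of_subset_of_ncard_le (hUm hρσ)
            (by rw [hUρ, hτm]; exact hle σ hσ) (hUf σ)
          change I v ⊆ U ρ
          rw [this]
          exact hIU (Finset.mem_sdiff.1 hv).1)
      (fun τ' hτ' => hτ'.1.1) (hlk ρ (hK hρτ hτK) hρne hρc)
    have hnew : ∀ v ∈ ρ, ∀ τ' ∈ res (lk K ρ) {v | I v ⊆ U ρ},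
        τ' ∪ ρ.erase v ∈ K ∧ (U (τ' ∪ ρ.erase v)).ncard ≤ m := by
      intro v hv τ' hτ'
      have hsub : τ' ∪ ρ.erase v ⊆ τ' ∪ ρ :=
        Finset.union_subset_union subset_rfl (Finset.erase_subset _ _)
      refine ⟨hK hsub hτ'.1.2, ?_⟩
      have h1 : U (τ' ∪ ρ) ⊆ U ρ := by
        intro p hp
        simp only [U, Set.mem_iUnion] at hp
        obtain ⟨y, hy, hp⟩ := hp
        rcases Finset.mem_union.1 hy with hy | hy
        · exact hτ'.2 hy hp
        · exact hIU hy hp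
      obtain ⟨p, hp, hp'⟩ := Set.not_subset.1 (Finset.mem_filter.1 hv).2
      obtain ⟨v', hv', hpv', hess'⟩ := hess _ hτ'.1.2 p (hIU (Finset.mem_union_right _ hv) hp)
      have hv'ρ : v' ∈ ρ := by
        by_contra hn'
        have h2 : v' ∈ τ' := (Finset.mem_union.1 hv').resolve_right hn'
        refine hess' ((hτ'.2 h2).trans (hUm fun y hy => ?_))
        exact Finset.mem_erase.2 ⟨fun e => hn' (e ▸ hy), Finset.mem_union_right _ hy⟩
      obtain rfl : v' = v := by
        by_contra hn'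
        exact hp' (hIU (Finset.mem_erase.2 ⟨hn', hρτ hv'ρ⟩) hpv')
      have h3 : τ' ∪ ρ.erase v' ⊆ (τ' ∪ ρ).erase v' := by
        intro y hy
        refine Finset.mem_erase.2 ⟨?_, hsub hy⟩
        rintro rfl
        rcases Finset.mem_union.1 hy with hy | hy
        · exact Finset.disjoint_left.1 hτ'.1.1 hy hv
        · exact Finset.notMem_erase _ _ hy
      have h4 : U (τ' ∪ ρ.erase v') ⊂ U ρ := by
        refine ⟨(hUm hsub).trans h1, fun h => hess' ?_⟩
        exact (hIU hv).trans (h.trans (hUm h3))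
      have h5 := Set.ncard_lt_ncard h4 (hUf ρ)
      rw [hUρ, hτm] at h5
      omega
    refine ih _ ?_ (w + bd k u) (mem_Cs.2 fun σ hσ => ?_) (by rw [map_add, bd_bd, add_zero, hwz])
      (fun σ hσ => ?_) rfl
    · rw [← hn]
      refine Finset.card_lt_card ⟨fun σ hσ => ?_, fun h => ?_⟩
      · obtain ⟨h1, h2⟩ := Finset.mem_filter.1 hσ
        rcases hu' σ h1 with ⟨h, -⟩ | ⟨-, v, hv, τ', hτ', rfl⟩
        · exact Finset.mem_filter.2 ⟨h, h2⟩
        · have := (hnew v hv τ' hτ').2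
          omega
      · obtain ⟨h1, h2⟩ := Finset.mem_filter.1 (h (Finset.mem_filter.2 ⟨hτ, hτm⟩))
        rcases hu' τ h1 with ⟨-, h⟩ | ⟨-, v, hv, τ', hτ', h⟩
        · exact h hρτ
        · have := (hnew v hv τ' hτ').2
          rw [← h] at this
          omega
    · rcases hu' σ hσ with ⟨h, -⟩ | ⟨h, v, hv, τ', hτ', rfl⟩
      · exact mem_Cs.1 hw σ h
      · exact ⟨(hnew v hv τ' hτ').1, h⟩
    · rcases hu' σ hσ with ⟨h, -⟩ | ⟨-, v, hv, τ', hτ', rfl⟩
      · exact hle σ h
      · exact (hnew v hv τ' hτ').2.trans (Nat.le_succ _)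
  have down : ∀ m : ℕ, ∀ w ∈ Cs k K (a + 1), bd k w = z →
      (∀ σ ∈ w.support, (U σ).ncard ≤ m) →
      ∃ w' ∈ Cs k K (a + 1), bd k w' = z ∧ ∀ σ ∈ w'.support, (U σ).ncard ≤ 0 := by
    intro m
    induction m with
    | zero => exact fun w hw hwz h => ⟨w, hw, hwz, h⟩
    | succ m ih =>
      intro w hw hwz h
      obtain ⟨w', h1, h2, h3⟩ := step m _ w hw hwz h rfl
      exact ih w' h1 h2 h3
  obtain ⟨w, hw, hwz⟩ := hacyc z (Cs_mono (fun σ hσ => hσ.1) a hz) hz0
  obtain ⟨w', h1, h2, h3⟩ := down (w.support.sup fun σ => (U σ).ncard) w hw hwz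
    fun σ hσ => Finset.le_sup (f := fun σ => (U σ).ncard) hσ
  refine ⟨w', mem_Cs.2 fun σ hσ => ?_, h2⟩
  refine ⟨⟨(mem_Cs.1 h1 σ hσ).1, fun v hv => ?_⟩, (mem_Cs.1 h1 σ hσ).2⟩
  have h4 : U σ = ∅ := (Set.ncard_eq_zero (hUf σ)).1 (Nat.le_zero.1 (h3 σ hσ))
  exact Set.subset_empty_iff.1 (h4 ▸ hIU hv)

end Crest.Agent.R66
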