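import Crest.Agent.R66.Lat
import Crest.Agent.R66.Dismantle

/-!
# R66, task T4: the building is acyclic; essential vertices carry all inversions
-/

set_option autoImplicit false

namespace Crest.Agent.R66

variable {F : Type*} [Field F] {N : ℕ} [NeZero N]

/-- Normalised position with respect to the base lattice `Vlt 0`. -/
def BuildingNorm (N : ℕ) (U : Submodule F (VV F)) : Prop := U ≤ Vlt F 0 ∧ ¬ U ≤ Vlt F (-(N : ℤ))

omit [NeZero N] in
theorem building_Vlt_le_iff {i j : ℤ} : Vlt F i ≤ Vlt F j ↔ i ≤ j := by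
  refine ⟨fun h => ?_, Vlt_mono⟩
  have h1 := Dset_mono h
  rw [Dset_Vlt, Dset_Vlt] at h1
  exact Set.Iio_subset_Iio_iff.1 h1

omit [NeZero N] in
theorem building_shL_le_iff {U : Submodule F (VV F)} :
    shL (N : ℤ) U ≤ Vlt F 0 ↔ U ≤ Vlt F (-(N : ℤ)) := by
  rw [← shL_le_shL (m := (N : ℤ)) (U := U), shL_Vlt, neg_add_cancel]

theorem building_exists_norm (v : Vtx F N) : ∃ U, Rep v U ∧ BuildingNorm N U := by
  have hN : (1 : ℤ) ≤ N := by exact_mod_cast Nat.pos_of_ne_zero (NeZero.ne N)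
  obtain ⟨a, ha⟩ := v.2.1.low
  obtain ⟨b, hb⟩ := v.2.1.up
  obtain ⟨m, hm, hmax⟩ := Int.exists_greatest_of_bdd
    (P := fun m : ℤ => shL (m * N) v.1 ≤ Vlt F 0) ⟨|a|, fun m hm => by
      have h1 : shL (m * N) (Vlt F a) ≤ Vlt F 0 := (shL_le_shL.2 ha).trans hm
      rw [shL_Vlt, building_Vlt_le_iff] at h1
      have := neg_abs_le a
      have := abs_nonneg a
      by_contra hc
      push Not at hc
      nlinarith⟩
    ⟨-|b|, by
      refine (shL_le_shL.2 hb).trans ?_
      rw [shL_Vlt, building_Vlt_le_iff]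
      have := le_abs_self b
      have := abs_nonneg b
      nlinarith⟩
  refine ⟨shL (m * N) v.1, ⟨m, rfl⟩, hm, fun h => ?_⟩
  rw [← building_shL_le_iff, shL_shL, show (N : ℤ) + m * N = (m + 1) * N by ring] at h
  have := hmax _ h
  omega

omit [NeZero N] in
theorem building_norm_unique {v : Vtx F N} {U U' : Submodule F (VV F)} (h : Rep v U)
    (h' : Rep v U') (hn : BuildingNorm N U) (hn' : BuildingNorm N U') : U = U' := by
  have key : ∀ {U U' : Submodule F (VV F)}, Rep v U → BuildingNorm N U → BuildingNorm N U' →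
      ∀ m : ℤ, U' = shL (m * N) U → m ≤ 0 := by
    intro U U' h hn hn' m hm
    by_contra hc
    push Not at hc
    have h1 := h.isLat.shL_mono (m := 1) (m' := m) (by omega)
    rw [one_mul, ← hm] at h1
    exact hn.2 (building_shL_le_iff.1 (h1.trans hn'.1))
  obtain ⟨m, hm⟩ := h.exists_shL h'
  have h1 := key h hn hn' m hm
  have h2 := key h' hn' hn (-m) (by
    rw [hm, shL_shL, show -m * (N : ℤ) + m * N = 0 by ring, shL_zero])
  have h3 : m = 0 := by omega
  rw [hm, h3, zero_mul, shL_zero]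

/-- The normalised representative. -/
noncomputable def buildingRep (v : Vtx F N) : Submodule F (VV F) :=
  Classical.choose (building_exists_norm v)

theorem buildingRep_rep (v : Vtx F N) : Rep v (buildingRep v) :=
  (Classical.choose_spec (building_exists_norm v)).1

theorem buildingRep_norm (v : Vtx F N) : BuildingNorm N (buildingRep v) :=
  (Classical.choose_spec (building_exists_norm v)).2

theorem building_le_shL {u v : Vtx F N} (h : Adj u v) :
    buildingRep v ≤ shL (N : ℤ) (buildingRep u) := by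
  have h1 := (buildingRep_rep u).shL 1
  rw [one_mul] at h1
  rcases h.total h1 (buildingRep_rep v) with h2 | h2
  · exact absurd (building_shL_le_iff.1 (h2.trans (buildingRep_norm v).1)) (buildingRep_norm u).2
  · exact h2

variable (F N) in
/-- The ball of radius `r` around the base vertex. -/
def buildingBall (r : ℕ) : Set (Vtx F N) := {v | Vlt F (-((r : ℤ) * N)) ≤ buildingRep v}

theorem buildingBall_mono {r r' : ℕ} (h : r ≤ r') : buildingBall F N r ⊆ buildingBall F N r' := by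
  intro v hv
  refine le_trans (Vlt_mono ?_) hv
  have : (r : ℤ) ≤ r' := by exact_mod_cast h
  have : (0 : ℤ) ≤ N := by positivity
  nlinarith

theorem building_mem_ball (v : Vtx F N) : ∃ r, v ∈ buildingBall F N r := by
  have hN : (1 : ℤ) ≤ N := by exact_mod_cast Nat.pos_of_ne_zero (NeZero.ne N)
  obtain ⟨a, ha⟩ := (buildingRep_rep v).isLat.low
  refine ⟨a.natAbs, le_trans (Vlt_mono ?_) ha⟩
  have h1 := neg_abs_le a
  have h2 := abs_nonneg a
  rw [Int.natCast_natAbs]
  nlinarith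

omit [NeZero N] in
theorem building_Cl_subset (S : Set (Vtx F N)) : Cl Adj S ⊆ Delta F N :=
  fun _ h => ⟨Set.subset_univ _, h.2⟩

theorem building_ball_bounds (k : Type*) [CommRing k] [CharP k 2] (a : ℕ) :
    ∀ r : ℕ, Bounds k (Cl Adj (buildingBall F N r)) (Delta F N) a
  | 0 => by
    obtain ⟨v₀, hv₀⟩ := exists_vtx (F := F) (N := N) (isLat_Vlt 0)
    have hadj : ∀ v ∈ buildingBall F N 0, Adj v₀ v := by
      intro v hv
      refine adj_of_le hv₀ (buildingRep_rep v) (by simpa [buildingBall] using hv) ?_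
      refine (buildingRep_norm v).1.trans ?_
      rw [shL_Vlt]
      exact Vlt_mono (by positivity)
    refine bounds_of_cone_vertex v₀ fun σ hσ _ => mem_Delta.2 fun u hu v hv => ?_
    rcases Finset.mem_insert.1 hu with hu' | hu' <;> rcases Finset.mem_insert.1 hv with hv' | hv'
    · rw [hu', hv']; exact Adj.refl _
    · rw [hu']; exact hadj v (hσ.1 hv')
    · rw [hv']; exact (hadj u (hσ.1 hu')).symm
    · exact hσ.2 u hu' v hv'
  | r + 1 => by
    classical
    intro z hz hbd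
    set T : Finset (Vtx F N) := z.support.biUnion id with hT
    have hTS : ∀ v ∈ T, v ∈ buildingBall F N (r + 1) := by
      intro v hv
      obtain ⟨σ, hσ, hvσ⟩ := Finset.mem_biUnion.1 hv
      exact (mem_Cs.1 hz σ hσ).1.1 hvσ
    set S' : Set (Vtx F N) := (T : Set (Vtx F N)) ∪ buildingBall F N r with hS'
    have hS'S : ∀ v ∈ S', v ∈ buildingBall F N (r + 1) := by
      rintro v (hv | hv)
      · exact hTS v hv
      · exact buildingBall_mono (Nat.le_succ r) hv
    set B : Finset (Vtx F N) := T.filter (fun v => v ∉ buildingBall F N r) with hB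
    have hlat : ∀ v : Vtx F N, IsLat N (buildingRep v ⊔ Vlt F (-((r : ℤ) * N))) := fun v =>
      (buildingRep_rep v).isLat.sup (isLat_Vlt _)
    choose φ hφ using fun v : Vtx F N => exists_vtx (hlat v)
    have hφn : ∀ v, buildingRep (φ v) = buildingRep v ⊔ Vlt F (-((r : ℤ) * N)) := by
      intro v
      refine building_norm_unique (buildingRep_rep _) (hφ v) (buildingRep_norm _) ⟨?_, ?_⟩
      · refine sup_le (buildingRep_norm v).1 (Vlt_mono ?_)
        have : (0 : ℤ) ≤ (r : ℤ) * N := by positivity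
        linarith
      · exact fun h => (buildingRep_norm v).2 (le_sup_left.trans h)
    have hφr : ∀ v, φ v ∈ buildingBall F N r := by
      intro v
      show Vlt F (-((r : ℤ) * N)) ≤ buildingRep (φ v)
      rw [hφn]
      exact le_sup_right
    have hsh : ∀ u ∈ buildingBall F N (r + 1),
        Vlt F (-((r : ℤ) * N)) ≤ shL (N : ℤ) (buildingRep u) := by
      intro u hu
      have h1 : shL (N : ℤ) (Vlt F (-(((r + 1 : ℕ) : ℤ) * N))) ≤ shL (N : ℤ) (buildingRep u) :=
        shL_le_shL.2 hu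
      rw [shL_Vlt] at h1
      refine le_trans (Vlt_mono (le_of_eq ?_)) h1
      push_cast
      ring
    have hA : ∀ v u, u ∈ S' → Adj u v → buildingRep u ≤ buildingRep v → Adj u (φ v) := by
      intro v u hu hadj hle
      exact adj_of_le (buildingRep_rep u) (hφ v) (hle.trans le_sup_left)
        (sup_le (building_le_shL hadj) (hsh u (hS'S u hu)))
    have hsub : S' \ (B : Set (Vtx F N)) ⊆ buildingBall F N r := by
      rintro u ⟨hu | hu, hu'⟩
      · by_contra hc
        exact hu' (Finset.mem_coe.2 (Finset.mem_filter.2 ⟨hu, hc⟩))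
      · exact hu
    have hp := pushes_dismantle (k := k) (Adj (F := F) (N := N)) Adj.refl (fun _ _ h => h.symm)
      S' B φ (fun v => deg (buildingRep v)) a
      (fun v _ hv => ⟨Or.inr (hφr v), fun h => (Finset.mem_filter.1 h).2 (hφr v),
        hA v v hv (Adj.refl v) le_rfl⟩)
      (fun v _ _ u hu hadj hor => by
        rcases hadj.total (buildingRep_rep v) (buildingRep_rep u) with h1 | h1
        · rcases hor with h2 | h2
          · have h3 : u ∈ buildingBall F N r := hsub ⟨hu, h2⟩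
            refine (adj_of_le (hφ v) (buildingRep_rep u) (sup_le h1 h3) ?_).symm
            exact (building_le_shL hadj).trans (shL_le_shL.2 le_sup_left)
          · have h3 := eq_of_le_of_deg_le (buildingRep_rep v).isLat (buildingRep_rep u).isLat h1 h2
            exact hA v u hu hadj.symm h3.ge
        · exact hA v u hu hadj.symm h1)
    have hp' : Pushes k (Cl Adj S') (Cl Adj (buildingBall F N r)) (Delta F N) a :=
      hp.mono subset_rfl (fun σ h => ⟨h.1.trans hsub, h.2⟩) (building_Cl_subset _)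
    refine hp'.bounds (building_ball_bounds k a r) z (mem_Cs.2 fun σ hσ => ?_) hbd
    obtain ⟨h1, h2⟩ := mem_Cs.1 hz σ hσ
    exact ⟨⟨fun v hv => Or.inl (Finset.mem_coe.2 (Finset.mem_biUnion.2 ⟨σ, hσ, hv⟩)), h1.2⟩, h2⟩

/-- Representatives of vertices of `σ` having `y` but not `x` as a leading position. -/
def buildingJ (σ : Finset (Vtx F N)) (x y : ℤ) : Set (Submodule F (VV F)) :=
  {U | (∃ v ∈ σ, Rep v U) ∧ y ∈ Dset U ∧ x ∉ Dset U}

theorem buildingJ_finite (σ : Finset (Vtx F N)) (x y : ℤ) : (buildingJ σ x y).Finite := by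
  have hN : (1 : ℤ) ≤ N := by exact_mod_cast Nat.pos_of_ne_zero (NeZero.ne N)
  have h : ∀ v : Vtx F N, {U | Rep v U ∧ y ∈ Dset U ∧ x ∉ Dset U}.Finite := by
    intro v
    obtain ⟨a, ha⟩ := v.2.1.low
    obtain ⟨b, hb⟩ := v.2.1.up
    refine ((Set.finite_Icc (-|y - b|) |x - a|).image (fun m : ℤ => shL (m * N) v.1)).subset ?_
    rintro U ⟨⟨m, rfl⟩, h1, h2⟩
    rw [mem_Dset_shL] at h1 h2
    have h3 : y - m * N < b := by
      have := Dset_mono hb h1
      rwa [Dset_Vlt] at this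
    have h4 : a ≤ x - m * N := by
      by_contra hc
      exact h2 (Dset_mono ha (by rw [Dset_Vlt]; exact not_le.1 hc))
    refine ⟨m, ⟨?_, ?_⟩, rfl⟩
    · have := neg_abs_le (y - b)
      have := abs_nonneg (y - b)
      by_contra hc
      push Not at hc
      nlinarith
    · have := le_abs_self (x - a)
      have := abs_nonneg (x - a)
      by_contra hc
      push Not at hc
      nlinarith
  refine (Set.Finite.biUnion σ.finite_toSet fun v _ => h v).subset ?_
  rintro U ⟨⟨v, hv, hU⟩, h1⟩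
  exact Set.mem_biUnion hv ⟨hU, h1⟩

theorem building_ess_aux (σ : Finset (Vtx F N)) (hσ : σ ∈ Delta F N) (n : ℕ) :
    ∀ x y : ℤ, x < y → (buildingJ σ x y).ncard = n → (buildingJ σ x y).Nonempty →
      ∃ v ∈ σ, ∃ U, Rep v U ∧ U ∈ buildingJ σ x y ∧ ¬ InvV v ⊆ ⋃ u ∈ σ.erase v, InvV u := by
  induction n using Nat.strong_induction_on with
  | _ n ih =>
  intro x y hxy hn hne
  have htot : ∀ {U V : Submodule F (VV F)}, (∃ v ∈ σ, Rep v U) → (∃ v ∈ σ, Rep v V) →
      U ≤ V ∨ V ≤ U := by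
    rintro U V ⟨u, hu, hU⟩ ⟨v, hv, hV⟩
    exact (mem_Delta.1 hσ u hu v hv).total hU hV
  have hstep : ∀ U₁ ∈ buildingJ σ x y, ∀ U₂ ∈ buildingJ σ x y, U₁ ≤ U₂ → U₁ ≠ U₂ →
      ∃ v ∈ σ, ∃ U, Rep v U ∧ U ∈ buildingJ σ x y ∧ ¬ InvV v ⊆ ⋃ u ∈ σ.erase v, InvV u := by
    intro U₁ h₁ U₂ h₂ hle hne
    obtain ⟨v₂, _, hv₂⟩ := h₂.1
    obtain ⟨u, hu₂, hu₁⟩ : ∃ u, u ∈ Dset U₂ ∧ u ∉ Dset U₁ := by
      by_contra hc
      push Not at hc
      exact hne (eq_of_le_of_Dset hle hv₂.isLat.up hc)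
    have hux : u ≠ x := fun h => h₂.2.2 (h ▸ hu₂)
    rcases lt_or_gt_of_ne hux with h | h
    · have hsub : buildingJ σ u y ⊆ buildingJ σ x y := by
        intro U hU
        rcases htot hU.1 h₂.1 with h3 | h3
        · exact ⟨hU.1, hU.2.1, fun h4 => h₂.2.2 (Dset_mono h3 h4)⟩
        · exact absurd (Dset_mono h3 hu₂) hU.2.2
      have hlt : (buildingJ σ u y).ncard < n := by
        rw [← hn]
        exact Set.ncard_lt_ncard ⟨hsub, fun h3 => (h3 h₂).2.2 hu₂⟩ (buildingJ_finite σ x y)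
      obtain ⟨v, hv, U, hU, hJ, he⟩ := ih _ hlt u y (h.trans hxy) rfl ⟨U₁, h₁.1, h₁.2.1, hu₁⟩
      exact ⟨v, hv, U, hU, hsub hJ, he⟩
    · have hsub : buildingJ σ x u ⊆ buildingJ σ x y := by
        intro U hU
        rcases htot hU.1 h₁.1 with h3 | h3
        · exact absurd (Dset_mono h3 hU.2.1) hu₁
        · exact ⟨hU.1, Dset_mono h3 h₁.2.1, hU.2.2⟩
      have hlt : (buildingJ σ x u).ncard < n := by
        rw [← hn]
        exact Set.ncard_lt_ncard ⟨hsub, fun h3 => hu₁ (h3 h₁).2.1⟩ (buildingJ_finite σ x y)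
      obtain ⟨v, hv, U, hU, hJ, he⟩ := ih _ hlt x u h rfl ⟨U₂, h₂.1, hu₂, h₂.2.2⟩
      exact ⟨v, hv, U, hU, hsub hJ, he⟩
  by_cases hs : ∀ U₁ ∈ buildingJ σ x y, ∀ U₂ ∈ buildingJ σ x y, U₁ = U₂
  · obtain ⟨U, hU⟩ := hne
    obtain ⟨v, hv, hr⟩ := hU.1
    refine ⟨v, hv, U, hr, hU, fun hsub => ?_⟩
    have hq := mem_InvS_of (N := N) hxy hU.2.1 hU.2.2
    rw [hr.invS] at hq
    obtain ⟨u, hu, hq'⟩ := Set.mem_iUnion₂.1 (hsub hq)
    obtain ⟨-, -, -, m, hm1, hm2⟩ := hq'
    have hr' : Rep u (shL ((x / N - m) * N) u.1) := ⟨_, rfl⟩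
    have hJ : shL ((x / N - m) * N) u.1 ∈ buildingJ σ x y := by
      refine ⟨⟨u, Finset.mem_of_mem_erase hu, hr'⟩, ?_, ?_⟩
      · rw [mem_Dset_shL, show y - (x / N - m) * N = y - x / N * N + m * N by ring]
        exact hm1
      · rw [mem_Dset_shL, show x - (x / N - m) * N = x % N + m * N by
          rw [Int.emod_def]; ring]
        exact hm2
    rw [hs _ hJ _ hU] at hr'
    exact Finset.ne_of_mem_erase hu (hr'.unique hr)
  · push Not at hs
    obtain ⟨U₁, h₁, U₂, h₂, hne⟩ := hs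
    rcases htot h₁.1 h₂.1 with h | h
    · exact hstep U₁ h₁ U₂ h₂ h hne
    · exact hstep U₂ h₂ U₁ h₁ h hne.symm

/-- The building is acyclic.  Let `L = Vlt 0`.  Each vertex `v` has a unique representative
`n v ≤ L` with `¬ n v ≤ shL (-N) L`.  Let `S r` be the set of vertices with `Vlt (-r N) ≤ n v`;
every finite set of vertices lies in some `S r`.  `Cl Adj (S 1)` is a cone with apex the vertex of
`L`.  For `r ≥ 2` a cycle on a finite `T ⊆ S r` is pushed into `S (r-1)` by `pushes_dismantle` with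
`B = {v ∈ T | v ∉ S (r-1)}`, `φ v` = the vertex of `n v ⊔ Vlt (-(r-1) N)`, `rk v = deg (n v)`, on the
vertex set `T ∪ φ B` (adjacent `u`, `v` with `n u ≤ n v` satisfy `n v ≤ shL N (n u)`). -/
theorem delta_acyc (k : Type*) [CommRing k] [CharP k 2] (a : ℕ) : Acyc k (Delta F N) a := by
  classical
  intro z hz hbd
  choose r hr using fun v : Vtx F N => building_mem_ball v
  refine building_ball_bounds k a ((z.support.biUnion id).sup r) z (mem_Cs.2 fun σ hσ => ?_) hbd
  obtain ⟨h1, h2⟩ := mem_Cs.1 hz σ hσ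
  refine ⟨⟨fun v hv => ?_, h1.2⟩, h2⟩
  exact buildingBall_mono (Finset.le_sup (f := r) (Finset.mem_biUnion.2 ⟨σ, hσ, hv⟩)) (hr v)

/-- Every inversion of a simplex is an inversion of an essential vertex.  For integers `x < y`
let `J x y` be the finite set of representatives `U` of vertices of `σ` with `y ∈ Dset U`,
`x ∉ Dset U`.  Induct on its size: if it is a singleton, its vertex is essential because of the
normalisation of `(x, y)`; otherwise take `U₁ < U₂` in it and `u ∈ Dset U₂ \ Dset U₁`; one of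
`J x u` (if `x < u`), `J u y` (if `u < x`) is a non-empty proper subset of `J x y`. -/
theorem delta_ess (σ : Finset (Vtx F N)) (hσ : σ ∈ Delta F N) :
    ∀ p ∈ ⋃ v ∈ σ, InvV v, ∃ v ∈ σ, p ∈ InvV v ∧ ¬ InvV v ⊆ ⋃ u ∈ σ.erase v, InvV u := by
  intro p hp
  obtain ⟨v, hv, h0, h1, h2, m, hm1, hm2⟩ := Set.mem_iUnion₂.1 hp
  obtain ⟨v', hv', U, hU, hJ, he⟩ := building_ess_aux σ hσ _ p.1 p.2 h2 rfl
    ⟨shL (-m * N) v.1, ⟨v, hv, -m, rfl⟩,
      by rw [mem_Dset_shL, show p.2 - -m * (N : ℤ) = p.2 + m * N by ring]; exact hm1,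
      by rw [mem_Dset_shL, show p.1 - -m * (N : ℤ) = p.1 + m * N by ring]; exact hm2⟩
  refine ⟨v', hv', ?_, he⟩
  rw [← hU.invS]
  exact ⟨h0, h1, h2, 0, by simpa using hJ.2.1, by simpa using hJ.2.2⟩

end Crest.Agent.R66
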