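import Crest.Agent.R66.ChainDefs

/-!
# R66, task T1: basic chain algebra, the push lemma, cones
-/

set_option autoImplicit false

namespace Crest.Agent.R66

variable {k : Type*} [CommRing k] {α : Type*} [DecidableEq α]

theorem mem_Cs {K : Set (Finset α)} {a : ℕ} {z : Chain k α} :
    z ∈ Cs k K a ↔ ∀ σ ∈ z.support, σ ∈ K ∧ σ.card = a := by
  rw [Cs, Finsupp.mem_supported]
  exact Iff.rfl

theorem bd_single (σ : Finset α) (x : k) :
    bd k (Finsupp.single σ x) = ∑ v ∈ σ, Finsupp.single (σ.erase v) x := by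
  simp only [bd, Finsupp.linearCombination_single, Finset.smul_sum, Finsupp.smul_single,
    smul_eq_mul, mul_one]

theorem Chain_add_self [CharP k 2] {β : Type*} (z : β →₀ k) : z + z = 0 := by
  ext σ; simp [CharTwo.add_self_eq_zero]

theorem Chain_sum_symm {M : Type*} [AddCommGroup M] (hM : ∀ x : M, x + x = 0) (s : Finset α)
    (g : α → α → M) (hg : ∀ u v, g u v = g v u) : ∑ v ∈ s, ∑ u ∈ s.erase v, g v u = 0 := by
  induction s using Finset.induction_on with
  | empty => simp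
  | insert a s ha ih =>
    rw [Finset.sum_insert ha, Finset.erase_insert ha]
    have : ∑ v ∈ s, ∑ u ∈ (insert a s).erase v, g v u =
        ∑ v ∈ s, (g a v + ∑ u ∈ s.erase v, g v u) := by
      refine Finset.sum_congr rfl fun v hv => ?_
      have hav : a ≠ v := fun h => ha (h ▸ hv)
      rw [Finset.erase_insert_of_ne hav, Finset.sum_insert (by simp [ha]), hg v a]
    rw [this, Finset.sum_add_distrib, ih, add_zero, hM]

theorem Chain_sum_erase_erase {M : Type*} [AddCommGroup M] (hM : ∀ x : M, x + x = 0)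
    (σ : Finset α) (F : Finset α → M) :
    ∑ v ∈ σ, ∑ u ∈ σ.erase v, F ((σ.erase v).erase u) = 0 :=
  Chain_sum_symm hM σ (fun v u => F ((σ.erase v).erase u))
    fun u v => by rw [Finset.erase_right_comm]

omit [DecidableEq α] in
theorem Chain_ext_on_support {M : Type*} [AddCommGroup M] [Module k M] {f g : Chain k α →ₗ[k] M}
    {z : Chain k α} (h : ∀ σ ∈ z.support, f (Finsupp.single σ 1) = g (Finsupp.single σ 1)) :
    f z = g z := by
  rw [← Finsupp.sum_single z, Finsupp.sum, map_sum, map_sum]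
  refine Finset.sum_congr rfl fun σ hσ => ?_
  rw [← mul_one (z σ), ← smul_eq_mul, ← Finsupp.smul_single, map_smul, map_smul, h σ hσ]

theorem Chain_mem_support_lc {f : Finset α → Chain k α} {z : Chain k α} {σ : Finset α}
    (h : σ ∈ (Finsupp.linearCombination k f z).support) : ∃ τ ∈ z.support, σ ∈ (f τ).support := by
  rw [Finsupp.linearCombination_apply, Finsupp.sum] at h
  obtain ⟨τ, hτ, h⟩ := Finset.mem_biUnion.1 (Finsupp.support_finsetSum h)
  exact ⟨τ, hτ, Finsupp.support_smul h⟩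

theorem Chain_mem_support_sum_single {s : Finset α} {g : α → Finset α} {σ : Finset α}
    (h : σ ∈ (∑ v ∈ s, Finsupp.single (g v) (1 : k)).support) : ∃ v ∈ s, σ = g v := by
  obtain ⟨v, hv, h⟩ := Finset.mem_biUnion.1 (Finsupp.support_finsetSum h)
  exact ⟨v, hv, Finset.mem_singleton.1 (Finsupp.support_single_subset h)⟩

theorem bd_bd [CharP k 2] (z : Chain k α) : bd k (bd k z) = 0 := by
  have key : ((bd k).comp (bd k)) z = (0 : Chain k α →ₗ[k] Chain k α) z := by
    refine Chain_ext_on_support fun σ _ => ?_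
    simp only [LinearMap.comp_apply, bd_single, map_sum, LinearMap.zero_apply]
    exact Chain_sum_erase_erase Chain_add_self σ (fun τ => Finsupp.single τ (1 : k))
  simpa using key

theorem cob_cob [CharP k 2] (F : Finset α → k) (σ : Finset α) : cob (cob F) σ = 0 := by
  exact Chain_sum_erase_erase CharTwo.add_self_eq_zero σ F

theorem pair_single (F : Finset α → k) (σ : Finset α) (x : k) :
    pair F (Finsupp.single σ x) = x * F σ := by
  simp [pair]

theorem pair_bd (F : Finset α → k) (w : Chain k α) : pair F (bd k w) = pair (cob F) w := by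
  refine Chain_ext_on_support (f := (pair F).comp (bd k)) (g := pair (cob F)) fun σ _ => ?_
  simp only [LinearMap.comp_apply, bd_single, map_sum, pair_single, one_mul, cob]

theorem pair_eq_zero {F : Finset α → k} {w : Chain k α} (h : ∀ σ ∈ w.support, F σ = 0) :
    pair F w = 0 := by
  refine Chain_ext_on_support (f := pair F) (g := 0) fun σ hσ => ?_
  simp [pair_single, h σ hσ]

theorem pair_congr {F F' : Finset α → k} {w : Chain k α} (h : ∀ σ ∈ w.support, F σ = F' σ) :
    pair F w = pair F' w := by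
  refine Chain_ext_on_support fun σ hσ => ?_
  simp [pair_single, h σ hσ]

theorem Cs_mono {K K' : Set (Finset α)} (h : K ⊆ K') (a : ℕ) : Cs k K a ≤ Cs k K' a := by
  intro z hz
  rw [mem_Cs] at hz ⊢
  exact fun σ hσ => ⟨h (hz σ hσ).1, (hz σ hσ).2⟩

theorem bd_mem_Cs {K : Set (Finset α)} (hK : IsLowerSet K) {a : ℕ} {w : Chain k α}
    (hw : w ∈ Cs k K (a + 1)) : bd k w ∈ Cs k K a := by
  rw [mem_Cs] at hw ⊢
  intro σ hσ
  obtain ⟨τ, hτ, h⟩ := Chain_mem_support_lc hσ
  obtain ⟨v, hv, rfl⟩ := Chain_mem_support_sum_single h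
  refine ⟨hK (Finset.erase_subset v τ) (hw τ hτ).1, ?_⟩
  rw [Finset.card_erase_of_mem hv, (hw τ hτ).2]; rfl

theorem isLowerSet_res {K : Set (Finset α)} (hK : IsLowerSet K) (S : Set α) :
    IsLowerSet (res K S) := by
  intro σ τ h hσ
  exact ⟨hK h hσ.1, (Finset.coe_subset.2 h).trans hσ.2⟩

theorem isLowerSet_lk {K : Set (Finset α)} (hK : IsLowerSet K) (ρ : Finset α) :
    IsLowerSet (lk K ρ) := by
  intro σ τ h hσ
  exact ⟨hσ.1.mono_left h, hK (Finset.union_subset_union h subset_rfl) hσ.2⟩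

omit [DecidableEq α] in
theorem isLowerSet_Cl (adj : α → α → Prop) (S : Set α) : IsLowerSet (Cl adj S) := by
  intro σ τ h hσ
  exact ⟨(Finset.coe_subset.2 h).trans hσ.1, fun u hu v hv => hσ.2 u (h hu) v (h hv)⟩

omit [DecidableEq α] in
theorem res_mono {K K' : Set (Finset α)} (hK : K ⊆ K') {S S' : Set α} (hS : S ⊆ S') :
    res K S ⊆ res K' S' := by
  exact fun σ hσ => ⟨hK hσ.1, hσ.2.trans hS⟩

omit [DecidableEq α] in
theorem res_Cl (adj : α → α → Prop) (S T : Set α) : res (Cl adj S) T = Cl adj (S ∩ T) := by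
  ext σ
  simp only [res, Cl, Set.mem_ofPred_eq, Set.subset_inter_iff]
  tauto

theorem Bounds.mono {K₁ K₂ K₁' K₂' : Set (Finset α)} {a : ℕ} (h : Bounds k K₁ K₂ a)
    (h₁ : K₁' ⊆ K₁) (h₂ : K₂ ⊆ K₂') : Bounds k K₁' K₂' a := by
  intro z hz h0
  obtain ⟨w, hw, hw'⟩ := h z (Cs_mono h₁ a hz) h0
  exact ⟨w, Cs_mono h₂ _ hw, hw'⟩

theorem Fill.mono {K : Set (Finset α)} {a r R r' R' : ℕ} (h : Fill k K a r R) (hr : r' ≤ r)
    (hR : R ≤ R') : Fill k K a r' R' := by
  intro S hS
  obtain ⟨S', h1, h2⟩ := h S (hS.trans hr)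
  exact ⟨S', h1.trans hR, h2⟩

theorem Pushes.mono {K₁ K₂ K₃ K₁' K₂' K₃' : Set (Finset α)} {a : ℕ} (h : Pushes k K₁ K₂ K₃ a)
    (h₁ : K₁' ⊆ K₁) (h₂ : K₂ ⊆ K₂') (h₃ : K₃ ⊆ K₃') : Pushes k K₁' K₂' K₃' a := by
  intro z hz h0
  obtain ⟨w, hw, hw'⟩ := h z (Cs_mono h₁ a hz) h0
  exact ⟨w, Cs_mono h₃ _ hw, Cs_mono h₂ _ hw'⟩

theorem Pushes.trans [CharP k 2] {K₁ K₂ K₃ K : Set (Finset α)} {a : ℕ} (h : Pushes k K₁ K₂ K a)
    (h' : Pushes k K₂ K₃ K a) : Pushes k K₁ K₃ K a := by
  intro z hz h0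
  obtain ⟨w, hw, hw'⟩ := h z hz h0
  obtain ⟨w', h1, h2⟩ := h' _ hw' (by rw [map_add, h0, bd_bd, add_zero])
  exact ⟨w + w', add_mem hw h1, by rwa [map_add, ← add_assoc]⟩

theorem Pushes.bounds [CharP k 2] {K₁ K₂ K : Set (Finset α)} {a : ℕ} (h : Pushes k K₁ K₂ K a)
    (h' : Bounds k K₂ K a) : Bounds k K₁ K a := by
  intro z hz h0
  obtain ⟨w, hw, hw'⟩ := h z hz h0
  obtain ⟨w', h1, h2⟩ := h' _ hw' (by rw [map_add, h0, bd_bd, add_zero])
  refine ⟨w' + w, add_mem h1 hw, ?_⟩
  rw [map_add, h2, add_assoc, Chain_add_self, add_zero]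

/-- Coning off from a vertex: `w = ∑_{σ ∌ v} z σ • [insert v σ]`; the identity
`∂(v * y) = y + v * ∂y` holds for all `y` with the convention `v * σ = 0` if `v ∈ σ`. -/
theorem bounds_of_cone_vertex [CharP k 2] {K K' : Set (Finset α)} {a : ℕ} (v : α)
    (h : ∀ σ ∈ K, σ.card = a → insert v σ ∈ K') : Bounds k K K' a := by
  intro z hz h0
  let cone : Chain k α →ₗ[k] Chain k α := Finsupp.linearCombination k
    fun σ : Finset α => if v ∈ σ then 0 else Finsupp.single (insert v σ) (1 : k)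
  have hc : ∀ σ : Finset α, cone (Finsupp.single σ 1) =
      if v ∈ σ then 0 else Finsupp.single (insert v σ) (1 : k) := fun σ => by simp [cone]
  refine ⟨cone z, ?_, ?_⟩
  · rw [mem_Cs] at hz ⊢
    intro σ hσ
    obtain ⟨τ, hτ, h1⟩ := Chain_mem_support_lc hσ
    split_ifs at h1 with hv
    · simp at h1
    · rw [Finset.mem_singleton.1 (Finsupp.support_single_subset h1)]
      exact ⟨h τ (hz τ hτ).1 (hz τ hτ).2, by rw [Finset.card_insert_of_notMem hv, (hz τ hτ).2]⟩
  · have key : ((bd k).comp cone) z = (LinearMap.id (R := k) + cone.comp (bd k) : Chain k α →ₗ[k] Chain k α) z := by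
      refine Chain_ext_on_support fun σ _ => ?_
      simp only [LinearMap.comp_apply, LinearMap.add_apply, LinearMap.id_apply, bd_single, map_sum,
        hc]
      split_ifs with hv
      · rw [map_zero, Finset.sum_eq_single v, if_neg (by simp), Finset.insert_erase hv,
          Chain_add_self]
        · intro u hu huv
          rw [if_pos (Finset.mem_erase.2 ⟨huv.symm, hv⟩)]
        · exact fun h => absurd hv h
      · rw [bd_single, Finset.sum_insert hv, Finset.erase_insert hv]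
        congr 1
        refine Finset.sum_congr rfl fun u hu => ?_
        have huv : v ≠ u := fun h => hv (h ▸ hu)
        rw [if_neg (fun h => hv (Finset.mem_of_mem_erase h)), Finset.erase_insert_of_ne huv]
    simpa [h0] using key

/-- The push lemma.  Let `w` be a chain of size `b` whose boundary has no simplex containing `ρ`.
The link `y = ∑_{σ ⊇ ρ} w σ • [σ \ ρ]` is then a cycle of `L`; fill it by `t` in `L'` and put
`u = t * ρ` (`Finsupp.mapDomain (· ∪ ρ) t`).  Then `w + ∂u = (w minus its part over ρ) + t * ∂ρ`. -/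
theorem push [CharP k 2] (L L' : Set (Finset α)) (ρ : Finset α) (b : ℕ) (hb : ρ.card ≤ b)
    (w : Chain k α) (hw : ∀ σ ∈ w.support, σ.card = b)
    (hbd : ∀ σ ∈ (bd k w).support, ¬ ρ ⊆ σ)
    (hL : ∀ σ ∈ w.support, ρ ⊆ σ → σ \ ρ ∈ L)
    (hL' : ∀ τ ∈ L', Disjoint τ ρ)
    (hB : Bounds k L L' (b - ρ.card)) :
    ∃ u : Chain k α, (∀ σ ∈ u.support, σ.card = b + 1 ∧ ∃ τ ∈ L', σ = τ ∪ ρ) ∧
      ∀ σ ∈ (w + bd k u).support, (σ ∈ w.support ∧ ¬ ρ ⊆ σ) ∨
        (σ.card = b ∧ ∃ v ∈ ρ, ∃ τ ∈ L', σ = τ ∪ ρ.erase v) := by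
  classical
  let lnk : Chain k α →ₗ[k] Chain k α := Finsupp.linearCombination k
    fun σ : Finset α => if ρ ⊆ σ then Finsupp.single (σ \ ρ) (1 : k) else 0
  have hl : ∀ σ : Finset α, lnk (Finsupp.single σ 1) =
      if ρ ⊆ σ then Finsupp.single (σ \ ρ) (1 : k) else 0 := fun σ => by simp [lnk]
  let jn : Chain k α →ₗ[k] Chain k α := Finsupp.linearCombination k
    fun τ : Finset α => Finsupp.single (τ ∪ ρ) (1 : k)
  have hj : ∀ τ : Finset α, jn (Finsupp.single τ 1) = Finsupp.single (τ ∪ ρ) (1 : k) :=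
    fun τ => by simp [jn]
  let rest : Chain k α →ₗ[k] Chain k α := Finsupp.linearCombination k
    fun τ : Finset α => ∑ v ∈ ρ, Finsupp.single (τ ∪ ρ.erase v) (1 : k)
  have hr : ∀ τ : Finset α, rest (Finsupp.single τ 1) =
      ∑ v ∈ ρ, Finsupp.single (τ ∪ ρ.erase v) (1 : k) := fun τ => by simp [rest]
  let off : Chain k α →ₗ[k] Chain k α := Finsupp.linearCombination k
    fun σ : Finset α => if ρ ⊆ σ then 0 else Finsupp.single σ (1 : k)
  have ho : ∀ σ : Finset α, off (Finsupp.single σ 1) =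
      if ρ ⊆ σ then 0 else Finsupp.single σ (1 : k) := fun σ => by simp [off]
  have h1 : bd k (lnk w) = lnk (bd k w) := by
    refine Chain_ext_on_support (f := (bd k).comp lnk) (g := lnk.comp (bd k)) fun σ _ => ?_
    simp only [LinearMap.comp_apply, bd_single, map_sum, hl]
    split_ifs with hρ
    · rw [bd_single, ← Finset.sum_filter]
      refine Finset.sum_congr ?_ fun v _ => ?_
      · ext v
        simp only [Finset.mem_sdiff, Finset.mem_filter, Finset.subset_erase]
        tauto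
      · rw [Finset.erase_sdiff_comm]
    · rw [map_zero, Finset.sum_eq_zero]
      intro v _
      rw [if_neg fun h => hρ (h.trans (Finset.erase_subset v σ))]
  have h2 : lnk (bd k w) = 0 := by
    refine Chain_ext_on_support (f := lnk) (g := 0) fun σ hσ => ?_
    rw [hl, if_neg (hbd σ hσ)]; rfl
  have h3 : lnk w ∈ Cs k L (b - ρ.card) := by
    rw [mem_Cs]
    intro σ hσ
    obtain ⟨τ, hτ, h⟩ := Chain_mem_support_lc hσ
    split_ifs at h with hρ
    · rw [Finset.mem_singleton.1 (Finsupp.support_single_subset h)]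
      exact ⟨hL τ hτ hρ, by rw [Finset.card_sdiff_of_subset hρ, hw τ hτ]⟩
    · simp at h
  obtain ⟨t, ht, hbt⟩ := hB _ h3 (h1.trans h2)
  rw [mem_Cs] at ht
  refine ⟨jn t, fun σ hσ => ?_, fun σ hσ => ?_⟩
  · obtain ⟨τ, hτ, h⟩ := Chain_mem_support_lc hσ
    rw [Finset.mem_singleton.1 (Finsupp.support_single_subset h)]
    refine ⟨?_, τ, (ht τ hτ).1, rfl⟩
    rw [Finset.card_union_of_disjoint (hL' τ (ht τ hτ).1), (ht τ hτ).2]
    omega
  · have h4 : bd k (jn t) = jn (bd k t) + rest t := by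
      refine Chain_ext_on_support (f := (bd k).comp jn) (g := jn.comp (bd k) + rest)
        fun τ hτ => ?_
      have hd := hL' τ (ht τ hτ).1
      simp only [LinearMap.comp_apply, LinearMap.add_apply, bd_single, map_sum, hj, hr]
      rw [Finset.sum_union hd]
      congr 1
      · refine Finset.sum_congr rfl fun v hv => ?_
        rw [Finset.erase_union_distrib, Finset.erase_eq_of_notMem (Finset.disjoint_left.1 hd hv)]
      · refine Finset.sum_congr rfl fun v hv => ?_
        rw [Finset.erase_union_distrib, Finset.erase_eq_of_notMem (Finset.disjoint_right.1 hd hv)]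
    have h5 : w + jn (lnk w) = off w := by
      refine Chain_ext_on_support (f := LinearMap.id + jn.comp lnk) (g := off) fun τ _ => ?_
      simp only [LinearMap.comp_apply, LinearMap.add_apply, LinearMap.id_apply, hl, ho]
      split_ifs with hρ
      · rw [hj, Finset.sdiff_union_of_subset hρ, Chain_add_self]
      · rw [map_zero, add_zero]
    rw [h4, hbt, ← add_assoc, h5] at hσ
    rcases Finset.mem_union.1 (Finsupp.support_add hσ) with h | h
    · obtain ⟨τ, hτ, h⟩ := Chain_mem_support_lc h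
      split_ifs at h with hρ
      · simp at h
      · rw [Finset.mem_singleton.1 (Finsupp.support_single_subset h)]
        exact Or.inl ⟨hτ, hρ⟩
    · obtain ⟨τ, hτ, h⟩ := Chain_mem_support_lc h
      obtain ⟨v, hv, rfl⟩ := Chain_mem_support_sum_single h
      refine Or.inr ⟨?_, v, hv, τ, (ht τ hτ).1, rfl⟩
      rw [Finset.card_union_of_disjoint ((hL' τ (ht τ hτ).1).mono_right (Finset.erase_subset v ρ)),
        (ht τ hτ).2, Finset.card_erase_of_mem hv]
      have := Finset.card_pos.2 ⟨v, hv⟩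
      omega

theorem Chain_cone_gen [CharP k 2] {K : Set (Finset α)} (hK : IsLowerSet K) (a₀ : ℕ)
    (Q : ℕ → Set α → Prop)
    (hstep : ∀ σ ∈ K, σ.card ≤ a₀ → ∀ S : Finset α → Set α,
      (∀ v ∈ σ, Q (σ.card - 1) (S (σ.erase v))) → ∃ S', Q σ.card S' ∧
        Bounds k (res K (↑σ ∪ ⋃ v ∈ σ, S (σ.erase v))) (res K S') σ.card) :
    ∃ (c : Finset α → Chain k α) (S : Finset α → Set α), ∀ σ ∈ K, σ.card ≤ a₀ →
      Q σ.card (S σ) ∧ c σ ∈ Cs k (res K (S σ)) (σ.card + 1) ∧
        bd k (c σ) + ∑ v ∈ σ, c (σ.erase v) = Finsupp.single σ 1 := by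
  suffices H : ∀ n ≤ a₀ + 1, ∃ (c : Finset α → Chain k α) (S : Finset α → Set α),
      ∀ σ ∈ K, σ.card < n → Q σ.card (S σ) ∧ c σ ∈ Cs k (res K (S σ)) (σ.card + 1) ∧
        bd k (c σ) + ∑ v ∈ σ, c (σ.erase v) = Finsupp.single σ 1 by
    obtain ⟨c, S, h⟩ := H _ le_rfl
    exact ⟨c, S, fun σ hσ ha => h σ hσ (by omega)⟩
  intro n
  induction n with
  | zero => exact fun _ => ⟨0, fun _ => ∅, fun σ _ h => absurd h (by omega)⟩
  | succ n ih =>
    intro hn
    obtain ⟨c, S, h⟩ := ih (by omega)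
    have key : ∀ σ : Finset α, ∃ (w : Chain k α) (S' : Set α), σ ∈ K → σ.card = n →
        Q σ.card S' ∧ w ∈ Cs k (res K S') (σ.card + 1) ∧
          bd k w + ∑ v ∈ σ, c (σ.erase v) = Finsupp.single σ 1 := by
      intro σ
      by_cases hσ : σ ∈ K ∧ σ.card = n
      swap
      · exact ⟨0, ∅, fun h1 h2 => absurd ⟨h1, h2⟩ hσ⟩
      obtain ⟨hσ, hcard⟩ := hσ
      have he : ∀ v ∈ σ, σ.erase v ∈ K ∧ (σ.erase v).card < n ∧ (σ.erase v).card + 1 = σ.card := by
        intro v hv
        have := Finset.card_pos.2 ⟨v, hv⟩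
        refine ⟨hK (Finset.erase_subset v σ) hσ, ?_, ?_⟩ <;>
          rw [Finset.card_erase_of_mem hv] <;> omega
      obtain ⟨S', hQ, hB⟩ := hstep σ hσ (by omega) S fun v hv => by
        have := (h _ (he v hv).1 (he v hv).2.1).1
        rwa [Finset.card_erase_of_mem hv] at this
      obtain ⟨w, hw, hbw⟩ := hB (Finsupp.single σ 1 + ∑ v ∈ σ, c (σ.erase v)) (by
        refine add_mem ?_ (Submodule.sum_mem _ fun v hv => ?_)
        · rw [mem_Cs]
          intro τ hτ
          rw [Finset.mem_singleton.1 (Finsupp.support_single_subset hτ)]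
          exact ⟨⟨hσ, Set.subset_union_left⟩, rfl⟩
        · have := (h _ (he v hv).1 (he v hv).2.1).2.1
          rw [(he v hv).2.2] at this
          refine Cs_mono (res_mono subset_rfl ?_) _ this
          exact (Set.subset_biUnion_of_mem (u := fun v => S (σ.erase v))
            (Finset.mem_coe.2 hv)).trans Set.subset_union_right) (by
        rw [map_add, map_sum, bd_single, ← Finset.sum_add_distrib,
          ← Chain_sum_erase_erase Chain_add_self σ c]
        refine Finset.sum_congr rfl fun v hv => ?_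
        rw [← (h _ (he v hv).1 (he v hv).2.1).2.2, add_right_comm, Chain_add_self, zero_add])
      refine ⟨w, S', fun _ _ => ⟨hQ, hw, ?_⟩⟩
      rw [hbw, add_assoc, Chain_add_self, add_zero]
    choose w S' hw using key
    refine ⟨fun σ => if σ.card = n then w σ else c σ, fun σ => if σ.card = n then S' σ else S σ,
      fun σ hσ hlt => ?_⟩
    have hs : ∑ v ∈ σ, (if (σ.erase v).card = n then w (σ.erase v) else c (σ.erase v)) =
        ∑ v ∈ σ, c (σ.erase v) := by
      refine Finset.sum_congr rfl fun v hv => ?_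
      have := Finset.card_pos.2 ⟨v, hv⟩
      rw [if_neg (by rw [Finset.card_erase_of_mem hv]; omega)]
    dsimp only
    rw [hs]
    split_ifs with hc
    · exact hw σ hσ hc
    · exact h σ hσ (by omega)

/-- Acyclicity gives a cone (recursion on the size: fill `[σ] + ∑ c (σ.erase v)`). -/
theorem cone_of_acyc [CharP k 2] {K : Set (Finset α)} (hK : IsLowerSet K) (a₀ : ℕ)
    (h : ∀ a ≤ a₀, Acyc k K a) : ∃ c, IsCone k K a₀ c := by
  obtain ⟨c, S, hc⟩ := Chain_cone_gen (k := k) hK a₀ (fun _ S => S = Set.univ) (by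
    intro σ _ hσ S _
    refine ⟨Set.univ, rfl, (h _ hσ).mono (fun τ hτ => hτ.1) fun τ hτ => ⟨hτ, Set.subset_univ _⟩⟩)
  exact ⟨c, fun σ hσ ha => ⟨Cs_mono (fun τ hτ => hτ.1) _ (hc σ hσ ha).2.1, (hc σ hσ ha).2.2⟩⟩

/-- Bounded fillings give a cone of bounded radius: keep for each `σ` a finset `S σ` of at most
`ρ σ.card` vertices with `c σ ∈ Cs (res K (S σ))`; the cycle to fill lives on
`σ ∪ ⋃ S (σ.erase v)`; a chain on `R` vertices has at most `2 ^ R` simplices. -/
theorem cone_of_fill [CharP k 2] {K : Set (Finset α)} (hK : IsLowerSet K) (a₀ : ℕ) (ρ : ℕ → ℕ)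
    (hρ : Monotone ρ) (h : ∀ a ≤ a₀, Fill k K a (a + a * ρ (a - 1)) (ρ a)) :
    ∃ c, IsCone k K a₀ c ∧ ∀ σ ∈ K, σ.card ≤ a₀ → (c σ).support.card ≤ 2 ^ ρ a₀ := by
  obtain ⟨c, S, hc⟩ := Chain_cone_gen (k := k) hK a₀
    (fun a S => ∃ T : Finset α, (T : Set α) = S ∧ T.card ≤ ρ a) (by
    intro σ _ hσ S hS
    choose! T hT using hS
    obtain ⟨S', h1, h2⟩ := h _ hσ (σ ∪ σ.biUnion T) (by
      refine (Finset.card_union_le _ _).trans (Nat.add_le_add_left ?_ _)
      exact Finset.card_biUnion_le_card_mul _ _ _ fun v hv => (hT v hv).2)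
    refine ⟨S', ⟨S', rfl, h1⟩, h2.mono (res_mono subset_rfl ?_) subset_rfl⟩
    rw [Finset.coe_union, Finset.coe_biUnion]
    refine Set.union_subset_union_right _ (Set.iUnion₂_mono fun v hv => ?_)
    rw [(hT v hv).1])
  refine ⟨c, fun σ hσ ha => ⟨Cs_mono (fun τ hτ => hτ.1) _ (hc σ hσ ha).2.1, (hc σ hσ ha).2.2⟩,
    fun σ hσ ha => ?_⟩
  obtain ⟨⟨T, hT, hTc⟩, h2, -⟩ := hc σ hσ ha
  have h3 : (c σ).support ⊆ T.powerset := fun τ hτ => by
    have := (mem_Cs.1 h2 τ hτ).1.2
    rw [← hT] at this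
    exact Finset.mem_powerset.2 (Finset.coe_subset.1 this)
  refine (Finset.card_le_card h3).trans ?_
  rw [Finset.card_powerset]
  exact Nat.pow_le_pow_right (by norm_num) (hTc.trans (hρ ha))

theorem acyc_of_cone [CharP k 2] {K : Set (Finset α)} {a₀ : ℕ} {c : Finset α → Chain k α}
    (hc : IsCone k K a₀ c) {a : ℕ} (ha : a ≤ a₀) : Acyc k K a := by
  intro z hz h0
  rw [mem_Cs] at hz
  refine ⟨Finsupp.linearCombination k c z, ?_, ?_⟩
  · rw [mem_Cs]
    intro σ hσ
    obtain ⟨τ, hτ, h⟩ := Chain_mem_support_lc hσ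
    have := mem_Cs.1 (hc τ (hz τ hτ).1 ((hz τ hτ).2.trans_le ha)).1 σ h
    rwa [(hz τ hτ).2] at this
  · have key : ((bd k).comp (Finsupp.linearCombination k c) +
        (Finsupp.linearCombination k c).comp (bd k)) z = LinearMap.id (R := k) z := by
      refine Chain_ext_on_support fun σ hσ => ?_
      simp only [LinearMap.comp_apply, LinearMap.add_apply, LinearMap.id_apply, bd_single, map_sum,
        Finsupp.linearCombination_single, one_smul]
      exact (hc σ (hz σ hσ).1 ((hz σ hσ).2.trans_le ha)).2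
    simpa [h0] using key

/-- The cone identity evaluated on a cochain. -/
theorem IsCone.eval [CharP k 2] {K : Set (Finset α)} {a₀ : ℕ} {c : Finset α → Chain k α}
    (hc : IsCone k K a₀ c) (F : Finset α → k) {σ : Finset α} (hσ : σ ∈ K) (ha : σ.card ≤ a₀) :
    F σ = pair (cob F) (c σ) + cob (fun τ => pair F (c τ)) σ := by
  have := congrArg (pair F) (hc σ hσ ha).2
  rw [map_add, map_sum, pair_bd, pair_single, one_mul] at this
  exact this.symm

/-- Cocycles are coboundaries on an acyclic complex. -/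
theorem cob_exact [CharP k 2] {K : Set (Finset α)} (hK : IsLowerSet K) (a : ℕ)
    (h : ∀ b ≤ a, Acyc k K b) (F : Finset α → k)
    (hF : ∀ τ ∈ K, τ.card = a + 1 → cob F τ = 0) :
    ∃ U : Finset α → k, ∀ σ ∈ K, σ.card = a → F σ = cob U σ := by
  obtain ⟨c, hc⟩ := cone_of_acyc hK a h
  refine ⟨fun τ => pair F (c τ), fun σ hσ ha => ?_⟩
  rw [hc.eval F hσ ha.le, pair_eq_zero, zero_add]
  intro τ hτ
  have := mem_Cs.1 (hc σ hσ ha.le).1 τ hτ
  exact hF τ this.1 (by rw [this.2, ha])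

/-- Numerical bookkeeping used to feed `cone_of_fill` uniformly in a family. -/
theorem exists_rho (Q : ℕ → ℕ → ℕ → Prop) (hQ : ∀ r, ∃ R q, Q r R q)
    (hmono : ∀ r R q R' q', Q r R q → R ≤ R' → q ≤ q' → Q r R' q') (a₀ : ℕ) :
    ∃ ρ : ℕ → ℕ, Monotone ρ ∧ ∃ q, ∀ a ≤ a₀, Q (a + a * ρ (a - 1)) (ρ a) q := by
  choose R q hRq using hQ
  let ρ : ℕ → ℕ := fun n => Nat.rec (R 0) (fun a x => max x (R (a + 1 + (a + 1) * x))) n
  have hρ : ∀ a, R (a + a * ρ (a - 1)) ≤ ρ a := by
    intro a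
    cases a with
    | zero => simp [ρ]
    | succ a => exact le_max_right _ _
  refine ⟨ρ, monotone_nat_of_le_succ fun a => le_max_left _ _,
    ∑ a ∈ Finset.range (a₀ + 1), q (a + a * ρ (a - 1)), fun a ha => ?_⟩
  refine hmono _ _ _ _ _ (hRq _) (hρ a) ?_
  exact Finset.single_le_sum (f := fun a => q (a + a * ρ (a - 1))) (fun _ _ => Nat.zero_le _)
    (Finset.mem_range.2 (by omega))

end Crest.Agent.R66
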