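import Mathlib

/-!
# R66 (S0088): chains of finite sets in characteristic two

A "complex" is a set `K` of finsets (usually a lower set).  The *size* of a simplex is its
cardinality (size `a` = dimension `a - 1`); the empty simplex has size `0` (augmented complex).
No signs are needed since the coefficient ring `k` will have characteristic two.
-/

set_option autoImplicit false

namespace Crest.Agent.R66

open scoped Pointwise

section Chains

variable (k : Type*) [CommRing k] {α : Type*} [DecidableEq α]

/-- Chains: finitely supported functions on finsets. -/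
abbrev Chain (α : Type*) := Finset α →₀ k

/-- The (unsigned) boundary operator. -/
noncomputable def bd : Chain k α →ₗ[k] Chain k α :=
  Finsupp.linearCombination k fun σ : Finset α => ∑ v ∈ σ, Finsupp.single (σ.erase v) (1 : k)

/-- Chains supported on the simplices of `K` of size `a`. -/
noncomputable def Cs (K : Set (Finset α)) (a : ℕ) : Submodule k (Chain k α) :=
  Finsupp.supported k k {σ | σ ∈ K ∧ σ.card = a}

/-- Every size-`a` cycle of `K` bounds in `K'`. -/
def Bounds (K K' : Set (Finset α)) (a : ℕ) : Prop :=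
  ∀ z ∈ Cs k K a, bd k z = 0 → ∃ w ∈ Cs k K' (a + 1), bd k w = z

/-- `K` is acyclic in size `a`. -/
def Acyc (K : Set (Finset α)) (a : ℕ) : Prop := Bounds k K K a

/-- Every size-`a` cycle of `K` is homologous, inside `K''`, to a cycle of `K'`. -/
def Pushes (K K' K'' : Set (Finset α)) (a : ℕ) : Prop :=
  ∀ z ∈ Cs k K a, bd k z = 0 → ∃ w ∈ Cs k K'' (a + 1), z + bd k w ∈ Cs k K' a

/-- The full subcomplex of `K` on the vertex set `S`. -/
def res (K : Set (Finset α)) (S : Set α) : Set (Finset α) := {σ | σ ∈ K ∧ (σ : Set α) ⊆ S}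

/-- The link of `ρ` in `K`. -/
def lk (K : Set (Finset α)) (ρ : Finset α) : Set (Finset α) := {τ | Disjoint τ ρ ∧ τ ∪ ρ ∈ K}

/-- The clique complex of the relation `adj` (reflexive and symmetric in use) on `S`. -/
def Cl (adj : α → α → Prop) (S : Set α) : Set (Finset α) :=
  {σ | (σ : Set α) ⊆ S ∧ ∀ u ∈ σ, ∀ v ∈ σ, adj u v}

/-- Cycles of size `a` on at most `r` vertices bound on at most `R` vertices (uniformly in the
cycle, for a given vertex set). -/
def Fill (K : Set (Finset α)) (a r R : ℕ) : Prop :=
  ∀ S : Finset α, S.card ≤ r → ∃ S' : Finset α, S'.card ≤ R ∧ Bounds k (res K S) (res K S') a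

/-- `c` is a contracting homotopy of `K` in sizes `≤ a₀`. -/
def IsCone (K : Set (Finset α)) (a₀ : ℕ) (c : Finset α → Chain k α) : Prop :=
  ∀ σ ∈ K, σ.card ≤ a₀ →
    c σ ∈ Cs k K (σ.card + 1) ∧ bd k (c σ) + ∑ v ∈ σ, c (σ.erase v) = Finsupp.single σ 1

variable {k}

/-- The coboundary of a cochain. -/
def cob (F : Finset α → k) (σ : Finset α) : k := ∑ v ∈ σ, F (σ.erase v)

/-- Evaluation of a cochain on a chain. -/
noncomputable def pair (F : Finset α → k) : Chain k α →ₗ[k] k := Finsupp.linearCombination k F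

variable (k)

/-- Exactness in size `a` of the `χ`-equivariant cochains on the `Γ`-complex `Y`. -/
def TwExact (Γ : Type*) [Group Γ] [MulAction Γ α] (Y : Set (Finset α)) (χ : Γ →* kˣ)
    (a : ℕ) : Prop :=
  ∀ F : Finset α → k,
    (∀ γ : Γ, ∀ σ ∈ Y, σ.card = a → F (γ • σ) = χ γ * F σ) →
    (∀ τ ∈ Y, τ.card = a + 1 → cob F τ = 0) →
    ∃ U : Finset α → k, (∀ γ : Γ, ∀ σ ∈ Y, σ.card = a - 1 → U (γ • σ) = χ γ * U σ) ∧
      ∀ σ ∈ Y, σ.card = a → F σ = cob U σ

end Chains

/-- A subgroup all of whose finitely generated subgroups are finite. -/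
def LocFin {G : Type*} [Group G] (A : Subgroup G) : Prop :=
  ∀ s : Finset G, (s : Set G) ⊆ A → Finite (Subgroup.closure (s : Set G))

end Crest.Agent.R66
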