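import Crest.Agent.R66.CosetDefs

/-!
# R66, task T13: character decomposition, base case, descent, generation
-/

set_option autoImplicit false

namespace Crest.Agent.R66

variable {ι : Type*} [Fintype ι] [DecidableEq ι] {G : Type*} [Group G]

/-- Decomposition into characters: for `f` right `Γ'`-invariant and `ψ : B →* kˣ` put
`f_ψ I g = ∑_{b ∈ range θ} ψ b * f I (g * lift b)`; then `f_ψ` is `(Γ, ψ ∘ θ)`-equivariant and
`∑_ψ f_ψ = |B| f` (orthogonality: `CommGroup.exists_apply_ne_one_of_hasEnoughRootsOfUnity`,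
`CommGroup.card_monoidHom_of_hasEnoughRootsOfUnity`, `sum_hom_units_eq_zero`). -/
theorem cosExact_of_chars (k : Type*) [Field k] (H : Finset ι → Subgroup G) (Γ Γ' : Subgroup G)
    (hle : Γ' ≤ Γ) {B : Type*} [CommGroup B] [Finite B]
    [HasEnoughRootsOfUnity k (Monoid.exponent B)] (hB : (Nat.card B : k) ≠ 0)
    (θ : Γ →* B) (hθ : ∀ γ : Γ, θ γ = 1 ↔ (γ : G) ∈ Γ') (a : ℕ)
    (h : ∀ ψ : B →* kˣ, CosExact k H Γ (ψ.comp θ) a) : CosExact k H Γ' 1 a := by
  classical
  intro f hf hΓ hd
  have := Fintype.ofFinite B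
  have hcard : Nat.card (B →* kˣ) = Nat.card B :=
    CommGroup.card_monoidHom_of_hasEnoughRootsOfUnity B k
  have : Finite (B →* kˣ) := Nat.finite_of_card_ne_zero (by rw [hcard]; exact Nat.card_pos.ne')
  have := Fintype.ofFinite (B →* kˣ)
  let F : Finset ι → G → B → k := fun I g b =>
    if hb : ∃ γ : Γ, θ γ = b then f I (g * (hb.choose : G)) else 0
  have hF : ∀ I : Finset ι, I.card = a → ∀ (g : G) (γ : Γ), F I g (θ γ) = f I (g * γ) := by
    intro I hI g γ
    have hb : ∃ γ' : Γ, θ γ' = θ γ := ⟨γ, rfl⟩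
    simp only [F, dif_pos hb]
    have h1 : ((hb.choose⁻¹ * γ : Γ) : G) ∈ Γ' := by
      rw [← hθ, map_mul, map_inv, hb.choose_spec, inv_mul_cancel]
    have h2 := hΓ I hI (g * γ) ⟨_, h1⟩
    simp only [MonoidHom.one_apply, Units.val_one, one_mul] at h2
    rw [← h2]
    congr 1
    simp [mul_assoc]
  have hF0 : ∀ (I : Finset ι) (g : G) (b : B), (¬∃ γ : Γ, θ γ = b) → F I g b = 0 := by
    intro I g b hb
    simp only [F, dif_neg hb]
  have hFγ : ∀ I : Finset ι, I.card = a → ∀ (g : G) (γ : Γ) (b : B),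
      F I (g * (γ : G)⁻¹) (θ γ * b) = F I g b := by
    intro I hI g γ b
    by_cases hb : ∃ γ' : Γ, θ γ' = b
    · obtain ⟨γ', rfl⟩ := hb
      rw [← map_mul, hF I hI, hF I hI]
      congr 1
      simp [mul_assoc]
    · rw [hF0 I g b hb, hF0]
      rintro ⟨γ', hγ'⟩
      exact hb ⟨γ⁻¹ * γ', by rw [map_mul, map_inv, hγ', inv_mul_cancel_left]⟩
  have key : ∀ ψ : B →* kˣ, ∃ u : Finset ι → G → k, IsCoch H (a - 1) u ∧
      (∀ I : Finset ι, I.card = a - 1 → ∀ (g : G) (γ : Γ),
        u I (g * (γ : G)⁻¹) = (ψ.comp θ) γ * u I g) ∧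
      ∀ I : Finset ι, I.card = a → (fun g => ∑ b, (ψ b : k) * F I g b) = dC u I := by
    intro ψ
    refine h ψ (fun I g => ∑ b, (ψ b : k) * F I g b) ?_ ?_ ?_
    · intro I hI x hx g
      refine Finset.sum_congr rfl fun b _ => ?_
      congr 1
      by_cases hb : ∃ γ' : Γ, θ γ' = b
      · obtain ⟨γ', rfl⟩ := hb
        rw [hF I hI, hF I hI, smul_eq_mul, mul_assoc]
        exact hf I hI x hx _
      · rw [hF0 _ _ _ hb, hF0 _ _ _ hb]
    · intro I hI g γ
      rw [Finset.mul_sum, ← Equiv.sum_comp (Equiv.mulLeft (θ γ))]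
      refine Finset.sum_congr rfl fun b _ => ?_
      simp only [Equiv.coe_mulLeft, hFγ I hI, map_mul, Units.val_mul, MonoidHom.comp_apply,
        mul_assoc]
    · intro I hI
      ext g
      simp only [dC, Pi.zero_apply]
      rw [Finset.sum_comm]
      refine Finset.sum_eq_zero fun b _ => ?_
      rw [← Finset.mul_sum]
      by_cases hb : ∃ γ' : Γ, θ γ' = b
      · obtain ⟨γ', rfl⟩ := hb
        have h1 : ∑ i ∈ I, F (I.erase i) g (θ γ') = dC f I (g * γ') := by
          refine Finset.sum_congr rfl fun i hi => hF _ ?_ _ _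
          rw [Finset.card_erase_of_mem hi, hI]; rfl
        rw [h1, hd I hI, Pi.zero_apply, mul_zero]
      · rw [Finset.sum_eq_zero fun i _ => hF0 _ _ _ hb, mul_zero]
  choose u hu1 hu2 hu3 using key
  have horth : ∀ b : B, ∑ ψ : B →* kˣ, (ψ b : k) = if b = 1 then (Nat.card B : k) else 0 := by
    intro b
    split_ifs with hb
    · subst hb
      rw [← hcard, Nat.card_eq_fintype_card]
      simp
    · obtain ⟨ψ₀, hψ₀⟩ := CommGroup.exists_apply_ne_one_of_hasEnoughRootsOfUnity B k hb
      let ev : (B →* kˣ) →* k :=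
        { toFun := fun ψ => (ψ b : k), map_one' := by simp, map_mul' := by simp }
      refine sum_hom_units_eq_zero ev fun h0 => hψ₀ ?_
      have : (ψ₀ b : k) = 1 := DFunLike.congr_fun h0 ψ₀
      exact Units.val_eq_one.1 this
  refine ⟨fun I g => (Nat.card B : k)⁻¹ * ∑ ψ, u ψ I g, ?_, ?_, ?_⟩
  · intro I hI x hx g
    simp only [hu1 _ I hI x hx g]
  · intro I hI g γ
    simp only [MonoidHom.one_apply, Units.val_one, one_mul]
    congr 1
    refine Finset.sum_congr rfl fun ψ _ => ?_
    have h1 := hu2 ψ I hI g ⟨γ, hle γ.2⟩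
    rw [MonoidHom.comp_apply, (hθ ⟨γ, hle γ.2⟩).2 γ.2, map_one, Units.val_one, one_mul] at h1
    exact h1
  · intro I hI
    ext g
    simp only [dC]
    rw [← Finset.mul_sum, Finset.sum_comm]
    have h1 : ∀ ψ, ∑ i ∈ I, u ψ (I.erase i) g = ∑ b, (ψ b : k) * F I g b := fun ψ =>
      (congrFun (hu3 ψ I hI) g).symm
    simp only [h1]
    rw [Finset.sum_comm]
    simp only [← Finset.sum_mul, horth, ite_mul, zero_mul, Finset.sum_ite_eq', Finset.mem_univ,
      if_true]
    have h2 := hF I hI g 1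
    rw [map_one, OneMemClass.coe_one, mul_one] at h2
    rw [h2, inv_mul_cancel_left₀ hB]

/-- Base case (a cone): `u I = f (insert i₀ I)` if `i₀ ∉ I`, `0` otherwise. -/
theorem cosExact_base (k : Type*) [CommRing k] [CharP k 2] (H : Finset ι → Subgroup G)
    (Γ : Subgroup G) [Γ.Normal] (i₀ : ι)
    (h : ∀ J : Finset ι, ∀ g ∈ H J, ∃ g' ∈ H (J.erase i₀), g'⁻¹ * g ∈ Γ) (a : ℕ) (ha : 1 ≤ a) :
    CosExact k H Γ 1 a := by
  intro f hf hΓ hd
  have hins : ∀ I : Finset ι, I.card = a - 1 → i₀ ∉ I → (insert i₀ I).card = a := by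
    intro I hI hi
    rw [Finset.card_insert_of_notMem hi, hI]; omega
  have hΓ' : ∀ I : Finset ι, I.card = a → ∀ g : G, ∀ γ ∈ Γ, f I (g * γ) = f I g := by
    intro I hI g γ hγ
    simpa using hΓ I hI g ⟨γ⁻¹, Γ.inv_mem hγ⟩
  refine ⟨fun I g => if i₀ ∈ I then 0 else f (insert i₀ I) g, ?_, ?_, ?_⟩
  · intro I hI x hx g
    by_cases hi : i₀ ∈ I
    · simp [hi]
    · simp only [if_neg hi]
      obtain ⟨g', hg', hγ⟩ := h _ x hx
      have h1 : x • g = g' • (g * (g⁻¹ * (g'⁻¹ * x) * g⁻¹⁻¹)) := by simp [mul_assoc]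
      rw [h1, hf _ (hins I hI hi) g' (by rwa [Finset.compl_insert]),
        hΓ' _ (hins I hI hi) _ _ (Subgroup.Normal.conj_mem inferInstance _ hγ g⁻¹)]
  · intro I hI g γ
    by_cases hi : i₀ ∈ I
    · simp [hi]
    · simp only [if_neg hi]
      exact hΓ _ (hins I hI hi) g γ
  · intro I hI
    ext g
    simp only [dC]
    by_cases hi : i₀ ∈ I
    · rw [Finset.sum_eq_single i₀]
      · simp [Finset.insert_erase hi]
      · intro i _ hne
        rw [if_pos (Finset.mem_erase.2 ⟨hne.symm, hi⟩)]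
      · intro h0; exact absurd hi h0
    · have h1 := congrFun (hd (insert i₀ I) (by rw [Finset.card_insert_of_notMem hi, hI])) g
      simp only [dC, Pi.zero_apply] at h1
      rw [Finset.sum_insert hi, Finset.erase_insert hi, CharTwo.add_eq_zero] at h1
      rw [h1]
      refine Finset.sum_congr rfl fun i hiI => ?_
      rw [if_neg fun h0 => hi (Finset.mem_of_mem_erase h0),
        Finset.erase_insert_of_ne (fun h0 : i₀ = i => hi (h0 ▸ hiI))]

/-- Passing to the quotient `G ⧸ Γ`. -/
theorem omExact_of_cosExact (k : Type*) [CommRing k] (H : Finset ι → Subgroup G)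
    (Γ : Subgroup G) (a : ℕ) (h : CosExact k H Γ 1 a) : OmExact k (G ⧸ Γ) H a := by
  intro f hf hd
  obtain ⟨u, hu1, hu2, hu3⟩ := h (fun I g => f I (g : G ⧸ Γ))
    (fun I hI x hx g => hf I hI x hx (g : G ⧸ Γ))
    (fun I hI g γ => by
      have : ((g * (γ : G)⁻¹ : G) : G ⧸ Γ) = (g : G ⧸ Γ) :=
        QuotientGroup.mk_mul_of_mem g (Γ.inv_mem γ.2)
      simp [this])
    (fun I hI => by
      ext g
      exact congrFun (hd I hI) (g : G ⧸ Γ))
  have hout : ∀ I : Finset ι, I.card = a - 1 → ∀ g : G, u I (g : G ⧸ Γ).out = u I g := by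
    intro I hI g
    obtain ⟨γ, hγ⟩ := QuotientGroup.mk_out_eq_mul Γ g
    rw [hγ]
    simpa using hu2 I hI g γ⁻¹
  refine ⟨fun I q => u I q.out, fun I hI x hx q => ?_, fun I hI => ?_⟩
  · induction q using QuotientGroup.induction_on with
    | H g =>
      have : x • (g : G ⧸ Γ) = ((x • g : G) : G ⧸ Γ) := rfl
      simp only [this, hout I hI]
      exact hu1 I hI x hx g
  · ext q
    have := congrFun (hu3 I hI) q.out
    simp only [QuotientGroup.out_eq'] at this
    exact this

/-- Descent of coefficients along a field extension (apply a `k₀`-linear retraction). -/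
theorem omExact_descend (k₀ k : Type*) [Field k₀] [Field k] [Algebra k₀ k] {Ω : Type*}
    [MulAction G Ω] (H : Finset ι → Subgroup G) (a : ℕ) (h : OmExact k Ω H a) :
    OmExact k₀ Ω H a := by
  intro f hf hd
  obtain ⟨r, hr⟩ := LinearMap.exists_leftInverse_of_injective (Algebra.linearMap k₀ k)
    (LinearMap.ker_eq_bot.2 (algebraMap k₀ k).injective)
  have hr' : ∀ x : k₀, r (algebraMap k₀ k x) = x := fun x => DFunLike.congr_fun hr x
  obtain ⟨u, hu1, hu2⟩ := h (fun I ω => algebraMap k₀ k (f I ω))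
    (fun I hI x hx ω => by simp only [hf I hI x hx ω])
    (fun I hI => by
      ext ω
      have := congrFun (hd I hI) ω
      simp only [dC, Pi.zero_apply] at this ⊢
      rw [← map_sum, this, map_zero])
  refine ⟨fun I ω => r (u I ω), fun I hI x hx ω => by simp only [hu1 I hI x hx ω],
    fun I hI => ?_⟩
  ext ω
  have := congrFun (hu2 I hI) ω
  simp only [dC] at this ⊢
  rw [← map_sum, ← this, hr']

/-- Generation.  For `J ≠ univ` induct on `J.card`: for `2 ≤ J.card` apply `LinkExp` in size `1`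
to the indicator (the same for all `I`) of `{g | ∀ ω, φ (g • ω) = φ ω}`, whose coboundary
vanishes; for `J = univ` apply `OmExact` in size `1` to the indicators of level sets of `φ`. -/
theorem invU_of_forall_single (k : Type*) [CommRing k] [Nontrivial k] [CharP k 2] {Ω : Type*}
    [MulAction G Ω] (H : Finset ι → Subgroup G) (_hmono : Monotone H) (h0 : H ∅ = ⊥)
    (hfin : ∀ J, J ≠ Finset.univ → Finite (H J)) (K : ℕ)
    (hlink : ∀ J, J ≠ Finset.univ → LinkExp k H J K) (hι : 2 ≤ Fintype.card ι)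
    (hex : OmExact k Ω H 1) (J : Finset ι) (φ : Ω → ℝ) (hφ : ∀ j ∈ J, InvU (H {j}) φ) :
    InvU (H J) φ := by
  classical
  have hd2 : ∀ {X : Type _} (c : X → k) (I : Finset ι), I.card = 1 + 1 →
      dC (fun (_ : Finset ι) x => c x) I = 0 := by
    intro X c I hI
    ext x
    simp only [dC, Finset.sum_const, hI, Pi.zero_apply, add_smul, one_smul]
    exact CharTwo.add_self_eq_zero _
  have hd2' : ∀ (c : Ω → k) (I : Finset ι), I.card = 1 + 1 →
      dC (fun (_ : Finset ι) x => c x) I = 0 := by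
    intro c I hI
    ext x
    simp only [dC, Finset.sum_const, hI, Pi.zero_apply, add_smul, one_smul]
    exact CharTwo.add_self_eq_zero _
  have main : ∀ n : ℕ, ∀ J : Finset ι, J.card = n → J ≠ Finset.univ →
      (∀ j ∈ J, InvU (H {j}) φ) → InvU (H J) φ := by
    intro n
    induction n using Nat.strong_induction_on with
    | _ n ih =>
      intro J hJn hJ hφ
      rcases Nat.lt_or_ge n 2 with hn | hn
      · interval_cases n
        · rw [Finset.card_eq_zero.1 hJn, h0]
          intro x hx ω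
          rw [Subgroup.mem_bot.1 hx, one_smul]
        · obtain ⟨j, rfl⟩ := Finset.card_eq_one.1 hJn
          exact hφ j (Finset.mem_singleton_self j)
      · let c : G → k := fun g => if ∀ ω, φ (g • ω) = φ ω then 1 else 0
        obtain ⟨u, hu1, hu2⟩ := hlink J hJ 1 le_rfl (by omega) (fun _ g => c g) (by
          intro I hIJ hI x hx g _
          have h1 : InvU (H (J \ I)) φ := by
            refine ih (J \ I).card ?_ _ rfl ?_ fun j hj => hφ j (Finset.mem_sdiff.1 hj).1
            · rw [Finset.card_sdiff_of_subset hIJ]; omega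
            · intro h2
              exact hJ (Finset.eq_univ_of_forall fun i =>
                (Finset.mem_sdiff.1 (h2 ▸ Finset.mem_univ i)).1)
          simp only [c, mul_smul, h1 x hx])
        have h3 : cntOn H J (1 + 1) (dC fun (_ : Finset ι) g => c g) = 0 := by
          refine Finset.sum_eq_zero fun I hI => ?_
          rw [hd2 c I (Finset.mem_powersetCard.1 hI).2]
          simp
        rw [h3, mul_zero, Nat.le_zero, cntOn, Finset.sum_eq_zero_iff] at hu2
        obtain ⟨j, hj⟩ : J.Nonempty := Finset.card_pos.1 (by omega)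
        have h4 := hu2 {j} (Finset.mem_powersetCard.2 ⟨by simpa using hj, rfl⟩)
        have hfinJ : (H J : Set G).Finite := hfin J hJ
        rw [Set.ncard_eq_zero (hfinJ.subset fun g hg => hg.1)] at h4
        have h5 : ∀ g ∈ H J, c g = u ∅ g := by
          intro g hg
          by_contra hne
          have : g ∈ {g | g ∈ H J ∧ ((fun (_ : Finset ι) g => c g) - dC u) {j} g ≠ 0} :=
            ⟨hg, by simpa [dC, sub_eq_zero] using hne⟩
          rw [h4] at this
          exact this
        intro x hx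
        have h6 := hu1 ∅ (Finset.empty_subset _) rfl x (by simpa using hx) 1 (H J).one_mem
        rw [mul_one, ← h5 x hx, ← h5 1 (H J).one_mem] at h6
        by_contra hne
        simp [c, hne] at h6
  by_cases hJ : J = Finset.univ
  · subst hJ
    intro x hx ω₀
    obtain ⟨u, hu1, hu2⟩ := hex (fun _ ω => if φ ω = φ ω₀ then 1 else 0)
      (by
        intro I hI y hy ω
        have h1 : InvU (H Iᶜ) φ := by
          refine main _ _ rfl ?_ fun j _ => hφ j (Finset.mem_univ j)
          intro h2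
          rw [Finset.compl_eq_univ_iff] at h2
          simp [h2] at hI
        simp only [h1 y hy])
      (hd2' _)
    obtain ⟨j⟩ : Nonempty ι := Fintype.card_pos_iff.1 (by omega)
    have h3 := hu2 {j} rfl
    have h4 := congrFun h3 (x • ω₀)
    have h5 := congrFun h3 ω₀
    simp only [dC, Finset.sum_singleton, Finset.erase_singleton, if_true] at h4 h5
    rw [hu1 ∅ rfl x (by simpa using hx), ← h5] at h4
    by_contra hne
    simp [hne] at h4
  · exact main _ J rfl hJ hφ

/-- Cosystolic expansion and vanishing give coboundary expansion. -/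
theorem cobExp_of_cosys {k : Type*} [CommRing k] {Ω : Type*} [MulAction G Ω]
    (H : Finset ι → Subgroup G) (a L : ℕ) (hex : OmExact k Ω H a)
    (h : ∀ f : Finset ι → Ω → k, IsCoch H a f → ∃ z : Finset ι → Ω → k, IsCoch H a z ∧
      (∀ I : Finset ι, I.card = a + 1 → dC z I = 0) ∧ cnt a (f - z) ≤ L * cnt (a + 1) (dC f))
    (f : Finset ι → Ω → k) (hf : IsCoch H a f) :
    ∃ u : Finset ι → Ω → k, IsCoch H (a - 1) u ∧ cnt a (f - dC u) ≤ L * cnt (a + 1) (dC f) := by
  obtain ⟨z, hz1, hz2, hz3⟩ := h f hf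
  obtain ⟨u, hu1, hu2⟩ := hex z hz1 hz2
  refine ⟨u, hu1, le_of_eq_of_le ?_ hz3⟩
  refine Finset.sum_congr rfl fun I hI => ?_
  simp only [Pi.sub_apply, hu2 I (Finset.mem_powersetCard.1 hI).2]

end Crest.Agent.R66
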