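import Crest.Agent.R66.ChainDefs

/-!
# R66 (S0088): coset cochains

`ι` is the (finite) set of vertex types, `H J` (for `J : Finset ι`) is the stabiliser of the
standard face of cotype `J` (i.e. of type `Jᶜ`), and `Ω` is the set of chambers, a `G`-set.
The face of type `I` of the chamber `ω` is the orbit of `ω` under `H Iᶜ`.  A cochain of size `a`
is a family `f I : Ω → k` (`I.card = a`) of `H Iᶜ`-invariant functions.
-/

set_option autoImplicit false

namespace Crest.Agent.R66

open scoped Pointwise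

section Coset

variable {k : Type*} [CommRing k] {ι : Type*} [Fintype ι] [DecidableEq ι]
  {G : Type*} [Group G] {Ω : Type*} [MulAction G Ω]

/-- `f` is a cochain of size `a`. -/
def IsCoch (H : Finset ι → Subgroup G) (a : ℕ) (f : Finset ι → Ω → k) : Prop :=
  ∀ I : Finset ι, I.card = a → ∀ h ∈ H Iᶜ, ∀ ω : Ω, f I (h • ω) = f I ω

/-- The coboundary of a coset cochain. -/
def dC {X : Type*} (f : Finset ι → X → k) (I : Finset ι) (x : X) : k := ∑ i ∈ I, f (I.erase i) x

/-- Support size of a cochain of size `a`, counted on chambers. -/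
noncomputable def cnt {X : Type*} (a : ℕ) (f : Finset ι → X → k) : ℕ :=
  ∑ I ∈ (Finset.univ : Finset ι).powersetCard a, Set.ncard {x | f I x ≠ 0}

/-- `f` is a cochain of size `a` on the link of the standard face of cotype `J`. -/
def IsCochOn (H : Finset ι → Subgroup G) (J : Finset ι) (a : ℕ) (f : Finset ι → G → k) : Prop :=
  ∀ I ⊆ J, I.card = a → ∀ h ∈ H (J \ I), ∀ g ∈ H J, f I (h * g) = f I g

/-- Support size of a cochain on the link of the standard face of cotype `J`. -/
noncomputable def cntOn (H : Finset ι → Subgroup G) (J : Finset ι) (a : ℕ)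
    (f : Finset ι → G → k) : ℕ :=
  ∑ I ∈ J.powersetCard a, Set.ncard {g | g ∈ H J ∧ f I g ≠ 0}

variable (k) in
/-- Coboundary expansion, with constant `1 / K`, of the link of the standard face of cotype `J`. -/
def LinkExp (H : Finset ι → Subgroup G) (J : Finset ι) (K : ℕ) : Prop :=
  ∀ a : ℕ, 1 ≤ a → a < J.card → ∀ f : Finset ι → G → k, IsCochOn H J a f →
    ∃ u : Finset ι → G → k, IsCochOn H J (a - 1) u ∧
      cntOn H J a (f - dC u) ≤ K * cntOn H J (a + 1) (dC f)

variable (k Ω) in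
/-- Vanishing of the cohomology of the chamber system `Ω` in size `a`. -/
def OmExact (H : Finset ι → Subgroup G) (a : ℕ) : Prop :=
  ∀ f : Finset ι → Ω → k, IsCoch H a f → (∀ I : Finset ι, I.card = a + 1 → dC f I = 0) →
    ∃ u : Finset ι → Ω → k, IsCoch H (a - 1) u ∧ ∀ I : Finset ι, I.card = a → f I = dC u I

variable (k) in
/-- Exactness in size `a` of the `(Γ, χ)`-equivariant coset cochains on `G` itself. -/
def CosExact (H : Finset ι → Subgroup G) (Γ : Subgroup G) (χ : Γ →* kˣ) (a : ℕ) : Prop :=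
  ∀ f : Finset ι → G → k, IsCoch H a f →
    (∀ I : Finset ι, I.card = a → ∀ (g : G) (γ : Γ), f I (g * (γ : G)⁻¹) = χ γ * f I g) →
    (∀ I : Finset ι, I.card = a + 1 → dC f I = 0) →
    ∃ u : Finset ι → G → k, IsCoch H (a - 1) u ∧
      (∀ I : Finset ι, I.card = a - 1 → ∀ (g : G) (γ : Γ), u I (g * (γ : G)⁻¹) = χ γ * u I g) ∧
      ∀ I : Finset ι, I.card = a → f I = dC u I

/-- `φ` is invariant under the subgroup `A`. -/
def InvU {β : Type*} (A : Subgroup G) (φ : Ω → β) : Prop := ∀ h ∈ A, ∀ ω : Ω, φ (h • ω) = φ ω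

open Classical in
/-- The average of `φ` over the `A`-orbit of `ω`. -/
noncomputable def oavg [Fintype Ω] (A : Subgroup G) (φ : Ω → ℝ) (ω : Ω) : ℝ :=
  (∑ ω' ∈ Finset.univ.filter (fun ω' => ω' ∈ MulAction.orbit A ω), φ ω') /
    ((Finset.univ.filter (fun ω' => ω' ∈ MulAction.orbit A ω)).card : ℝ)

variable (Ω) in
/-- The spectral input of the local-to-global theorem. -/
def SpecGap [Fintype Ω] (H : Finset ι → Subgroup G) (δ : ℝ) : Prop :=
  ∀ J : Finset ι, ∀ v ∈ J, ∀ φ : Ω → ℝ, InvU (H {v}) φ →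
    ∑ ω, (oavg (H (J.erase v)) φ ω - oavg (H J) φ ω) ^ 2 ≤ δ * ∑ ω, φ ω ^ 2

variable (Ω) in
/-- The cosine of the angle between the invariant functions of `A` and of `B` is at most `ε`. -/
def PairAngle [Fintype Ω] (A B : Subgroup G) (ε : ℝ) : Prop :=
  ∀ φ ψ : Ω → ℝ, InvU A φ → InvU B ψ →
    (∀ θ : Ω → ℝ, InvU A θ → InvU B θ → ∑ ω, φ ω * θ ω = 0) →
    (∀ θ : Ω → ℝ, InvU A θ → InvU B θ → ∑ ω, ψ ω * θ ω = 0) →
    |∑ ω, φ ω * ψ ω| ≤ ε * √(∑ ω, φ ω ^ 2) * √(∑ ω, ψ ω ^ 2)

/-- The pointwise stabiliser of the standard face of cotype `J`, for a base chamber `c`. -/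
def stabH (G : Type*) [Group G] {V : Type*} [MulAction G V] (c : ι → V) (J : Finset ι) :
    Subgroup G where
  carrier := {g | ∀ i, i ∉ J → g • c i = c i}
  mul_mem' := fun {a b} ha hb i hi => by rw [mul_smul, hb i hi, ha i hi]
  one_mem' := fun i _ => one_smul _ _
  inv_mem' := fun {a} ha i hi => by rw [inv_smul_eq_iff, ha i hi]

omit [Fintype ι] [DecidableEq ι] in
theorem mem_stabH {V : Type*} [MulAction G V] {c : ι → V} {J : Finset ι} {g : G} :
    g ∈ stabH G c J ↔ ∀ i, i ∉ J → g • c i = c i := Iff.rfl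

omit [Fintype ι] [DecidableEq ι] in
theorem stabH_mono {V : Type*} [MulAction G V] (c : ι → V) : Monotone (stabH G c) :=
  fun _ _ hJ _ hg i hi => hg i fun h => hi (hJ h)

omit [DecidableEq ι] in
theorem stabH_univ {V : Type*} [MulAction G V] (c : ι → V) : stabH G c Finset.univ = ⊤ :=
  eq_top_iff.2 fun _ _ i hi => absurd (Finset.mem_univ i) hi

/-- The complex swept out by the faces of types inside `J` of the base chamber under `H J`. -/
def stdCx (G : Type*) [Group G] {V : Type*} [DecidableEq V] [MulAction G V] (c : ι → V)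
    (J : Finset ι) : Set (Finset V) :=
  {σ | ∃ h ∈ stabH G c J, ∃ I ⊆ J, σ = h • I.image c}

end Coset

end Crest.Agent.R66
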