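import Crest.Agent.R66.Chain

/-!
# R66, task T14: the complex of generic frames
-/

set_option autoImplicit false

namespace Crest.Agent.R66

/-- Finite sets of vectors whose reductions are independent and span (on each non-empty subset)
a subspace which is not `M`-invariant. -/
def Zc {F : Type*} [Field F] {N : ℕ} {W : Type*} (red : W → Fin N → F)
    (M : Matrix (Fin N) (Fin N) F) : Set (Finset W) :=
  {ζ | LinearIndependent F (fun w : ζ => red w) ∧ ∀ τ ⊆ ζ, τ.Nonempty →
    ∃ x ∈ Submodule.span F (red '' τ), M.mulVec x ∉ Submodule.span F (red '' τ)}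

theorem isLowerSet_Zc {F : Type*} [Field F] {N : ℕ} {W : Type*} (red : W → Fin N → F)
    (M : Matrix (Fin N) (Fin N) F) : IsLowerSet (Zc red M) := by
  intro ζ ζ' hle hζ
  have hle' : ζ' ⊆ ζ := hle
  refine ⟨?_, fun τ hτ hne => hζ.2 τ (hτ.trans hle') hne⟩
  have h1 : LinearIndepOn F red (ζ : Set W) := hζ.1
  exact h1.mono (Finset.coe_subset.2 hle')

theorem empty_mem_Zc {F : Type*} [Field F] {N : ℕ} {W : Type*} (red : W → Fin N → F)
    (M : Matrix (Fin N) (Fin N) F) : ∅ ∈ Zc red M := by
  refine ⟨?_, fun τ hτ hne => ?_⟩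
  · have : LinearIndepOn F red ((∅ : Finset W) : Set W) := by
      rw [Finset.coe_empty]; exact linearIndepOn_empty F red
    exact this
  · rw [Finset.subset_empty] at hτ
    subst hτ
    exact absurd hne Finset.not_nonempty_empty

/-- A proper subspace containing a non-invariant small subspace `V` and all the invariant
one-step extensions of `V`. -/
theorem frames_exists_Q {F : Type*} [Field F] {N : ℕ} (M : Matrix (Fin N) (Fin N) F)
    (V : Submodule F (Fin N → F)) (hV : Module.finrank F V + 2 ≤ N)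
    (hn : ∃ y ∈ V, M.mulVec y ∉ V) :
    ∃ Q : Submodule F (Fin N → F), Q ≠ ⊤ ∧ V ≤ Q ∧ ∀ x, x ∉ Q →
      ∃ y ∈ V ⊔ Submodule.span F {x}, M.mulVec y ∉ V ⊔ Submodule.span F {x} := by
  obtain ⟨y, hy, hMy⟩ := hn
  refine ⟨V ⊔ Submodule.span F {M.mulVec y}, ?_, le_sup_left, fun x hx => ?_⟩
  · intro htop
    have h1 := Submodule.finrank_add_le_finrank_add_finrank V (Submodule.span F {M.mulVec y})
    have h2 : Module.finrank F (Submodule.span F {M.mulVec y}) ≤ 1 := by
      have := finrank_span_le_card (R := F) ({M.mulVec y} : Set (Fin N → F))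
      simpa using this
    rw [htop, finrank_top, Module.finrank_fin_fun] at h1
    omega
  · refine ⟨y, Submodule.mem_sup_left hy, fun h => hx ?_⟩
    obtain ⟨v, hv, z, hz, hvz⟩ := Submodule.mem_sup.1 h
    obtain ⟨c, rfl⟩ := Submodule.mem_span_singleton.1 hz
    have hc : c ≠ 0 := by
      rintro rfl
      rw [zero_smul, add_zero] at hvz
      exact hMy (hvz ▸ hv)
    have : x = c⁻¹ • (M.mulVec y - v) := by
      rw [← hvz, add_sub_cancel_left, smul_smul, inv_mul_cancel₀ hc, one_smul]
    rw [this]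
    exact Submodule.smul_mem _ _ (Submodule.sub_mem _
      (Submodule.mem_sup_right (Submodule.mem_span_singleton_self _)) (Submodule.mem_sup_left hv))

/-- The eigenvalues of `M` lie in a finset of at most `N` elements. -/
theorem frames_exists_eig {F : Type*} [Field F] {N : ℕ} (M : Matrix (Fin N) (Fin N) F) :
    ∃ E : Finset F, E.card ≤ N ∧ ∀ (c : F) (x : Fin N → F), x ≠ 0 → M.mulVec x = c • x → c ∈ E := by
  classical
  refine ⟨M.charpoly.roots.toFinset, ?_, fun c x hx hc => ?_⟩
  · refine (Multiset.toFinset_card_le _).trans ((Polynomial.card_roots' _).trans ?_)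
    rw [Matrix.charpoly_natDegree_eq_dim, Fintype.card_fin]
  · rw [Multiset.mem_toFinset, Polynomial.mem_roots M.charpoly_monic.ne_zero, Polynomial.IsRoot,
      Matrix.eval_charpoly, ← Matrix.exists_mulVec_eq_zero_iff]
    refine ⟨x, hx, ?_⟩
    rw [Matrix.sub_mulVec, hc]
    ext i
    simp [Matrix.scalar_apply, Matrix.mulVec_diagonal]

theorem frames_fill {k : Type*} [CommRing k] [CharP k 2] {F : Type*} [Field F] [Fintype F] {N : ℕ}
    {W : Type*} [DecidableEq W] (red : W → Fin N → F) (hred : Function.Surjective red)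
    (M : Matrix (Fin N) (Fin N) F) (hM : ∀ c : F, M ≠ c • (1 : Matrix (Fin N) (Fin N) F))
    (a : ℕ) (ha : a + 2 ≤ N) (r : ℕ) (hr : 2 ^ r + N < Fintype.card F) :
    Fill k (Zc red M) a r (r + 1) := by
  classical
  intro S hS
  obtain ⟨E, hE, hEig⟩ := frames_exists_eig M
  have hbot : (⊥ : Submodule F (Fin N → F)) ≠ ⊤ := by
    haveI : Nonempty (Fin N) := ⟨⟨0, by omega⟩⟩
    exact bot_ne_top
  -- the subspaces attached to the faces
  have hQ : ∀ τ : Finset W, ∃ Q : Submodule F (Fin N → F), Q ≠ ⊤ ∧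
      (τ ∈ Zc red M → τ.card ≤ a → τ.Nonempty → Submodule.span F (red '' τ) ≤ Q ∧ ∀ x, x ∉ Q →
        ∃ y ∈ Submodule.span F (red '' τ) ⊔ Submodule.span F {x},
          M.mulVec y ∉ Submodule.span F (red '' τ) ⊔ Submodule.span F {x}) := by
    intro τ
    by_cases h : τ ∈ Zc red M ∧ τ.card ≤ a ∧ τ.Nonempty
    · have hrk : Module.finrank F (Submodule.span F (red '' τ)) + 2 ≤ N := by
        have h1 := finrank_span_finset_le_card (R := F) (τ.image red)
        have h2 : (τ.image red).card ≤ τ.card := Finset.card_image_le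
        rw [Set.finrank, Finset.coe_image] at h1
        omega
      obtain ⟨Q, hQ1, hQ2, hQ3⟩ := frames_exists_Q M _ hrk (h.1.2 τ subset_rfl h.2.2)
      exact ⟨Q, hQ1, fun _ _ _ => ⟨hQ2, hQ3⟩⟩
    · exact ⟨⊥, hbot, fun h1 h2 h3 => absurd ⟨h1, h2, h3⟩ h⟩
  choose Q hQ1 hQ2 using hQ
  let p : Finset W ⊕ F → Submodule F (Fin N → F) := fun i =>
    match i with
    | Sum.inl τ => Q τ
    | Sum.inr c => LinearMap.ker (Matrix.toLin' (M - c • 1))
  have hp : ∀ i, p i ≠ ⊤ := by
    rintro (τ | c)
    · exact hQ1 τ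
    · intro h
      have h' : Matrix.toLin' (M - c • 1) = 0 := LinearMap.ker_eq_top.1 h
      rw [map_eq_zero_iff _ (Matrix.toLin'.injective), sub_eq_zero] at h'
      exact hM c h'
  have hcard : ((S.powerset.disjSum E).card : ℕ∞) < ENat.card F := by
    rw [ENat.card_eq_coe_fintype_card, Finset.card_disjSum, Finset.card_powerset]
    have : 2 ^ S.card ≤ 2 ^ r := Nat.pow_le_pow_right (by norm_num) hS
    exact_mod_cast (by omega : 2 ^ S.card + E.card < Fintype.card F)
  have hss := Submodule.iUnion_ssubset_of_forall_ne_top_of_card_lt (S.powerset.disjSum E) p hp hcard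
  obtain ⟨x, -, hx⟩ := Set.exists_of_ssubset hss
  simp only [Set.mem_iUnion, not_exists] at hx
  have hxQ : ∀ τ ⊆ S, x ∉ Q τ := fun τ hτ =>
    hx (Sum.inl τ) (Finset.inl_mem_disjSum.2 (Finset.mem_powerset.2 hτ))
  have hx0 : x ≠ 0 := by
    rintro rfl
    exact hxQ ∅ (Finset.empty_subset _) (Submodule.zero_mem _)
  have hxe : M.mulVec x ∉ Submodule.span F {x} := by
    intro h
    obtain ⟨c, hc⟩ := Submodule.mem_span_singleton.1 h
    refine hx (Sum.inr c) (Finset.inr_mem_disjSum.2 (hEig c x hx0 hc.symm)) ?_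
    change x ∈ LinearMap.ker (Matrix.toLin' (M - c • 1))
    rw [LinearMap.mem_ker, Matrix.toLin'_apply, Matrix.sub_mulVec, Matrix.smul_mulVec,
      Matrix.one_mulVec, hc, sub_self]
  obtain ⟨v, rfl⟩ := hred x
  refine ⟨insert v S, (Finset.card_insert_le _ _).trans (by omega), ?_⟩
  refine bounds_of_cone_vertex v fun σ hσ hσa => ?_
  obtain ⟨hσK, hσS⟩ := hσ
  have hσS' : σ ⊆ S := Finset.coe_subset.1 hσS
  refine ⟨⟨?_, fun τ hτ hne => ?_⟩, ?_⟩
  · have h1 : LinearIndepOn F red (σ : Set W) := hσK.1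
    have h2 : red v ∉ Submodule.span F (red '' σ) := by
      rcases σ.eq_empty_or_nonempty with rfl | hne
      · simpa using hx0
      · exact fun h => hxQ σ hσS' ((hQ2 σ hσK hσa.le hne).1 h)
    have h3 : LinearIndepOn F red ((insert v σ : Finset W) : Set W) := by
      rw [Finset.coe_insert]; exact h1.insert h2
    exact h3
  · by_cases hv : v ∈ τ
    · have hτ' : τ.erase v ⊆ σ := by
        intro w hw
        rw [Finset.mem_erase] at hw
        exact (Finset.mem_insert.1 (hτ hw.2)).resolve_left hw.1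
      have himg : Submodule.span F (red '' τ) =
          Submodule.span F (red '' (τ.erase v : Finset W)) ⊔ Submodule.span F {red v} := by
        rw [← Submodule.span_union, ← Set.image_singleton, ← Set.image_union]
        congr 2
        ext w
        by_cases hw : w = v
        · simp [hw, hv]
        · simp [hw]
      rw [himg]
      rcases (τ.erase v).eq_empty_or_nonempty with he | hne'
      · rw [he]
        simp only [Finset.coe_empty, Set.image_empty, Submodule.span_empty, bot_sup_eq]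
        exact ⟨red v, Submodule.mem_span_singleton_self _, hxe⟩
      · exact (hQ2 _ (isLowerSet_Zc red M hτ' hσK)
          ((Finset.card_le_card hτ').trans hσa.le) hne').2 _ (hxQ _ (hτ'.trans hσS'))
    · exact hσK.2 τ ((Finset.subset_insert_iff_of_notMem hv).1 hτ) hne
  · rw [Finset.coe_insert, Finset.coe_insert]
    exact Set.insert_subset_insert hσS

/-- Acyclicity.  Show `Fill k (Zc red M) a r (r+1)` when `2^r + N < card F`, `a + 2 ≤ N`, by a
cone vertex `v` with `red v` outside the (at most `N`, proper) eigenspaces of `M` and, for each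
`τ ⊆ S` in `Zc` of size `≤ a`, outside a proper subspace `Q τ ⊇ span (red τ)` containing every
`M`-invariant `span (red τ) ⊔ span {x}` (there is at most one with `x ∉ span (red τ)` if `τ` is
non-empty, since two of them intersect in the non-invariant `span (red τ)`).  Then use
`exists_rho`, `cone_of_fill`, `acyc_of_cone`. -/
theorem frames_acyc (N : ℕ) : ∃ q₀ : ℕ, ∀ (k : Type) [CommRing k] [CharP k 2]
    (F : Type) [Field F] [Fintype F], q₀ ≤ Fintype.card F →
    ∀ (W : Type) [DecidableEq W] (red : W → Fin N → F), Function.Surjective red →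
    ∀ M : Matrix (Fin N) (Fin N) F, (∀ c : F, M ≠ c • (1 : Matrix (Fin N) (Fin N) F)) →
    ∀ a : ℕ, a + 2 ≤ N → Acyc k (Zc red M) a := by
  obtain ⟨ρ, hρ, q, hq⟩ := exists_rho (fun r R q => r + 1 ≤ R ∧ 2 ^ r + N < q)
    (fun r => ⟨r + 1, 2 ^ r + N + 1, le_rfl, Nat.lt_succ_self _⟩)
    (fun r R q R' q' h hR hq => ⟨h.1.trans hR, h.2.trans_le hq⟩) N
  refine ⟨q, fun k _ _ F _ _ hF W _ red hred M hM a ha => ?_⟩
  obtain ⟨c, hc, -⟩ := cone_of_fill (k := k) (isLowerSet_Zc red M) a ρ hρ fun b hb =>
    (frames_fill red hred M hM b (by omega) _ ((hq b (by omega)).2.trans_le hF)).mono le_rfl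
      (hq b (by omega)).1
  exact acyc_of_cone hc le_rfl

end Crest.Agent.R66
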