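import Crest.Agent.R66.Lat
import Crest.Agent.R66.Dismantle

/-!
# R66, task T5: generic links have bounded fillings; purity
-/

set_option autoImplicit false

namespace Crest.Agent.R66

/-- Generic vectors.  For `U < B` put `b = min (Dset B \ Dset U)` and
`W U = U ⊔ (B ⊓ Vge (b+1))`, a proper subspace of `B`; any `x ∈ B` outside all the `W U` works
(`Submodule.iUnion_ssubset_of_forall_ne_top_of_card_lt` inside `B`). -/
theorem exists_generic {F : Type*} [Field F] [Fintype F] {N : ℕ} (B : Submodule F (VV F))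
    (hB : IsLat N B) (𝒰 : Finset (Submodule F (VV F))) (h𝒰 : ∀ U ∈ 𝒰, IsLat N U ∧ U < B)
    (hc : 𝒰.card < Fintype.card F) :
    ∃ x ∈ B, ∀ U ∈ 𝒰, x ∉ U ∧ ∃ b ∈ Dset B, b ∉ Dset U ∧
      Dset (U ⊔ Submodule.span F {x}) = insert b (Dset U) ∧ ∀ i ∈ Dset B, i < b → i ∈ Dset U := by
  classical
  have hb : ∀ U : 𝒰, ∃ b, (b ∈ Dset B ∧ b ∉ Dset U.1) ∧
      ∀ i, (i ∈ Dset B ∧ i ∉ Dset U.1) → b ≤ i := by
    rintro ⟨U, hU⟩
    obtain ⟨hUl, hUB⟩ := h𝒰 U hU
    refine Int.exists_least_of_bdd ?_ ?_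
    · obtain ⟨a, ha⟩ := hUl.low
      refine ⟨a, fun z hz => ?_⟩
      by_contra h
      exact hz.2 (Dset_mono ha (by rw [Dset_Vlt]; exact not_le.1 h))
    · by_contra h
      exact hUB.ne (eq_of_le_of_Dset hUB.le hB.up fun i hi => by
        by_contra h'
        exact h ⟨i, hi, h'⟩)
  choose b hb hb' using hb
  let W : 𝒰 → Submodule F (VV F) := fun U => U.1 ⊔ (B ⊓ Vge F (b U + 1))
  have hW : ∀ U : 𝒰, (W U).comap B.subtype ≠ ⊤ := by
    intro U h
    obtain ⟨y, hyB, hy, hy'⟩ := (hb U).1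
    have : (⟨y, hyB⟩ : B) ∈ (W U).comap B.subtype := by rw [h]; trivial
    obtain ⟨u, hu, y', hy'', e⟩ := Submodule.mem_sup.1 this
    have e' : u = y - y' := by rw [← show u + y' = y from e]; simp
    refine (hb U).2 ⟨u, hu, ?_, ?_⟩
    · rw [e']; exact Submodule.sub_mem _ hy (Vge_anti (by omega) hy''.2)
    · rw [e', Finsupp.sub_apply, mem_Vge.1 hy''.2 (b U) (by omega), sub_zero]; exact hy'
  have hss := Submodule.iUnion_ssubset_of_forall_ne_top_of_card_lt (K := F) (M := B) Finset.univ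
    (fun U : 𝒰 => ((W U).comap B.subtype : Submodule F B)) hW (by
    rw [ENat.card_eq_coe_fintype_card, Finset.card_univ, Fintype.card_coe]
    exact_mod_cast hc)
  obtain ⟨x, -, hx⟩ := Set.exists_of_ssubset hss
  have hx' : ∀ U : 𝒰, x.1 ∉ W U := fun U h => hx (Set.mem_iUnion₂.2 ⟨U, Finset.mem_univ _, h⟩)
  refine ⟨x.1, x.2, fun U hU => ?_⟩
  have hxU : x.1 ∉ U := fun h => hx' ⟨U, hU⟩ (Submodule.mem_sup_left h)
  have hle : U ⊔ Submodule.span F {x.1} ≤ B :=
    sup_le (h𝒰 U hU).2.le ((Submodule.span_singleton_le_iff_mem _ _).2 x.2)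
  have hsub : Dset (U ⊔ Submodule.span F {x.1}) ⊆ insert (b ⟨U, hU⟩) (Dset U) := by
    rintro i ⟨y, hy, hyi, hyi'⟩
    by_cases hiU : i ∈ Dset U
    · exact Or.inr hiU
    have hiB : i ∈ Dset B := ⟨y, hle hy, hyi, hyi'⟩
    rcases (hb' ⟨U, hU⟩ i ⟨hiB, hiU⟩).eq_or_lt with h | h
    · exact Or.inl h.symm
    exfalso
    obtain ⟨u, hu, z, hz, e⟩ := Submodule.mem_sup.1 hy
    obtain ⟨c, rfl⟩ := Submodule.mem_span_singleton.1 hz
    have hc0 : c ≠ 0 := by
      rintro rfl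
      rw [zero_smul, add_zero] at e
      exact hiU ⟨y, e ▸ hu, hyi, hyi'⟩
    refine hx' ⟨U, hU⟩ ?_
    have : x.1 = c⁻¹ • (y - u) := by rw [← e, add_sub_cancel_left, smul_smul, inv_mul_cancel₀ hc0, one_smul]
    rw [this]
    exact Submodule.smul_mem _ _ (Submodule.sub_mem _
      (Submodule.mem_sup_right ⟨hle hy, Vge_anti (by omega) hyi⟩) (Submodule.mem_sup_left hu))
  refine ⟨hxU, b ⟨U, hU⟩, (hb _).1, (hb ⟨U, hU⟩).2, Set.Subset.antisymm hsub ?_, fun i hi hlt => ?_⟩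
  · refine Set.insert_subset ?_ (Dset_mono le_sup_left)
    by_contra h
    have : U = U ⊔ Submodule.span F {x.1} := by
      refine eq_of_le_of_Dset le_sup_left (hB.up.imp fun _ h => hle.trans h) fun i hi => ?_
      rcases hsub hi with h' | h'
      · exact absurd (h' ▸ hi) h
      · exact h'
    exact hxU (this ▸ Submodule.mem_sup_right (Submodule.mem_span_singleton_self _))
  · by_contra h
    have := hb' ⟨U, hU⟩ i ⟨hi, h⟩
    omega

section GoodFillAux

variable {F : Type*} [Field F] {N : ℕ}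

/-- The vertices of `Good ρ`. -/
def GoodV (ρ : Finset (Vtx F N)) : Set (Vtx F N) :=
  {v | v ∉ ρ ∧ (∀ u ∈ ρ, Adj u v) ∧ InvV v ⊆ ⋃ u ∈ ρ, InvV u}

/-- A gap `A < B` in the periodic flag of `ρ`. -/
structure GoodWin (ρ : Finset (Vtx F N)) (A B : Submodule F (VV F)) : Prop where
  repA : ∃ v ∈ ρ, Rep v A
  repB : ∃ v ∈ ρ, Rep v B
  le : A ≤ B
  le_sh : B ≤ shL N A
  gap : deg A + 2 ≤ deg B
  out : ∀ u ∈ ρ, ∀ U, Rep u U → U ≤ A ∨ B ≤ U

theorem goodWin_exists [NeZero N] {ρ : Finset (Vtx F N)} (hρ : ρ ∈ Delta F N) (hne : ρ.Nonempty)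
    (hc : ρ.card < N) : ∃ A B, GoodWin ρ A B := by
  classical
  have hN : (0 : ℤ) < N := by exact_mod_cast Nat.pos_of_ne_zero (NeZero.ne N)
  obtain ⟨i, hi, hi'⟩ : ∃ i ∈ Finset.Ico (0 : ℤ) N, i ∉ ρ.image fun v => deg v.1 := by
    refine Finset.exists_mem_notMem_of_card_lt_card ?_
    calc _ ≤ ρ.card := Finset.card_image_le
      _ < _ := by simpa using hc
  rw [Finset.mem_Ico] at hi
  choose rp hrp hrp₁ hrp₂ using fun v : Vtx F N => exists_rep_window v i
  have hne_i : ∀ u ∈ ρ, i < deg (rp u) := fun u hu => by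
    refine lt_of_le_of_ne (hrp₁ u) fun h => hi' (Finset.mem_image.2 ⟨u, hu, ?_⟩)
    rw [← (hrp u).deg_emod, ← h, Int.emod_eq_of_lt hi.1 hi.2]
  obtain ⟨vB, hvB, hB⟩ := ρ.exists_min_image (fun u => deg (rp u)) hne
  obtain ⟨vA, hvA, hA⟩ := ρ.exists_max_image (fun u => deg (rp u)) hne
  have hadj := mem_Delta.1 hρ
  have hrA : Rep vA (shL (-1 * N) (rp vA)) := (hrp vA).shL (-1)
  have hdA : deg (shL (-1 * N) (rp vA)) = deg (rp vA) + -1 * N := deg_shL (hrp vA).isLat _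
  refine ⟨shL (-1 * N) (rp vA), rp vB, ⟨vA, hvA, hrA⟩, ⟨vB, hvB, hrp vB⟩, ?_, ?_, ?_, ?_⟩
  · refine (hadj vA hvA vB hvB).le_of_deg_le hrA (hrp vB) ?_
    have := hrp₂ vA; have := hrp₁ vB; omega
  · rw [shL_shL, show (N : ℤ) + -1 * N = 0 by ring, shL_zero]
    exact (hadj vB hvB vA hvA).le_of_deg_le (hrp vB) (hrp vA) (hA vB hvB)
  · have := hrp₂ vA; have := hne_i vB hvB; omega
  · intro u hu U hU
    obtain ⟨m, rfl⟩ := (hrp u).exists_shL hU
    have hd : deg (shL (m * N) (rp u)) = deg (rp u) + m * N := deg_shL (hrp u).isLat _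
    by_cases hm : 0 ≤ m
    · refine Or.inr ((hadj vB hvB u hu).le_of_deg_le (hrp vB) hU ?_)
      have := hB u hu
      have : 0 ≤ m * N := mul_nonneg hm hN.le
      omega
    · refine Or.inl ((hadj u hu vA hvA).le_of_deg_le hU hrA ?_)
      have := hA u hu
      have : m * N ≤ -1 * N := mul_le_mul_of_nonneg_right (by omega) hN.le
      omega

namespace GoodWin

variable {ρ : Finset (Vtx F N)} {A B : Submodule F (VV F)}

theorem latA (h : GoodWin ρ A B) : IsLat N A := h.repA.elim fun _ hv => hv.2.isLat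

theorem latB (h : GoodWin ρ A B) : IsLat N B := h.repB.elim fun _ hv => hv.2.isLat

theorem lat (h : GoodWin ρ A B) {U : Submodule F (VV F)} (h₁ : A ≤ U) (h₂ : U ≤ B) : IsLat N U :=
  isLat_of_between h.latA h.latB h₁ h₂ h.le_sh

theorem invA (h : GoodWin ρ A B) : InvS N A ⊆ ⋃ u ∈ ρ, InvV u := by
  obtain ⟨v, hv, hr⟩ := h.repA
  rw [hr.invS]
  exact Set.subset_biUnion_of_mem (u := fun u => InvV u) hv

theorem invB (h : GoodWin ρ A B) : InvS N B ⊆ ⋃ u ∈ ρ, InvV u := by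
  obtain ⟨v, hv, hr⟩ := h.repB
  rw [hr.invS]
  exact Set.subset_biUnion_of_mem (u := fun u => InvV u) hv

theorem between (h : GoodWin ρ A B) {v : Vtx F N} {U : Submodule F (VV F)} (hv : Rep v U)
    (h₁ : A < U) (h₂ : U < B) : v ∉ ρ ∧ ∀ u ∈ ρ, Adj u v := by
  refine ⟨fun hvρ => ?_, fun u hu => adj_of_forall_rep hv fun U' hU' => ?_⟩
  · rcases h.out v hvρ U hv with h' | h'
    · exact absurd (h₁.trans_le h') (lt_irrefl _)
    · exact absurd (h₂.trans_le h') (lt_irrefl _)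
  · exact (h.out u hu U' hU').imp (fun h' => h'.trans h₁.le) fun h' => h₂.le.trans h'

theorem adj_out (h : GoodWin ρ A B) {u w : Vtx F N} (hu : ∀ v ∈ ρ, Adj v u)
    (hout : ∀ U, Rep u U → ¬ (A < U ∧ U < B)) {W : Submodule F (VV F)} (hw : Rep w W)
    (h₁ : A ≤ W) (h₂ : W ≤ B) : Adj u w := by
  refine adj_of_forall_rep hw fun U hU => ?_
  obtain ⟨vA, hvA, hA⟩ := h.repA
  obtain ⟨vB, hvB, hB⟩ := h.repB
  rcases (hu vA hvA).total hA hU with hA' | hA'
  · rcases (hu vB hvB).total hB hU with hB' | hB'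
    · exact Or.inr (h₂.trans hB')
    · rcases hA'.eq_or_lt with e | e
      · exact Or.inl (e ▸ h₁)
      · rcases hB'.eq_or_lt with e' | e'
        · exact Or.inr (e' ▸ h₂)
        · exact absurd ⟨e, e'⟩ (hout U hU)
  · exact Or.inl (hA'.trans h₁)

theorem adj_in (h : GoodWin ρ A B) {u v : Vtx F N} {U V : Submodule F (VV F)} (hu : Rep u U)
    (hv : Rep v V) (h₁ : A ≤ U) (h₂ : U ≤ V) (h₃ : V ≤ B) : Adj u v :=
  adj_of_le hu hv h₂ (h₃.trans (h.le_sh.trans (shL_le_shL.2 h₁)))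

theorem deg_lt {U V : Submodule F (VV F)} (hU : IsLat N U) (hV : IsLat N V) (h : U < V) :
    deg U < deg V := by
  by_contra h'
  exact h.ne (eq_of_le_of_deg_le hU hV h.le (not_lt.1 h'))

theorem rep_eq (h : GoodWin ρ A B) {v : Vtx F N} {U U' : Submodule F (VV F)} (hU : Rep v U)
    (hU' : Rep v U') (h₁ : A < U) (h₂ : U < B) (h₃ : deg A ≤ deg U') (h₄ : deg U' < deg A + N) :
    U = U' := by
  obtain ⟨m, rfl⟩ := hU'.exists_shL hU
  have e := deg_shL hU'.isLat (m * N)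
  have e₁ := deg_lt h.latA hU.isLat h₁
  have e₂ := deg_lt hU.isLat h.latB h₂
  have e₃ := deg_le_deg h.latB (h.latA.shL N) h.le_sh
  rw [deg_shL h.latA] at e₃
  have hm : m = 0 := by
    rcases lt_trichotomy m 0 with hm | hm | hm
    · have : m * N ≤ -1 * N := mul_le_mul_of_nonneg_right (by omega) (by positivity)
      omega
    · exact hm
    · have : 1 * (N : ℤ) ≤ m * N := mul_le_mul_of_nonneg_right (by omega) (by positivity)
      omega
  rw [hm, zero_mul, shL_zero]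

/-- Adding a generic vector. -/
theorem add_generic (h : GoodWin ρ A B) {U : Submodule F (VV F)} (h₁ : A ≤ U) (h₂ : U ≤ B)
    (hd : deg U + 1 < deg B) (hinv : InvS N U ⊆ ⋃ u ∈ ρ, InvV u) {x : VV F} (hxB : x ∈ B)
    (hx : x ∉ U ∧ ∃ b ∈ Dset B, b ∉ Dset U ∧
      Dset (U ⊔ Submodule.span F {x}) = insert b (Dset U) ∧ ∀ i ∈ Dset B, i < b → i ∈ Dset U)
    {w : Vtx F N} (hw : Rep w (U ⊔ Submodule.span F {x})) :
    A < U ⊔ Submodule.span F {x} ∧ U ⊔ Submodule.span F {x} < B ∧ w ∈ GoodV ρ := by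
  obtain ⟨hxU, b, hbB, hbU, hD, hmin⟩ := hx
  have hle : U ⊔ Submodule.span F {x} ≤ B :=
    sup_le h₂ ((Submodule.span_singleton_le_iff_mem _ _).2 hxB)
  have hlt₁ : A < U ⊔ Submodule.span F {x} := by
    refine lt_of_le_of_ne (h₁.trans le_sup_left) fun e => hxU (h₁ ?_)
    rw [e]; exact Submodule.mem_sup_right (Submodule.mem_span_singleton_self _)
  have hlt₂ : U ⊔ Submodule.span F {x} < B := by
    refine lt_of_le_of_ne hle fun e => ?_
    have := deg_of_Dset_insert (h.lat h₁ h₂) hw.isLat hbU hD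
    rw [e] at this
    omega
  obtain ⟨h₃, h₄⟩ := h.between hw hlt₁ hlt₂
  refine ⟨hlt₁, hlt₂, h₃, h₄, ?_⟩
  rw [← hw.invS]
  rintro p ⟨hp₁, hp₂, hp₃, m, hm₁, hm₂⟩
  rw [hD] at hm₁ hm₂
  have hm₃ : p.1 + m * N ∉ Dset U := fun h' => hm₂ (Or.inr h')
  rcases hm₁ with hm₁ | hm₁
  · refine h.invB ⟨hp₁, hp₂, hp₃, m, hm₁ ▸ hbB, fun h' => hm₃ (hmin _ h' ?_)⟩
    rw [← hm₁]; omega
  · exact hinv ⟨hp₁, hp₂, hp₃, m, hm₁, hm₃⟩

/-- Step 2: when no vertex is a hyperplane of `B`, dismantle onto a cone. -/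
theorem cone_step [NeZero N] [Fintype F] (k : Type*) [CommRing k] [CharP k 2] (h : GoodWin ρ A B)
    (S₁ : Finset (Vtx F N)) (hc : S₁.card + 1 < Fintype.card F)
    (hS₁ : ∀ v ∈ S₁, v ∈ GoodV ρ → ∀ U, Rep v U → A < U → U < B → deg U + 1 < deg B) (a : ℕ) :
    ∃ S₂ : Finset (Vtx F N), S₂.card ≤ 2 * S₁.card + 1 ∧
      Bounds k (Cl Adj (GoodV ρ ∩ S₁)) (Cl Adj (GoodV ρ ∩ S₂)) a := by
  classical
  choose rp hrp hrp₁ hrp₂ using fun v : Vtx F N => exists_rep_window v (deg A)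
  have hAB : A < B := lt_of_le_of_ne h.le fun e => by have := h.gap; rw [e] at this; omega
  let Bad : Finset (Vtx F N) := S₁.filter fun v => v ∈ GoodV ρ ∧ A < rp v ∧ rp v < B
  obtain ⟨x, hxB, hx⟩ := exists_generic B h.latB (insert A (Bad.image rp)) (by
      intro U hU
      rcases Finset.mem_insert.1 hU with rfl | hU
      · exact ⟨h.latA, hAB⟩
      · obtain ⟨v, hv, rfl⟩ := Finset.mem_image.1 hU
        exact ⟨(hrp v).isLat, (Finset.mem_filter.1 hv).2.2.2⟩) (by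
      calc _ ≤ (Bad.image rp).card + 1 := Finset.card_insert_le _ _
        _ ≤ S₁.card + 1 := by
          have := Finset.card_image_le (s := Bad) (f := rp)
          have : Bad.card ≤ S₁.card := Finset.card_filter_le _ _
          omega
        _ < _ := hc)
  have hxs : x ∈ Submodule.span F {x} := Submodule.mem_span_singleton_self _
  have hsB : Submodule.span F {x} ≤ B := (Submodule.span_singleton_le_iff_mem _ _).2 hxB
  obtain ⟨w₀, hw₀⟩ := exists_vtx (h.lat (U := A ⊔ Submodule.span F {x}) le_sup_left (sup_le h.le hsB))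
  obtain ⟨hw₁, hw₂, hw₃⟩ := h.add_generic le_rfl h.le (by have := h.gap; omega) h.invA hxB
    (hx A (Finset.mem_insert_self _ _)) hw₀
  have hφ : ∀ v : Vtx F N, ∃ w : Vtx F N, v ∈ Bad → Rep w (rp v ⊔ Submodule.span F {x}) := by
    intro v
    by_cases hv : v ∈ Bad
    · obtain ⟨-, -, h₁, h₂⟩ := Finset.mem_filter.1 hv
      obtain ⟨w, hw⟩ := exists_vtx (h.lat (U := rp v ⊔ Submodule.span F {x})
        (h₁.le.trans le_sup_left) (sup_le h₂.le hsB))
      exact ⟨w, fun _ => hw⟩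
    · exact ⟨v, fun h' => absurd h' hv⟩
  choose φ hφ using hφ
  have hφ' : ∀ v ∈ Bad, A < rp v ⊔ Submodule.span F {x} ∧ rp v ⊔ Submodule.span F {x} < B ∧
      φ v ∈ GoodV ρ := by
    intro v hv
    obtain ⟨hvS, hvG, h₁, h₂⟩ := Finset.mem_filter.1 hv
    refine h.add_generic h₁.le h₂.le (hS₁ v hvS hvG _ (hrp v) h₁ h₂) ?_ hxB
      (hx _ (Finset.mem_insert_of_mem (Finset.mem_image_of_mem _ hv))) (hφ v hv)
    rw [(hrp v).invS]; exact hvG.2.2
  let S₂ : Finset (Vtx F N) := insert w₀ (S₁ ∪ Bad.image φ)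
  have hX : ∀ u ∈ S₂, u ∈ GoodV ρ → A < rp u → rp u < B → u ∉ Bad → x ∈ rp u := by
    intro u hu huG h₁ h₂ huB
    rcases Finset.mem_insert.1 hu with rfl | hu
    · rw [← h.rep_eq hw₀ (hrp u) hw₁ hw₂ (hrp₁ u) (hrp₂ u)]
      exact Submodule.mem_sup_right hxs
    rcases Finset.mem_union.1 hu with hu | hu
    · exact absurd (Finset.mem_filter.2 ⟨hu, huG, h₁, h₂⟩) huB
    · obtain ⟨v, hv, rfl⟩ := Finset.mem_image.1 hu
      rw [← h.rep_eq (hφ v hv) (hrp _) (hφ' v hv).1 (hφ' v hv).2.1 (hrp₁ _) (hrp₂ _)]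
      exact Submodule.mem_sup_right hxs
  have hout : ∀ u, ¬ (A < rp u ∧ rp u < B) → ∀ U, Rep u U → ¬ (A < U ∧ U < B) := by
    intro u hu U hU hU'
    exact hu (h.rep_eq hU (hrp u) hU'.1 hU'.2 (hrp₁ u) (hrp₂ u) ▸ hU')
  refine ⟨S₂, ?_, ?_⟩
  · have h1 := Finset.card_insert_le w₀ (S₁ ∪ Bad.image φ)
    have h2 := Finset.card_union_le S₁ (Bad.image φ)
    have h3 := Finset.card_image_le (s := Bad) (f := φ)
    have h4 := Finset.card_filter_le S₁ fun v => v ∈ GoodV ρ ∧ A < rp v ∧ rp v < B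
    simp only [S₂, Bad] at *
    omega
  have hpush := pushes_dismantle (k := k) Adj Adj.refl (fun _ _ => Adj.symm) (GoodV ρ ∩ S₂) Bad φ
    (fun v => deg (rp v)) a (by
      intro v hv _
      obtain ⟨-, -, h₁, h₂⟩ := Finset.mem_filter.1 hv
      refine ⟨⟨(hφ' v hv).2.2, Finset.mem_coe.2 (Finset.mem_insert_of_mem
        (Finset.mem_union_right _ (Finset.mem_image_of_mem _ hv)))⟩, fun hb => ?_,
        h.adj_in (hrp v) (hφ v hv) h₁.le le_sup_left (hφ' v hv).2.1.le⟩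
      refine (hx _ (Finset.mem_insert_of_mem (Finset.mem_image_of_mem rp hb))).1 ?_
      rw [← h.rep_eq (hφ v hv) (hrp _) (hφ' v hv).1 (hφ' v hv).2.1 (hrp₁ _) (hrp₂ _)]
      exact Submodule.mem_sup_right hxs) (by
      intro v hv _ u hu hadj hrk
      obtain ⟨-, -, h₁, h₂⟩ := Finset.mem_filter.1 hv
      by_cases hin : A < rp u ∧ rp u < B
      · by_cases hle : rp u ≤ rp v
        · exact h.adj_in (hrp u) (hφ v hv) hin.1.le (hle.trans le_sup_left) (hφ' v hv).2.1.le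
        have hle' : rp v ≤ rp u := (hadj.total (hrp v) (hrp u)).resolve_right hle
        have huB : u ∉ Bad := by
          refine hrk.resolve_right fun hrk => hle ?_
          exact (eq_of_le_of_deg_le (hrp v).isLat (hrp u).isLat hle' hrk).ge
        have hxu := hX u hu.2 hu.1 hin.1 hin.2 huB
        exact (h.adj_in (hφ v hv) (hrp u) (hφ' v hv).1.le
          (sup_le hle' ((Submodule.span_singleton_le_iff_mem _ _).2 hxu)) hin.2.le).symm
      · exact h.adj_out hu.1.2.1 (hout u hin) (hφ v hv) (hφ' v hv).1.le (hφ' v hv).2.1.le)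
  refine (hpush.bounds (bounds_of_cone_vertex w₀ fun σ hσ _ => ?_)).mono ?_ subset_rfl
  · have hw : ∀ u ∈ σ, Adj u w₀ := by
      intro u hu
      obtain ⟨hu₁, hu₂⟩ := hσ.1 (Finset.mem_coe.2 hu)
      by_cases hin : A < rp u ∧ rp u < B
      · have hxu := hX u hu₁.2 hu₁.1 hin.1 hin.2 hu₂
        exact (h.adj_in hw₀ (hrp u) hw₁.le
          (sup_le hin.1.le ((Submodule.span_singleton_le_iff_mem _ _).2 hxu)) hin.2.le).symm
      · exact h.adj_out hu₁.1.2.1 (hout u hin) hw₀ hw₁.le hw₂.le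
    refine ⟨?_, ?_⟩
    · rw [Finset.coe_insert]
      exact Set.insert_subset ⟨hw₃, Finset.mem_coe.2 (Finset.mem_insert_self _ _)⟩
        fun u hu => (hσ.1 hu).1
    · intro u hu v hv
      rcases Finset.mem_insert.1 hu with hu | hu <;> rcases Finset.mem_insert.1 hv with hv | hv
      · rw [hu, hv]; exact Adj.refl _
      · rw [hu]; exact (hw v hv).symm
      · rw [hv]; exact hw u hu
      · exact hσ.2 u hu v hv
  · intro σ hσ
    exact ⟨fun u hu => ⟨(hσ.1 hu).1, Finset.mem_coe.2 (Finset.mem_insert_of_mem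
      (Finset.mem_union_left _ (hσ.1 hu).2))⟩, hσ.2⟩

end GoodWin

theorem goodV_insert_mem_Delta {ρ : Finset (Vtx F N)} (hρ : ρ ∈ Delta F N) {v : Vtx F N}
    (hv : v ∈ GoodV ρ) : insert v ρ ∈ Delta F N := by
  rw [mem_Delta] at hρ ⊢
  intro u hu w hw
  rcases Finset.mem_insert.1 hu with hu | hu <;> rcases Finset.mem_insert.1 hw with hw | hw
  · rw [hu, hw]; exact Adj.refl _
  · rw [hu]; exact (hv.2.1 w hw).symm
  · rw [hw]; exact hv.2.1 u hu
  · exact hρ u hu w hw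

theorem good_fill_aux (N : ℕ) [NeZero N] (n r : ℕ) : ∃ R q₀ : ℕ,
    ∀ (k : Type) [CommRing k] [CharP k 2] (F : Type) [Field F] [Fintype F], q₀ ≤ Fintype.card F →
    ∀ ρ ∈ Delta F N, ρ.Nonempty → N - ρ.card ≤ n → ∀ a : ℕ, a + ρ.card < N →
      Fill k (Good ρ) a r R := by
  induction n with
  | zero => exact ⟨0, 0, fun k _ _ F _ _ _ ρ _ _ h a ha => by omega⟩
  | succ n ih =>
    obtain ⟨R', q', ih⟩ := ih
    refine ⟨3 * (r + r * R') + 1, max q' (r + r * R' + 2),
      fun k _ _ F _ _ hq ρ hρ hne hn a ha S hS => ?_⟩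
    classical
    obtain ⟨A, B, h⟩ := goodWin_exists hρ hne (by omega)
    have hG : Good ρ = Cl Adj (GoodV ρ) := Good_eq_Cl hρ
    let B₀ : Finset (Vtx F N) :=
      S.filter fun v => v ∈ GoodV ρ ∧ ∃ U, Rep v U ∧ A < U ∧ U < B ∧ deg U + 1 = deg B
    have hhyp : ∀ v ∈ B₀, ∀ u, Adj v u → ∀ U, Rep u U → deg U + 1 = deg B → u = v := by
      intro v hv u hadj U hU hd
      obtain ⟨-, -, V, hV, -, -, hd'⟩ := Finset.mem_filter.1 hv
      have e : V = U := eq_of_le_of_deg_le hV.isLat hU.isLat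
        (hadj.le_of_deg_le hV hU (by omega)) (by omega)
      exact hU.unique (e ▸ hV)
    have hT : ∀ v : Vtx F N, ∃ T : Finset (Vtx F N), T.card ≤ R' ∧ (∀ u ∈ T, Adj v u ∧ u ≠ v) ∧
        (1 ≤ a → v ∈ B₀ →
          Bounds k (res (lk (Good ρ) {v}) S) (res (lk (Good ρ) {v}) T) (a - 1)) := by
      intro v
      by_cases hv : 1 ≤ a ∧ v ∈ B₀
      · obtain ⟨ha1, hv⟩ := hv
        have hvG : v ∈ GoodV ρ := (Finset.mem_filter.1 hv).2.1
        have hv' : ({v} : Finset (Vtx F N)) ∈ Good ρ := by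
          rw [hG]
          refine ⟨by simpa using hvG, fun u hu w hw => ?_⟩
          rw [Finset.mem_singleton.1 hu, Finset.mem_singleton.1 hw]; exact Adj.refl _
        have hcard : (insert v ρ).card = ρ.card + 1 := Finset.card_insert_of_notMem hvG.1
        obtain ⟨T₀, hT₀, hb⟩ := ih k F (le_trans (le_max_left _ _) hq) (insert v ρ)
          (goodV_insert_mem_Delta hρ hvG) (Finset.insert_nonempty _ _) (by omega) (a - 1)
          (by omega) S hS
        rw [← lk_Good hv'] at hb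
        refine ⟨T₀.filter fun u => Adj v u ∧ u ≠ v, (Finset.card_filter_le _ _).trans hT₀,
          fun u hu => (Finset.mem_filter.1 hu).2, fun _ _ => hb.mono subset_rfl fun τ hτ => ?_⟩
        refine ⟨hτ.1, fun u hu => Finset.mem_coe.2 (Finset.mem_filter.2 ⟨hτ.2 hu, ?_, ?_⟩)⟩
        · have := hτ.1.2
          rw [hG] at this
          exact this.2 v (by simp) u (Finset.mem_union_left _ hu)
        · rintro rfl
          exact Finset.disjoint_singleton_right.1 hτ.1.1 hu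
      · exact ⟨∅, by simp, by simp, fun h1 h2 => absurd ⟨h1, h2⟩ hv⟩
    choose T hT₁ hT₂ hT₃ using hT
    have hcard₀ : (S ∪ B₀.biUnion T).card ≤ r + r * R' := by
      refine (Finset.card_union_le _ _).trans (Nat.add_le_add hS ?_)
      refine Finset.card_biUnion_le.trans ?_
      refine (Finset.sum_le_card_nsmul _ _ R' fun v _ => hT₁ v).trans ?_
      rw [smul_eq_mul]
      exact Nat.mul_le_mul_right _ ((Finset.card_filter_le _ _).trans hS)
    have hcard₁ : ((S ∪ B₀.biUnion T) \ B₀).card ≤ r + r * R' :=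
      (Finset.card_le_card Finset.sdiff_subset).trans hcard₀
    have hlow : IsLowerSet (Good ρ) := by rw [hG]; exact isLowerSet_Cl _ _
    have hpush := pushes_indep (k := k) hlow S B₀ T a (by
      intro σ hσ v hv u hu hvB huB
      rw [hG] at hσ
      obtain ⟨-, -, U, hU, -, -, hd⟩ := Finset.mem_filter.1 huB
      exact hhyp v hvB u (hσ.2 v hv u hu) U hU hd) (fun ha1 v hv => hT₃ v ha1 hv)
    obtain ⟨S₂, hS₂, hb⟩ := h.cone_step k ((S ∪ B₀.biUnion T) \ B₀)
      (by have := le_trans (le_max_right _ _) hq; omega) (by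
        intro u hu huG U hU h₁ h₂
        have hlt := GoodWin.deg_lt hU.isLat h.latB h₂
        refine lt_of_le_of_ne (by omega) fun hd => ?_
        obtain ⟨hu₁, hu₂⟩ := Finset.mem_sdiff.1 hu
        rcases Finset.mem_union.1 hu₁ with hu₁ | hu₁
        · exact hu₂ (Finset.mem_filter.2 ⟨hu₁, huG, U, hU, h₁, h₂, hd⟩)
        · obtain ⟨v, hv, huv⟩ := Finset.mem_biUnion.1 hu₁
          exact (hT₂ v u huv).2 (hhyp v hv u (hT₂ v u huv).1 U hU hd)) a
    refine ⟨(S ∪ B₀.biUnion T) ∪ S₂, (Finset.card_union_le _ _).trans (by omega), ?_⟩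
    refine (hpush.mono subset_rfl subset_rfl (res_mono subset_rfl ?_)).bounds ?_
    · exact Finset.coe_subset.2 Finset.subset_union_left
    · rw [hG, res_Cl, res_Cl]
      refine hb.mono subset_rfl fun σ hσ => ⟨fun u hu => ⟨(hσ.1 hu).1, ?_⟩, hσ.2⟩
      exact Finset.mem_coe.2 (Finset.mem_union_right _ (hσ.1 hu).2)

theorem goodFill_extend [NeZero N] [Fintype F] (n : ℕ) : ∀ σ ∈ Xt F N, σ.Nonempty →
    N - σ.card ≤ n → ∃ τ ∈ Xt F N, σ ⊆ τ ∧ τ.card = N := by
  induction n with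
  | zero =>
    intro σ hσ _ h
    have := card_le_of_mem_Delta hσ.1
    exact ⟨σ, hσ, subset_rfl, by omega⟩
  | succ n ih =>
    intro σ hσ hne h
    by_cases hc : σ.card = N
    · exact ⟨σ, hσ, subset_rfl, hc⟩
    have hle := card_le_of_mem_Delta hσ.1
    obtain ⟨A, B, hw⟩ := goodWin_exists hσ.1 hne (by omega)
    have hAB : A < B := lt_of_le_of_ne hw.le fun e => by have := hw.gap; rw [e] at this; omega
    obtain ⟨x, hxB, hx⟩ := exists_generic B hw.latB {A} (by simpa using ⟨hw.latA, hAB⟩)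
      (by simpa using Fintype.one_lt_card)
    obtain ⟨w₀, hw₀⟩ := exists_vtx (hw.lat (U := A ⊔ Submodule.span F {x}) le_sup_left
      (sup_le hw.le ((Submodule.span_singleton_le_iff_mem _ _).2 hxB)))
    obtain ⟨-, -, hG⟩ := hw.add_generic le_rfl hw.le (by have := hw.gap; omega) hw.invA hxB
      (hx A (Finset.mem_singleton_self _)) hw₀
    have hins : insert w₀ σ ∈ Xt F N := by
      refine ⟨goodV_insert_mem_Delta hσ.1 hG, ?_⟩
      rw [Finset.coe_insert]
      refine Set.insert_subset ?_ hσ.2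
      refine Set.eq_empty_of_subset_empty (hG.2.2.trans ?_)
      exact Set.iUnion₂_subset fun u hu => (hσ.2 (Finset.mem_coe.2 hu)).subset
    obtain ⟨τ, hτ, h₁, h₂⟩ := ih _ hins (Finset.insert_nonempty _ _)
      (by rw [Finset.card_insert_of_notMem hG.1]; omega)
    exact ⟨τ, hτ, (Finset.subset_insert _ _).trans h₁, h₂⟩

end GoodFillAux

/-- Bounded fillings in generic links, uniformly in the (large) finite field.
Induct on `N - ρ.card` (prove `∀ n, ∀ r, ∃ R q₀, ...` for all `ρ` with `N - ρ.card ≤ n`).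
Choose a type `i₀` missing from `ρ` such that `i₀ + 1` (mod `N`) occurs, a representative `B` of
that vertex of `ρ`, and the largest representative `A < B` of a vertex of `ρ`
(`shL (-N) B ≤ A`, `deg A + 2 ≤ deg B`).  Step 1: remove the vertices of type `i₀` by
`pushes_indep`, `lk_Good` and the induction hypothesis.  Step 2: take `x` generic for `A` and
the representatives in `(A, B)` of the remaining vertices; dismantle with `φ U = U ⊔ span {x}`,
`rk = deg`; what is left is a cone with apex `A ⊔ span {x}`.  Vertices without a representative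
strictly between `A` and `B` are adjacent to everything between `A` and `B`.  Genericity:
inversions of `U ⊔ span {x}` are inversions of `U` or of `B`. -/
theorem good_fill (N r : ℕ) [NeZero N] : ∃ R q₀ : ℕ, ∀ (k : Type) [CommRing k] [CharP k 2]
    (F : Type) [Field F] [Fintype F], q₀ ≤ Fintype.card F →
    ∀ ρ ∈ Delta F N, ρ.Nonempty → ∀ a : ℕ, a + ρ.card < N → Fill k (Good ρ) a r R := by
  obtain ⟨R, q₀, h⟩ := good_fill_aux N N r
  exact ⟨R, q₀, fun k _ _ F _ _ hq ρ hρ hne a ha => h k F hq ρ hρ hne (by omega) a ha⟩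

/-- Purity: every generic simplex lies in a generic chamber (add generic vertices one by one
as in step 2 above; start from a standard vertex if `σ` is empty). -/
theorem exists_chamber {F : Type*} [Field F] [Fintype F] {N : ℕ} [NeZero N]
    (σ : Finset (Vtx F N)) (hσ : σ ∈ Xt F N) :
    ∃ v : Fin N → Vtx F N, (∀ i, deg (v i).1 = (i : ℕ)) ∧ (∀ i, InvV (v i) = ∅) ∧
      (∀ i j, Adj (v i) (v j)) ∧ ∀ u ∈ σ, ∃ i, u = v i := by
  classical
  obtain ⟨τ, hτ, hστ, hcard⟩ : ∃ τ ∈ Xt F N, σ ⊆ τ ∧ τ.card = N := by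
    rcases σ.eq_empty_or_nonempty with rfl | hne
    · obtain ⟨v₀, hv₀⟩ := exists_vtx (N := N) (isLat_Vlt (F := F) 0)
      have h₀ : ({v₀} : Finset (Vtx F N)) ∈ Xt F N := by
        refine ⟨mem_Delta.2 fun u hu w hw => ?_, ?_⟩
        · rw [Finset.mem_singleton.1 hu, Finset.mem_singleton.1 hw]; exact Adj.refl _
        · rw [Finset.coe_singleton, Set.singleton_subset_iff]
          change InvV v₀ = ∅
          rw [← hv₀.invS, InvS_eq_empty_iff (isLat_Vlt 0), Dset_Vlt, deg_Vlt]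
      obtain ⟨τ, hτ, -, h⟩ := goodFill_extend N _ h₀ (Finset.singleton_nonempty _) (by omega)
      exact ⟨τ, hτ, Finset.empty_subset _, h⟩
    · exact goodFill_extend N σ hσ hne (by omega)
  have hadj := mem_Delta.1 hτ.1
  have himg : τ.image (fun v => deg v.1) = Finset.Ico (0 : ℤ) N := by
    refine Finset.eq_of_subset_of_card_le (fun i hi => ?_) ?_
    · obtain ⟨v, -, rfl⟩ := Finset.mem_image.1 hi
      exact Finset.mem_Ico.2 v.2.2
    · rw [Finset.card_image_of_injOn fun u hu w hw e => (hadj u hu w hw).eq_of_deg_eq e, hcard]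
      simp
  have hex : ∀ i : Fin N, ∃ v ∈ τ, deg v.1 = (i : ℕ) := fun i => by
    have : ((i : ℕ) : ℤ) ∈ τ.image (fun v => deg v.1) := by
      rw [himg, Finset.mem_Ico]
      exact ⟨by positivity, by exact_mod_cast i.2⟩
    exact Finset.mem_image.1 this
  choose v hv hv' using hex
  refine ⟨v, hv', fun i => hτ.2 (Finset.mem_coe.2 (hv i)), fun i j => hadj _ (hv i) _ (hv j),
    fun u hu => ?_⟩
  have h1 := u.2.2.1
  have h2 := u.2.2.2
  refine ⟨⟨(deg u.1).toNat, by omega⟩, (hadj u (hστ hu) _ (hv _)).eq_of_deg_eq ?_⟩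
  rw [hv']
  simp only
  omega

end Crest.Agent.R66
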