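import Crest.Agent.R66.GrpDefs

/-!
# R66, task T6: basic facts on `U₊` and the stabilisers `HH J`
-/

set_option autoImplicit false

namespace Crest.Agent.R66

open Polynomial

variable {F : Type*} [Field F] {N : ℕ} [NeZero N]

theorem GrpBasic_rs_lin (a : ℤ) (b : Fin N) : rs N (a * N + (b : ℕ)) = b := by
  rw [add_comm, rs_add_mul, rs_coe]

theorem GrpBasic_div_lin (a : ℤ) (b : Fin N) : (a * N + (b : ℕ)) / N = a := by
  have hN : (N : ℤ) ≠ 0 := by exact_mod_cast NeZero.ne N
  rw [add_comm, Int.add_mul_ediv_right _ _ hN, coe_div, zero_add]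

theorem GrpBasic_emb_apply (b : Fin N) (p : F[X]) (i : ℤ) :
    emb b p i = if 0 ≤ i ∧ rs N i = b then p.coeff (i / N).toNat else 0 := by
  have hN : (0 : ℤ) < N := by exact_mod_cast Nat.pos_of_ne_zero (NeZero.ne N)
  induction p using Polynomial.induction_on' with
  | add p q hp hq =>
    rw [map_add, Finsupp.add_apply, hp, hq, coeff_add]
    split_ifs <;> simp
  | monomial a x =>
    rw [emb_monomial, Finsupp.single_apply, coeff_monomial]
    by_cases h : (a : ℤ) * N + (b : ℕ) = i
    · subst h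
      rw [if_pos rfl, GrpBasic_rs_lin, GrpBasic_div_lin, if_pos ⟨by positivity, rfl⟩]
      simp
    · rw [if_neg h]
      split_ifs with h1 h2
      · exfalso
        apply h
        have h3 := div_mul_add_rs (N := N) i
        have h4 : 0 ≤ i / N := Int.ediv_nonneg h1.1 hN.le
        rw [h1.2] at h3
        rw [← h3, h2, Int.toNat_of_nonneg h4]
      · rfl
      · rfl

theorem col_apply (M : Matrix (Fin N) (Fin N) F[X]) (b : Fin N) (i : ℤ) :
    col M b i = if 0 ≤ i then (M (rs N i) b).coeff (i / N).toNat else 0 := by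
  rw [col, Finsupp.finsetSum_apply, Finset.sum_eq_single (rs N i)]
  · simp [GrpBasic_emb_apply]
  · intro b' _ hb'
    rw [GrpBasic_emb_apply, if_neg]
    exact fun h => hb' h.2.symm
  · simp

theorem col_apply_coe (M : Matrix (Fin N) (Fin N) F[X]) (b b' : Fin N) (a : ℕ) :
    col M b ((a : ℤ) * N + (b' : ℕ)) = (M b' b).coeff a := by
  rw [col_apply, if_pos (by positivity), GrpBasic_rs_lin, GrpBasic_div_lin, Int.toNat_natCast]

theorem col_mem_Vge (M : Matrix (Fin N) (Fin N) F[X]) (b : Fin N) : col M b ∈ Vge F 0 := by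
  exact mem_Vge.2 fun j hj => by rw [col_apply, if_neg (by omega)]

theorem col_injective {M M' : Matrix (Fin N) (Fin N) F[X]} (h : ∀ b, col M b = col M' b) :
    M = M' := by
  ext b' b a
  rw [← col_apply_coe, ← col_apply_coe, h]

theorem exists_col (f : Fin N → VV F) (hf : ∀ b, f b ∈ Vge F 0) :
    ∃ M : Matrix (Fin N) (Fin N) F[X], ∀ b, col M b = f b := by
  have hN : (0 : ℤ) < N := by exact_mod_cast Nat.pos_of_ne_zero (NeZero.ne N)
  have hinj : ∀ b' : Fin N, Function.Injective fun a : ℕ => (a : ℤ) * N + (b' : ℕ) := by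
    intro b' a a' h
    have h1 : (a : ℤ) * N = a' * N := by simpa using h
    exact_mod_cast mul_right_cancel₀ hN.ne' h1
  refine ⟨Matrix.of fun b' b => Polynomial.ofFinsupp (AddMonoidAlgebra.ofCoeff
    (Finsupp.comapDomain (fun a : ℕ => (a : ℤ) * N + (b' : ℕ)) (f b) (hinj b').injOn)), fun b => ?_⟩
  ext i
  rw [col_apply]
  split_ifs with hi
  · have h4 : 0 ≤ i / N := Int.ediv_nonneg hi hN.le
    simp only [Matrix.of_apply, coeff_ofFinsupp, Finsupp.comapDomain_apply]
    rw [Int.toNat_of_nonneg h4, div_mul_add_rs]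
  · exact (mem_Vge.1 (hf b) i (by omega)).symm

theorem act_injective {g h : Up F N} (e : act g = act h) : g = h := by
  apply Subtype.ext
  apply Subtype.ext
  apply col_injective
  intro b
  rw [← actM_single_coe, ← actM_single_coe]
  exact congrArg (fun φ : VV F →ₗ[F] VV F => φ (Finsupp.single ((b : ℕ) : ℤ) 1)) e

/-- Unipotence can be checked on the columns. -/
theorem actM_unip_iff (M : Matrix (Fin N) (Fin N) F[X]) :
    (∀ i : ℤ, ∀ x ∈ Vge F i, actM M x - x ∈ Vge F (i + 1)) ↔
      ∀ b : Fin N, col M b - Finsupp.single ((b : ℕ) : ℤ) 1 ∈ Vge F ((b : ℕ) + 1) := by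
  classical
  constructor
  · intro h b
    rw [← actM_single_coe]
    refine h _ _ (mem_Vge.2 fun j hj => ?_)
    rw [Finsupp.single_apply, if_neg (by omega)]
  · intro h i x hx
    have e : actM M x - x = ∑ j ∈ x.support,
        (actM M (Finsupp.single j (x j)) - Finsupp.single j (x j)) := by
      rw [Finset.sum_sub_distrib, ← map_sum]
      have : ∑ j ∈ x.support, Finsupp.single j (x j) = x := Finsupp.sum_single x
      rw [this]
    rw [e]
    refine Submodule.sum_mem _ fun j hj => ?_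
    have hij : i ≤ j := by
      by_contra h'
      exact Finsupp.mem_support_iff.1 hj (mem_Vge.1 hx j (by omega))
    have e2 : Finsupp.single j (x j)
        = x j • sh F (j / N * N) (Finsupp.single ((rs N j : ℕ) : ℤ) (1 : F)) := by
      rw [sh_single, add_comm, div_mul_add_rs, Finsupp.smul_single, smul_eq_mul, mul_one]
    rw [actM_single, e2, ← smul_sub, ← map_sub]
    refine Submodule.smul_mem _ _ (mem_Vge.2 fun l hl => ?_)
    rw [sh_apply]
    refine mem_Vge.1 (h _) _ ?_
    have := div_mul_add_rs (N := N) j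
    omega

/-- `U₊` consists of the matrices that are lower unitriangular at `X = 0`. -/
theorem mem_Up_iff {g : Matrix.SpecialLinearGroup (Fin N) F[X]} :
    g ∈ Up F N ↔ (∀ i, (g.1 i i).coeff 0 = 1) ∧ ∀ i j, i < j → (g.1 i j).coeff 0 = 0 := by
  rw [mem_Up, actM_unip_iff]
  have hc : ∀ b b' : Fin N, col g.1 b ((b' : ℕ) : ℤ) = (g.1 b' b).coeff 0 := by
    intro b b'
    have := col_apply_coe g.1 b b' 0
    simpa using this
  constructor
  · intro h
    refine ⟨fun i => ?_, fun i j hij => ?_⟩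
    · have := mem_Vge.1 (h i) (i : ℕ) (by omega)
      rw [Finsupp.sub_apply, hc, Finsupp.single_eq_same] at this
      exact sub_eq_zero.1 this
    · have hij' : (i : ℕ) < j := hij
      have := mem_Vge.1 (h j) (i : ℕ) (by omega)
      rw [Finsupp.sub_apply, hc, Finsupp.single_apply, if_neg (by omega), sub_zero] at this
      exact this
  · rintro ⟨h1, h2⟩ b
    refine mem_Vge.2 fun j hj => ?_
    rw [Finsupp.sub_apply, Finsupp.single_apply]
    by_cases h0 : 0 ≤ j
    · have hb := b.2
      obtain ⟨b', rfl⟩ : ∃ b' : Fin N, j = (b' : ℕ) := ⟨⟨j.toNat, by omega⟩, by simp; omega⟩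
      rw [hc]
      by_cases hbb : b = b'
      · subst hbb
        rw [if_pos rfl, h1, sub_self]
      · have hne : (b : ℕ) ≠ b' := fun h => hbb (Fin.ext h)
        rw [if_neg (by omega), h2 b' b (by change (b' : ℕ) < b; omega), sub_zero]
    · rw [col_apply, if_neg h0, if_neg (by omega), sub_zero]

theorem cV_typ (g : Up F N) (i j : Fin N) (h : g • cV F N i = cV F N j) : i = j := by
  have h0 : (Vlt F (i : ℕ)).map (act g) = Vlt F (j : ℕ) := congrArg Subtype.val h
  have h1 := deg_map_act g (Vlt F (i : ℕ))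
  rw [h0, deg_Vlt, deg_Vlt, eq_comm] at h1
  exact Fin.ext (by exact_mod_cast h1)

theorem smul_cV_iff {g : Up F N} {i : Fin N} : g • cV F N i = cV F N i ↔
    ∀ b : Fin N, (b < i → col g.1.1 b ∈ Vlt F (i : ℕ)) ∧ col g.1.1 b ∈ Vlt F ((i : ℕ) + N) := by
  classical
  have hN : (0 : ℤ) < N := by exact_mod_cast Nat.pos_of_ne_zero (NeZero.ne N)
  have hi := i.2
  constructor
  · intro h b
    have h1 : (Vlt F (i : ℕ)).map (act g) = Vlt F (i : ℕ) := congrArg Subtype.val h
    have h2 : ∀ x ∈ Vlt F (i : ℕ), act g x ∈ Vlt F (i : ℕ) := fun x hx =>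
      h1 ▸ Submodule.mem_map_of_mem hx
    have hb := b.2
    refine ⟨fun hbi => ?_, ?_⟩
    · rw [← actM_single_coe]
      have hbi' : (b : ℕ) < i := hbi
      refine h2 _ (mem_Vlt.2 fun j hj => ?_)
      rw [Finsupp.single_apply, if_neg (by omega)]
    · have h3 := h2 (sh F (-1 * N) (Finsupp.single ((b : ℕ) : ℤ) 1)) (mem_Vlt.2 fun j hj => by
        rw [sh_single, Finsupp.single_apply, if_neg (by omega)])
      rw [act_sh] at h3
      change sh F (-1 * N) (actM _ _) ∈ _ at h3
      rw [actM_single_coe] at h3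
      refine mem_Vlt.2 fun j hj => ?_
      have := mem_Vlt.1 h3 (j - N) (by omega)
      rw [sh_apply] at this
      rw [← this]
      congr 1
      ring
  · intro h
    apply Subtype.ext
    change (Vlt F (i : ℕ)).map (act g) = Vlt F (i : ℕ)
    refine eq_of_le_of_Dset ?_ ⟨_, le_rfl⟩ (by rw [Dset_map_act])
    rintro _ ⟨x, hx, rfl⟩
    rw [← Finsupp.sum_single x, Finsupp.sum, map_sum]
    refine Submodule.sum_mem _ fun j hj => ?_
    have hij : j < (i : ℕ) := by
      by_contra h'
      exact Finsupp.mem_support_iff.1 hj (mem_Vlt.1 hx j (by omega))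
    change actM _ _ ∈ _
    rw [actM_single]
    refine Submodule.smul_mem _ _ (mem_Vlt.2 fun l hl => ?_)
    rw [sh_apply]
    have e := div_mul_add_rs (N := N) j
    by_cases h0 : 0 ≤ j
    · have h3 : j / N = 0 := Int.ediv_eq_zero_of_lt h0 (by omega)
      rw [h3, zero_mul, zero_add] at e
      rw [h3, zero_mul, sub_zero]
      refine mem_Vlt.1 ((h (rs N j)).1 ?_) _ hl
      change (rs N j : ℕ) < i
      omega
    · refine mem_Vlt.1 (h (rs N j)).2 _ ?_
      have h3 : j / N ≤ -1 := by
        have := Int.ediv_neg_of_neg_of_pos (show j < 0 by omega) hN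
        omega
      have h4 : j / N * N ≤ -1 * N := Int.mul_le_mul_of_nonneg_right h3 hN.le
      omega

theorem HH_empty : HH F N ∅ = ⊥ := by
  rw [eq_bot_iff]
  intro g hg
  rw [Subgroup.mem_bot]
  apply act_injective
  rw [act_one]
  refine ext_of_sh (act_sh g) (fun m x => rfl) fun b => ?_
  change actM _ _ = Finsupp.single _ _
  rw [actM_single_coe]
  have h1 := (actM_unip_iff g.1.1).1 g.2 b
  have h2 : col g.1.1 b ∈ Vlt F ((b : ℕ) + 1) := by
    by_cases hb : (b : ℕ) + 1 < N
    · have := ((smul_cV_iff.1 (mem_stabH.1 hg ⟨b + 1, hb⟩ (by simp))) b).1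
        (by change (b : ℕ) < b + 1; omega)
      simpa using this
    · have := ((smul_cV_iff.1 (mem_stabH.1 hg 0 (by simp))) b).2
      have hb2 := b.2
      refine Vlt_mono ?_ this
      simp
      omega
  ext j
  by_cases hj : j < (b : ℕ) + 1
  · have := mem_Vge.1 h1 j hj
    rw [Finsupp.sub_apply] at this
    exact sub_eq_zero.1 this
  · rw [mem_Vlt.1 h2 j (by omega), Finsupp.single_apply, if_neg (by omega)]

/-- The columns lie in the finite set `Vge 0 ⊓ Vlt (2N)`. -/
theorem HH_finite [Finite F] {J : Finset (Fin N)} (hJ : J ≠ Finset.univ) : Finite (HH F N J) := by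
  obtain ⟨i, hi⟩ : ∃ i, i ∉ J := by
    by_contra h
    push Not at h
    exact hJ (Finset.eq_univ_iff_forall.2 h)
  refine Finite.of_injective
    (fun g : HH F N J => fun (b : Fin N) (k : Fin (2 * N)) => col g.1.1.1 b ((k : ℕ) : ℤ)) ?_
  intro g g' h
  apply Subtype.ext
  apply Subtype.ext
  apply Subtype.ext
  apply col_injective
  intro b
  ext j
  have hi2 := i.2
  by_cases h0 : 0 ≤ j
  · by_cases h1 : j < 2 * N
    · have := congrFun (congrFun h b) ⟨j.toNat, by omega⟩
      simpa [Int.toNat_of_nonneg h0] using this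
    · rw [mem_Vlt.1 ((smul_cV_iff.1 (mem_stabH.1 g.2 i hi)) b).2 j (by omega),
        mem_Vlt.1 ((smul_cV_iff.1 (mem_stabH.1 g'.2 i hi)) b).2 j (by omega)]
  · rw [col_apply, col_apply, if_neg h0, if_neg h0]

/-- `(g + 1)(g - 1) = 0` and `g + 1` doubles leading terms. -/
theorem Up_no_two_torsion (h2 : (2 : F) ≠ 0) (g : Up F N) (h : g ^ 2 = 1) : g = 1 := by
  apply act_injective
  rw [act_one]
  refine LinearMap.ext fun x => ?_
  rw [LinearMap.id_apply]
  by_contra hx
  obtain ⟨i, hi, hi'⟩ := exists_lead (sub_ne_zero.2 hx)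
  have h1 := (lead_of_unip (act_unip g) hi).2
  have h3 : act g (act g x) = x := by
    rw [← LinearMap.comp_apply, ← act_mul, ← pow_two, h, act_one, LinearMap.id_apply]
  rw [map_sub, h3] at h1
  apply hi'
  apply mul_left_cancel₀ h2
  simp only [Finsupp.sub_apply] at h1 ⊢
  linear_combination -h1

/-- Take for `g'` the constant matrix `g(0)`. -/
theorem HH_base (J : Finset (Fin N)) (g : Up F N) (hg : g ∈ HH F N J) :
    ∃ g' ∈ HH F N (J.erase 0), g'⁻¹ * g ∈ Gam F N 1 := by
  have hN : (0 : ℤ) < N := by exact_mod_cast Nat.pos_of_ne_zero (NeZero.ne N)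
  let φ : F[X] →+* F[X] := (C : F →+* F[X]).comp (constantCoeff : F[X] →+* F)
  have hφ : ∀ p, φ p = C (p.coeff 0) := fun p => rfl
  let g0 : Matrix.SpecialLinearGroup (Fin N) F[X] := Matrix.SpecialLinearGroup.map φ g.1
  have hg0 : ∀ i j, g0.1 i j = C ((g.1.1 i j).coeff 0) := fun i j => rfl
  obtain ⟨u1, u2⟩ := mem_Up_iff.1 g.2
  have hU : g0 ∈ Up F N := mem_Up_iff.2
    ⟨fun i => by rw [hg0, coeff_C_zero, u1], fun i j hij => by rw [hg0, coeff_C_zero, u2 i j hij]⟩
  have hhigh : ∀ (b : Fin N) (j : ℤ), (N : ℤ) ≤ j → col g0.1 b j = 0 := by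
    intro b j hj
    rw [col_apply, if_pos (by omega), hg0, coeff_C, if_neg]
    have : 1 ≤ j / N := Int.le_ediv_of_mul_le hN (by omega)
    omega
  refine ⟨⟨g0, hU⟩, mem_stabH.2 fun i hi => smul_cV_iff.2 fun b => ⟨fun hb => ?_, ?_⟩, ?_⟩
  · have hiJ : i ∉ J := by
      intro h
      apply hi
      refine Finset.mem_erase.2 ⟨?_, h⟩
      rintro rfl
      exact absurd hb (Fin.not_lt_zero _)
    have h1 := ((smul_cV_iff.1 (mem_stabH.1 hg i hiJ)) b).1 hb
    refine mem_Vlt.2 fun j hj => ?_
    by_cases h2 : (N : ℤ) ≤ j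
    · exact hhigh b j h2
    · have h3 : j / N = 0 := Int.ediv_eq_zero_of_lt (by omega) (by omega)
      have h4 := mem_Vlt.1 h1 j hj
      rw [col_apply, if_pos (by omega), h3] at h4 ⊢
      change (g0.1 _ _).coeff _ = 0
      rw [hg0]
      simpa using h4
  · exact mem_Vlt.2 fun j hj => hhigh b j (by omega)
  · rw [Gam, MonoidHom.mem_ker, map_mul, map_inv, inv_mul_eq_one]
    apply Subtype.ext
    ext i j
    change AdjoinRoot.mk _ (g0.1 i j) = AdjoinRoot.mk _ (g.1.1 i j)
    rw [hg0, eq_comm, AdjoinRoot.mk_eq_mk, pow_one]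
    exact X_dvd_sub_C

end Crest.Agent.R66
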