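import Crest.Agent.R66.Lat
import Crest.Agent.R66.CosetDefs

/-!
# R66 (S0088): the group `U₊ ≤ SL_N(F[X])`, its action on lattices, congruence subgroups
-/

set_option autoImplicit false

namespace Crest.Agent.R66

open Polynomial

variable {F : Type*} [Field F] {N : ℕ} [NeZero N]

variable (N) in
/-- The residue of an integer modulo `N`, as an element of `Fin N`. -/
def rs (i : ℤ) : Fin N :=
  ⟨(i % N).toNat, by
    have hN : (0 : ℤ) < N := by exact_mod_cast Nat.pos_of_ne_zero (NeZero.ne N)
    have h1 := Int.emod_nonneg i hN.ne'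
    have h2 := Int.emod_lt_of_pos i hN
    omega⟩

theorem rs_val (i : ℤ) : ((rs N i : ℕ) : ℤ) = i % N := by
  have hN : (0 : ℤ) < N := by exact_mod_cast Nat.pos_of_ne_zero (NeZero.ne N)
  have h1 := Int.emod_nonneg i hN.ne'
  simp only [rs]
  omega

theorem rs_add_mul (i m : ℤ) : rs N (i + m * N) = rs N i := by
  apply Fin.ext
  have h1 := rs_val (N := N) (i + m * N)
  have h2 := rs_val (N := N) i
  rw [Int.add_mul_emod_self_right] at h1
  omega

theorem rs_coe (b : Fin N) : rs N (b : ℕ) = b := by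
  apply Fin.ext
  have h1 := rs_val (N := N) (b : ℕ)
  have h2 : ((b : ℕ) : ℤ) % N = (b : ℕ) := Int.emod_eq_of_lt (by positivity) (by exact_mod_cast b.2)
  omega

omit [NeZero N] in
theorem coe_div (b : Fin N) : ((b : ℕ) : ℤ) / N = 0 :=
  Int.ediv_eq_zero_of_lt (by positivity) (by exact_mod_cast b.2)

theorem div_mul_add_rs (i : ℤ) : i / N * N + (rs N i : ℕ) = i := by
  rw [rs_val]; exact Int.ediv_mul_add_emod i N

/-- The polynomial `p` placed in the residue class `b`: `X ^ a ↦ e_{a N + b}`. -/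
noncomputable def emb (b : Fin N) : F[X] →ₗ[F] VV F :=
  Polynomial.lsum fun a => Finsupp.lsingle ((a : ℤ) * N + (b : ℕ))

omit [NeZero N] in
theorem emb_monomial (b : Fin N) (a : ℕ) (x : F) :
    emb b (monomial a x) = Finsupp.single ((a : ℤ) * N + (b : ℕ)) x := by
  simp [emb]

/-- The `b`-th column of a polynomial matrix, as a vector of `VV F`. -/
noncomputable def col (M : Matrix (Fin N) (Fin N) F[X]) (b : Fin N) : VV F :=
  ∑ b' : Fin N, emb b' (M b' b)

/-- The action of a polynomial matrix on `VV F` (`X` acts as the shift by `N`). -/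
noncomputable def actM (M : Matrix (Fin N) (Fin N) F[X]) : VV F →ₗ[F] VV F :=
  Finsupp.linearCombination F fun i : ℤ => sh F (i / N * N) (col M (rs N i))

theorem actM_single (M : Matrix (Fin N) (Fin N) F[X]) (i : ℤ) (x : F) :
    actM M (Finsupp.single i x) = x • sh F (i / N * N) (col M (rs N i)) := by
  simp [actM]

theorem actM_single_coe (M : Matrix (Fin N) (Fin N) F[X]) (b : Fin N) :
    actM M (Finsupp.single ((b : ℕ) : ℤ) 1) = col M b := by
  rw [actM_single, coe_div, rs_coe, zero_mul, sh_zero, one_smul]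

theorem actM_sh (M : Matrix (Fin N) (Fin N) F[X]) (m : ℤ) (x : VV F) :
    actM M (sh F (m * N) x) = sh F (m * N) (actM M x) := by
  have hN : (N : ℤ) ≠ 0 := by exact_mod_cast NeZero.ne N
  induction x using Finsupp.induction_linear with
  | zero => simp
  | add x y hx hy => simp [hx, hy]
  | single i c =>
    rw [sh_single, actM_single, actM_single, map_smul, sh_sh, rs_add_mul,
      Int.add_mul_ediv_right _ _ hN]
    congr 2
    ring_nf

/-- Linear maps commuting with the shift by `N` are determined by the images of `e_0 … e_{N-1}`. -/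
theorem ext_of_sh {f g : VV F →ₗ[F] VV F}
    (hf : ∀ (m : ℤ) (x : VV F), f (sh F (m * N) x) = sh F (m * N) (f x))
    (hg : ∀ (m : ℤ) (x : VV F), g (sh F (m * N) x) = sh F (m * N) (g x))
    (h : ∀ b : Fin N, f (Finsupp.single ((b : ℕ) : ℤ) 1) = g (Finsupp.single ((b : ℕ) : ℤ) 1)) :
    f = g := by
  refine Finsupp.lhom_ext' fun i => LinearMap.ext_ring ?_
  have : Finsupp.single i (1 : F) = sh F (i / N * N) (Finsupp.single ((rs N i : ℕ) : ℤ) 1) := by
    rw [sh_single, add_comm, div_mul_add_rs]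
  simp only [LinearMap.comp_apply, Finsupp.lsingle_apply]
  rw [this, hf, hg, h]

omit [NeZero N] in
theorem emb_mul_monomial (b : Fin N) (p : F[X]) (a : ℕ) (x : F) :
    emb b (p * monomial a x) = x • sh F ((a : ℤ) * N) (emb b p) := by
  induction p using Polynomial.induction_on' with
  | add p q hp hq => rw [add_mul, map_add, hp, hq, map_add, map_add, smul_add]
  | monomial n y =>
    rw [monomial_mul_monomial, emb_monomial, emb_monomial, sh_single, Finsupp.smul_single,
      smul_eq_mul, mul_comm x y]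
    congr 1
    push_cast
    ring

theorem actM_emb (M : Matrix (Fin N) (Fin N) F[X]) (b : Fin N) (p : F[X]) :
    actM M (emb b p) = ∑ b' : Fin N, emb b' (M b' b * p) := by
  have hN : (N : ℤ) ≠ 0 := by exact_mod_cast NeZero.ne N
  induction p using Polynomial.induction_on' with
  | add p q hp hq => simp only [map_add, hp, hq, mul_add, Finset.sum_add_distrib]
  | monomial n y =>
    rw [emb_monomial, actM_single, add_comm, rs_add_mul, rs_coe, Int.add_mul_ediv_right _ _ hN,
      coe_div, zero_add, col, map_sum, Finset.smul_sum]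
    exact Finset.sum_congr rfl fun b' _ => (emb_mul_monomial _ _ _ _).symm

theorem actM_mul (M M' : Matrix (Fin N) (Fin N) F[X]) :
    actM (M * M') = (actM M).comp (actM M') := by
  refine ext_of_sh (actM_sh _) (fun m x => by simp [actM_sh]) fun b => ?_
  rw [LinearMap.comp_apply, actM_single_coe, actM_single_coe, col, col, map_sum]
  simp only [actM_emb, Matrix.mul_apply, map_sum]
  exact Finset.sum_comm

theorem actM_one : actM (1 : Matrix (Fin N) (Fin N) F[X]) = LinearMap.id := by
  refine ext_of_sh (actM_sh _) (fun m x => rfl) fun b => ?_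
  rw [actM_single_coe, col, Finset.sum_eq_single b]
  · rw [Matrix.one_apply_eq, ← monomial_zero_one, emb_monomial]; simp
  · intro b' _ hb'; rw [Matrix.one_apply_ne hb', map_zero]
  · simp

theorem actM_mul_apply (M M' : Matrix (Fin N) (Fin N) F[X]) (x : VV F) :
    actM (M * M') x = actM M (actM M' x) := by rw [actM_mul]; rfl

/-- A map raising the filtration modulo the identity preserves leading terms. -/
theorem lead_of_unip {f : VV F →ₗ[F] VV F}
    (hf : ∀ i : ℤ, ∀ x ∈ Vge F i, f x - x ∈ Vge F (i + 1)) {i : ℤ} {x : VV F}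
    (hx : x ∈ Vge F i) : f x ∈ Vge F i ∧ f x i = x i := by
  have h := hf i x hx
  refine ⟨?_, ?_⟩
  · have := (Vge F i).add_mem (Vge_anti (by omega) h) hx
    simpa using this
  · have := mem_Vge.1 h i (by omega)
    rw [Finsupp.sub_apply] at this
    exact sub_eq_zero.1 this

theorem mem_Vge_of_unip {f : VV F →ₗ[F] VV F}
    (hf : ∀ i : ℤ, ∀ x ∈ Vge F i, f x - x ∈ Vge F (i + 1)) {i : ℤ} {x : VV F}
    (hx : f x ∈ Vge F i) : x ∈ Vge F i := by
  by_cases h0 : x = 0
  · rw [h0]; exact Submodule.zero_mem _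
  obtain ⟨j, hj, hj'⟩ := exists_lead h0
  have h := (lead_of_unip hf hj).2
  by_cases hij : i ≤ j
  · exact Vge_anti hij hj
  · exact absurd (h ▸ mem_Vge.1 hx j (by omega)) hj'

variable (F N) in
/-- The group `U₊`: matrices of determinant one acting unipotently on the filtration `Vge`. -/
def Up : Subgroup (Matrix.SpecialLinearGroup (Fin N) F[X]) where
  carrier := {g | ∀ i : ℤ, ∀ x ∈ Vge F i, actM g.1 x - x ∈ Vge F (i + 1)}
  one_mem' := fun i x _ => by
    rw [Matrix.SpecialLinearGroup.coe_one, actM_one]; simp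
  mul_mem' := fun {a b} ha hb i x hx => by
    rw [Matrix.SpecialLinearGroup.coe_mul, actM_mul_apply]
    have h1 := ha i _ (lead_of_unip hb hx).1
    have h2 := hb i x hx
    simpa using (Vge F (i + 1)).add_mem h1 h2
  inv_mem' := fun {a} ha i x hx => by
    have e : actM a.1 (actM (a⁻¹).1 x) = x := by
      rw [← actM_mul_apply, ← Matrix.SpecialLinearGroup.coe_mul, mul_inv_cancel,
        Matrix.SpecialLinearGroup.coe_one, actM_one]; rfl
    have h1 : actM (a⁻¹).1 x ∈ Vge F i := mem_Vge_of_unip ha (e.symm ▸ hx)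
    have h2 := ha i _ h1
    rw [e] at h2
    simpa using (Vge F (i + 1)).neg_mem h2

theorem mem_Up {g : Matrix.SpecialLinearGroup (Fin N) F[X]} :
    g ∈ Up F N ↔ ∀ i : ℤ, ∀ x ∈ Vge F i, actM g.1 x - x ∈ Vge F (i + 1) := Iff.rfl

/-- The linear map attached to an element of `U₊`. -/
noncomputable def act (g : Up F N) : VV F →ₗ[F] VV F := actM g.1.1

theorem act_one : act (1 : Up F N) = LinearMap.id := actM_one

theorem act_mul (g h : Up F N) : act (g * h) = (act g).comp (act h) := actM_mul _ _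

theorem act_unip (g : Up F N) (i : ℤ) (x : VV F) (hx : x ∈ Vge F i) :
    act g x - x ∈ Vge F (i + 1) := g.2 i x hx

theorem act_sh (g : Up F N) (m : ℤ) (x : VV F) :
    act g (sh F (m * N) x) = sh F (m * N) (act g x) := actM_sh _ _ _

theorem Dset_map_act (g : Up F N) (U : Submodule F (VV F)) : Dset (U.map (act g)) = Dset U := by
  ext i
  constructor
  · rintro ⟨_, ⟨x, hxU, rfl⟩, hx, hx'⟩
    have h := mem_Vge_of_unip (act_unip g) hx
    exact ⟨x, hxU, h, (lead_of_unip (act_unip g) h).2 ▸ hx'⟩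
  · rintro ⟨x, hxU, hx, hx'⟩
    exact ⟨act g x, ⟨x, hxU, rfl⟩, (lead_of_unip (act_unip g) hx).1,
      (lead_of_unip (act_unip g) hx).2.symm ▸ hx'⟩

theorem shL_map_act (g : Up F N) (m : ℤ) (U : Submodule F (VV F)) :
    shL (m * N) (U.map (act g)) = (shL (m * N) U).map (act g) := by
  unfold shL
  rw [← Submodule.map_comp, ← Submodule.map_comp]
  congr 1
  ext1 i
  refine LinearMap.ext_ring ?_
  simp [act_sh]

/-- Bounded displacement. -/
theorem exists_actM_Vlt (M : Matrix (Fin N) (Fin N) F[X]) :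
    ∃ c : ℤ, ∀ j : ℤ, ∀ x ∈ Vlt F j, actM M x ∈ Vlt F (j + c) := by
  classical
  have hN : (0 : ℤ) < N := by exact_mod_cast Nat.pos_of_ne_zero (NeZero.ne N)
  obtain ⟨c, hc⟩ : ∃ c : ℤ, ∀ b : Fin N, col M b ∈ Vlt F c := by
    obtain ⟨c, hc⟩ := (Finset.univ.biUnion fun b : Fin N => (col M b).support).exists_le
    refine ⟨c + 1, fun b => mem_Vlt.2 fun j hj => ?_⟩
    by_contra h
    have := hc j (Finset.mem_biUnion.2 ⟨b, Finset.mem_univ _, Finsupp.mem_support_iff.2 h⟩)
    omega
  refine ⟨c, fun j x hx => ?_⟩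
  rw [← Finsupp.sum_single x, Finsupp.sum, map_sum]
  refine Submodule.sum_mem _ fun i hi => ?_
  have hij : i < j := by
    by_contra h
    exact Finsupp.mem_support_iff.1 hi (mem_Vlt.1 hx i (by omega))
  rw [actM_single]
  refine Submodule.smul_mem _ _ (mem_Vlt.2 fun l hl => ?_)
  rw [sh_apply]
  refine mem_Vlt.1 (hc _) _ ?_
  have h1 := div_mul_add_rs (N := N) i
  have h2 : (0 : ℤ) ≤ (rs N i : ℕ) := by positivity
  omega

theorem IsLat.map_act {U : Submodule F (VV F)} (hU : IsLat N U) (g : Up F N) :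
    IsLat N (U.map (act g)) := by
  refine ⟨?_, ?_, ?_⟩
  · obtain ⟨a, ha⟩ := hU.low
    obtain ⟨c, hc⟩ := exists_actM_Vlt (g⁻¹).1.1
    refine ⟨a - c, fun x hx => ⟨act g⁻¹ x, ha ?_, ?_⟩⟩
    · have := hc _ x hx
      rwa [sub_add_cancel] at this
    · rw [← LinearMap.comp_apply, ← act_mul, mul_inv_cancel, act_one]; rfl
  · obtain ⟨b, hb⟩ := hU.up
    obtain ⟨c, hc⟩ := exists_actM_Vlt g.1.1
    refine ⟨b + c, ?_⟩
    rintro _ ⟨x, hx, rfl⟩
    exact hc _ x (hb hx)
  · have := shL_map_act g 1 U
    rw [one_mul] at this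
    rw [this]
    exact Submodule.map_mono hU.stab

theorem deg_map_act (g : Up F N) (U : Submodule F (VV F)) : deg (U.map (act g)) = deg U := by
  unfold deg; rw [Dset_map_act]

noncomputable instance : MulAction (Up F N) (Vtx F N) where
  smul g v := ⟨v.1.map (act g), v.2.1.map_act g, by rw [deg_map_act]; exact v.2.2⟩
  one_smul v := Subtype.ext (by
    change v.1.map (act (1 : Up F N)) = v.1
    rw [act_one, Submodule.map_id])
  mul_smul g h v := Subtype.ext (by
    change v.1.map (act (g * h)) = (v.1.map (act h)).map (act g)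
    rw [act_mul, Submodule.map_comp])

theorem smul_val (g : Up F N) (v : Vtx F N) : (g • v).1 = v.1.map (act g) := rfl

variable (F N) in
/-- The standard chamber. -/
noncomputable def cV (i : Fin N) : Vtx F N :=
  ⟨Vlt F (i : ℕ), isLat_Vlt _, by rw [deg_Vlt]; positivity, by rw [deg_Vlt]; exact_mod_cast i.2⟩

variable (F N) in
/-- The stabilisers of the standard faces. -/
noncomputable abbrev HH : Finset (Fin N) → Subgroup (Up F N) := stabH (Up F N) (cV F N)

variable (F N) in
/-- The principal congruence subgroup of level `X ^ s`. -/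
noncomputable def Gam (s : ℕ) : Subgroup (Up F N) :=
  ((Matrix.SpecialLinearGroup.map (AdjoinRoot.mk (X ^ s : F[X]))).comp (Up F N).subtype).ker

instance (s : ℕ) : (Gam F N s).Normal := MonoidHom.normal_ker _

theorem mem_Gam {s : ℕ} {g : Up F N} :
    g ∈ Gam F N s ↔ ∀ i j, X ^ s ∣ g.1.1 i j - (1 : Matrix (Fin N) (Fin N) F[X]) i j := by
  rw [Gam, MonoidHom.mem_ker, Matrix.SpecialLinearGroup.ext_iff]
  refine forall_congr' fun i => forall_congr' fun j => ?_
  rw [← AdjoinRoot.mk_eq_mk]
  simp only [MonoidHom.comp_apply, Subgroup.coe_subtype, Matrix.SpecialLinearGroup.map_apply_coe,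
    RingHom.mapMatrix_apply, Matrix.map_apply, Matrix.SpecialLinearGroup.coe_one]
  rw [Matrix.one_apply, Matrix.one_apply]
  split_ifs <;> simp

end Crest.Agent.R66
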