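import Crest.Agent.R66.LatDefs

/-!
# R66, task T3: the basic API of lattices
-/

set_option autoImplicit false

namespace Crest.Agent.R66

variable {F : Type*} [Field F] {N : ℕ}

theorem mem_Vge {i : ℤ} {x : VV F} : x ∈ Vge F i ↔ ∀ j, j < i → x j = 0 := by
  simp [Vge, Finsupp.mem_supported']

theorem mem_Vlt {i : ℤ} {x : VV F} : x ∈ Vlt F i ↔ ∀ j, i ≤ j → x j = 0 := by
  simp [Vlt, Finsupp.mem_supported']

theorem sh_apply (m : ℤ) (x : VV F) (i : ℤ) : sh F m x i = x (i - m) := by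
  simp [sh, Finsupp.domLCongr_apply, Finsupp.domCongr_apply, Finsupp.equivMapDomain_apply,
    sub_eq_add_neg]

theorem sh_single (m i : ℤ) (c : F) : sh F m (Finsupp.single i c) = Finsupp.single (i + m) c := by
  simp [sh]

theorem sh_sh (m m' : ℤ) (x : VV F) : sh F m (sh F m' x) = sh F (m + m') x := by
  ext i
  simp only [sh_apply]
  congr 1
  ring

theorem sh_zero (x : VV F) : sh F 0 x = x := by
  ext i
  simp [sh_apply]

theorem mem_shL {m : ℤ} {U : Submodule F (VV F)} {x : VV F} : x ∈ shL m U ↔ sh F (-m) x ∈ U := by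
  constructor
  · rintro ⟨y, hy, rfl⟩
    simpa [sh_sh, sh_zero] using hy
  · intro h
    exact ⟨sh F (-m) x, h, by simp [sh_sh, sh_zero]⟩

theorem shL_shL (m m' : ℤ) (U : Submodule F (VV F)) : shL m (shL m' U) = shL (m + m') U := by
  ext x
  simp only [mem_shL, sh_sh]
  rw [show -m' + -m = -(m + m') by ring]

theorem shL_zero (U : Submodule F (VV F)) : shL 0 U = U := by
  ext x
  simp [mem_shL, sh_zero]

theorem Lat_shL_mono (m : ℤ) {U V : Submodule F (VV F)} (h : U ≤ V) : shL m U ≤ shL m V :=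
  Submodule.map_mono h

theorem shL_le_shL {m : ℤ} {U V : Submodule F (VV F)} : shL m U ≤ shL m V ↔ U ≤ V := by
  refine ⟨fun h => ?_, Lat_shL_mono m⟩
  have := Lat_shL_mono (-m) h
  simpa [shL_shL, shL_zero] using this

theorem shL_sup (m : ℤ) (U V : Submodule F (VV F)) : shL m (U ⊔ V) = shL m U ⊔ shL m V :=
  Submodule.map_sup _ _ _

theorem shL_Vlt (m j : ℤ) : shL m (Vlt F j) = Vlt F (j + m) := by
  ext x
  simp only [mem_shL, mem_Vlt, sh_apply]
  constructor
  · intro h i hi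
    have := h (i - m) (by omega)
    simpa using this
  · intro h i hi
    exact h _ (by omega)

theorem shL_Vge (m j : ℤ) : shL m (Vge F j) = Vge F (j + m) := by
  ext x
  simp only [mem_shL, mem_Vge, sh_apply]
  constructor
  · intro h i hi
    have := h (i - m) (by omega)
    simpa using this
  · intro h i hi
    exact h _ (by omega)

theorem Vlt_mono {i j : ℤ} (h : i ≤ j) : Vlt F i ≤ Vlt F j := by
  intro x hx
  rw [mem_Vlt] at hx ⊢
  exact fun k hk => hx k (h.trans hk)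

theorem Vge_anti {i j : ℤ} (h : i ≤ j) : Vge F j ≤ Vge F i := by
  intro x hx
  rw [mem_Vge] at hx ⊢
  exact fun k hk => hx k (hk.trans_le h)

/-- Every non-zero vector has a leading position. -/
theorem exists_lead {x : VV F} (hx : x ≠ 0) : ∃ i, x ∈ Vge F i ∧ x i ≠ 0 := by
  have hne : x.support.Nonempty := Finsupp.support_nonempty_iff.2 hx
  refine ⟨x.support.min' hne, mem_Vge.2 fun j hj => ?_, ?_⟩
  · by_contra h
    exact absurd (x.support.min'_le j (Finsupp.mem_support_iff.2 h)) (not_le.2 hj)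
  · exact Finsupp.mem_support_iff.1 (x.support.min'_mem hne)

theorem Dset_mono {U V : Submodule F (VV F)} (h : U ≤ V) : Dset U ⊆ Dset V := by
  rintro i ⟨x, hx, h1, h2⟩
  exact ⟨x, h hx, h1, h2⟩

theorem mem_Dset_shL {m i : ℤ} {U : Submodule F (VV F)} : i ∈ Dset (shL m U) ↔ i - m ∈ Dset U := by
  constructor
  · rintro ⟨x, hx, h1, h2⟩
    refine ⟨sh F (-m) x, mem_shL.1 hx, mem_Vge.2 fun j hj => ?_, ?_⟩
    · rw [sh_apply]
      exact mem_Vge.1 h1 _ (by omega)
    · rw [sh_apply]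
      simpa using h2
  · rintro ⟨x, hx, h1, h2⟩
    refine ⟨sh F m x, mem_shL.2 (by simpa [sh_sh, sh_zero] using hx), mem_Vge.2 fun j hj => ?_, ?_⟩
    · rw [sh_apply]
      exact mem_Vge.1 h1 _ (by omega)
    · rw [sh_apply]
      exact h2

theorem Dset_Vlt (j : ℤ) : Dset (Vlt F j) = Set.Iio j := by
  ext i
  constructor
  · rintro ⟨x, hx, -, h2⟩
    by_contra h
    exact h2 (mem_Vlt.1 hx i (not_lt.1 h))
  · intro h
    refine ⟨Finsupp.single i 1, mem_Vlt.2 fun k hk => ?_, mem_Vge.2 fun k hk => ?_, by simp⟩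
    · exact Finsupp.single_eq_of_ne (by rw [Set.mem_Iio] at h; omega)
    · exact Finsupp.single_eq_of_ne (by omega)

/-- Gaussian elimination: subtract vectors of `U` to raise the leading position; this stops
since `V` is bounded above. -/
theorem eq_of_le_of_Dset {U V : Submodule F (VV F)} (hUV : U ≤ V) (hb : ∃ b, V ≤ Vlt F b)
    (h : Dset V ⊆ Dset U) : U = V := by
  obtain ⟨b, hb⟩ := hb
  have key : ∀ n : ℕ, ∀ x ∈ V, x ∈ Vge F (b - n) → x ∈ U := by
    intro n
    induction n with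
    | zero =>
      intro x hx h0
      have : x = 0 := by
        ext j
        rcases lt_or_ge j b with hj | hj
        · exact mem_Vge.1 h0 j (by simpa using hj)
        · exact mem_Vlt.1 (hb hx) j hj
      rw [this]
      exact U.zero_mem
    | succ n ih =>
      intro x hx h0
      set i : ℤ := b - ((n + 1 : ℕ) : ℤ) with hi
      by_cases hxi : x i = 0
      · refine ih x hx (mem_Vge.2 fun j hj => ?_)
        rcases lt_or_ge j i with hji | hji
        · exact mem_Vge.1 h0 j hji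
        · have : j = i := by push_cast at hi; omega
          rw [this]
          exact hxi
      · obtain ⟨y, hy, hy1, hy2⟩ := h ⟨x, hx, h0, hxi⟩
        have h1 : x - (x i / y i) • y ∈ U := by
          refine ih _ (V.sub_mem hx (V.smul_mem _ (hUV hy))) (mem_Vge.2 fun j hj => ?_)
          rcases lt_or_ge j i with hji | hji
          · simp [mem_Vge.1 h0 j hji, mem_Vge.1 hy1 j hji]
          · have : j = i := by push_cast at hi; omega
            rw [this]
            simp [hy2]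
        have h2 := U.add_mem h1 (U.smul_mem (x i / y i) hy)
        simpa using h2
  refine le_antisymm hUV fun x hx => ?_
  by_cases hx0 : x = 0
  · rw [hx0]
    exact U.zero_mem
  obtain ⟨i, hi, -⟩ := exists_lead hx0
  exact key (b - i).toNat x hx (Vge_anti (by omega) hi)

theorem isLat_Vlt (j : ℤ) : IsLat N (Vlt F j) :=
  ⟨⟨j, le_rfl⟩, ⟨j, le_rfl⟩, by rw [shL_Vlt]; exact Vlt_mono (by omega)⟩

theorem IsLat.shL {U : Submodule F (VV F)} (hU : IsLat N U) (m : ℤ) : IsLat N (shL m U) := by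
  obtain ⟨⟨a, ha⟩, ⟨b, hb⟩, hs⟩ := hU
  refine ⟨⟨a + m, ?_⟩, ⟨b + m, ?_⟩, ?_⟩
  · rw [← shL_Vlt]
    exact Lat_shL_mono m ha
  · rw [← shL_Vlt]
    exact Lat_shL_mono m hb
  · rw [shL_shL, add_comm, ← shL_shL]
    exact Lat_shL_mono m hs

theorem IsLat.sup {U V : Submodule F (VV F)} (hU : IsLat N U) (hV : IsLat N V) :
    IsLat N (U ⊔ V) := by
  obtain ⟨⟨a, ha⟩, ⟨b, hb⟩, hs⟩ := hU
  obtain ⟨-, ⟨b', hb'⟩, hs'⟩ := hV
  refine ⟨⟨a, ha.trans le_sup_left⟩, ⟨max b b', sup_le (hb.trans (Vlt_mono (le_max_left _ _)))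
    (hb'.trans (Vlt_mono (le_max_right _ _)))⟩, ?_⟩
  rw [shL_sup]
  exact sup_le_sup hs hs'

theorem IsLat.shL_mono {U : Submodule F (VV F)} (hU : IsLat N U) {m m' : ℤ} (h : m ≤ m') :
    R66.shL (m * N) U ≤ R66.shL (m' * N) U := by
  induction m', h using Int.leInduction with
  | base => exact le_rfl
  | succ n _ ih =>
    refine ih.trans ?_
    rw [show (n + 1) * (N : ℤ) = n * N + N by ring, ← shL_shL]
    exact Lat_shL_mono _ hU.stab

theorem isLat_of_between {A B U : Submodule F (VV F)} (hA : IsLat N A) (hB : IsLat N B)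
    (hAU : A ≤ U) (hUB : U ≤ B) (hBA : B ≤ shL N A) : IsLat N U := by
  obtain ⟨a, ha⟩ := hA.low
  obtain ⟨b, hb⟩ := hB.up
  exact ⟨⟨a, ha.trans hAU⟩, ⟨b, hUB.trans hb⟩, hUB.trans (hBA.trans (Lat_shL_mono _ hAU))⟩

theorem IsLat.Lat_exists_cut {U : Submodule F (VV F)} (hU : IsLat N U) :
    ∃ a : ℤ, Set.Iio a ⊆ Dset U := by
  obtain ⟨a, ha⟩ := hU.low
  exact ⟨a, by rw [← Dset_Vlt (F := F)]; exact Dset_mono ha⟩

theorem IsLat.Lat_exists_top {U : Submodule F (VV F)} (hU : IsLat N U) :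
    ∃ b : ℤ, Dset U ⊆ Set.Iio b := by
  obtain ⟨b, hb⟩ := hU.up
  exact ⟨b, by rw [← Dset_Vlt (F := F)]; exact Dset_mono hb⟩

theorem IsLat.Lat_finite_inter {U : Submodule F (VV F)} (hU : IsLat N U) (a : ℤ) :
    (Dset U ∩ Set.Ici a).Finite := by
  obtain ⟨b, hb⟩ := hU.Lat_exists_top
  exact (Set.finite_Ico a b).subset fun i hi => ⟨hi.2, hb hi.1⟩

theorem IsLat.Lat_finite_diff {U : Submodule F (VV F)} (hU : IsLat N U) (b : ℤ) :
    (Set.Iio b \ Dset U).Finite := by
  obtain ⟨a, ha⟩ := hU.Lat_exists_cut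
  refine (Set.finite_Ico a b).subset fun i hi => ⟨?_, hi.1⟩
  by_contra h
  exact hi.2 (ha (not_le.1 h))

/-- The virtual cardinality does not depend on the base point. -/
theorem Lat_virt_const {D : Set ℤ} (h1 : ∀ a, (D ∩ Set.Ici a).Finite)
    (h2 : ∀ a, (Set.Iio a \ D).Finite) (a : ℤ) :
    a + ((D ∩ Set.Ici a).ncard : ℤ) - ((Set.Iio a \ D).ncard : ℤ) =
      ((D ∩ Set.Ici 0).ncard : ℤ) - ((Set.Iio 0 \ D).ncard : ℤ) := by
  have step : ∀ a : ℤ, (a + 1) + ((D ∩ Set.Ici (a + 1)).ncard : ℤ) -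
      ((Set.Iio (a + 1) \ D).ncard : ℤ) =
      a + ((D ∩ Set.Ici a).ncard : ℤ) - ((Set.Iio a \ D).ncard : ℤ) := by
    intro a
    by_cases ha : a ∈ D
    · have e1 : D ∩ Set.Ici a = insert a (D ∩ Set.Ici (a + 1)) := by
        ext i
        simp only [Set.mem_inter_iff, Set.mem_Ici, Set.mem_insert_iff]
        constructor
        · rintro ⟨h, h'⟩
          rcases eq_or_lt_of_le h' with h'' | h''
          · exact Or.inl h''.symm
          · exact Or.inr ⟨h, by omega⟩
        · rintro (rfl | ⟨h, h'⟩)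
          · exact ⟨ha, le_rfl⟩
          · exact ⟨h, by omega⟩
      have e2 : Set.Iio (a + 1) \ D = Set.Iio a \ D := by
        ext i
        simp only [Set.mem_sdiff, Set.mem_Iio]
        constructor
        · rintro ⟨h, h'⟩
          refine ⟨lt_of_le_of_ne (by omega) ?_, h'⟩
          rintro rfl
          exact h' ha
        · rintro ⟨h, h'⟩
          exact ⟨by omega, h'⟩
      rw [e1, e2, Set.ncard_insert_of_notMem (by simp) (h1 _)]
      push_cast
      ring
    · have e1 : D ∩ Set.Ici a = D ∩ Set.Ici (a + 1) := by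
        ext i
        simp only [Set.mem_inter_iff, Set.mem_Ici]
        constructor
        · rintro ⟨h, h'⟩
          refine ⟨h, Int.add_one_le_of_lt (lt_of_le_of_ne h' ?_)⟩
          rintro rfl
          exact ha h
        · rintro ⟨h, h'⟩
          exact ⟨h, by omega⟩
      have e2 : Set.Iio (a + 1) \ D = insert a (Set.Iio a \ D) := by
        ext i
        simp only [Set.mem_sdiff, Set.mem_Iio, Set.mem_insert_iff]
        constructor
        · rintro ⟨h, h'⟩
          rcases eq_or_lt_of_le (Int.le_of_lt_add_one h) with h'' | h''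
          · exact Or.inl h''
          · exact Or.inr ⟨h'', h'⟩
        · rintro (rfl | ⟨h, h'⟩)
          · exact ⟨by omega, ha⟩
          · exact ⟨by omega, h'⟩
      rw [e1, e2, Set.ncard_insert_of_notMem (by simp) (h2 _)]
      push_cast
      ring
  induction a using Int.induction_on with
  | zero => simp
  | succ n ih => rw [step, ih]
  | pred n ih => rw [← ih, ← step (-(n : ℤ) - 1)]; simp

/-- The degree can be computed from any cut-off below which `Dset U` is full. -/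
theorem deg_eq_of_cut {U : Submodule F (VV F)} (hU : IsLat N U) {a : ℤ} (ha : Set.Iio a ⊆ Dset U) :
    deg U = a + ((Dset U ∩ Set.Ici a).ncard : ℤ) := by
  have := Lat_virt_const hU.Lat_finite_inter hU.Lat_finite_diff a
  rw [Set.sdiff_eq_empty.2 ha] at this
  rw [deg, ← this]
  simp

theorem deg_Vlt (j : ℤ) : deg (Vlt F j) = j := by
  rw [deg_eq_of_cut (N := 0) (isLat_Vlt j) (a := j) (by rw [Dset_Vlt]), Dset_Vlt,
    (Set.Iio_disjoint_Ici le_rfl).inter_eq]
  simp

theorem deg_shL {U : Submodule F (VV F)} (hU : IsLat N U) (m : ℤ) : deg (shL m U) = deg U + m := by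
  obtain ⟨a, ha⟩ := hU.Lat_exists_cut
  have ha' : Set.Iio (a + m) ⊆ Dset (shL m U) := fun i hi =>
    mem_Dset_shL.2 (ha (by rw [Set.mem_Iio] at hi ⊢; omega))
  rw [deg_eq_of_cut hU ha, deg_eq_of_cut (hU.shL m) ha']
  have e : Dset (shL m U) ∩ Set.Ici (a + m) = (fun i => i + m) '' (Dset U ∩ Set.Ici a) := by
    ext i
    simp only [Set.mem_inter_iff, mem_Dset_shL, Set.mem_Ici, Set.mem_image]
    constructor
    · rintro ⟨h, h'⟩
      exact ⟨i - m, ⟨h, by omega⟩, by ring⟩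
    · rintro ⟨j, ⟨h, h'⟩, rfl⟩
      exact ⟨by simpa using h, by omega⟩
  rw [e, Set.ncard_image_of_injective _ (add_left_injective m)]
  ring

theorem deg_le_deg {U V : Submodule F (VV F)} (hU : IsLat N U) (hV : IsLat N V) (h : U ≤ V) :
    deg U ≤ deg V := by
  obtain ⟨a, ha⟩ := hU.Lat_exists_cut
  rw [deg_eq_of_cut hU ha, deg_eq_of_cut hV (ha.trans (Dset_mono h))]
  have := Set.ncard_le_ncard (Set.inter_subset_inter_left (Set.Ici a) (Dset_mono h))
    (hV.Lat_finite_inter a)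
  omega

theorem eq_of_le_of_deg_le {U V : Submodule F (VV F)} (hU : IsLat N U) (hV : IsLat N V)
    (h : U ≤ V) (hd : deg V ≤ deg U) : U = V := by
  obtain ⟨a, ha⟩ := hU.Lat_exists_cut
  rw [deg_eq_of_cut hU ha, deg_eq_of_cut hV (ha.trans (Dset_mono h))] at hd
  have e := Set.eq_of_subset_of_ncard_le (Set.inter_subset_inter_left (Set.Ici a) (Dset_mono h))
    (by omega) (hV.Lat_finite_inter a)
  refine eq_of_le_of_Dset h hV.up fun i hi => ?_
  rcases lt_or_ge i a with hia | hia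
  · exact ha hia
  · have : i ∈ Dset U ∩ Set.Ici a := e ▸ ⟨hi, hia⟩
    exact this.1

theorem deg_of_Dset_insert {U V : Submodule F (VV F)} (hU : IsLat N U) (hV : IsLat N V) {b : ℤ}
    (hb : b ∉ Dset U) (h : Dset V = insert b (Dset U)) : deg V = deg U + 1 := by
  obtain ⟨a, ha⟩ := hU.Lat_exists_cut
  have ha' : Set.Iio a ⊆ Dset V := by
    rw [h]
    exact ha.trans (Set.subset_insert _ _)
  have hab : a ≤ b := by
    by_contra hc
    exact hb (ha (not_le.1 hc))
  rw [deg_eq_of_cut hU ha, deg_eq_of_cut hV ha', h, Set.insert_inter_of_mem (Set.mem_Ici.2 hab),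
    Set.ncard_insert_of_notMem (fun hc => hb hc.1) (hU.Lat_finite_inter a)]
  push_cast
  ring

theorem InvS_shL (U : Submodule F (VV F)) (m : ℤ) : InvS N (shL (m * N) U) = InvS N U := by
  ext p
  simp only [InvS, Set.mem_ofPred_eq, mem_Dset_shL]
  refine and_congr_right fun _ => and_congr_right fun _ => and_congr_right fun _ => ?_
  constructor
  · rintro ⟨k, h1, h2⟩
    refine ⟨k - m, ?_, ?_⟩
    · rwa [show p.2 + (k - m) * N = p.2 + k * N - m * N by ring]
    · rwa [show p.1 + (k - m) * N = p.1 + k * N - m * N by ring]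
  · rintro ⟨k, h1, h2⟩
    refine ⟨k + m, ?_, ?_⟩
    · rwa [show p.2 + (k + m) * N - m * N = p.2 + k * N by ring]
    · rwa [show p.1 + (k + m) * N - m * N = p.1 + k * N by ring]

theorem IsLat.InvS_finite {U : Submodule F (VV F)} (hU : IsLat N U) : (InvS N U).Finite := by
  obtain ⟨a, ha⟩ := hU.Lat_exists_cut
  obtain ⟨b, hb⟩ := hU.Lat_exists_top
  refine ((Set.finite_Ico (0 : ℤ) N).prod (Set.finite_Ico (0 : ℤ) (N + b - a))).subset ?_
  rintro ⟨x, y⟩ ⟨h0, h1, h2, m, h3, h4⟩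
  have h5 : y + m * N < b := hb h3
  have h6 : a ≤ x + m * N := by
    by_contra hc
    exact h4 (ha (not_le.1 hc))
  simp only at h0 h1 h2
  refine ⟨⟨h0, h1⟩, ?_, ?_⟩
  · show (0 : ℤ) ≤ y
    omega
  · show y < N + b - a
    omega

/-- Any inversion `x < y` of `U` gives a normalised inversion. -/
theorem mem_InvS_of [NeZero N] {U : Submodule F (VV F)} {x y : ℤ} (hxy : x < y) (hy : y ∈ Dset U)
    (hx : x ∉ Dset U) : (x % N, y - x / N * N) ∈ InvS N U := by
  have hN : (0 : ℤ) < N := by exact_mod_cast NeZero.pos N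
  have e : x % N + x / N * N = x := Int.emod_add_ediv_mul x N
  refine ⟨Int.emod_nonneg _ hN.ne', Int.emod_lt_of_pos _ hN, ?_, x / N, ?_, ?_⟩
  · show x % N < y - x / N * N
    omega
  · simpa using hy
  · show x % N + x / N * N ∉ Dset U
    rwa [e]

theorem InvS_eq_empty_iff [NeZero N] {U : Submodule F (VV F)} (hU : IsLat N U) :
    InvS N U = ∅ ↔ Dset U = Set.Iio (deg U) := by
  constructor
  · intro h
    obtain ⟨a, ha⟩ := hU.Lat_exists_cut
    obtain ⟨b, hb⟩ := hU.Lat_exists_top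
    obtain ⟨c, hc, hc'⟩ := Int.exists_least_of_bdd (P := fun i => i ∉ Dset U)
      ⟨a, fun i hi => by
        by_contra hc
        exact hi (ha (not_le.1 hc))⟩
      ⟨b, fun hi => lt_irrefl b (hb hi)⟩
    have e : Dset U = Set.Iio c := by
      ext i
      constructor
      · intro hi
        by_contra hic
        have hci : c < i := lt_of_le_of_ne (not_lt.1 hic) (by rintro rfl; exact hc hi)
        have := mem_InvS_of (N := N) hci hi hc
        rw [h] at this
        exact this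
      · intro hi
        by_contra hic
        exact absurd (hc' i hic) (not_le.2 hi)
    have hd : deg U = c := by
      rw [deg_eq_of_cut hU (a := c) (by rw [e]), e, (Set.Iio_disjoint_Ici le_rfl).inter_eq]
      simp
    rw [hd, e]
  · intro h
    refine Set.eq_empty_iff_forall_notMem.2 ?_
    rintro ⟨x, y⟩ ⟨-, -, h2, m, h3, h4⟩
    rw [h, Set.mem_Iio] at h3 h4
    simp only at h2 h3 h4
    omega

theorem Rep.isLat {v : Vtx F N} {U : Submodule F (VV F)} (h : Rep v U) : IsLat N U := by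
  obtain ⟨m, rfl⟩ := h
  exact v.2.1.shL _

theorem Rep.self (v : Vtx F N) : Rep v v.1 :=
  ⟨0, by rw [zero_mul, shL_zero]⟩

theorem Rep.shL {v : Vtx F N} {U : Submodule F (VV F)} (h : Rep v U) (m : ℤ) :
    Rep v (shL (m * N) U) := by
  obtain ⟨k, rfl⟩ := h
  exact ⟨m + k, by rw [shL_shL, add_mul]⟩

theorem Rep.invS {v : Vtx F N} {U : Submodule F (VV F)} (h : Rep v U) : InvS N U = InvV v := by
  obtain ⟨k, rfl⟩ := h
  exact InvS_shL _ _

theorem Rep.deg_emod {v : Vtx F N} {U : Submodule F (VV F)} (h : Rep v U) :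
    deg U % N = deg v.1 := by
  obtain ⟨k, rfl⟩ := h
  rw [deg_shL v.2.1, Int.add_mul_emod_self_right, Int.emod_eq_of_lt v.2.2.1 v.2.2.2]

theorem Rep.unique {v v' : Vtx F N} {U : Submodule F (VV F)} (h : Rep v U) (h' : Rep v' U) :
    v = v' := by
  have hd : deg v.1 = deg v'.1 := h.deg_emod.symm.trans h'.deg_emod
  obtain ⟨k, hk⟩ := h
  obtain ⟨k', hk'⟩ := h'
  have e : k * (N : ℤ) = k' * N := by
    have h1 := deg_shL v.2.1 (k * N)
    have h2 := deg_shL v'.2.1 (k' * N)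
    rw [← hk] at h1
    rw [← hk'] at h2
    omega
  rw [← e] at hk'
  apply Subtype.ext
  exact le_antisymm (shL_le_shL.1 (hk.symm.trans hk').le) (shL_le_shL.1 (hk'.symm.trans hk).le)

theorem Rep.exists_shL {v : Vtx F N} {U U' : Submodule F (VV F)} (h : Rep v U) (h' : Rep v U') :
    ∃ m : ℤ, U' = R66.shL (m * N) U := by
  obtain ⟨k, rfl⟩ := h
  obtain ⟨k', rfl⟩ := h'
  exact ⟨k' - k, by rw [shL_shL]; congr 1; ring⟩

theorem exists_vtx [NeZero N] {U : Submodule F (VV F)} (hU : IsLat N U) : ∃ v : Vtx F N, Rep v U := by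
  have hN : (0 : ℤ) < N := by exact_mod_cast NeZero.pos N
  have e : deg U % N + deg U / N * N = deg U := Int.emod_add_ediv_mul _ _
  have hd : deg (shL (-(deg U / N * N)) U) = deg U % N := by
    rw [deg_shL hU]
    omega
  refine ⟨⟨shL (-(deg U / N * N)) U, hU.shL _, ?_, ?_⟩, deg U / N, ?_⟩
  · rw [hd]
    exact Int.emod_nonneg _ hN.ne'
  · rw [hd]
    exact Int.emod_lt_of_pos _ hN
  · simp [shL_shL, shL_zero]

theorem exists_rep_window [NeZero N] (v : Vtx F N) (w : ℤ) :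
    ∃ U, Rep v U ∧ w ≤ deg U ∧ deg U < w + N := by
  have hN : (0 : ℤ) < N := by exact_mod_cast NeZero.pos N
  have e : (deg v.1 - w) % N + (deg v.1 - w) / N * N = deg v.1 - w := Int.emod_add_ediv_mul _ _
  have h1 := Int.emod_nonneg (deg v.1 - w) hN.ne'
  have h2 := Int.emod_lt_of_pos (deg v.1 - w) hN
  refine ⟨_, ⟨-((deg v.1 - w) / N), rfl⟩, ?_, ?_⟩ <;> rw [deg_shL v.2.1, neg_mul] <;> omega

theorem Adj.refl (v : Vtx F N) : Adj v v := by
  intro m
  rcases le_total m 0 with h | h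
  · left
    simpa [shL_zero] using v.2.1.shL_mono h
  · right
    simpa [shL_zero] using v.2.1.shL_mono h

theorem Adj.total {u v : Vtx F N} (h : Adj u v) {U V : Submodule F (VV F)} (hU : Rep u U)
    (hV : Rep v V) : U ≤ V ∨ V ≤ U := by
  obtain ⟨k, rfl⟩ := hU
  obtain ⟨k', rfl⟩ := hV
  have e : shL (k * N) u.1 = shL (k' * N) (shL ((k - k') * N) u.1) := by
    rw [shL_shL]
    congr 1
    ring
  rw [e, shL_le_shL, shL_le_shL]
  exact h _

theorem Adj.symm {u v : Vtx F N} (h : Adj u v) : Adj v u := fun m =>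
  (h.total (Rep.self u) ⟨m, rfl⟩).symm

theorem Adj.le_of_deg_le {u v : Vtx F N} (h : Adj u v) {U V : Submodule F (VV F)} (hU : Rep u U)
    (hV : Rep v V) (hd : deg U ≤ deg V) : U ≤ V := by
  rcases h.total hU hV with h' | h'
  · exact h'
  · exact (eq_of_le_of_deg_le hV.isLat hU.isLat h' hd).ge

/-- It is enough to compare one representative of `v` with all representatives of `u`. -/
theorem adj_of_forall_rep {u v : Vtx F N} {V : Submodule F (VV F)} (hV : Rep v V)
    (h : ∀ U, Rep u U → U ≤ V ∨ V ≤ U) : Adj u v := by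
  obtain ⟨k, rfl⟩ := hV
  intro m
  have := h _ (Rep.shL ⟨m, rfl⟩ k)
  rwa [shL_le_shL, shL_le_shL] at this

theorem adj_of_le {u v : Vtx F N} {U V : Submodule F (VV F)} (hU : Rep u U) (hV : Rep v V)
    (h₁ : U ≤ V) (h₂ : V ≤ shL N U) : Adj u v := by
  refine adj_of_forall_rep hV fun U' hU' => ?_
  obtain ⟨m, rfl⟩ := hU.exists_shL hU'
  rcases le_or_gt m 0 with h | h
  · left
    refine le_trans ?_ h₁
    simpa [shL_zero] using hU.isLat.shL_mono h
  · right
    refine h₂.trans ?_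
    simpa using hU.isLat.shL_mono (show (1 : ℤ) ≤ m by omega)

theorem Adj.eq_of_deg_eq {u v : Vtx F N} (h : Adj u v) (hd : deg u.1 = deg v.1) : u = v :=
  Subtype.ext (eq_of_le_of_deg_le u.2.1 v.2.1
    (h.le_of_deg_le (Rep.self u) (Rep.self v) hd.le) hd.ge)

theorem mem_Delta {σ : Finset (Vtx F N)} : σ ∈ Delta F N ↔ ∀ u ∈ σ, ∀ v ∈ σ, Adj u v := by
  simp [Delta, Cl]

theorem card_le_of_mem_Delta {σ : Finset (Vtx F N)} (h : σ ∈ Delta F N) : σ.card ≤ N := by
  rw [mem_Delta] at h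
  have := Finset.card_le_card_of_injOn (s := σ) (t := Finset.Ico (0 : ℤ) N) (fun v => deg v.1)
    (fun v _ => by simpa using v.2.2) fun u hu v hv e => (h u hu v hv).eq_of_deg_eq e
  simpa using this

theorem Lat_mem_Good {ρ τ : Finset (Vtx F N)} :
    τ ∈ Good ρ ↔ (Disjoint τ ρ ∧ τ ∪ ρ ∈ Delta F N) ∧ ∀ v ∈ τ, InvV v ⊆ ⋃ u ∈ ρ, InvV u :=
  Iff.rfl

/-- `Good ρ` is the clique complex on its vertices. -/
theorem Good_eq_Cl {ρ : Finset (Vtx F N)} (hρ : ρ ∈ Delta F N) :
    Good ρ = Cl Adj {v | v ∉ ρ ∧ (∀ u ∈ ρ, Adj u v) ∧ InvV v ⊆ ⋃ u ∈ ρ, InvV u} := by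
  rw [mem_Delta] at hρ
  ext τ
  rw [Lat_mem_Good, mem_Delta, Finset.disjoint_left]
  constructor
  · rintro ⟨⟨h1, h2⟩, h3⟩
    refine ⟨fun v hv => ⟨h1 hv, fun u hu => ?_, h3 v hv⟩, fun u hu v hv => ?_⟩
    · exact h2 u (Finset.mem_union_right _ hu) v (Finset.mem_union_left _ hv)
    · exact h2 u (Finset.mem_union_left _ hu) v (Finset.mem_union_left _ hv)
  · rintro ⟨h1, h2⟩
    refine ⟨⟨fun v hv => (h1 hv).1, fun u hu v hv => ?_⟩, fun v hv => (h1 hv).2.2⟩
    rcases Finset.mem_union.1 hu with hu | hu <;> rcases Finset.mem_union.1 hv with hv | hv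
    · exact h2 u hu v hv
    · exact ((h1 hu).2.1 v hv).symm
    · exact (h1 hv).2.1 u hu
    · exact hρ u hu v hv

/-- The class of complexes `Good ρ` is closed under taking links of vertices. -/
theorem lk_Good {ρ : Finset (Vtx F N)} {v : Vtx F N} (hv : ({v} : Finset (Vtx F N)) ∈ Good ρ) :
    lk (Good ρ) {v} = Good (insert v ρ) := by
  obtain ⟨⟨hv1, -⟩, hv3⟩ := Lat_mem_Good.1 hv
  have hv3' := hv3 v (Finset.mem_singleton_self v)
  have e : (⋃ u ∈ insert v ρ, InvV u) = ⋃ u ∈ ρ, InvV u := by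
    rw [Finset.set_biUnion_insert]
    exact Set.union_eq_self_of_subset_left hv3'
  ext τ
  change (Disjoint τ {v} ∧ τ ∪ {v} ∈ Good ρ) ↔ _
  rw [Lat_mem_Good, Lat_mem_Good, e, Finset.insert_eq, ← Finset.union_assoc,
    Finset.disjoint_union_left, Finset.disjoint_union_right]
  constructor
  · rintro ⟨h1, ⟨⟨h2, -⟩, h3⟩, h4⟩
    exact ⟨⟨⟨h1, h2⟩, h3⟩, fun w hw => h4 w (Finset.mem_union_left _ hw)⟩
  · rintro ⟨⟨⟨h1, h2⟩, h3⟩, h4⟩
    refine ⟨h1, ⟨⟨h2, hv1⟩, h3⟩, fun w hw => ?_⟩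
    rcases Finset.mem_union.1 hw with hw | hw
    · exact h4 w hw
    · exact hv3 w hw

theorem lk_Xt {ρ : Finset (Vtx F N)} (hρ : ρ ∈ Xt F N) : lk (Xt F N) ρ = Good ρ := by
  have h0 : ∀ u ∈ ρ, InvV u = ∅ := fun u hu => hρ.2 hu
  have e : (⋃ u ∈ ρ, InvV u) = ∅ := by
    simpa using h0
  ext τ
  change (Disjoint τ ρ ∧ τ ∪ ρ ∈ Delta F N ∧ ∀ v ∈ τ ∪ ρ, InvV v = ∅) ↔ _
  rw [Lat_mem_Good, e]
  constructor
  · rintro ⟨h1, h2, h3⟩
    exact ⟨⟨h1, h2⟩, fun v hv => (h3 v (Finset.mem_union_left _ hv)).le⟩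
  · rintro ⟨⟨h1, h2⟩, h3⟩
    refine ⟨h1, h2, fun v hv => ?_⟩
    rcases Finset.mem_union.1 hv with hv | hv
    · exact Set.subset_empty_iff.1 (h3 v hv)
    · exact h0 v hv

end Crest.Agent.R66
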