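import Crest.Agent.R66.ChainDefs

/-!
# R66 (S0088): lattices (a model of the affine building of `SL_N` over `F((1/t))`)

`VV F = ℤ →₀ F` with basis `e_i`; multiplication by `t` is the shift by `N`.  A lattice is a
subspace squeezed between two `Vlt`'s and stable under the shift by `-N`.  `Dset U` is the set of
leading (= lowest) positions of non-zero vectors of `U`; `deg U` is the virtual cardinality of
`Dset U` (normalised by `deg (Vlt j) = j`).  Vertices of the building are shift classes of
lattices, represented by the member with `0 ≤ deg < N`.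
-/

set_option autoImplicit false

namespace Crest.Agent.R66

section Lat

variable (F : Type*) [Field F]

/-- The ambient space. -/
abbrev VV := ℤ →₀ F

/-- Vectors supported in `[i, ∞)`. -/
noncomputable def Vge (i : ℤ) : Submodule F (VV F) := Finsupp.supported F F (Set.Ici i)

/-- Vectors supported in `(-∞, i)`. -/
noncomputable def Vlt (i : ℤ) : Submodule F (VV F) := Finsupp.supported F F (Set.Iio i)

/-- The shift `e_i ↦ e_{i+m}`. -/
noncomputable def sh (m : ℤ) : VV F ≃ₗ[F] VV F := Finsupp.domLCongr (Equiv.addRight m)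

variable {F}

/-- The shift of a subspace. -/
noncomputable def shL (m : ℤ) (U : Submodule F (VV F)) : Submodule F (VV F) :=
  U.map (sh F m : VV F →ₗ[F] VV F)

/-- The set of leading positions of the vectors of `U`. -/
def Dset (U : Submodule F (VV F)) : Set ℤ := {i | ∃ x ∈ U, x ∈ Vge F i ∧ x i ≠ 0}

/-- The degree (virtual dimension) of a lattice. -/
noncomputable def deg (U : Submodule F (VV F)) : ℤ :=
  ((Dset U ∩ Set.Ici 0).ncard : ℤ) - ((Set.Iio 0 \ Dset U).ncard : ℤ)

/-- Lattices. -/
structure IsLat (N : ℕ) (U : Submodule F (VV F)) : Prop where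
  low : ∃ a : ℤ, Vlt F a ≤ U
  up : ∃ b : ℤ, U ≤ Vlt F b
  stab : U ≤ shL N U

/-- The (normalised) inversions of `U`: pairs `x < y`, `0 ≤ x < N`, such that for some shift
`y` is a leading position and `x` is not. -/
def InvS (N : ℕ) (U : Submodule F (VV F)) : Set (ℤ × ℤ) :=
  {p | 0 ≤ p.1 ∧ p.1 < N ∧ p.1 < p.2 ∧ ∃ m : ℤ, p.2 + m * N ∈ Dset U ∧ p.1 + m * N ∉ Dset U}

variable (F)

/-- Vertices of the building: lattices of degree in `[0, N)`. -/
def Vtx (N : ℕ) : Type _ := {U : Submodule F (VV F) // IsLat N U ∧ 0 ≤ deg U ∧ deg U < N}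

noncomputable instance (N : ℕ) : DecidableEq (Vtx F N) := Classical.decEq _

variable {F} {N : ℕ}

/-- Adjacency (reflexive): all shifts are comparable. -/
def Adj (u v : Vtx F N) : Prop := ∀ m : ℤ, shL (m * N) u.1 ≤ v.1 ∨ v.1 ≤ shL (m * N) u.1

/-- `U` is a representative of the vertex `v`. -/
def Rep (v : Vtx F N) (U : Submodule F (VV F)) : Prop := ∃ m : ℤ, U = shL (m * N) v.1

/-- The inversions of a vertex. -/
def InvV (v : Vtx F N) : Set (ℤ × ℤ) := InvS N v.1

variable (F N)

/-- The building. -/
def Delta : Set (Finset (Vtx F N)) := Cl Adj Set.univ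

/-- The generic part of the building (vertices without inversions). -/
def Xt : Set (Finset (Vtx F N)) := res (Delta F N) {v | InvV v = ∅}

variable {F N}

/-- The generic part of the link of `ρ`. -/
def Good (ρ : Finset (Vtx F N)) : Set (Finset (Vtx F N)) :=
  res (lk (Delta F N) ρ) {v | InvV v ⊆ ⋃ u ∈ ρ, InvV u}

end Lat

end Crest.Agent.R66
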