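import Crest.Agent.R66.GrpBasic

/-!
# R66, task T6c: the finite quotients `U₊ ⧸ Γ(X^s)`
-/

set_option autoImplicit false

namespace Crest.Agent.R66

open Polynomial

variable {F : Type*} [Field F] {N : ℕ} [NeZero N]

theorem Gam_anti : Antitone (Gam F N) := by
  intro s t hst g hg
  exact mem_Gam.2 fun i j => (pow_dvd_pow X hst).trans (mem_Gam.1 hg i j)

/-- `Up ⧸ Gam s` embeds in `SL_N(AdjoinRoot (X^s))`, a finite group. -/
theorem finite_quot_Gam [Finite F] (s : ℕ) : Finite (Up F N ⧸ Gam F N s) := by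
  have h1 : Module.Finite F (AdjoinRoot (X ^ s : F[X])) :=
    (AdjoinRoot.powerBasis' (monic_X_pow s)).finite
  have h2 : Finite (AdjoinRoot (X ^ s : F[X])) := Module.finite_of_finite F
  have h3 : Finite (Matrix.SpecialLinearGroup (Fin N) (AdjoinRoot (X ^ s : F[X]))) :=
    Subtype.finite
  exact Finite.of_injective _ (QuotientGroup.kerLift_injective
    ((Matrix.SpecialLinearGroup.map (AdjoinRoot.mk (X ^ s : F[X]))).comp (Up F N).subtype))

theorem eventually_not_mem_Gam (S : Set (Up F N)) (hS : S.Finite) :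
    ∃ s₀ : ℕ, ∀ s, s₀ ≤ s → ∀ g ∈ S, g ∈ Gam F N s → g = 1 := by
  have h : ∀ᶠ s in Filter.atTop, ∀ g ∈ S, g ∈ Gam F N s → g = 1 := by
    refine (Filter.eventually_all_finite hS).2 fun g _ => ?_
    by_cases hg : g = 1
    · exact Filter.Eventually.of_forall fun _ _ => hg
    · have : ∃ i j, g.1.1 i j - (1 : Matrix (Fin N) (Fin N) F[X]) i j ≠ 0 := by
        by_contra hcon
        push Not at hcon
        refine hg (Subtype.ext (Subtype.ext (Matrix.ext fun i j => ?_)))
        exact sub_eq_zero.1 (hcon i j)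
      obtain ⟨i, j, hij⟩ := this
      filter_upwards [Filter.eventually_gt_atTop
        (g.1.1 i j - (1 : Matrix (Fin N) (Fin N) F[X]) i j).natDegree] with s hs hmem
      have := natDegree_le_of_dvd (mem_Gam.1 hmem i j) hij
      rw [natDegree_X_pow] at this
      omega
  exact Filter.eventually_atTop.1 h

theorem level_mem_of_smul_eq {s : ℕ} {h : Up F N} {ω : Up F N ⧸ Gam F N s} (e : h • ω = ω) :
    h ∈ Gam F N s := by
  induction ω using QuotientGroup.induction_on with
  | H g =>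
    rw [MulAction.Quotient.smul_mk, QuotientGroup.eq, smul_eq_mul] at e
    have := (inferInstance : (Gam F N s).Normal).conj_mem _ ((Gam F N s).inv_mem e) g
    simpa [mul_assoc] using this

/-- For large level the stabilisers act freely and faces are determined by their vertices
(apply `eventually_not_mem_Gam` to the finite set of all `h⁻¹ * h'`, `h, h' ∈ ⋃_{J ≠ univ} HH J`). -/
theorem exists_level [Finite F] : ∃ s₀ : ℕ, ∀ s, s₀ ≤ s →
    (∀ J, J ≠ Finset.univ → ∀ h ∈ HH F N J, ∀ ω : Up F N ⧸ Gam F N s, h • ω = ω → h = 1) ∧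
    (∀ I : Finset (Fin N), I.Nonempty → ∀ ω ω' : Up F N ⧸ Gam F N s,
      (∀ i ∈ I, ω' ∈ MulAction.orbit (HH F N {i}ᶜ) ω) → ω' ∈ MulAction.orbit (HH F N Iᶜ) ω) := by
  let T : Set (Up F N) := ⋃ J ∈ {J : Finset (Fin N) | J ≠ Finset.univ}, (HH F N J : Set (Up F N))
  have hT : T.Finite := (Set.toFinite _).biUnion fun J hJ => by
    have := HH_finite (F := F) (show J ≠ Finset.univ from hJ)
    exact Set.toFinite _
  have hmemT : ∀ J, J ≠ Finset.univ → ∀ h ∈ HH F N J, h ∈ T := fun J hJ h hh =>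
    Set.mem_biUnion (show J ∈ {J : Finset (Fin N) | J ≠ Finset.univ} from hJ) hh
  obtain ⟨s₀, hs₀⟩ := eventually_not_mem_Gam (Set.image2 (fun h h' => h⁻¹ * h') T T)
    (hT.image2 _ hT)
  refine ⟨s₀, fun s hs => ⟨fun J hJ h hh ω e => ?_, fun I hI ω ω' hω => ?_⟩⟩
  · refine hs₀ s hs h ⟨1, hmemT J hJ 1 (one_mem _), h, hmemT J hJ h hh, by simp⟩
      (level_mem_of_smul_eq e)
  · obtain ⟨i₀, hi₀⟩ := hI
    have hne : ∀ i : Fin N, ({i}ᶜ : Finset (Fin N)) ≠ Finset.univ := fun i h => by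
      have : i ∈ ({i}ᶜ : Finset (Fin N)) := h ▸ Finset.mem_univ i
      simp at this
    obtain ⟨⟨h₀, hh₀⟩, e₀⟩ := hω i₀ hi₀
    have e₀' : h₀ • ω = ω' := e₀
    refine ⟨⟨h₀, fun i hi => ?_⟩, e₀'⟩
    have hi' : i ∈ I := by simpa using hi
    obtain ⟨⟨h, hh⟩, e⟩ := hω i hi'
    have e' : h • ω = ω' := e
    have : h₀⁻¹ * h = 1 := by
      refine hs₀ s hs _ ⟨h₀, hmemT _ (hne i₀) _ hh₀, h, hmemT _ (hne i) _ hh, rfl⟩
        (level_mem_of_smul_eq (ω := ω) ?_)
      rw [mul_smul, e', inv_smul_eq_iff, e₀']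
    rw [inv_mul_eq_one.1 this]
    exact hh i (by simp)

/-- `U₊` is infinite (transvections `1 + X^(n+1) E₀₁`) and the `Gam s` intersect trivially. -/
theorem card_quot_large [Finite F] (hN : 2 ≤ N) (M : ℕ) :
    ∃ s₀ : ℕ, ∀ s, s₀ ≤ s → M ≤ Nat.card (Up F N ⧸ Gam F N s) := by
  let i₀ : Fin N := ⟨0, by omega⟩
  let i₁ : Fin N := ⟨1, by omega⟩
  have hne : i₀ ≠ i₁ := by simp [i₀, i₁, Fin.ext_iff]
  let t : ℕ → Up F N := fun n =>
    ⟨⟨Matrix.transvection i₀ i₁ (X ^ (n + 1)), Matrix.det_transvection_of_ne _ _ hne _⟩, by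
      refine mem_Up_iff.2 ⟨fun i => ?_, fun i j hij => ?_⟩
      · simp only [Matrix.transvection, Matrix.add_apply, Matrix.one_apply_eq, coeff_add,
          Matrix.single_apply]
        split_ifs <;> simp
      · simp only [Matrix.transvection, Matrix.add_apply, Matrix.one_apply_ne hij.ne, coeff_add,
          Matrix.single_apply]
        split_ifs <;> simp⟩
  have ht : Function.Injective t := by
    intro n m h
    have h1 : (t n).1.1 i₀ i₁ = (t m).1.1 i₀ i₁ := by rw [h]
    simp only [t, Matrix.transvection, Matrix.add_apply, Matrix.single_apply_same,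
      add_right_inj] at h1
    have := congrArg natDegree h1
    rw [natDegree_X_pow, natDegree_X_pow] at this
    omega
  let T : Set (Up F N) := Set.range fun n : Fin M => t n
  have hT : T.Finite := Set.finite_range _
  obtain ⟨s₀, hs₀⟩ := eventually_not_mem_Gam (Set.image2 (fun h h' => h⁻¹ * h') T T)
    (hT.image2 _ hT)
  refine ⟨s₀, fun s hs => ?_⟩
  have := finite_quot_Gam (F := F) (N := N) s
  have hinj : Function.Injective fun n : Fin M => (t n : Up F N ⧸ Gam F N s) := by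
    intro n m h
    have h1 := hs₀ s hs _ ⟨t n, ⟨n, rfl⟩, t m, ⟨m, rfl⟩, rfl⟩ (QuotientGroup.eq.1 h)
    exact Fin.ext (ht (inv_mul_eq_one.1 h1))
  simpa using Nat.card_le_card_of_injective _ hinj

end Crest.Agent.R66
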