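import Crest.Agent.R66.Chain
import Crest.Agent.R66.CosetDefs

/-!
# R66, task T8: from geometric complexes to coset cochains
-/

set_option autoImplicit false

namespace Crest.Agent.R66

open scoped Pointwise

variable {k : Type*} [CommRing k] {ι : Type*} [Fintype ι] [DecidableEq ι]
  {G : Type*} [Group G] {V : Type*} [DecidableEq V] [MulAction G V] {c : ι → V}

omit [Fintype ι] [DecidableEq ι] in
theorem linkExp_mem_smul_image {g : G} {I : Finset ι} {x : V} :
    x ∈ g • I.image c ↔ ∃ i ∈ I, g • c i = x := by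
  simp only [Finset.mem_smul_finset, Finset.mem_image]
  constructor
  · rintro ⟨y, ⟨i, hi, rfl⟩, rfl⟩
    exact ⟨i, hi, rfl⟩
  · rintro ⟨i, hi, rfl⟩
    exact ⟨c i, ⟨i, hi, rfl⟩, rfl⟩

omit [Fintype ι] [DecidableEq ι] [DecidableEq V] in
theorem linkExp_typ (htyp : ∀ (g : G) (i j : ι), g • c i = c j → i = j) {g g' : G} {i j : ι}
    (h : g • c i = g' • c j) : i = j :=
  htyp (g'⁻¹ * g) i j (by rw [mul_smul, h, inv_smul_smul])

omit [Fintype ι] [DecidableEq ι] in
theorem linkExp_smul_image_eq (g : G) (I : Finset ι) :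
    g • I.image c = I.image (fun i => g • c i) := by
  ext x
  rw [linkExp_mem_smul_image, Finset.mem_image]

omit [Fintype ι] [DecidableEq ι] in
theorem linkExp_card (htyp : ∀ (g : G) (i j : ι), g • c i = c j → i = j) (g : G)
    (I : Finset ι) : (g • I.image c).card = I.card := by
  rw [linkExp_smul_image_eq]
  exact Finset.card_image_of_injective _ fun i j h => linkExp_typ htyp h

omit [Fintype ι] [DecidableEq ι] in
theorem linkExp_eq_of_smul_eq (htyp : ∀ (g : G) (i j : ι), g • c i = c j → i = j) {g g' : G}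
    {I I' : Finset ι} (h : g • I.image c = g' • I'.image c) :
    I = I' ∧ ∀ i ∈ I, g • c i = g' • c i := by
  have key : ∀ {g g' : G} {I I' : Finset ι}, g • I.image c = g' • I'.image c →
      ∀ i ∈ I, i ∈ I' ∧ g • c i = g' • c i := by
    intro g g' I I' h i hi
    have h1 : g • c i ∈ g' • I'.image c := by
      rw [← h]; exact linkExp_mem_smul_image.2 ⟨i, hi, rfl⟩
    obtain ⟨j, hj, hj'⟩ := linkExp_mem_smul_image.1 h1
    have : j = i := linkExp_typ htyp hj'
    subst this
    exact ⟨hj, hj'.symm⟩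
  refine ⟨?_, fun i hi => (key h i hi).2⟩
  ext i
  exact ⟨fun hi => (key h i hi).1, fun hi => (key h.symm i hi).1⟩

omit [Fintype ι] [DecidableEq ι] in
theorem linkExp_smul_fix {g : G} {I : Finset ι} (h : ∀ i ∈ I, g • c i = c i) :
    g • I.image c = I.image c := by
  rw [linkExp_smul_image_eq]
  exact Finset.image_congr fun i hi => h i hi

omit [Fintype ι] in
theorem linkExp_cob (htyp : ∀ (g : G) (i j : ι), g • c i = c j → i = j) (F : Finset V → k)
    (g : G) (I : Finset ι) :
    cob F (g • I.image c) = ∑ i ∈ I, F (g • (I.erase i).image c) := by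
  have hinj : Function.Injective fun i => g • c i := fun i j h => linkExp_typ htyp h
  rw [cob, linkExp_smul_image_eq, Finset.sum_image fun i _ j _ h => hinj h]
  refine Finset.sum_congr rfl fun i _ => ?_
  rw [linkExp_smul_image_eq, Finset.image_erase hinj]

/-- Links of standard faces are the standard complexes. -/
theorem lk_stdCx (htyp : ∀ (g : G) (i j : ι), g • c i = c j → i = j) (J : Finset ι) :
    lk (stdCx G c Finset.univ) (Jᶜ.image c) = stdCx G c J := by
  ext τ
  constructor
  · rintro ⟨hd, h, -, I, -, hI⟩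
    have hH : h ∈ stabH G c J := by
      intro j hj
      have h1 : c j ∈ h • I.image c := by
        rw [← hI]
        exact Finset.mem_union_right _ (Finset.mem_image_of_mem _ (Finset.mem_compl.2 hj))
      obtain ⟨i, -, hi⟩ := linkExp_mem_smul_image.1 h1
      have := htyp _ _ _ hi
      subst this
      exact hi
    refine ⟨h, hH, I ∩ J, Finset.inter_subset_right, ?_⟩
    ext x
    rw [linkExp_mem_smul_image]
    constructor
    · intro hx
      have h1 : x ∈ h • I.image c := by
        rw [← hI]; exact Finset.mem_union_left _ hx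
      obtain ⟨i, hi, rfl⟩ := linkExp_mem_smul_image.1 h1
      refine ⟨i, Finset.mem_inter.2 ⟨hi, ?_⟩, rfl⟩
      by_contra hiJ
      refine Finset.disjoint_left.1 hd hx ?_
      rw [hH i hiJ]
      exact Finset.mem_image_of_mem _ (Finset.mem_compl.2 hiJ)
    · rintro ⟨i, hi, rfl⟩
      obtain ⟨hiI, hiJ⟩ := Finset.mem_inter.1 hi
      have h1 : h • c i ∈ τ ∪ Jᶜ.image c := by
        rw [hI]; exact linkExp_mem_smul_image.2 ⟨i, hiI, rfl⟩
      rcases Finset.mem_union.1 h1 with h2 | h2
      · exact h2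
      · obtain ⟨j, hj, hj'⟩ := Finset.mem_image.1 h2
        have := htyp _ _ _ hj'.symm
        subst this
        exact absurd hiJ (Finset.mem_compl.1 hj)
  · rintro ⟨h, hH, I, hIJ, rfl⟩
    refine ⟨?_, h, by rw [stabH_univ]; trivial, I ∪ Jᶜ, Finset.subset_univ _, ?_⟩
    · rw [Finset.disjoint_left]
      intro x hx hx'
      obtain ⟨i, hi, rfl⟩ := linkExp_mem_smul_image.1 hx
      obtain ⟨j, hj, hj'⟩ := Finset.mem_image.1 hx'
      have := htyp _ _ _ hj'.symm
      subst this
      exact absurd (hIJ hi) (Finset.mem_compl.1 hj)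
    · rw [Finset.image_union, Finset.smul_finset_union,
        linkExp_smul_fix (I := Jᶜ) fun i hi => hH i (Finset.mem_compl.1 hi)]

omit [Fintype ι] [DecidableEq ι] in
theorem isLowerSet_stdCx (J : Finset ι) : IsLowerSet (stdCx G c J) := by
  rintro σ τ hτ ⟨h, hH, I, hIJ, rfl⟩
  refine ⟨h, hH, I.filter (fun i => h • c i ∈ τ), (Finset.filter_subset _ _).trans hIJ, ?_⟩
  ext x
  rw [linkExp_mem_smul_image]
  constructor
  · intro hx
    obtain ⟨i, hi, rfl⟩ := linkExp_mem_smul_image.1 (hτ hx)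
    exact ⟨i, Finset.mem_filter.2 ⟨hi, hx⟩, rfl⟩
  · rintro ⟨i, hi, rfl⟩
    exact (Finset.mem_filter.1 hi).2

omit [Fintype ι] [DecidableEq ι] in
theorem smul_mem_stdCx {J : Finset ι} {h : G} (hh : h ∈ stabH G c J) {σ : Finset V}
    (hσ : σ ∈ stdCx G c J) : h • σ ∈ stdCx G c J := by
  obtain ⟨g, hg, I, hI, rfl⟩ := hσ
  exact ⟨h * g, mul_mem hh hg, I, hI, by rw [mul_smul]⟩

omit [CommRing k] [Fintype ι] in
theorem linkExp_exists_geom [Zero k] (htyp : ∀ (g : G) (i j : ι), g • c i = c j → i = j)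
    (J : Finset ι) (a : ℕ) (f : Finset ι → G → k)
    (hf : ∀ I ⊆ J, I.card = a → ∀ h ∈ stabH G c (J \ I), ∀ g ∈ stabH G c J,
      f I (h * g) = f I g) :
    ∃ F : Finset V → k, ∀ I ⊆ J, I.card = a → ∀ g ∈ stabH G c J,
      F (g⁻¹ • I.image c) = f I g := by
  classical
  refine ⟨fun σ => if h : ∃ p : Finset ι × G, p.2 ∈ stabH G c J ∧ σ = p.2⁻¹ • p.1.image c
    then f h.choose.1 h.choose.2 else 0, ?_⟩
  intro I hI hIa g hg
  have hex : ∃ p : Finset ι × G, p.2 ∈ stabH G c J ∧ g⁻¹ • I.image c = p.2⁻¹ • p.1.image c :=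
    ⟨(I, g), hg, rfl⟩
  simp only [dif_pos hex]
  obtain ⟨h1, h2⟩ := hex.choose_spec
  obtain ⟨h3, h4⟩ := linkExp_eq_of_smul_eq htyp h2
  rw [← h3]
  have hmem : hex.choose.2 * g⁻¹ ∈ stabH G c (J \ I) := by
    intro i hi
    by_cases hiJ : i ∈ J
    · have hiI : i ∈ I := by
        by_contra hiI
        exact hi (Finset.mem_sdiff.2 ⟨hiJ, hiI⟩)
      rw [mul_smul, h4 i hiI, smul_inv_smul]
    · exact (mul_mem h1 (inv_mem hg)) i hiJ
  have := hf I hI hIa _ hmem g hg
  rwa [inv_mul_cancel_right] at this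

omit [Fintype ι] in
/-- A coset cochain comes from a geometric cochain: `F (g⁻¹ • c_I) = f I g`. -/
theorem exists_geom (htyp : ∀ (g : G) (i j : ι), g • c i = c j → i = j) (J : Finset ι) (a : ℕ)
    (f : Finset ι → G → k) (hf : IsCochOn (stabH G c) J a f) :
    ∃ F : Finset V → k, ∀ I ⊆ J, I.card = a → ∀ g ∈ stabH G c J, F (g⁻¹ • I.image c) = f I g :=
  linkExp_exists_geom htyp J a f hf

/-- The stabiliser of a non-empty simplex is conjugate into some `stabH G c {i}ᶜ`. -/
theorem finite_stabilizer (htyp : ∀ (g : G) (i j : ι), g • c i = c j → i = j)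
    (hfin : ∀ i : ι, Finite (stabH G c {i}ᶜ)) {σ : Finset V} (hσ : σ ∈ stdCx G c Finset.univ)
    (hne : σ.Nonempty) : Finite (MulAction.stabilizer G σ) := by
  obtain ⟨h, -, I, -, rfl⟩ := hσ
  obtain ⟨x, hx⟩ := hne
  obtain ⟨i, hi, rfl⟩ := linkExp_mem_smul_image.1 hx
  have := hfin i
  have hmem : ∀ g : MulAction.stabilizer G (h • I.image c),
      h⁻¹ * (g : G) * h ∈ stabH G c {i}ᶜ := by
    intro g j hj
    have hji : j = i := by simpa using hj
    subst hji
    have h1 : ((g : G) * h) • I.image c = h • I.image c := by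
      rw [mul_smul]; exact g.2
    have h2 := (linkExp_eq_of_smul_eq htyp h1).2 j hi
    rw [mul_assoc, mul_smul, h2, inv_smul_smul]
  refine Finite.of_injective
    (fun g : MulAction.stabilizer G (h • I.image c) =>
      (⟨h⁻¹ * (g : G) * h, hmem g⟩ : stabH G c {i}ᶜ)) ?_
  intro g g' hgg'
  have h1 : h⁻¹ * (g : G) * h = h⁻¹ * (g' : G) * h := congrArg Subtype.val hgg'
  exact Subtype.ext (mul_left_cancel (mul_right_cancel h1))

omit [Fintype ι] [DecidableEq ι] [DecidableEq V] in
theorem linkExp_ncard (H : Subgroup G) [Fintype H] (P : G → Prop) [DecidablePred P] :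
    Set.ncard {g | g ∈ H ∧ P g} = (Finset.univ.filter fun g : H => P g).card := by
  classical
  rw [← Finset.card_image_of_injective _ Subtype.val_injective, ← Set.ncard_coe_finset]
  congr 1
  ext g
  simp [and_comm]

/-- A cone of bounded radius and transitivity give coboundary expansion.  With `F` from
`exists_geom`, for `g ∈ H J` let `u_g I h = pair F (g • c (g⁻¹ • h⁻¹ • c_I))`; by `IsCone.eval`
(for the cochain `σ ↦ F (g • σ)`), `(f - dC u_g) I h = pair (cob F) (g • c (g⁻¹ • h⁻¹ • c_I))`.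
Sum the supports over `g`, substitute `h' = h g`: the total is at most
`∑_I ∑_{h'} ∑_{τ ∈ supp c(h'⁻¹ c_I)} #{g | cob F (g • τ) ≠ 0} ≤ 2^|ι| * |H J| * R * cntOn (dC f)`;
pick `g` below the average. -/
theorem linkExp_of_cone [CharP k 2] (htyp : ∀ (g : G) (i j : ι), g • c i = c j → i = j)
    (J : Finset ι) [Finite (stabH G c J)] (R : ℕ) (co : Finset V → Chain k V)
    (hco : IsCone k (stdCx G c J) (J.card - 1) co)
    (hR : ∀ σ ∈ stdCx G c J, σ.card ≤ J.card - 1 → (co σ).support.card ≤ R) :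
    LinkExp k (stabH G c) J (2 ^ Fintype.card ι * R) := by
  classical
  intro a ha haJ f hf
  obtain ⟨F, hF⟩ := exists_geom htyp J a f hf
  let : Fintype (stabH G c J) := Fintype.ofFinite _
  set N := cntOn (stabH G c) J (a + 1) (dC f) with hN
  -- the candidates
  let u : G → Finset ι → G → k := fun g I h =>
    pair (fun σ => F (g • σ)) (co ((h * g)⁻¹ • I.image c))
  have hu : ∀ g : G, IsCochOn (stabH G c) J (a - 1) (u g) := by
    intro g I _ _ h' hh' h _
    have h1 : h'⁻¹ • I.image c = I.image c :=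
      linkExp_smul_fix fun i hi => (inv_mem hh') i fun hi' => (Finset.mem_sdiff.1 hi').2 hi
    have h2 : (h' * h * g)⁻¹ • I.image c = (h * g)⁻¹ • I.image c := by
      rw [mul_assoc, mul_inv_rev, mul_smul, h1]
    simp only [u, h2]
  have hmem : ∀ I ⊆ J, ∀ x ∈ stabH G c J, x⁻¹ • I.image c ∈ stdCx G c J :=
    fun I hI x hx => ⟨x⁻¹, inv_mem hx, I, hI, rfl⟩
  have hle : a ≤ J.card - 1 := by omega
  -- the error term
  have herr : ∀ g ∈ stabH G c J, ∀ I ⊆ J, I.card = a → ∀ h ∈ stabH G c J,
      (f - dC (u g)) I h =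
        pair (cob fun σ => F (g • σ)) (co ((h * g)⁻¹ • I.image c)) := by
    intro g hg I hI hIa h hh
    have h1 := hco.eval (fun σ => F (g • σ)) (hmem I hI _ (mul_mem hh hg))
      (by rw [linkExp_card htyp, hIa]; exact hle)
    rw [linkExp_cob htyp] at h1
    have h2 : g • (h * g)⁻¹ • I.image c = h⁻¹ • I.image c := by
      rw [mul_inv_rev, mul_smul, smul_inv_smul]
    simp only [h2, hF I hI hIa h hh] at h1
    simp only [Pi.sub_apply, dC, u]
    rw [h1, add_sub_cancel_right]
  -- one simplex of size `a + 1`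
  have hone : ∀ τ ∈ stdCx G c J, τ.card = a + 1 →
      (Finset.univ.filter fun g : stabH G c J =>
        cob (fun σ => F ((g : G) • σ)) τ ≠ 0).card ≤ N := by
    rintro τ ⟨h, hh, I, hI, rfl⟩ hcard
    rw [linkExp_card htyp] at hcard
    have h1 : ∀ g : stabH G c J,
        cob (fun σ => F ((g : G) • σ)) (h • I.image c) = dC f I ((g : G) * h)⁻¹ := by
      intro g
      rw [linkExp_cob htyp, dC]
      refine Finset.sum_congr rfl fun i hi => ?_
      rw [← hF (I.erase i) ((Finset.erase_subset _ _).trans hI)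
        (by rw [Finset.card_erase_of_mem hi, hcard]; rfl) _ (inv_mem (mul_mem g.2 hh)),
        inv_inv, mul_smul]
    have h2 : Set.ncard {g | g ∈ stabH G c J ∧ dC f I g ≠ 0} ≤ N := by
      rw [hN, cntOn]
      exact Finset.single_le_sum
        (f := fun I => Set.ncard {g | g ∈ stabH G c J ∧ dC f I g ≠ 0})
        (fun _ _ => Nat.zero_le _) (Finset.mem_powersetCard.2 ⟨hI, hcard⟩)
    refine le_trans ?_ h2
    rw [linkExp_ncard]
    refine Finset.card_le_card_of_injOn (fun g => (g * ⟨h, hh⟩)⁻¹) ?_ ?_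
    · intro g hg
      simp only [Finset.coe_filter, Finset.mem_univ, true_and, Set.mem_ofPred_eq] at hg ⊢
      rw [h1] at hg
      exact hg
    · intro g _ g' _ hgg'
      exact mul_right_cancel (inv_injective hgg')
  -- one simplex of size `a`
  have htwo : ∀ σ ∈ stdCx G c J, σ.card = a →
      (Finset.univ.filter fun g : stabH G c J =>
        pair (cob fun σ => F ((g : G) • σ)) (co σ) ≠ 0).card ≤ R * N := by
    intro σ hσ hcard
    have hsupp := mem_Cs.1 (hco σ hσ (hcard ▸ hle)).1
    calc _ ≤ ((co σ).support.biUnion fun τ => Finset.univ.filter fun g : stabH G c J =>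
            cob (fun σ => F ((g : G) • σ)) τ ≠ 0).card := by
          refine Finset.card_le_card fun g hg => ?_
          rw [Finset.mem_filter] at hg
          by_contra hcon
          refine hg.2 (pair_eq_zero fun τ hτ => ?_)
          by_contra hne
          exact hcon (Finset.mem_biUnion.2
            ⟨τ, hτ, Finset.mem_filter.2 ⟨Finset.mem_univ _, hne⟩⟩)
      _ ≤ (co σ).support.card * N :=
          Finset.card_biUnion_le_card_mul _ _ _ fun τ hτ =>
            hone τ (hsupp τ hτ).1 (by rw [(hsupp τ hτ).2, hcard])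
      _ ≤ R * N := Nat.mul_le_mul_right _ (hR σ hσ (hcard ▸ hle))
  -- one type
  have hthree : ∀ I ∈ J.powersetCard a,
      ∑ g : stabH G c J, Set.ncard {h | h ∈ stabH G c J ∧ (f - dC (u g)) I h ≠ 0} ≤
        ∑ _g : stabH G c J, R * N := by
    intro I hI
    obtain ⟨hIJ, hIa⟩ := Finset.mem_powersetCard.1 hI
    have h1 : ∀ g : stabH G c J,
        Set.ncard {h | h ∈ stabH G c J ∧ (f - dC (u g)) I h ≠ 0} =
          ∑ h' : stabH G c J, if pair (cob fun σ => F ((g : G) • σ))
            (co ((h' : G)⁻¹ • I.image c)) ≠ 0 then 1 else 0 := by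
      intro g
      rw [linkExp_ncard, Finset.card_filter]
      refine Fintype.sum_equiv (Equiv.mulRight g) _ _ fun h => ?_
      rw [herr g g.2 I hIJ hIa h h.2]
      rfl
    simp only [h1]
    rw [Finset.sum_comm]
    refine Finset.sum_le_sum fun h' _ => ?_
    rw [← Finset.card_filter]
    exact htwo _ (hmem I hIJ _ h'.2) (by rw [linkExp_card htyp, hIa])
  have hsum : ∑ g : stabH G c J, cntOn (stabH G c) J a (f - dC (u g)) ≤
      ∑ _g : stabH G c J, 2 ^ Fintype.card ι * R * N := by
    simp only [cntOn]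
    rw [Finset.sum_comm]
    refine (Finset.sum_le_sum hthree).trans ?_
    rw [Finset.sum_comm]
    refine Finset.sum_le_sum fun g _ => ?_
    rw [Finset.sum_const, smul_eq_mul, mul_assoc]
    refine Nat.mul_le_mul_right _ ?_
    rw [← Fintype.card_finset]
    exact Finset.card_le_univ _
  obtain ⟨g, -, hg⟩ := Finset.exists_le_of_sum_le Finset.univ_nonempty hsum
  exact ⟨u g, hu g, hg⟩

/-- Geometric twisted exactness gives coset twisted exactness (`exists_geom` with `J = univ`,
then `u I g = U (g⁻¹ • c_I)`). -/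
theorem cosExact_of_twExact (htyp : ∀ (g : G) (i j : ι), g • c i = c j → i = j)
    (Γ : Subgroup G) (χ : Γ →* kˣ) (a : ℕ) (ha : 1 ≤ a)
    (h : TwExact k Γ (stdCx G c Finset.univ) χ a) : CosExact k (stabH G c) Γ χ a := by
  intro f hf hχ hd
  have htop : ∀ g : G, g ∈ stabH G c Finset.univ := fun g => by rw [stabH_univ]; trivial
  obtain ⟨F, hF⟩ := exists_geom htyp Finset.univ a f fun I _ hI h hh g _ =>
    hf I hI h (by rwa [Finset.compl_eq_univ_sdiff]) g
  have hF' : ∀ I : Finset ι, I.card = a → ∀ g : G, F (g • I.image c) = f I g⁻¹ := by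
    intro I hI g
    rw [← hF I (Finset.subset_univ _) hI _ (htop _), inv_inv]
  have hsm : ∀ (γ : Γ) (σ : Finset V), γ • σ = (γ : G) • σ := fun _ _ => rfl
  have hmem : ∀ (I : Finset ι) (g : G), g • I.image c ∈ stdCx G c Finset.univ :=
    fun I g => ⟨g, htop g, I, Finset.subset_univ _, rfl⟩
  obtain ⟨U, hU, hFU⟩ := h F
    (by
      rintro γ σ ⟨g, -, I, -, rfl⟩ hcard
      rw [linkExp_card htyp] at hcard
      rw [hsm, ← mul_smul, hF' I hcard, hF' I hcard, mul_inv_rev, hχ I hcard])
    (by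
      rintro τ ⟨g, -, I, -, rfl⟩ hcard
      rw [linkExp_card htyp] at hcard
      rw [linkExp_cob htyp]
      have h1 : dC f I g⁻¹ = 0 := by rw [hd I hcard]; rfl
      rw [← h1, dC]
      refine Finset.sum_congr rfl fun i hi => ?_
      exact hF' _ (by rw [Finset.card_erase_of_mem hi, hcard]; rfl) g)
  refine ⟨fun I g => U (g⁻¹ • I.image c), ?_, ?_, ?_⟩
  · intro I _ h hh g
    have h1 : h⁻¹ • I.image c = I.image c :=
      linkExp_smul_fix fun i hi => (inv_mem hh) i fun hi' => (Finset.mem_compl.1 hi') hi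
    simp only [smul_eq_mul, mul_inv_rev, mul_smul, h1]
  · intro I hI g γ
    simp only [mul_inv_rev, inv_inv, mul_smul]
    rw [← hsm, hU γ _ (hmem I _) (by rw [linkExp_card htyp, hI])]
  · intro I hI
    funext g
    rw [dC, ← linkExp_cob htyp, ← hFU _ (hmem I _) (by rw [linkExp_card htyp, hI]), hF' I hI,
      inv_inv]

end Crest.Agent.R66
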