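import Crest.Agent.R66.LocGlobAux2

/-!
# R66, task T10: the local-to-global theorem (cosystolic expansion)
-/

set_option autoImplicit false

namespace Crest.Agent.R66

/-- Small locally minimal cocycles vanish.  Let `h` be a cocycle of size `m + 1`
(`1 ≤ m`, `m + 2 ≤ N`) such that `cnt h ≤ cnt (h - dC g)` for all cochains `g` of size `m`
supported on one orbit of `H Rᶜ` and on types `I ⊇ R` (`R` non-empty).  Write `1_I` for the
indicator of `h I ≠ 0`, `α = cnt h`, `n = card Ω`, `E_J = oavg (H J)`, `‖·‖` for the `ℓ²` norm.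
(1) `LinkExp` for `J = Rᶜ` applied to `I g ↦ h (I ∪ R) (g • ω)` and minimality give, pointwise,
`E_{Rᶜ} 1_I ≤ K ∑_{I' ⊇ R, |I'| = m+2} ∑_{v ∈ R} E_{Rᶜ} 1_{I'.erase v}` for `1 ≤ |R| ≤ m`, `R ⊆ I`.
(2) `SpecGap` gives `‖E_{Rᶜ} 1_{I'.erase v}‖ ≤ ‖E_{(R.erase v)ᶜ} 1_{I'.erase v}‖ + √δ √α`, so by
induction `‖E_{Rᶜ} 1_I‖ ≤ (2C)^{|R|} (√(α/n) + √δ) √α`, `C = max K 1 * 2^N * N`.
(3) For `|I| = m+1`, `v ∉ I`, the cocycle condition on `insert v I` gives
`1_I ≤ ∑_{w ∈ I} 1_I * 1_{(insert v I).erase w}`, and with `R = I.erase w`, `J = Rᶜ`, `SpecGap` at `w`: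
`⟪1_I, ψ⟫ = ⟪1_I, E_{J.erase w} ψ⟫ ≤ ‖E_J 1_I‖ ‖E_J ψ‖ + √δ α`.  Summing, `α ≤ α / 2`. -/
theorem small_locmin (N K : ℕ) : ∃ δ₀ η : ℝ, 0 < δ₀ ∧ 0 < η ∧
    ∀ (k : Type) [CommRing k] [CharP k 2] (G : Type) [Group G] (Ω : Type) [MulAction G Ω]
      [Fintype Ω] (H : Finset (Fin N) → Subgroup G), Monotone H →
      (∀ J, J ≠ Finset.univ → Finite (H J)) →
      (∀ J, J ≠ Finset.univ → ∀ h ∈ H J, ∀ ω : Ω, h • ω = ω → h = 1) →
      (∀ ω ω' : Ω, ∃ g ∈ H Finset.univ, g • ω = ω') →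
      (∀ J, J ≠ Finset.univ → LinkExp k H J K) → SpecGap Ω H δ₀ →
      ∀ m : ℕ, 1 ≤ m → m + 2 ≤ N → ∀ h : Finset (Fin N) → Ω → k, IsCoch H (m + 1) h →
        (∀ I : Finset (Fin N), I.card = m + 2 → dC h I = 0) →
        (∀ R : Finset (Fin N), R.Nonempty → ∀ (ω₀ : Ω) (g : Finset (Fin N) → Ω → k),
          IsCoch H m g → (∀ I ω, g I ω ≠ 0 → R ⊆ I ∧ ω ∈ MulAction.orbit (H Rᶜ) ω₀) →
          cnt (m + 1) h ≤ cnt (m + 1) (h - dC g)) →
        (cnt (m + 1) h : ℝ) ≤ η * Fintype.card Ω → cnt (m + 1) h = 0 := by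
  set B : ℝ := (2 * ((K : ℝ) * 2 ^ N * N + 1)) ^ N with hB
  set M : ℝ := 2 ^ N * N + 1 with hM
  have hC1 : (1 : ℝ) ≤ 2 * ((K : ℝ) * 2 ^ N * N + 1) := by
    have : (0 : ℝ) ≤ (K : ℝ) * 2 ^ N * N := by positivity
    linarith
  have hB0 : 0 ≤ B := by positivity
  have hM1 : 1 ≤ M := le_add_of_nonneg_left (by positivity)
  set s : ℝ := 1 / (2 * M * (B ^ 2 + 1)) with hs
  have hden : 1 ≤ 2 * M * (B ^ 2 + 1) := by nlinarith [sq_nonneg B]
  have hs0 : 0 < s := by positivity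
  have hs1 : s ≤ 1 := by rw [hs, div_le_one (by positivity)]; exact hden
  refine ⟨s ^ 2, s ^ 2, by positivity, by positivity, ?_⟩
  intro k _ _ G _ Ω _ _ H hmono hfin hfree htr hexp hgap m _ hm h hc hz hmin hsmall
  have hm' : m + 2 ≤ Fintype.card (Fin N) := by simpa using hm
  have h2 := lg_step2 hmono hm' hfin hfree htr hexp hs0.le hgap hc hz hmin hsmall m le_rfl
  have h3 := lg_step3 hmono hm' hs0.le hB0 hgap hc hz (fun R hR I hI hRI => by
    refine (h2 R hR I hI hRI).trans ?_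
    rw [Fintype.card_fin]
    gcongr
    exact pow_le_pow_right₀ hC1 (by omega))
  rw [Fintype.card_fin] at h3
  set α : ℝ := (cnt (m + 1) h : ℝ) with hα
  have hα0 : 0 ≤ α := Nat.cast_nonneg _
  have h4 : 2 ^ N * N * ((B ^ 2 * s ^ 2 + s) * α) ≤ M * (((B ^ 2 + 1) * s) * α) := by
    gcongr
    · rw [hM]; linarith
    · have : s ^ 2 ≤ s := by nlinarith
      nlinarith [sq_nonneg B]
  have h5 : M * (((B ^ 2 + 1) * s) * α) = α / 2 := by
    rw [hs]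
    field_simp
  have h6 : α = 0 := by linarith
  rw [hα] at h6
  exact_mod_cast h6

/-- Cosystolic expansion.  Let `L₀ = 2^N * B + 1` and let `g` minimise
`L₀ * cnt (a+1) (dC (f - g)) + cnt a g` over cochains of size `a`.  Then `dC (f - g)` is locally
minimal and `cnt a g ≤ L₀ * cnt (dC f)`, `cnt (dC (f - g)) ≤ cnt (dC f)`.  If `cnt (dC f) ≤ η n`
take `z = f - g`, else `z = 0`. -/
theorem local_to_global (N K : ℕ) : ∃ δ₀ : ℝ, 0 < δ₀ ∧ ∀ B : ℕ, ∃ L : ℕ,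
    ∀ (k : Type) [CommRing k] [CharP k 2] (G : Type) [Group G] (Ω : Type) [MulAction G Ω]
      [Fintype Ω] (H : Finset (Fin N) → Subgroup G), Monotone H →
      (∀ J, J ≠ Finset.univ → Finite (H J) ∧ Nat.card (H J) ≤ B) →
      (∀ J, J ≠ Finset.univ → ∀ h ∈ H J, ∀ ω : Ω, h • ω = ω → h = 1) →
      (∀ ω ω' : Ω, ∃ g ∈ H Finset.univ, g • ω = ω') →
      (∀ J, J ≠ Finset.univ → LinkExp k H J K) → SpecGap Ω H δ₀ →
      ∀ a : ℕ, 1 ≤ a → a + 2 ≤ N → ∀ f : Finset (Fin N) → Ω → k, IsCoch H a f →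
        ∃ z : Finset (Fin N) → Ω → k, IsCoch H a z ∧
          (∀ I : Finset (Fin N), I.card = a + 1 → dC z I = 0) ∧
          cnt a (f - z) ≤ L * cnt (a + 1) (dC f) := by
  obtain ⟨δ₀, η, hδ, hη, hsm⟩ := small_locmin N K
  refine ⟨δ₀, hδ, fun B => ⟨2 ^ N * B + 1 + ⌈2 ^ N / η⌉₊, ?_⟩⟩
  intro k _ _ G _ Ω _ _ H hmono hfin hfree htr hexp hgap a ha1 ha2 f hf
  classical
  by_cases hs : (cnt (a + 1) (dC f) : ℝ) ≤ η * Fintype.card Ω
  · set L₀ := 2 ^ N * B + 1 with hL₀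
    have hex : ∃ n, ∃ g : Finset (Fin N) → Ω → k, IsCoch H a g ∧
        L₀ * cnt (a + 1) (dC (f - g)) + cnt a g = n := ⟨_, 0, fun _ _ _ _ _ => rfl, rfl⟩
    obtain ⟨g, hg, hgn⟩ := Nat.find_spec hex
    have hopt : ∀ g' : Finset (Fin N) → Ω → k, IsCoch H a g' →
        L₀ * cnt (a + 1) (dC (f - g)) + cnt a g ≤ L₀ * cnt (a + 1) (dC (f - g')) + cnt a g' := by
      intro g' hg'
      rw [hgn]
      exact Nat.find_min' hex ⟨g', hg', rfl⟩
    have hfg : IsCoch H a (f - g) := fun I hI x hx ω => by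
      simp only [Pi.sub_apply, hf I hI x hx ω, hg I hI x hx ω]
    have h0 := hopt 0 (fun _ _ _ _ _ => rfl)
    have hc0 : cnt a (0 : Finset (Fin N) → Ω → k) = 0 := by simp [cnt]
    rw [sub_zero, hc0, add_zero] at h0
    have hL : 0 < L₀ := by omega
    have h1 : cnt (a + 1) (dC (f - g)) ≤ cnt (a + 1) (dC f) :=
      Nat.le_of_mul_le_mul_left (by omega) hL
    have h2 := hsm k G Ω H hmono (fun J hJ => (hfin J hJ).1) hfree htr hexp hgap a ha1 ha2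
      (dC (f - g)) (lg_isCoch_dC hmono hfg) (fun I _ => lg_dC_dC _ I) ?_
      (le_trans (by exact_mod_cast h1) hs)
    · refine ⟨f - g, hfg, fun I hI => lg_eq_zero_of_cnt h2 hI, ?_⟩
      rw [sub_sub_cancel]
      calc cnt a g ≤ L₀ * cnt (a + 1) (dC f) := by omega
        _ ≤ _ := Nat.mul_le_mul_right _ (by omega)
    · intro R hR ω₀ g' hg' hsupp
      have hne : Rᶜ ≠ Finset.univ := by
        intro h0
        rw [Finset.compl_eq_univ_iff] at h0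
        exact hR.ne_empty h0
      obtain ⟨hfin1, hfin2⟩ := hfin _ hne
      have h3 := hopt (g + g') (fun I hI x hx ω => by
        simp only [Pi.add_apply, hg I hI x hx ω, hg' I hI x hx ω])
      have h4 := lg_cnt_add_le a g g'
      have h5 := lg_cnt_le_of_subset a g' (MulAction.orbit (H Rᶜ) ω₀)
        (fun I ω hω => (hsupp I ω hω).2)
      have h6 : (MulAction.orbit (H Rᶜ) ω₀).ncard ≤ B := by
        refine le_trans ?_ hfin2
        rw [MulAction.orbit, ← Set.image_univ, ← Set.ncard_univ]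
        exact Set.ncard_image_le
      rw [Fintype.card_fin] at h5
      have h7 : cnt a g' ≤ 2 ^ N * B := h5.trans (Nat.mul_le_mul_left _ h6)
      rw [← sub_sub, lg_dC_sub (f - g) g'] at h3
      by_contra hc
      push Not at hc
      have h8 : L₀ * (cnt (a + 1) (dC (f - g) - dC g') + 1) ≤ L₀ * cnt (a + 1) (dC (f - g)) :=
        Nat.mul_le_mul_left _ hc
      rw [mul_add] at h8
      omega
  · refine ⟨0, fun _ _ _ _ _ => rfl, fun I _ => by funext x; simp [dC], ?_⟩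
    push Not at hs
    rw [sub_zero]
    have h1 := lg_cnt_le_of_subset a f Set.univ (fun _ _ _ => Set.mem_univ _)
    rw [Fintype.card_fin, Set.ncard_univ, Nat.card_eq_fintype_card] at h1
    have h2 : (2 : ℝ) ^ N / η ≤ ⌈2 ^ N / η⌉₊ := Nat.le_ceil _
    have h3 : (cnt a f : ℝ) ≤ (⌈(2 : ℝ) ^ N / η⌉₊ : ℝ) * cnt (a + 1) (dC f) := by
      calc (cnt a f : ℝ) ≤ 2 ^ N * Fintype.card Ω := by exact_mod_cast h1
        _ = 2 ^ N / η * (η * Fintype.card Ω) := by field_simp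
        _ ≤ _ := by gcongr
    have h4 : cnt a f ≤ ⌈(2 : ℝ) ^ N / η⌉₊ * cnt (a + 1) (dC f) := by exact_mod_cast h3
    exact h4.trans (Nat.mul_le_mul_right _ (by omega))

end Crest.Agent.R66
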