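import Crest.Agent.R66.Spectral

/-!
# R66, task T10, part 1: counting lemmas and the local inequality coming from link expansion
-/

set_option autoImplicit false

namespace Crest.Agent.R66

open Finset

open Classical in
/-- real indicator of `x ≠ 0` -/
noncomputable def lgInd {k : Type*} [Zero k] (x : k) : ℝ := if x ≠ 0 then 1 else 0

theorem lgInd_nonneg {k : Type*} [Zero k] (x : k) : 0 ≤ lgInd x := by
  unfold lgInd; split_ifs <;> norm_num

theorem lgInd_le_one {k : Type*} [Zero k] (x : k) : lgInd x ≤ 1 := by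
  unfold lgInd; split_ifs <;> norm_num

theorem lgInd_sq {k : Type*} [Zero k] (x : k) : lgInd x ^ 2 = lgInd x := by
  unfold lgInd; split_ifs <;> norm_num

theorem lgInd_zero {k : Type*} [Zero k] : lgInd (0 : k) = 0 := by simp [lgInd]

theorem lgInd_of_ne {k : Type*} [Zero k] {x : k} (h : x ≠ 0) : lgInd x = 1 := by simp [lgInd, h]

theorem lgInd_neg {k : Type*} [AddGroup k] (x : k) : lgInd (-x) = lgInd x := by
  by_cases h : x = 0
  · simp [h]
  · rw [lgInd_of_ne h, lgInd_of_ne (neg_ne_zero.mpr h)]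

theorem lgInd_sum_le {k κ : Type*} [AddCommMonoid k] (s : Finset κ) (x : κ → k) :
    lgInd (∑ i ∈ s, x i) ≤ ∑ i ∈ s, lgInd (x i) := by
  by_cases h : ∑ i ∈ s, x i = 0
  · rw [h, lgInd_zero]
    exact Finset.sum_nonneg fun i _ => lgInd_nonneg _
  · obtain ⟨i, hi, hx⟩ := Finset.exists_ne_zero_of_sum_ne_zero h
    calc lgInd (∑ i ∈ s, x i) ≤ 1 := lgInd_le_one _
      _ = lgInd (x i) := (lgInd_of_ne hx).symm
      _ ≤ _ := Finset.single_le_sum (f := fun i => lgInd (x i)) (fun j _ => lgInd_nonneg _) hi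

theorem lgInd_add_le {k : Type*} [AddCommMonoid k] (x y : k) :
    lgInd (x + y) ≤ lgInd x + lgInd y := by
  have := lgInd_sum_le (univ : Finset (Fin 2)) ![x, y]
  simpa using this

theorem lg_ncard_eq {k X : Type*} [Zero k] [Fintype X] (φ : X → k) :
    ((Set.ncard {x | φ x ≠ 0} : ℕ) : ℝ) = ∑ x, lgInd (φ x) := by
  classical
  have : {x | φ x ≠ 0} = ↑(univ.filter fun x => φ x ≠ 0) := by simp
  rw [this, Set.ncard_coe_finset, Finset.card_filter]
  push_cast
  refine Finset.sum_congr rfl fun x _ => ?_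
  unfold lgInd
  congr

section

variable {k : Type*} [CommRing k] {ι : Type*} [Fintype ι] [DecidableEq ι]
  {G : Type*} [Group G] {Ω : Type*} [MulAction G Ω]

theorem lg_cnt_eq {X : Type*} [Fintype X] (a : ℕ) (f : Finset ι → X → k) :
    (cnt a f : ℝ) = ∑ I ∈ (univ : Finset ι).powersetCard a, ∑ x, lgInd (f I x) := by
  simp only [cnt, Nat.cast_sum, lg_ncard_eq]

theorem lg_cntOn_eq (H : Finset ι → Subgroup G) (J : Finset ι) [Fintype (H J)] (a : ℕ)
    (f : Finset ι → G → k) :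
    (cntOn H J a f : ℝ) = ∑ I ∈ J.powersetCard a, ∑ g : H J, lgInd (f I g) := by
  simp only [cntOn, Nat.cast_sum]
  refine Finset.sum_congr rfl fun I _ => ?_
  have : {g | g ∈ H J ∧ f I g ≠ 0} = Subtype.val '' {g : H J | f I g ≠ 0} := by
    ext g
    simp [and_comm]
  rw [this, Set.ncard_image_of_injective _ Subtype.val_injective, lg_ncard_eq]

theorem lg_sum_superset {M : Type*} [AddCommMonoid M] (R : Finset ι) (a : ℕ) (φ : Finset ι → M) :
    ∑ I ∈ ((univ : Finset ι).powersetCard (a + R.card)).filter (R ⊆ ·), φ I =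
      ∑ S ∈ Rᶜ.powersetCard a, φ (S ∪ R) := by
  symm
  refine Finset.sum_nbij' (fun S => S ∪ R) (fun I => I \ R) ?_ ?_ ?_ ?_ ?_
  · intro S hS
    rw [Finset.mem_powersetCard] at hS
    have hd : Disjoint S R := by
      rw [Finset.disjoint_left]
      intro x hx
      simpa using hS.1 hx
    simp only [Finset.mem_filter, Finset.mem_powersetCard, Finset.subset_univ, true_and]
    exact ⟨by rw [Finset.card_union_of_disjoint hd, hS.2], Finset.subset_union_right⟩
  · intro I hI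
    simp only [Finset.mem_filter, Finset.mem_powersetCard, Finset.subset_univ, true_and] at hI
    rw [Finset.mem_powersetCard]
    refine ⟨fun x hx => by simpa using (Finset.mem_sdiff.mp hx).2, ?_⟩
    rw [Finset.card_sdiff_of_subset hI.2, hI.1]
    omega
  · intro S hS
    rw [Finset.mem_powersetCard] at hS
    ext x
    simp only [Finset.mem_sdiff, Finset.mem_union]
    constructor
    · rintro ⟨h1 | h1, h2⟩
      · exact h1
      · exact absurd h1 h2
    · intro hx
      exact ⟨Or.inl hx, by simpa using hS.1 hx⟩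
  · intro I hI
    simp only [Finset.mem_filter] at hI
    exact Finset.sdiff_union_of_subset hI.2
  · intro S _
    rfl

open Classical in
theorem lg_sum_orbit [Fintype Ω] (A : Subgroup G) [Fintype A]
    (hfree : ∀ h ∈ A, ∀ ω : Ω, h • ω = ω → h = 1) (ω₀ : Ω) (φ : Ω → ℝ) :
    ∑ ω ∈ univ.filter (fun ω => ω ∈ MulAction.orbit A ω₀), φ ω = ∑ g : A, φ ((g : G) • ω₀) := by
  symm
  refine Finset.sum_bij (fun g _ => (g : G) • ω₀) ?_ ?_ ?_ ?_
  · intro g _
    simp only [Finset.mem_filter, Finset.mem_univ, true_and]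
    exact ⟨g, rfl⟩
  · intro g _ g' _ hg
    have := hfree ((g' : G)⁻¹ * g) (A.mul_mem (A.inv_mem g'.2) g.2) ω₀ (by
      rw [mul_smul, hg, inv_smul_smul])
    exact Subtype.ext (inv_mul_eq_one.mp this).symm
  · intro ω hω
    simp only [Finset.mem_filter, Finset.mem_univ, true_and] at hω
    obtain ⟨g, hg⟩ := hω
    exact ⟨g, Finset.mem_univ _, hg⟩
  · intro g _
    rfl

open Classical in
/-- extension by zero of a link cochain to a global cochain supported on one orbit -/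
noncomputable def lgExt (A : Subgroup G) (R : Finset ι) (ω₀ : Ω) (u : Finset ι → G → k)
    (T : Finset ι) (ω : Ω) : k :=
  if h : R ⊆ T ∧ ω ∈ MulAction.orbit A ω₀ then u (T \ R) (h.2.choose : A) else 0

theorem lgExt_smul {A : Subgroup G} (hfree : ∀ h ∈ A, ∀ ω : Ω, h • ω = ω → h = 1)
    {R T : Finset ι} (hT : R ⊆ T) (ω₀ : Ω) (u : Finset ι → G → k) {g : G} (hg : g ∈ A) :
    lgExt A R ω₀ u T (g • ω₀) = u (T \ R) g := by
  have h : R ⊆ T ∧ g • ω₀ ∈ MulAction.orbit A ω₀ := ⟨hT, ⟨⟨g, hg⟩, rfl⟩⟩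
  rw [lgExt, dif_pos h]
  congr 1
  have h1 : ((h.2.choose : A) : G) • ω₀ = g • ω₀ := h.2.choose_spec
  have := hfree (g⁻¹ * (h.2.choose : A)) (A.mul_mem (A.inv_mem hg) (h.2.choose).2) ω₀ (by
      rw [mul_smul, h1, inv_smul_smul])
  exact (inv_mul_eq_one.mp this).symm

theorem lgExt_ne {A : Subgroup G} {R T : Finset ι} {ω₀ ω : Ω} {u : Finset ι → G → k}
    (h : lgExt A R ω₀ u T ω ≠ 0) : R ⊆ T ∧ ω ∈ MulAction.orbit A ω₀ := by
  by_contra hc
  exact h (by rw [lgExt, dif_neg hc])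

theorem lg_union_compl {R S : Finset ι} : (S ∪ R)ᶜ = Rᶜ \ S := by
  ext x; simp only [Finset.mem_compl, Finset.mem_union, Finset.mem_sdiff]; tauto

theorem lg_card_union {R S : Finset ι} (h : S ⊆ Rᶜ) : (S ∪ R).card = S.card + R.card := by
  apply Finset.card_union_of_disjoint
  rw [Finset.disjoint_left]
  intro x hx
  simpa using h hx

/-- Step (1): the local inequality. -/
theorem lg_step1 [Fintype Ω] {H : Finset ι → Subgroup G} (hmono : Monotone H) {K m : ℕ}
    (hm : m + 2 ≤ Fintype.card ι) {R : Finset ι} (hR : R.card ≤ m) [Fintype (H Rᶜ)]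
    (hfree : ∀ h ∈ H Rᶜ, ∀ ω : Ω, h • ω = ω → h = 1) (hexp : LinkExp k H Rᶜ K)
    {h : Finset ι → Ω → k} (hc : IsCoch H (m + 1) h)
    (hz : ∀ I : Finset ι, I.card = m + 2 → dC h I = 0)
    (hmin : ∀ (ω₀ : Ω) (g : Finset ι → Ω → k),
      IsCoch H m g → (∀ I ω, g I ω ≠ 0 → R ⊆ I ∧ ω ∈ MulAction.orbit (H Rᶜ) ω₀) →
      cnt (m + 1) h ≤ cnt (m + 1) (h - dC g))
    {I : Finset ι} (hI : I.card = m + 1) (hRI : R ⊆ I) (ω₀ : Ω) :
    oavg (H Rᶜ) (fun ω => lgInd (h I ω)) ω₀ ≤
      K * ∑ S ∈ Rᶜ.powersetCard (m + 2 - R.card), ∑ v ∈ R,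
        oavg (H Rᶜ) (fun ω => lgInd (h ((S ∪ R).erase v) ω)) ω₀ := by
  classical
  obtain ⟨a, ha⟩ : ∃ a, m + 1 = a + R.card := ⟨m + 1 - R.card, by omega⟩
  have ha1 : 1 ≤ a := by omega
  set f : Finset ι → G → k := fun S g => h (S ∪ R) (g • ω₀) with hf
  have hfc : IsCochOn H Rᶜ a f := by
    intro S hS hSa x hx g _
    simp only [hf, mul_smul]
    exact hc _ (by rw [lg_card_union hS]; omega) x (by rwa [lg_union_compl]) _
  obtain ⟨u, hu, hle⟩ := hexp a ha1 (by rw [Finset.card_compl]; omega) f hfc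
  set g' := lgExt (H Rᶜ) R ω₀ u with hg'
  have hg'c : IsCoch H m g' := by
    intro T hT x hx ω
    by_cases h1 : R ⊆ T
    · have hx' : x ∈ H Rᶜ := hmono (Finset.compl_subset_compl.mpr h1) hx
      by_cases h2 : ω ∈ MulAction.orbit (H Rᶜ) ω₀
      · obtain ⟨g, rfl⟩ := h2
        change g' T (x • (g : G) • ω₀) = g' T ((g : G) • ω₀)
        rw [← mul_smul, hg', lgExt_smul hfree h1 _ _ (Subgroup.mul_mem _ hx' g.2),
          lgExt_smul hfree h1 _ _ g.2]
        refine hu _ (fun y hy => by simpa using (Finset.mem_sdiff.mp hy).2) ?_ x ?_ _ g.2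
        · rw [Finset.card_sdiff_of_subset h1]; omega
        · rwa [← lg_union_compl, Finset.sdiff_union_of_subset h1]
      · have h3 : x • ω ∉ MulAction.orbit (H Rᶜ) ω₀ := by
          rintro ⟨g, hg⟩
          apply h2
          refine ⟨(⟨x, hx'⟩ : H Rᶜ)⁻¹ * g, ?_⟩
          change ((x⁻¹ * (g : G)) • ω₀) = ω
          rw [mul_smul]
          change x⁻¹ • (g • ω₀) = ω
          simp only at hg
          rw [hg, inv_smul_smul]
        rw [hg', lgExt, lgExt, dif_neg (fun hh => h3 hh.2), dif_neg (fun hh => h2 hh.2)]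
    · rw [hg', lgExt, lgExt, dif_neg (fun hh => h1 hh.1), dif_neg (fun hh => h1 hh.1)]
  have hm1 := hmin ω₀ g' hg'c (fun I ω hne => lgExt_ne hne)
  -- decomposition of the counts
  have split : ∀ F : Finset ι → Ω → k, (cnt (m + 1) F : ℝ) =
      ∑ S ∈ Rᶜ.powersetCard a, ∑ g : H Rᶜ, lgInd (F (S ∪ R) ((g : G) • ω₀)) +
      ∑ T ∈ (univ : Finset ι).powersetCard (m + 1), ∑ ω,
        if R ⊆ T ∧ ω ∈ MulAction.orbit (H Rᶜ) ω₀ then 0 else lgInd (F T ω) := by
    intro F
    rw [← lg_sum_superset R a (fun T => ∑ g : H Rᶜ, lgInd (F T ((g : G) • ω₀))), ← ha,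
      Finset.sum_filter, ← Finset.sum_add_distrib, lg_cnt_eq]
    refine Finset.sum_congr rfl fun T _ => ?_
    by_cases h1 : R ⊆ T
    · rw [if_pos h1, ← lg_sum_orbit (H Rᶜ) hfree ω₀ (fun ω => lgInd (F T ω)), Finset.sum_filter,
        ← Finset.sum_add_distrib]
      refine Finset.sum_congr rfl fun ω _ => ?_
      by_cases h2 : ω ∈ MulAction.orbit (H Rᶜ) ω₀ <;> simp [h1, h2]
    · simp [h1]
  have e2 : ∑ T ∈ (univ : Finset ι).powersetCard (m + 1), ∑ ω,
        (if R ⊆ T ∧ ω ∈ MulAction.orbit (H Rᶜ) ω₀ then 0 else lgInd ((h - dC g') T ω)) =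
      ∑ T ∈ (univ : Finset ι).powersetCard (m + 1), ∑ ω,
        if R ⊆ T ∧ ω ∈ MulAction.orbit (H Rᶜ) ω₀ then 0 else lgInd (h T ω) := by
    refine Finset.sum_congr rfl fun T _ => Finset.sum_congr rfl fun ω _ => ?_
    split_ifs with h1
    · rfl
    · have : dC g' T ω = 0 := by
        refine Finset.sum_eq_zero fun i _ => ?_
        by_contra hne
        have := lgExt_ne hne
        exact h1 ⟨this.1.trans (Finset.erase_subset _ _), this.2⟩
      simp [this]
  have e3 : ∑ S ∈ Rᶜ.powersetCard a, ∑ g : H Rᶜ, lgInd ((h - dC g') (S ∪ R) ((g : G) • ω₀)) =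
      (cntOn H Rᶜ a (f - dC u) : ℝ) := by
    rw [lg_cntOn_eq]
    refine Finset.sum_congr rfl fun S hS => Finset.sum_congr rfl fun g _ => ?_
    have hS' := (Finset.mem_powersetCard.mp hS).1
    have hd : Disjoint S R := by
      rw [Finset.disjoint_left]
      intro x hx
      simpa using hS' hx
    congr 1
    simp only [Pi.sub_apply, hf, dC]
    congr 1
    rw [Finset.sum_union hd]
    have z : ∑ i ∈ R, g' ((S ∪ R).erase i) ((g : G) • ω₀) = 0 := by
      refine Finset.sum_eq_zero fun i hi => ?_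
      by_contra hne
      have := (lgExt_ne hne).1 hi
      simp at this
    rw [z, add_zero]
    refine Finset.sum_congr rfl fun i hi => ?_
    have hiR : i ∉ R := Finset.disjoint_left.mp hd hi
    rw [hg', lgExt_smul hfree _ _ _ g.2]
    · congr 1
      ext x
      simp only [Finset.mem_sdiff, Finset.mem_erase, Finset.mem_union]
      have : x ∈ S → x ∉ R := fun hx => Finset.disjoint_left.mp hd hx
      tauto
    · intro x hx
      simp only [Finset.mem_erase, Finset.mem_union]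
      exact ⟨fun e => hiR (e ▸ hx), Or.inr hx⟩
  have hm2 : ∑ S ∈ Rᶜ.powersetCard a, ∑ g : H Rᶜ, lgInd (h (S ∪ R) ((g : G) • ω₀)) ≤
      K * (cntOn H Rᶜ (a + 1) (dC f) : ℝ) := by
    have h1 : (cnt (m + 1) h : ℝ) ≤ cnt (m + 1) (h - dC g') := by exact_mod_cast hm1
    rw [split, split, e2, e3] at h1
    have h2 : (cntOn H Rᶜ a (f - dC u) : ℝ) ≤ K * (cntOn H Rᶜ (a + 1) (dC f) : ℝ) := by
      exact_mod_cast hle
    linarith
  have hm3 : ∑ g : H Rᶜ, lgInd (h I ((g : G) • ω₀)) ≤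
      ∑ S ∈ Rᶜ.powersetCard a, ∑ g : H Rᶜ, lgInd (h (S ∪ R) ((g : G) • ω₀)) := by
    have hmem : I \ R ∈ Rᶜ.powersetCard a := by
      rw [Finset.mem_powersetCard]
      refine ⟨fun x hx => by simpa using (Finset.mem_sdiff.mp hx).2, ?_⟩
      rw [Finset.card_sdiff_of_subset hRI]
      omega
    have := Finset.single_le_sum (f := fun S => ∑ g : H Rᶜ, lgInd (h (S ∪ R) ((g : G) • ω₀)))
      (fun S _ => Finset.sum_nonneg fun g _ => lgInd_nonneg _) hmem
    simpa only [Finset.sdiff_union_of_subset hRI] using this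
  have hm4 : (cntOn H Rᶜ (a + 1) (dC f) : ℝ) ≤ ∑ S ∈ Rᶜ.powersetCard (m + 2 - R.card), ∑ v ∈ R,
      ∑ g : H Rᶜ, lgInd (h ((S ∪ R).erase v) ((g : G) • ω₀)) := by
    have e : m + 2 - R.card = a + 1 := by omega
    rw [lg_cntOn_eq, e]
    refine Finset.sum_le_sum fun S hS => ?_
    rw [Finset.sum_comm]
    refine Finset.sum_le_sum fun g _ => ?_
    obtain ⟨hS1, hS2⟩ := Finset.mem_powersetCard.mp hS
    have hd : Disjoint S R := by
      rw [Finset.disjoint_left]
      intro x hx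
      simpa using hS1 hx
    have h0 := congrFun (hz (S ∪ R) (by rw [lg_card_union hS1]; omega)) ((g : G) • ω₀)
    simp only [dC, Pi.zero_apply] at h0
    rw [Finset.sum_union hd] at h0
    have h1 : dC f S g = -∑ v ∈ R, h ((S ∪ R).erase v) ((g : G) • ω₀) := by
      rw [← eq_neg_of_add_eq_zero_left h0]
      simp only [dC, hf]
      refine Finset.sum_congr rfl fun i hi => ?_
      congr 1
      ext x
      simp only [Finset.mem_erase, Finset.mem_union]
      have hiR : i ∉ R := Finset.disjoint_left.mp hd hi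
      constructor
      · rintro (⟨h1, h2⟩ | h1)
        · exact ⟨h1, Or.inl h2⟩
        · exact ⟨fun e => hiR (e ▸ h1), Or.inr h1⟩
      · tauto
    rw [h1, lgInd_neg]
    exact lgInd_sum_le _ _
  have hpos : (0 : ℝ) < Fintype.card (H Rᶜ) := by exact_mod_cast Fintype.card_pos
  simp only [oavg_eq_sum, ← Finset.sum_div]
  rw [← mul_div_assoc]
  apply div_le_div_of_nonneg_right _ hpos.le
  calc _ ≤ _ := hm3
    _ ≤ _ := hm2
    _ ≤ _ := by gcongr

end

end Crest.Agent.R66
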