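import Crest.Agent.R66.LocGlobAux1

/-!
# R66, task T10, part 2: the second-moment argument
-/

set_option autoImplicit false

namespace Crest.Agent.R66

open Finset

section nrm

variable {Ω : Type*} [Fintype Ω]

/-- the `ℓ²` norm -/
noncomputable def lgNrm (φ : Ω → ℝ) : ℝ := √(∑ ω, φ ω ^ 2)

theorem lgNrm_nonneg (φ : Ω → ℝ) : 0 ≤ lgNrm φ := Real.sqrt_nonneg _

theorem lgNrm_eq (φ : Ω → ℝ) : lgNrm φ = ‖(WithLp.toLp 2 φ : EuclideanSpace ℝ Ω)‖ := by
  rw [EuclideanSpace.norm_eq, lgNrm]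
  simp

theorem lgNrm_add_le (φ ψ : Ω → ℝ) : lgNrm (φ + ψ) ≤ lgNrm φ + lgNrm ψ := by
  simp only [lgNrm_eq, WithLp.toLp_add]
  exact norm_add_le _ _

theorem lgNrm_sum_le {κ : Type*} (s : Finset κ) (φ : κ → Ω → ℝ) :
    lgNrm (fun ω => ∑ i ∈ s, φ i ω) ≤ ∑ i ∈ s, lgNrm (φ i) := by
  classical
  induction s using Finset.induction_on with
  | empty => simp [lgNrm]
  | insert a s ha ih =>
    simp only [Finset.sum_insert ha]
    exact (lgNrm_add_le (φ a) (fun ω => ∑ i ∈ s, φ i ω)).trans (by linarith)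

theorem lgNrm_mul (c : ℝ) (hc : 0 ≤ c) (φ : Ω → ℝ) : lgNrm (fun ω => c * φ ω) = c * lgNrm φ := by
  simp only [lgNrm, mul_pow, ← Finset.mul_sum]
  rw [Real.sqrt_mul (sq_nonneg c), Real.sqrt_sq hc]

theorem lgNrm_mono {φ ψ : Ω → ℝ} (h0 : ∀ ω, 0 ≤ φ ω) (h : ∀ ω, φ ω ≤ ψ ω) : lgNrm φ ≤ lgNrm ψ :=
  Real.sqrt_le_sqrt (Finset.sum_le_sum fun ω _ => pow_le_pow_left₀ (h0 ω) (h ω) 2)

theorem lg_inner_le (φ ψ : Ω → ℝ) : ∑ ω, φ ω * ψ ω ≤ lgNrm φ * lgNrm ψ :=
  Real.sum_mul_le_sqrt_mul_sqrt _ _ _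

end nrm

section

variable {k : Type*} [CommRing k] {ι : Type*} [Fintype ι] [DecidableEq ι]
  {G : Type*} [Group G] {Ω : Type*} [MulAction G Ω] [Fintype Ω]

theorem lg_sum_ind_le {m : ℕ} (h : Finset ι → Ω → k) {I : Finset ι} (hI : I.card = m) :
    ∑ ω, lgInd (h I ω) ≤ cnt m h := by
  rw [lg_cnt_eq]
  exact Finset.single_le_sum (f := fun I => ∑ ω, lgInd (h I ω))
    (fun S _ => Finset.sum_nonneg fun g _ => lgInd_nonneg _)
    (Finset.mem_powersetCard.mpr ⟨Finset.subset_univ _, hI⟩)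

theorem lgNrm_ind_le {m : ℕ} (h : Finset ι → Ω → k) {I : Finset ι} (hI : I.card = m) :
    lgNrm (fun ω => lgInd (h I ω)) ≤ √(cnt m h) := by
  apply Real.sqrt_le_sqrt
  simp only [lgInd_sq]
  exact lg_sum_ind_le h hI

theorem lg_invU_ind {H : Finset ι → Subgroup G} (hmono : Monotone H) {m : ℕ}
    {h : Finset ι → Ω → k} (hc : IsCoch H m h) {I : Finset ι} (hI : I.card = m) {J : Finset ι}
    (hJ : J ⊆ Iᶜ) : InvU (H J) (fun ω => lgInd (h I ω)) := by
  intro x hx ω
  simp only [hc I hI x (hmono hJ hx) ω]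

theorem lg_gap {H : Finset ι → Subgroup G} (hmono : Monotone H) {s : ℝ} (hs : 0 ≤ s)
    (hgap : SpecGap Ω H (s ^ 2)) {m : ℕ} {h : Finset ι → Ω → k} (hc : IsCoch H m h)
    {I : Finset ι} (hI : I.card = m) {J : Finset ι} {v : ι} (hv : v ∈ J) (hvI : v ∉ I) :
    lgNrm (fun ω => oavg (H (J.erase v)) (fun ω => lgInd (h I ω)) ω -
      oavg (H J) (fun ω => lgInd (h I ω)) ω) ≤ s * √(cnt m h) := by
  have h1 := hgap J v hv _ (lg_invU_ind hmono hc hI (J := {v}) (by simpa using hvI))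
  calc _ ≤ √(s ^ 2 * ∑ ω, lgInd (h I ω) ^ 2) := Real.sqrt_le_sqrt h1
    _ = s * lgNrm (fun ω => lgInd (h I ω)) := by
      rw [Real.sqrt_mul (sq_nonneg s), Real.sqrt_sq hs]; rfl
    _ ≤ _ := mul_le_mul_of_nonneg_left (lgNrm_ind_le h hI) hs

theorem lg_card_powersetCard_le (J : Finset ι) (a : ℕ) :
    ((J.powersetCard a).card : ℝ) ≤ 2 ^ Fintype.card ι := by
  have : (J.powersetCard a).card ≤ 2 ^ Fintype.card ι := by
    rw [← Fintype.card_finset]
    exact Finset.card_le_univ _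
  exact_mod_cast this

/-- Step (2). -/
theorem lg_step2 {H : Finset ι → Subgroup G} (hmono : Monotone H) {K m : ℕ}
    (hm : m + 2 ≤ Fintype.card ι) (hfin : ∀ J, J ≠ univ → Finite (H J))
    (hfree : ∀ J, J ≠ univ → ∀ h ∈ H J, ∀ ω : Ω, h • ω = ω → h = 1)
    (htr : ∀ ω ω' : Ω, ∃ g ∈ H univ, g • ω = ω')
    (hexp : ∀ J, J ≠ univ → LinkExp k H J K) {s : ℝ} (hs : 0 ≤ s) (hgap : SpecGap Ω H (s ^ 2))
    {h : Finset ι → Ω → k} (hc : IsCoch H (m + 1) h)
    (hz : ∀ I : Finset ι, I.card = m + 2 → dC h I = 0)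
    (hmin : ∀ R : Finset ι, R.Nonempty → ∀ (ω₀ : Ω) (g : Finset ι → Ω → k),
      IsCoch H m g → (∀ I ω, g I ω ≠ 0 → R ⊆ I ∧ ω ∈ MulAction.orbit (H Rᶜ) ω₀) →
      cnt (m + 1) h ≤ cnt (m + 1) (h - dC g))
    (hsmall : (cnt (m + 1) h : ℝ) ≤ s ^ 2 * Fintype.card Ω) (r : ℕ) (hr : r ≤ m) :
    ∀ R : Finset ι, R.card = r → ∀ I : Finset ι, I.card = m + 1 → R ⊆ I →
      lgNrm (oavg (H Rᶜ) (fun ω => lgInd (h I ω))) ≤
        (2 * (K * 2 ^ Fintype.card ι * Fintype.card ι + 1)) ^ r * (s * √(cnt (m + 1) h)) := by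
  set α : ℝ := (cnt (m + 1) h : ℝ) with hα
  have hα0 : 0 ≤ α := Nat.cast_nonneg _
  set C : ℝ := K * 2 ^ Fintype.card ι * Fintype.card ι + 1 with hC
  have hC1 : 1 ≤ C := le_add_of_nonneg_left (by positivity)
  induction r with
  | zero =>
    intro R hR I hI _
    rw [Finset.card_eq_zero] at hR
    subst hR
    rw [Finset.compl_empty, pow_zero, one_mul, ← Real.sqrt_sq hs, ← Real.sqrt_mul (sq_nonneg s)]
    apply Real.sqrt_le_sqrt
    simp only [oavg_of_transitive htr, Finset.sum_const, Finset.card_univ, nsmul_eq_mul]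
    have h1 := lg_sum_ind_le h hI
    have h2 : 0 ≤ ∑ ω, lgInd (h I ω) := Finset.sum_nonneg fun g _ => lgInd_nonneg _
    set c := ∑ ω, lgInd (h I ω)
    rcases Nat.eq_zero_or_pos (Fintype.card Ω) with h0 | h0
    · rw [h0]
      simp only [Nat.cast_zero, zero_mul]
      positivity
    · have h0' : (0 : ℝ) < Fintype.card Ω := by exact_mod_cast h0
      have e : (Fintype.card Ω : ℝ) * (c / Fintype.card Ω) ^ 2 = c * c / Fintype.card Ω := by
        field_simp
      rw [e, div_le_iff₀ h0']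
      calc c * c ≤ α * (s ^ 2 * Fintype.card Ω) :=
            mul_le_mul h1 (h1.trans hsmall) h2 hα0
        _ = _ := by ring
  | succ r ih =>
    intro R hR I hI hRI
    have hne : Rᶜ ≠ univ := by
      intro h0
      rw [Finset.compl_eq_univ_iff] at h0
      rw [h0] at hR
      simp at hR
    have := hfin _ hne
    have : Fintype (H Rᶜ) := Fintype.ofFinite _
    have hRne : R.Nonempty := Finset.card_pos.mp (by omega)
    have h1 := lg_step1 hmono hm (R := R) (by omega) (hfree _ hne) (hexp _ hne) hc hz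
      (hmin R hRne) hI hRI
    have hB : (1 : ℝ) ≤ (2 * C) ^ r := one_le_pow₀ (by linarith)
    have hsa : 0 ≤ s * √α := by positivity
    have h2 : ∀ S ∈ Rᶜ.powersetCard (m + 2 - R.card), ∀ v ∈ R,
        lgNrm (oavg (H Rᶜ) (fun ω => lgInd (h ((S ∪ R).erase v) ω))) ≤
          2 * (2 * C) ^ r * (s * √α) := by
      intro S hS v hv
      obtain ⟨hS1, hS2⟩ := Finset.mem_powersetCard.mp hS
      have hcard : ((S ∪ R).erase v).card = m + 1 := by
        rw [Finset.card_erase_of_mem (Finset.mem_union_right _ hv), lg_card_union hS1]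
        omega
      have a1 := ih (by omega) (R.erase v) (by rw [Finset.card_erase_of_mem hv]; omega) _ hcard
        (Finset.erase_subset_erase _ Finset.subset_union_right)
      have a2 := lg_gap hmono hs hgap hc hcard (J := (R.erase v)ᶜ) (v := v) (by simp) (by simp)
      have e : ((R.erase v)ᶜ).erase v = Rᶜ := by
        ext x
        simp only [Finset.mem_erase, Finset.mem_compl]
        constructor
        · tauto
        · intro hx
          exact ⟨fun e => hx (e ▸ hv), fun hh => hx hh.2⟩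
      rw [e] at a2
      have a3 := lgNrm_add_le
        (fun ω => oavg (H Rᶜ) (fun ω => lgInd (h ((S ∪ R).erase v) ω)) ω -
          oavg (H (R.erase v)ᶜ) (fun ω => lgInd (h ((S ∪ R).erase v) ω)) ω)
        (oavg (H (R.erase v)ᶜ) (fun ω => lgInd (h ((S ∪ R).erase v) ω)))
      have e2 : (fun ω => oavg (H Rᶜ) (fun ω => lgInd (h ((S ∪ R).erase v) ω)) ω -
          oavg (H (R.erase v)ᶜ) (fun ω => lgInd (h ((S ∪ R).erase v) ω)) ω) +
          (oavg (H (R.erase v)ᶜ) (fun ω => lgInd (h ((S ∪ R).erase v) ω))) =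
          oavg (H Rᶜ) (fun ω => lgInd (h ((S ∪ R).erase v) ω)) := by
        funext ω
        simp
      rw [e2] at a3
      nlinarith
    have hRN : (R.card : ℝ) ≤ Fintype.card ι := by exact_mod_cast Finset.card_le_univ R
    calc lgNrm (oavg (H Rᶜ) (fun ω => lgInd (h I ω)))
        ≤ lgNrm (fun ω₀ => K * ∑ S ∈ Rᶜ.powersetCard (m + 2 - R.card), ∑ v ∈ R,
          oavg (H Rᶜ) (fun ω => lgInd (h ((S ∪ R).erase v) ω)) ω₀) :=
          lgNrm_mono (fun ω => oavg_nonneg _ (fun _ => lgInd_nonneg _) ω) h1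
      _ ≤ K * ∑ S ∈ Rᶜ.powersetCard (m + 2 - R.card), ∑ v ∈ R,
          lgNrm (oavg (H Rᶜ) (fun ω => lgInd (h ((S ∪ R).erase v) ω))) := by
          rw [lgNrm_mul _ (Nat.cast_nonneg K)]
          gcongr
          exact (lgNrm_sum_le _ _).trans (Finset.sum_le_sum fun S _ => lgNrm_sum_le _ _)
      _ ≤ K * ∑ _S ∈ Rᶜ.powersetCard (m + 2 - R.card), ∑ _v ∈ R,
          2 * (2 * C) ^ r * (s * √α) := by
          gcongr with S hS v hv
          exact h2 S hS v hv
      _ = K * ((Rᶜ.powersetCard (m + 2 - R.card)).card * R.card) *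
          (2 * (2 * C) ^ r * (s * √α)) := by
          simp only [Finset.sum_const, nsmul_eq_mul]
          ring
      _ ≤ C * (2 * (2 * C) ^ r * (s * √α)) := by
          gcongr
          calc (K : ℝ) * ((Rᶜ.powersetCard (m + 2 - R.card)).card * R.card)
              ≤ K * (2 ^ Fintype.card ι * Fintype.card ι) := by
                gcongr
                exact lg_card_powersetCard_le _ _
            _ ≤ C := by rw [hC]; linarith
      _ = _ := by ring

/-- Step (3). -/
theorem lg_step3 {H : Finset ι → Subgroup G} (hmono : Monotone H) {m : ℕ}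
    (hm : m + 2 ≤ Fintype.card ι) {s B : ℝ} (hs : 0 ≤ s) (hB : 0 ≤ B) (hgap : SpecGap Ω H (s ^ 2))
    {h : Finset ι → Ω → k} (hc : IsCoch H (m + 1) h)
    (hz : ∀ I : Finset ι, I.card = m + 2 → dC h I = 0)
    (h2 : ∀ R : Finset ι, R.card = m → ∀ I : Finset ι, I.card = m + 1 → R ⊆ I →
      lgNrm (oavg (H Rᶜ) (fun ω => lgInd (h I ω))) ≤ B * (s * √(cnt (m + 1) h))) :
    (cnt (m + 1) h : ℝ) ≤
      2 ^ Fintype.card ι * Fintype.card ι * ((B ^ 2 * s ^ 2 + s) * cnt (m + 1) h) := by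
  set α : ℝ := (cnt (m + 1) h : ℝ) with hα
  have hα0 : 0 ≤ α := Nat.cast_nonneg _
  have hsq : √α * √α = α := Real.mul_self_sqrt hα0
  have key : ∀ I ∈ (univ : Finset ι).powersetCard (m + 1), ∑ ω, lgInd (h I ω) ≤
      Fintype.card ι * ((B ^ 2 * s ^ 2 + s) * α) := by
    intro I hI
    have hI := (Finset.mem_powersetCard.mp hI).2
    obtain ⟨v, hv⟩ : ∃ v, v ∉ I := by
      by_contra hc
      push Not at hc
      have : I = univ := Finset.eq_univ_of_forall hc
      rw [this, Finset.card_univ] at hI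
      omega
    have a1 : ∀ ω, lgInd (h I ω) ≤
        ∑ w ∈ I, lgInd (h I ω) * lgInd (h ((insert v I).erase w) ω) := by
      intro ω
      have h0 := congrFun (hz (insert v I) (by rw [Finset.card_insert_of_notMem hv, hI])) ω
      simp only [dC, Pi.zero_apply] at h0
      rw [Finset.sum_insert hv, Finset.erase_insert hv] at h0
      rw [← Finset.mul_sum]
      calc lgInd (h I ω) = lgInd (h I ω) * lgInd (h I ω) := by rw [← sq, lgInd_sq]
        _ ≤ _ := by
          apply mul_le_mul_of_nonneg_left _ (lgInd_nonneg _)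
          rw [eq_neg_of_add_eq_zero_left h0, lgInd_neg]
          exact lgInd_sum_le _ _
    have a2 : ∀ w ∈ I, ∑ ω, lgInd (h I ω) * lgInd (h ((insert v I).erase w) ω) ≤
        (B ^ 2 * s ^ 2 + s) * α := by
      intro w hw
      have hcard : ((insert v I).erase w).card = m + 1 := by
        rw [Finset.card_erase_of_mem (Finset.mem_insert_of_mem hw),
          Finset.card_insert_of_notMem hv, hI]
        rfl
      have hR : (I.erase w).card = m := by rw [Finset.card_erase_of_mem hw, hI]; rfl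
      set φ : Ω → ℝ := fun ω => lgInd (h I ω) with hφ
      set ψ : Ω → ℝ := fun ω => lgInd (h ((insert v I).erase w) ω) with hψ
      set J := (I.erase w)ᶜ with hJ
      have b1 : lgNrm (oavg (H J) φ) ≤ B * (s * √α) := h2 _ hR I hI (Finset.erase_subset _ _)
      have b2 : lgNrm (oavg (H J) ψ) ≤ B * (s * √α) :=
        h2 _ hR _ hcard (Finset.erase_subset_erase _ (Finset.subset_insert _ _))
      have b3 : lgNrm (fun ω => oavg (H (J.erase w)) ψ ω - oavg (H J) ψ ω) ≤ s * √α :=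
        lg_gap hmono hs hgap hc hcard (by simp [hJ]) (by simp)
      have b4 : InvU (H (J.erase w)) φ := lg_invU_ind hmono hc hI (by
        intro x hx
        simp only [hJ, Finset.mem_erase, Finset.mem_compl] at hx ⊢
        tauto)
      have b5 : lgNrm φ ≤ √α := lgNrm_ind_le h hI
      have c1 : ∑ ω, φ ω * ψ ω = ∑ ω, oavg (H J) φ ω * oavg (H J) ψ ω +
          ∑ ω, φ ω * (oavg (H (J.erase w)) ψ ω - oavg (H J) ψ ω) := by
        rw [sum_oavg_mul φ (invU_oavg (H J) ψ), ← Finset.sum_add_distrib]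
        have := sum_oavg_mul ψ b4
        calc ∑ ω, φ ω * ψ ω = ∑ ω, ψ ω * φ ω := Finset.sum_congr rfl fun _ _ => mul_comm _ _
          _ = _ := this.symm
          _ = _ := Finset.sum_congr rfl fun _ _ => by ring
      have c2 : ∑ ω, oavg (H J) φ ω * oavg (H J) ψ ω ≤ (B * (s * √α)) * (B * (s * √α)) :=
        (lg_inner_le _ _).trans (mul_le_mul b1 b2 (lgNrm_nonneg _) (by positivity))
      have c3 : ∑ ω, φ ω * (oavg (H (J.erase w)) ψ ω - oavg (H J) ψ ω) ≤ √α * (s * √α) :=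
        (lg_inner_le _ _).trans (mul_le_mul b5 b3 (lgNrm_nonneg _) (by positivity))
      change ∑ ω, φ ω * ψ ω ≤ _
      calc _ = _ := c1
        _ ≤ (B * (s * √α)) * (B * (s * √α)) + √α * (s * √α) := add_le_add c2 c3
        _ = (B ^ 2 * s ^ 2 + s) * (√α * √α) := by ring
        _ = _ := by rw [hsq]
    calc ∑ ω, lgInd (h I ω)
        ≤ ∑ ω, ∑ w ∈ I, lgInd (h I ω) * lgInd (h ((insert v I).erase w) ω) :=
          Finset.sum_le_sum fun ω _ => a1 ω
      _ = ∑ w ∈ I, ∑ ω, lgInd (h I ω) * lgInd (h ((insert v I).erase w) ω) := Finset.sum_comm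
      _ ≤ ∑ _w ∈ I, (B ^ 2 * s ^ 2 + s) * α := Finset.sum_le_sum a2
      _ = I.card * ((B ^ 2 * s ^ 2 + s) * α) := by simp
      _ ≤ _ := by
          gcongr
          exact Finset.card_le_univ I
  calc α = ∑ I ∈ (univ : Finset ι).powersetCard (m + 1), ∑ ω, lgInd (h I ω) := lg_cnt_eq _ _
    _ ≤ ∑ _I ∈ (univ : Finset ι).powersetCard (m + 1),
        Fintype.card ι * ((B ^ 2 * s ^ 2 + s) * α) := Finset.sum_le_sum key
    _ = ((univ : Finset ι).powersetCard (m + 1)).card *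
        (Fintype.card ι * ((B ^ 2 * s ^ 2 + s) * α)) := by
          simp only [Finset.sum_const, nsmul_eq_mul]
    _ ≤ 2 ^ Fintype.card ι * (Fintype.card ι * ((B ^ 2 * s ^ 2 + s) * α)) := by
          gcongr
          exact lg_card_powersetCard_le _ _
    _ = _ := by ring

theorem lg_isCoch_dC {H : Finset ι → Subgroup G} (hmono : Monotone H) {a : ℕ}
    {f : Finset ι → Ω → k} (hf : IsCoch H a f) : IsCoch H (a + 1) (dC f) := by
  intro I hI x hx ω
  refine Finset.sum_congr rfl fun i hi => hf _ ?_ x (hmono ?_ hx) ω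
  · rw [Finset.card_erase_of_mem hi, hI]; rfl
  · exact Finset.compl_subset_compl.mpr (Finset.erase_subset _ _)

theorem lg_dC_dC [CharP k 2] {X : Type*} (f : Finset ι → X → k) (I : Finset ι) :
    dC (dC f) I = 0 := by
  funext x
  simp only [dC, Pi.zero_apply]
  rw [Finset.sum_sigma']
  refine Finset.sum_involution (fun p _ => ⟨p.2, p.1⟩) ?_ ?_ ?_ ?_
  · intro p _
    simp only
    rw [Finset.erase_right_comm]
    exact CharTwo.add_self_eq_zero _
  · intro p hp _ he
    simp only [Finset.mem_sigma, Finset.mem_erase] at hp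
    exact hp.2.1 (congrArg Sigma.fst he)
  · intro p hp
    simp only [Finset.mem_sigma, Finset.mem_erase] at hp ⊢
    exact ⟨hp.2.2, fun e => hp.2.1 e.symm, hp.1⟩
  · intro p _
    rfl

theorem lg_dC_sub {X : Type*} (f g : Finset ι → X → k) : dC (f - g) = dC f - dC g := by
  funext I x
  simp [dC]

theorem lg_cnt_add_le (a : ℕ) (f g : Finset ι → Ω → k) : cnt a (f + g) ≤ cnt a f + cnt a g := by
  have : (cnt a (f + g) : ℝ) ≤ cnt a f + cnt a g := by
    simp only [lg_cnt_eq, ← Finset.sum_add_distrib]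
    exact Finset.sum_le_sum fun I _ => Finset.sum_le_sum fun ω _ => lgInd_add_le _ _
  exact_mod_cast this

theorem lg_cnt_le_of_subset (a : ℕ) (f : Finset ι → Ω → k) (T : Set Ω)
    (h : ∀ I ω, f I ω ≠ 0 → ω ∈ T) : cnt a f ≤ 2 ^ Fintype.card ι * T.ncard := by
  unfold cnt
  calc _ ≤ ∑ _I ∈ (univ : Finset ι).powersetCard a, T.ncard :=
        Finset.sum_le_sum fun I _ => Set.ncard_le_ncard (fun ω hω => h I ω hω) (Set.toFinite _)
    _ = ((univ : Finset ι).powersetCard a).card * T.ncard := by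
        simp only [Finset.sum_const, smul_eq_mul]
    _ ≤ _ := by
        gcongr
        exact_mod_cast lg_card_powersetCard_le (univ : Finset ι) a

theorem lg_eq_zero_of_cnt {a : ℕ} {f : Finset ι → Ω → k} (h : cnt a f = 0) {I : Finset ι}
    (hI : I.card = a) : f I = 0 := by
  funext ω
  have h1 := lg_sum_ind_le f hI
  rw [h] at h1
  have h2 := Finset.single_le_sum (f := fun ω => lgInd (f I ω)) (fun _ _ => lgInd_nonneg _)
    (Finset.mem_univ ω)
  by_contra hne
  simp only [lgInd_of_ne hne] at h2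
  simp only [Nat.cast_zero] at h1
  linarith

end

end Crest.Agent.R66
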