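import Crest.Agent.R66.CosetDefs

/-!
# R66, task T9: orbit averages, angles between invariant subspaces, Garland's method
-/

set_option autoImplicit false

namespace Crest.Agent.R66

variable {G : Type*} [Group G] {Ω : Type*} [MulAction G Ω] [Fintype Ω]

open Classical in
theorem spectral_card_pos (A : Subgroup G) (ω : Ω) :
    (0 : ℝ) < (Finset.univ.filter (fun ω' => ω' ∈ MulAction.orbit A ω)).card := by
  have : (Finset.univ.filter (fun ω' => ω' ∈ MulAction.orbit A ω)).Nonempty :=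
    ⟨ω, by simp⟩
  exact_mod_cast this.card_pos

omit [Fintype Ω] in
theorem spectral_eq_of_mem {A : Subgroup G} {φ : Ω → ℝ} (h : InvU A φ) {ω ω' : Ω}
    (hm : ω' ∈ MulAction.orbit A ω) : φ ω' = φ ω := by
  obtain ⟨g, rfl⟩ := hm
  exact h g g.2 ω

theorem invU_oavg (A : Subgroup G) (φ : Ω → ℝ) : InvU A (oavg A φ) := by
  intro h hh ω
  have : MulAction.orbit A (h • ω) = MulAction.orbit A ω := MulAction.orbit_smul (⟨h, hh⟩ : A) ω
  unfold oavg
  rw [this]

theorem oavg_of_invU {A : Subgroup G} {φ : Ω → ℝ} (h : InvU A φ) : oavg A φ = φ := by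
  classical
  ext ω
  rw [oavg, div_eq_iff (spectral_card_pos A ω).ne', Finset.sum_congr rfl
    (g := fun _ => φ ω) fun ω' h' => spectral_eq_of_mem h (Finset.mem_filter.1 h').2]
  simp [mul_comm]

/-- `oavg A` is the orthogonal projection onto the `A`-invariant functions. -/
theorem sum_oavg_mul {A : Subgroup G} (φ : Ω → ℝ) {θ : Ω → ℝ} (hθ : InvU A θ) :
    ∑ ω, oavg A φ ω * θ ω = ∑ ω, φ ω * θ ω := by
  classical
  simp only [oavg, Finset.sum_div, Finset.sum_mul, Finset.sum_filter]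
  rw [Finset.sum_comm]
  refine Finset.sum_congr rfl fun ω' _ => ?_
  have key : ∀ ω, (if ω' ∈ MulAction.orbit A ω then φ ω' else 0) /
      ((Finset.univ.filter (fun x => x ∈ MulAction.orbit A ω)).card : ℝ) * θ ω =
      if ω ∈ MulAction.orbit A ω' then φ ω' * θ ω' /
        ((Finset.univ.filter (fun x => x ∈ MulAction.orbit A ω')).card : ℝ) else 0 := by
    intro ω
    by_cases h : ω' ∈ MulAction.orbit A ω
    · have h' : ω ∈ MulAction.orbit A ω' := MulAction.mem_orbit_symm.1 h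
      rw [if_pos h, if_pos h', MulAction.orbit_eq_iff.2 h, spectral_eq_of_mem hθ h]
      ring
    · have h' : ω ∉ MulAction.orbit A ω' := fun h' => h (MulAction.mem_orbit_symm.1 h')
      rw [if_neg h, if_neg h']; simp
  simp_rw [key]
  rw [← Finset.sum_filter, Finset.sum_const, nsmul_eq_mul,
    mul_div_cancel₀ _ (spectral_card_pos A ω').ne']

theorem oavg_nonneg (A : Subgroup G) {φ : Ω → ℝ} (h : ∀ ω, 0 ≤ φ ω) (ω : Ω) : 0 ≤ oavg A φ ω := by
  unfold oavg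
  exact div_nonneg (Finset.sum_nonneg fun _ _ => h _) (Nat.cast_nonneg _)

theorem spectral_oavg_unique {A : Subgroup G} {φ ψ : Ω → ℝ} (hψ : InvU A ψ)
    (h : ∀ θ : Ω → ℝ, InvU A θ → ∑ ω, ψ ω * θ ω = ∑ ω, φ ω * θ ω) : oavg A φ = ψ := by
  have hθ : InvU A fun ω => oavg A φ ω - ψ ω := fun g hg ω => by
    simp only [invU_oavg A φ g hg ω, hψ g hg ω]
  have h1 := h _ hθ
  have h2 := sum_oavg_mul φ hθ
  have h3 : ∑ ω, (oavg A φ ω - ψ ω) ^ 2 = 0 := by
    have : ∑ ω, (oavg A φ ω - ψ ω) ^ 2 = ∑ ω, oavg A φ ω * (oavg A φ ω - ψ ω) -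
        ∑ ω, ψ ω * (oavg A φ ω - ψ ω) := by
      rw [← Finset.sum_sub_distrib]
      exact Finset.sum_congr rfl fun ω _ => by ring
    rw [this, h1, h2, sub_self]
  ext ω
  have := (Finset.sum_eq_zero_iff_of_nonneg fun ω _ => sq_nonneg _).1 h3 ω (Finset.mem_univ _)
  exact sub_eq_zero.1 (pow_eq_zero_iff two_ne_zero |>.1 this)

theorem spectral_sum_smul (φ θ : Ω → ℝ) {g : G} (hθ : ∀ ω, θ (g • ω) = θ ω) :
    ∑ ω, φ (g • ω) * θ ω = ∑ ω, φ ω * θ ω :=
  Fintype.sum_equiv (MulAction.toPerm g) _ _ fun ω => by simp [hθ]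

/-- For a finite subgroup the orbit average is the average over the subgroup. -/
theorem oavg_eq_sum (A : Subgroup G) [Fintype A] (φ : Ω → ℝ) (ω : Ω) :
    oavg A φ ω = (∑ h : A, φ ((h : G) • ω)) / (Fintype.card A : ℝ) := by
  have hc : (0 : ℝ) < Fintype.card A := by exact_mod_cast Fintype.card_pos
  refine congrFun (spectral_oavg_unique (A := A) (φ := φ)
    (ψ := fun ω => (∑ h : A, φ ((h : G) • ω)) / (Fintype.card A : ℝ)) ?_ ?_) ω
  · intro g hg ω
    refine congrArg (fun t : ℝ => t / (Fintype.card A : ℝ)) ?_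
    refine Fintype.sum_equiv (Equiv.mulRight (⟨g, hg⟩ : A)) _ _ fun h => ?_
    simp [mul_smul]
  · intro θ hθ
    simp only [div_mul_eq_mul_div, ← Finset.sum_div, Finset.sum_mul]
    rw [div_eq_iff hc.ne', Finset.sum_comm, Finset.sum_congr rfl
      (g := fun _ => ∑ ω, φ ω * θ ω) fun (h : A) _ => spectral_sum_smul φ θ (hθ h h.2)]
    simp [mul_comm]

theorem oavg_of_transitive {A : Subgroup G} (h : ∀ ω ω' : Ω, ∃ g ∈ A, g • ω = ω') (φ : Ω → ℝ)
    (ω : Ω) : oavg A φ ω = (∑ ω', φ ω') / (Fintype.card Ω : ℝ) := by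
  classical
  have : Finset.univ.filter (fun ω' => ω' ∈ MulAction.orbit A ω) = Finset.univ := by
    refine Finset.filter_true_of_mem fun ω' _ => ?_
    obtain ⟨g, hg, rfl⟩ := h ω ω'
    exact ⟨⟨g, hg⟩, rfl⟩
  rw [oavg, this, Finset.card_univ]

theorem PairAngle.symm {A B : Subgroup G} {ε : ℝ} (h : PairAngle Ω A B ε) : PairAngle Ω B A ε := by
  intro φ ψ hφ hψ h1 h2
  have := h ψ φ hψ hφ (fun θ a b => h2 θ b a) fun θ a b => h1 θ b a
  simp_rw [mul_comm (φ _)]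
  refine this.trans (le_of_eq ?_)
  ring

theorem PairAngle.mono {A B : Subgroup G} {ε ε' : ℝ} (h : PairAngle Ω A B ε) (hε : ε ≤ ε') :
    PairAngle Ω A B ε' := by
  intro φ ψ hφ hψ h1 h2
  refine (h φ ψ hφ hψ h1 h2).trans ?_
  gcongr

/-- Commuting subgroups: `oavg B φ` is invariant under both. -/
theorem pairAngle_of_commute (A B : Subgroup G) [Finite B]
    (h : ∀ x ∈ A, ∀ y ∈ B, x * y = y * x) : PairAngle Ω A B 0 := by
  intro φ ψ hφ hψ h1 h2
  have := Fintype.ofFinite B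
  have hA : InvU A (oavg B φ) := by
    intro g hg ω
    rw [oavg_eq_sum, oavg_eq_sum]
    congr 1
    refine Finset.sum_congr rfl fun y _ => ?_
    rw [← mul_smul, ← h g hg y y.2, mul_smul, hφ g hg]
  have e := h2 _ hA (invU_oavg B φ)
  simp_rw [mul_comm (ψ _)] at e
  rw [sum_oavg_mul φ hψ] at e
  simp [e]

theorem spectral_hom_sum {F : Type*} [Fintype F] (w : F → G) (φ θ : Ω → ℝ)
    (hθ : ∀ b ω, θ (w b • ω) = θ ω) :
    ∑ ω, (∑ b, φ (w b • ω)) * θ ω = Fintype.card F * ∑ ω, φ ω * θ ω := by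
  simp only [Finset.sum_mul]
  rw [Finset.sum_comm, Finset.sum_congr rfl
    (g := fun _ => ∑ ω, φ ω * θ ω) fun b _ => spectral_sum_smul φ θ (hθ b)]
  simp

theorem spectral_sq {F : Type*} [AddGroup F] [Fintype F] (w : F → G)
    (hw : ∀ a b, w (a + b) = w a * w b) (φ : Ω → ℝ) :
    ∑ ω, (∑ b, φ (w b • ω)) ^ 2 = Fintype.card F * ∑ ω, φ ω * ∑ b, φ (w b • ω) := by
  simp_rw [sq]
  refine spectral_hom_sum w φ _ fun b' ω => ?_
  refine Fintype.sum_equiv (Equiv.addRight b') _ _ fun b => ?_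
  rw [Equiv.coe_addRight, hw, mul_smul]

/-- Heisenberg pairs.  For `φ` invariant under `x` and `b ≠ 0`,
`⟪φ, y(b) φ⟫ = ⟪φ, y(b) z(a b) φ⟫` for all `a`, so it equals `⟪φ, y(b) P_z φ⟫`; summing over `b`,
`‖P_y φ‖² = ‖φ‖²/q - ⟪φ, P_z φ⟫/q + ⟪φ, P_y P_z φ⟫` and `P_y P_z φ` is invariant under `x` and `y`. -/
theorem pairAngle_of_heis {F : Type*} [Field F] [Fintype F] (A B : Subgroup G) (x y z : F → G)
    (hA : ∀ g, g ∈ A ↔ ∃ a, g = x a) (hB : ∀ g, g ∈ B ↔ ∃ b, g = y b)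
    (hx : ∀ a b, x (a + b) = x a * x b) (hy : ∀ a b, y (a + b) = y a * y b)
    (hz : ∀ a b, z (a + b) = z a * z b)
    (hxz : ∀ a b, x a * z b = z b * x a) (hyz : ∀ a b, y a * z b = z b * y a)
    (hxy : ∀ a b, x a * y b = y b * x a * z (a * b)) :
    PairAngle Ω A B (1 / √(Fintype.card F : ℝ)) := by
  classical
  intro φ ψ hφ hψ h1 _
  have hq : (0 : ℝ) < Fintype.card F := by exact_mod_cast Fintype.card_pos
  have hφx : ∀ a ω, φ (x a • ω) = φ ω := fun a ω => hφ _ ((hA _).2 ⟨a, rfl⟩) ω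
  have hψy : ∀ b ω, ψ (y b • ω) = ψ ω := fun b ω => hψ _ ((hB _).2 ⟨b, rfl⟩) ω
  have y0 : y 0 = 1 := by simpa using hy 0 0
  have z0 : z 0 = 1 := by simpa using hz 0 0
  set I : F → F → ℝ := fun b c => ∑ ω, φ ((y b * z c) • ω) * φ ω with hI
  have hθ : ∑ b, ∑ c, I b c = 0 := by
    have := h1 (fun ω => ∑ b, ∑ c, φ ((y b * z c) • ω)) ?_ ?_
    · rw [← this]
      simp only [hI, Finset.mul_sum]
      rw [Finset.sum_comm (s := Finset.univ (α := Ω))]
      refine Finset.sum_congr rfl fun b _ => ?_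
      rw [Finset.sum_comm]
      exact Finset.sum_congr rfl fun _ _ => Finset.sum_congr rfl fun _ _ => mul_comm _ _
    · intro g hg ω
      obtain ⟨a, rfl⟩ := (hA g).1 hg
      refine Finset.sum_congr rfl fun b _ => ?_
      refine (Fintype.sum_equiv (Equiv.addLeft (a * b)) _ _ fun c => ?_).symm
      have : y b * z (a * b + c) * x a = x a * (y b * z c) := by
        rw [mul_assoc, ← hxz, hz, ← mul_assoc, ← mul_assoc, ← hxy, mul_assoc]
      rw [Equiv.coe_addLeft, ← mul_smul, this, mul_smul (x a), hφx]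
    · intro g hg ω
      obtain ⟨b', rfl⟩ := (hB g).1 hg
      refine Fintype.sum_equiv (Equiv.addRight b') _ _ fun b => ?_
      refine Finset.sum_congr rfl fun c _ => ?_
      rw [Equiv.coe_addRight, ← mul_smul, hy, mul_assoc, mul_assoc, hyz]
  have hb : ∀ b, b ≠ 0 → ∑ c, I b c = Fintype.card F * I b 0 := by
    intro b hb
    have : ∀ a, I b (a * b) = I b 0 := by
      intro a
      simp only [hI]
      rw [← spectral_sum_smul (fun ω => φ ((y b * z (a * b)) • ω)) φ (hφx a)]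
      refine Finset.sum_congr rfl fun ω _ => ?_
      have : y b * z (a * b) * x a = x a * (y b * z 0) := by
        rw [mul_assoc, ← hxz, ← mul_assoc, ← hxy, z0, mul_one]
      rw [← mul_smul, this, mul_smul (x a), hφx]
    rw [← Fintype.sum_equiv (Equiv.mulRight₀ b hb) (fun _ => I b 0) _ fun a => (this a).symm]
    simp
  have hz0 : 0 ≤ ∑ c, I 0 c := by
    have h2 := spectral_sq z hz φ
    have h3 : ∑ c, I 0 c = ∑ ω, φ ω * ∑ c, φ (z c • ω) := by
      simp only [hI, y0, one_mul, Finset.mul_sum]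
      rw [Finset.sum_comm]
      exact Finset.sum_congr rfl fun _ _ => Finset.sum_congr rfl fun _ _ => mul_comm _ _
    rw [h3]
    refine nonneg_of_mul_nonneg_right ?_ hq
    rw [← h2]
    exact Finset.sum_nonneg fun _ _ => sq_nonneg _
  have hI0 : I 0 0 = ∑ ω, φ ω ^ 2 := by simp [hI, y0, z0, sq]
  have hsum : ∑ b, I b 0 ≤ ∑ ω, φ ω ^ 2 := by
    rw [← Finset.add_sum_erase _ _ (Finset.mem_univ (0 : F))] at hθ ⊢
    rw [Finset.sum_congr rfl fun b hb' => hb b (Finset.ne_of_mem_erase hb'),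
      ← Finset.mul_sum] at hθ
    have : ∑ b ∈ Finset.univ.erase (0 : F), I b 0 ≤ 0 := by
      by_contra hc
      have := mul_pos hq (not_le.1 hc)
      linarith
    linarith
  have hS : ∑ ω, (∑ b, φ (y b • ω)) ^ 2 ≤ Fintype.card F * ∑ ω, φ ω ^ 2 := by
    rw [spectral_sq y hy φ]
    refine mul_le_mul_of_nonneg_left (le_trans (le_of_eq ?_) hsum) hq.le
    simp only [hI, z0, mul_one, Finset.mul_sum]
    rw [Finset.sum_comm]
    exact Finset.sum_congr rfl fun _ _ => Finset.sum_congr rfl fun _ _ => mul_comm _ _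
  have hcs := Finset.sum_mul_sq_le_sq_mul_sq Finset.univ (fun ω => ∑ b, φ (y b • ω)) ψ
  rw [spectral_hom_sum y φ ψ hψy] at hcs
  have hφ0 : 0 ≤ ∑ ω, φ ω ^ 2 := Finset.sum_nonneg fun _ _ => sq_nonneg _
  have hψ0 : 0 ≤ ∑ ω, ψ ω ^ 2 := Finset.sum_nonneg fun _ _ => sq_nonneg _
  refine abs_le_of_sq_le_sq' ?_ (by positivity) |> abs_le.2
  rw [mul_pow, mul_pow, div_pow, one_pow, Real.sq_sqrt hq.le, Real.sq_sqrt hφ0, Real.sq_sqrt hψ0,
    mul_assoc, one_div, le_inv_mul_iff₀ hq]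
  have h4 := hcs.trans (mul_le_mul_of_nonneg_right hS hψ0)
  refine le_of_mul_le_mul_left ?_ hq
  nlinarith

section Garland

variable {V : Type*} [NormedAddCommGroup V] [InnerProductSpace ℝ V] [FiniteDimensional ℝ V]

theorem spectral_inner_proj (U : Submodule ℝ V) (x : V) {w : V} (hw : w ∈ U) :
    inner ℝ (U.starProjection x) w = inner ℝ x w := by
  have := U.starProjection_inner_eq_zero x w hw
  rw [inner_sub_left] at this
  linarith

theorem spectral_inner_proj_self (U : Submodule ℝ V) (x : V) :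
    inner ℝ x (U.starProjection x) = ‖U.starProjection x‖ ^ 2 := by
  rw [← spectral_inner_proj U x (U.starProjection_apply_mem x), real_inner_self_eq_norm_sq]

theorem spectral_norm_sub_proj (U : Submodule ℝ V) (x : V) :
    ‖x - U.starProjection x‖ ^ 2 = ‖x‖ ^ 2 - ‖U.starProjection x‖ ^ 2 := by
  rw [norm_sub_sq_real, spectral_inner_proj_self]; ring

theorem spectral_pair {U W : Submodule ℝ V} {ε : ℝ} (hε : 0 ≤ ε) (hε' : ε ≤ 1 / 2)
    (h : ∀ a ∈ U, ∀ b ∈ W, (∀ w ∈ U ⊓ W, inner ℝ a w = 0) → (∀ w ∈ U ⊓ W, inner ℝ b w = 0) →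
      |inner ℝ a b| ≤ ε * ‖a‖ * ‖b‖) (x : V) :
    -(4 * ε * (‖x - U.starProjection x‖ ^ 2 + ‖x - W.starProjection x‖ ^ 2)) ≤
      inner ℝ (x - U.starProjection x) (x - W.starProjection x) := by
  set x' := x - (U ⊓ W).starProjection x with hx'
  have hm := (U ⊓ W).starProjection_apply_mem x
  have eU : x - U.starProjection x = x' - U.starProjection x' := by
    rw [hx', map_sub, Submodule.starProjection_eq_self_iff.2 hm.1]; abel
  have eW : x - W.starProjection x = x' - W.starProjection x' := by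
    rw [hx', map_sub, Submodule.starProjection_eq_self_iff.2 hm.2]; abel
  have hperp : ∀ w ∈ U ⊓ W, inner ℝ x' w = 0 := fun w hw =>
    (U ⊓ W).starProjection_inner_eq_zero x w hw
  set a := U.starProjection x' with ha
  set b := W.starProjection x' with hb
  have hab := h a (U.starProjection_apply_mem x') b (W.starProjection_apply_mem x')
    (fun w hw => by rw [ha, spectral_inner_proj U x' hw.1, hperp w hw])
    (fun w hw => by rw [hb, spectral_inner_proj W x' hw.2, hperp w hw])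
  have ia : inner ℝ x' a = ‖a‖ ^ 2 := spectral_inner_proj_self U x'
  have ib : inner ℝ x' b = ‖b‖ ^ 2 := spectral_inner_proj_self W x'
  have na : ‖x' - a‖ ^ 2 = ‖x'‖ ^ 2 - ‖a‖ ^ 2 := spectral_norm_sub_proj U x'
  have nb : ‖x' - b‖ ^ 2 = ‖x'‖ ^ 2 - ‖b‖ ^ 2 := spectral_norm_sub_proj W x'
  rw [eU, eW, na, nb]
  clear_value a b
  clear_value x'
  rw [inner_sub_left, inner_sub_right, inner_sub_right, real_inner_self_eq_norm_sq, ib,
    real_inner_comm x' a, ia]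
  set n := ‖x'‖ ^ 2 with hn
  set s := ‖a‖ ^ 2 + ‖b‖ ^ 2 with hs
  have hn0 : 0 ≤ n := sq_nonneg _
  have hs0 : 0 ≤ s := by positivity
  have h1 : ε * ‖a‖ * ‖b‖ ≤ ε * (s / 2) := by
    rw [mul_assoc]
    refine mul_le_mul_of_nonneg_left ?_ hε
    nlinarith [sq_nonneg (‖a‖ - ‖b‖)]
  have h2 := abs_le.1 (hab.trans h1)
  have h3 : s ≤ (1 + ε) * n := by
    have c1 : s ≤ ‖x'‖ * ‖a + b‖ := by
      rw [hs, ← ia, ← ib, ← inner_add_right]; exact real_inner_le_norm _ _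
    have c2 : ‖a + b‖ ^ 2 ≤ (1 + ε) * s := by
      rw [norm_add_sq_real]; linarith [h2.2]
    have c3 : s * s ≤ ((1 + ε) * n) * s := by
      calc s * s ≤ (‖x'‖ * ‖a + b‖) * (‖x'‖ * ‖a + b‖) := mul_self_le_mul_self hs0 c1
        _ = n * ‖a + b‖ ^ 2 := by rw [hn]; ring
        _ ≤ n * ((1 + ε) * s) := mul_le_mul_of_nonneg_left c2 hn0
        _ = _ := by ring
    rcases hs0.eq_or_lt with h0 | h0
    · rw [← h0]; positivity
    · exact le_of_mul_le_mul_right c3 h0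
  have h4 : ε * s ≤ ε * ((1 + ε) * n) := mul_le_mul_of_nonneg_left h3 hε
  have h5 : ε * (ε * n) ≤ 1 / 2 * (ε * n) := mul_le_mul_of_nonneg_right hε' (by positivity)
  have h6 : 0 ≤ ε * n := by positivity
  have e : ‖b‖ ^ 2 = s - ‖a‖ ^ 2 := by rw [hs]; ring
  rw [e]
  nlinarith [h2.1]

theorem spectral_garland {ι : Type*} [DecidableEq ι] (U : ι → Submodule ℝ V) (J : Finset ι)
    {ε δ : ℝ} (hε : 0 ≤ ε) (hε' : ε ≤ 1 / 2) (hδ : 8 * J.card * ε ≤ δ)
    (h : ∀ i j, i ≠ j → ∀ a ∈ U i, ∀ b ∈ U j, (∀ w ∈ U i ⊓ U j, inner ℝ a w = 0) →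
      (∀ w ∈ U i ⊓ U j, inner ℝ b w = 0) → |inner ℝ a b| ≤ ε * ‖a‖ * ‖b‖)
    {x : V} (hx : ∀ w, (∀ j ∈ J, w ∈ U j) → inner ℝ x w = 0) :
    (1 - δ) * ‖x‖ ^ 2 ≤ ∑ j ∈ J, ‖x - (U j).starProjection x‖ ^ 2 := by
  rcases le_or_gt 1 δ with hδ1 | hδ1
  · exact (mul_nonpos_of_nonpos_of_nonneg (by linarith) (sq_nonneg _)).trans
      (Finset.sum_nonneg fun _ _ => sq_nonneg _)
  set Q : ι → V →ₗ[ℝ] V := fun j => LinearMap.id - ((U j).starProjection : V →ₗ[ℝ] V) with hQ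
  have Qa : ∀ j y, Q j y = y - (U j).starProjection y := fun j y => rfl
  have QQ : ∀ j y z, inner ℝ (Q j y) z = inner ℝ (Q j y) (Q j z) := fun j y z => by
    rw [Qa j z, inner_sub_right, Qa,
      (U j).starProjection_inner_eq_zero y _ ((U j).starProjection_apply_mem z), sub_zero]
  set T : V →ₗ[ℝ] V := ∑ j ∈ J, Q j with hT
  have Ta : ∀ y, T y = ∑ j ∈ J, Q j y := fun y => by simp [hT]
  have Tin : ∀ y z, inner ℝ (T y) z = ∑ j ∈ J, inner ℝ (Q j y) (Q j z) := fun y z => by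
    rw [Ta, sum_inner]; exact Finset.sum_congr rfl fun j _ => QQ j y z
  have Tsym : T.IsSymmetric := fun y z => by
    rw [real_inner_comm (T z) y, Tin, Tin]
    exact Finset.sum_congr rfl fun j _ => real_inner_comm _ _
  have Tself : ∀ y, inner ℝ (T y) y = ∑ j ∈ J, ‖Q j y‖ ^ 2 := fun y => by
    rw [Tin]; exact Finset.sum_congr rfl fun j _ => real_inner_self_eq_norm_sq _
  have Tsq : ∀ y, (1 - δ) * ∑ j ∈ J, ‖Q j y‖ ^ 2 ≤ ‖T y‖ ^ 2 := fun y => by
    have hS : 0 ≤ ∑ j ∈ J, ‖Q j y‖ ^ 2 := Finset.sum_nonneg fun _ _ => sq_nonneg _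
    rw [← real_inner_self_eq_norm_sq, Ta, sum_inner]
    simp_rw [inner_sum]
    have key : ∀ i ∈ J, ∀ j ∈ J, (if i = j then ‖Q i y‖ ^ 2 else 0) -
        4 * ε * (‖Q i y‖ ^ 2 + ‖Q j y‖ ^ 2) ≤ inner ℝ (Q i y) (Q j y) := by
      intro i _ j _
      split_ifs with hij
      · subst hij
        rw [real_inner_self_eq_norm_sq]
        have : 0 ≤ 4 * ε * (‖Q i y‖ ^ 2 + ‖Q i y‖ ^ 2) := by positivity
        linarith
      · rw [zero_sub]
        exact spectral_pair hε hε' (h i j hij) y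
    refine le_trans ?_ (Finset.sum_le_sum fun i hi => Finset.sum_le_sum fun j hj => key i hi j hj)
    have e : ∑ i ∈ J, ∑ j ∈ J, ((if i = j then ‖Q i y‖ ^ 2 else 0) -
        4 * ε * (‖Q i y‖ ^ 2 + ‖Q j y‖ ^ 2)) = (1 - 8 * J.card * ε) * ∑ j ∈ J, ‖Q j y‖ ^ 2 := by
      simp only [Finset.sum_sub_distrib, Finset.sum_ite_eq, mul_add, Finset.sum_add_distrib,
        Finset.sum_const, nsmul_eq_mul, ← Finset.mul_sum]
      rw [Finset.sum_congr rfl fun i hi => if_pos hi]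
      ring
    rw [e]
    exact mul_le_mul_of_nonneg_right (by linarith) hS
  have hxr : x ∈ LinearMap.range T := by
    rw [← (LinearMap.range T).orthogonal_orthogonal, Tsym.orthogonal_range]
    intro w hw
    rw [real_inner_comm]
    refine hx w fun j hj => ?_
    have h0 : ∑ j ∈ J, ‖Q j w‖ ^ 2 = 0 := by rw [← Tself, LinearMap.mem_ker.1 hw, inner_zero_left]
    have h1 := (Finset.sum_eq_zero_iff_of_nonneg fun _ _ => sq_nonneg _).1 h0 j hj
    rw [pow_eq_zero_iff two_ne_zero, norm_eq_zero, Qa, sub_eq_zero] at h1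
    exact h1 ▸ (U j).starProjection_apply_mem w
  obtain ⟨y, hy⟩ := hxr
  have c1 : ‖x‖ ^ 2 = ∑ j ∈ J, inner ℝ (Q j y) (Q j x) := by
    rw [← Tin, hy, real_inner_self_eq_norm_sq]
  have c2 : ‖x‖ ^ 2 ≤ ∑ j ∈ J, ‖Q j y‖ * ‖Q j x‖ :=
    c1.trans_le (Finset.sum_le_sum fun j _ => real_inner_le_norm _ _)
  have c3 := Finset.sum_mul_sq_le_sq_mul_sq J (fun j => ‖Q j y‖) fun j => ‖Q j x‖
  have c4 := Tsq y
  rw [hy] at c4
  change _ ≤ ∑ j ∈ J, ‖Q j x‖ ^ 2
  set Sx := ∑ j ∈ J, ‖Q j x‖ ^ 2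
  set Sy := ∑ j ∈ J, ‖Q j y‖ ^ 2
  have hSx : 0 ≤ Sx := Finset.sum_nonneg fun _ _ => sq_nonneg _
  have c5 : (‖x‖ ^ 2) ^ 2 ≤ Sy * Sx := (pow_le_pow_left₀ (sq_nonneg _) c2 2).trans c3
  rcases (sq_nonneg ‖x‖).eq_or_lt with h0 | h0
  · rw [← h0, mul_zero]; exact hSx
  · refine le_of_mul_le_mul_right ?_ h0
    have c6 : (1 - δ) * (‖x‖ ^ 2) ^ 2 ≤ (1 - δ) * (Sy * Sx) :=
      mul_le_mul_of_nonneg_left c5 (by linarith)
    have c7 : (1 - δ) * Sy * Sx ≤ ‖x‖ ^ 2 * Sx := mul_le_mul_of_nonneg_right c4 hSx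
    nlinarith

end Garland

/-- The invariant functions as a subspace of Euclidean space. -/
def spectralInv (Ω : Type*) [MulAction G Ω] (A : Subgroup G) :
    Submodule ℝ (EuclideanSpace ℝ Ω) where
  carrier := {φ | InvU A φ.ofLp}
  add_mem' := fun {a b} ha hb g hg ω => by simp [ha g hg ω, hb g hg ω]
  zero_mem' := fun _ _ _ => rfl
  smul_mem' := fun c a ha g hg ω => by simp [ha g hg ω]

theorem spectral_inner_eq (a b : EuclideanSpace ℝ Ω) : inner ℝ a b = ∑ ω, a ω * b ω := by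
  simp [PiLp.inner_apply, mul_comm]

theorem spectral_proj_eq (A : Subgroup G) (φ : EuclideanSpace ℝ Ω) :
    (spectralInv Ω A).starProjection φ = WithLp.toLp 2 (oavg A φ.ofLp) := by
  refine Submodule.eq_starProjection_of_mem_of_inner_eq_zero (invU_oavg A φ.ofLp) fun w hw => ?_
  rw [inner_sub_left, spectral_inner_eq, spectral_inner_eq, sub_eq_zero]
  exact (sum_oavg_mul φ.ofLp hw).symm

/-- Garland's method.  Fix `J`, let `P j` be the projection onto the `H {j}`-invariants,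
`Q j = 1 - P j`, `T = ∑_{j ∈ J} Q j`.  For `i ≠ j`,
`2⟪Q i x, Q j x⟫ ≥ -8ε(‖Q i x‖² + ‖Q j x‖²)`, so `‖T x‖² ≥ (1 - 8ε|ι|)⟪T x, x⟫`, hence
`⟪T x, x⟫ ≥ (1 - 8ε|ι|)‖x‖²` on `(ker T)ᗮ = range T`.  Apply it to
`x = oavg (H (J.erase v)) φ - oavg (H J) φ`, for which `⟪T x, x⟫ = ‖Q v x‖²`; so
`‖P v x‖² ≤ 8ε|ι| ‖x‖²` and `‖x‖² = ⟪x, φ⟫ = ⟪P v x, φ⟫`.  (If `8ε|ι| ≥ 1` it is trivial.) -/
theorem specGap_of_pairs {ι : Type*} [Fintype ι] [DecidableEq ι] (H : Finset ι → Subgroup G)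
    (hmono : Monotone H)
    (hgen : ∀ (J : Finset ι) (φ : Ω → ℝ), (∀ j ∈ J, InvU (H {j}) φ) → InvU (H J) φ)
    (ε : ℝ) (hε : 0 ≤ ε) (hε' : ε ≤ 1 / 2)
    (hpair : ∀ i j : ι, i ≠ j → PairAngle Ω (H {i}) (H {j}) ε) :
    SpecGap Ω H (8 * Fintype.card ι * ε) := by
  intro J v hv φ hφ
  set δ : ℝ := 8 * Fintype.card ι * ε with hδ
  have hδ0 : 0 ≤ δ := by positivity
  set U : Finset ι → Submodule ℝ (EuclideanSpace ℝ Ω) := fun I => spectralInv Ω (H I) with hU
  have hanti : ∀ {I I' : Finset ι}, I ⊆ I' → U I' ≤ U I := fun hI w hw g hg ω =>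
    hw g (hmono hI hg) ω
  set f : EuclideanSpace ℝ Ω := WithLp.toLp 2 φ with hf
  have hfv : f ∈ U {v} := hφ
  set x := (U (J.erase v)).starProjection f - (U J).starProjection f with hx
  have hJ : U J ≤ U (J.erase v) := hanti (Finset.erase_subset v J)
  have hxm : x ∈ U (J.erase v) :=
    sub_mem (Submodule.starProjection_apply_mem _ _) (hJ (Submodule.starProjection_apply_mem _ _))
  have hxp : ∀ w ∈ U J, inner ℝ x w = 0 := fun w hw => by
    rw [hx, inner_sub_left, spectral_inner_proj _ f (hJ hw), spectral_inner_proj _ f hw, sub_self]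
  have hg := spectral_garland (fun j => U {j}) J (δ := δ) hε hε'
    (by rw [hδ]; gcongr; exact Finset.card_le_univ J)
    (fun i j hij a ha b hb h1 h2 => by
      have := hpair i j hij a.ofLp b.ofLp ha hb
        (fun θ t1 t2 => by simpa [spectral_inner_eq] using h1 (WithLp.toLp 2 θ) ⟨t1, t2⟩)
        (fun θ t1 t2 => by simpa [spectral_inner_eq] using h2 (WithLp.toLp 2 θ) ⟨t1, t2⟩)
      rwa [← EuclideanSpace.real_norm_sq_eq, ← EuclideanSpace.real_norm_sq_eq,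
        Real.sqrt_sq (norm_nonneg _), Real.sqrt_sq (norm_nonneg _), ← spectral_inner_eq] at this)
    (x := x) (fun w hw => hxp w (hgen J w.ofLp hw))
  rw [← Finset.add_sum_erase _ _ hv, Finset.sum_eq_zero fun j hj => by
    rw [Submodule.starProjection_eq_self_iff.2 (hanti (Finset.singleton_subset_iff.2 hj) hxm)]
    simp, add_zero, spectral_norm_sub_proj] at hg
  have e1 : ‖x‖ ^ 2 = inner ℝ ((U {v}).starProjection x) f := by
    rw [spectral_inner_proj _ x hfv, ← real_inner_self_eq_norm_sq]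
    nth_rewrite 2 [hx]
    rw [inner_sub_right, hxp _ (Submodule.starProjection_apply_mem _ _), sub_zero,
      real_inner_comm, spectral_inner_proj _ f hxm, real_inner_comm]
  have e2 : ‖x‖ ^ 2 ≤ ‖(U {v}).starProjection x‖ * ‖f‖ := e1.trans_le (real_inner_le_norm _ _)
  have e3 : ‖x‖ ^ 2 ≤ δ * ‖f‖ ^ 2 := by
    rcases (sq_nonneg ‖x‖).eq_or_lt with h0 | h0
    · rw [← h0]; positivity
    · refine le_of_mul_le_mul_right ?_ h0
      have c1 := pow_le_pow_left₀ (sq_nonneg _) e2 2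
      have c2 : ‖(U {v}).starProjection x‖ ^ 2 * ‖f‖ ^ 2 ≤ δ * ‖x‖ ^ 2 * ‖f‖ ^ 2 :=
        mul_le_mul_of_nonneg_right (by linarith) (sq_nonneg _)
      nlinarith
  rw [EuclideanSpace.real_norm_sq_eq, EuclideanSpace.real_norm_sq_eq, hx] at e3
  simpa [hU, spectral_proj_eq, hf] using e3

end Crest.Agent.R66
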