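import Crest.Agent.R66.GrpBasic
import Crest.Agent.R66.Spectral

/-!
# R66, task T7: root subgroups and their angles
-/

set_option autoImplicit false

namespace Crest.Agent.R66

open Polynomial

variable {F : Type*} [Field F] {N : ℕ} [NeZero N]

/-- The cyclic predecessor. -/
def rootPrd (j : Fin N) : Fin N :=
  ⟨if (j : ℕ) = 0 then N - 1 else (j : ℕ) - 1, by
    have := Nat.pos_of_ne_zero (NeZero.ne N)
    have := j.2
    split_ifs <;> omega⟩

theorem rootPrd_val (j : Fin N) :
    (rootPrd j : ℕ) = if (j : ℕ) = 0 then N - 1 else (j : ℕ) - 1 := rfl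

theorem rootPrd_ne (hN : 2 ≤ N) (j : Fin N) : j ≠ rootPrd j := by
  intro h
  have h1 := congrArg Fin.val h
  rw [rootPrd_val] at h1
  split_ifs at h1 <;> omega

/-- The exponent of `X` in the root subgroup. -/
def rootE (j : Fin N) : ℕ := if (j : ℕ) = 0 then 1 else 0

open Classical in
/-- Transvections inside `U₊`. -/
noncomputable def rootTv (i j : Fin N) (p : F[X]) : Up F N :=
  if h : i ≠ j ∧ (i < j → p.coeff 0 = 0) then
    ⟨⟨Matrix.transvection i j p, Matrix.det_transvection_of_ne i j h.1 p⟩, mem_Up_iff.2 ⟨fun l => by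
      have : ¬ (i = l ∧ j = l) := fun h' => h.1 (h'.1.trans h'.2.symm)
      simp [Matrix.transvection, this], fun l m hlm => by
      have h1 : l ≠ m := hlm.ne
      by_cases h2 : i = l ∧ j = m
      · obtain ⟨rfl, rfl⟩ := h2
        simp [Matrix.transvection, h1, h.2 hlm]
      · simp [Matrix.transvection, h1, h2]⟩⟩
  else 1

theorem rootTv_val {i j : Fin N} {p : F[X]} (h₁ : i ≠ j) (h₂ : i < j → p.coeff 0 = 0) :
    (rootTv i j p : Up F N).1.1 = 1 + Matrix.single i j p := by
  unfold rootTv
  rw [dif_pos ⟨h₁, h₂⟩]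
  rfl

theorem root_ext {g h : Up F N} (e : g.1.1 = h.1.1) : g = h := Subtype.ext (Subtype.ext e)

theorem root_mul_val (g h : Up F N) : (g * h).1.1 = g.1.1 * h.1.1 := rfl

theorem root_col_mem_Vlt (M : Matrix (Fin N) (Fin N) F[X]) (b : Fin N) (m : ℤ) :
    col M b ∈ Vlt F m ↔ ∀ (b' : Fin N) (a : ℕ), m ≤ (a : ℤ) * N + (b' : ℕ) → (M b' b).coeff a = 0 := by
  rw [mem_Vlt]
  constructor
  · intro h b' a ha
    rw [← col_apply_coe]
    exact h _ ha
  · intro h p hp
    rw [col_apply]
    split_ifs with h0
    · apply h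
      have hN : (0 : ℤ) < N := by exact_mod_cast Nat.pos_of_ne_zero (NeZero.ne N)
      have h1 : 0 ≤ p / N := Int.ediv_nonneg h0 hN.le
      rw [Int.toNat_of_nonneg h1, div_mul_add_rs]
      exact hp
    · rfl

theorem root_cond (j : Fin N) (a : F) :
    j < rootPrd j → (monomial (rootE j) a : F[X]).coeff 0 = 0 := by
  intro h
  have h1 : (j : ℕ) < (rootPrd j : ℕ) := h
  rw [rootPrd_val] at h1
  have h2 : (j : ℕ) = 0 := by
    by_contra h3
    rw [if_neg h3] at h1
    omega
  simp [rootE, h2, coeff_monomial]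

/-- The root element `x_j(a)`. -/
noncomputable def rootX (j : Fin N) (a : F) : Up F N :=
  rootTv j (rootPrd j) (monomial (rootE j) a)

theorem rootX_val (hN : 2 ≤ N) (j : Fin N) (a : F) :
    (rootX j a : Up F N).1.1 = 1 + Matrix.single j (rootPrd j) (monomial (rootE j) a) :=
  rootTv_val (rootPrd_ne hN j) (root_cond j a)

theorem root_pos (j : Fin N) : rootE j * N + (j : ℕ) = (rootPrd j : ℕ) + 1 := by
  have := Nat.pos_of_ne_zero (NeZero.ne N)
  rw [rootPrd_val, rootE]
  split_ifs <;> omega

theorem rootX_mem (hN : 2 ≤ N) (j : Fin N) (a : F) : (rootX j a : Up F N) ∈ HH F N {j} := by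
  rw [mem_stabH]
  intro i hi
  have hij : (i : ℕ) ≠ j := fun h => hi (Finset.mem_singleton.2 (Fin.ext h))
  rw [smul_cV_iff]
  intro b
  have key : ∀ (b' : Fin N) (a' : ℕ), ((rootX j a : Up F N).1.1 b' b).coeff a' ≠ 0 →
      (a' * N + b' = b) ∨ (a' * N + b' = b + 1 ∧ b = rootPrd j) := by
    intro b' a' h
    rw [rootX_val hN, Matrix.add_apply, coeff_add] at h
    by_cases h1 : ((1 : Matrix (Fin N) (Fin N) F[X]) b' b).coeff a' = 0
    · right
      rw [h1, zero_add, Matrix.single_apply] at h
      split_ifs at h with h2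
      · obtain ⟨rfl, rfl⟩ := h2
        rw [coeff_monomial] at h
        split_ifs at h with h3
        · subst h3
          exact ⟨root_pos j, rfl⟩
        · exact absurd rfl h
      · simp at h
    · left
      rw [Matrix.one_apply] at h1
      split_ifs at h1 with h2
      · subst h2
        rw [coeff_one] at h1
        split_ifs at h1 with h3
        · simp [h3]
        · exact absurd rfl h1
      · simp at h1
  have hp := rootPrd_val j
  have hi2 := i.2
  have hb2 := b.2
  constructor
  · intro hbi
    have hbi' : (b : ℕ) < i := hbi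
    rw [root_col_mem_Vlt]
    intro b' a' h
    by_contra h0
    have h' : (i : ℕ) ≤ a' * N + b' := by exact_mod_cast h
    rcases key b' a' h0 with h1 | ⟨h1, h2⟩
    · omega
    · rw [← h2] at hp
      split_ifs at hp <;> omega
  · rw [root_col_mem_Vlt]
    intro b' a' h
    by_contra h0
    have h' : (i : ℕ) + N ≤ a' * N + b' := by exact_mod_cast h
    rcases key b' a' h0 with h1 | ⟨h1, h2⟩
    · omega
    · rw [← h2] at hp
      split_ifs at hp <;> omega

theorem root_vanish {j : Fin N} {g : Up F N} (hg : g ∈ HH F N {j}) (b : Fin N) (p : ℕ)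
    (hbp : (b : ℕ) < p) (hp : p < 2 * N) (h₁ : p ≠ j) (h₂ : p ≠ j + N) (b' : Fin N) (a : ℕ)
    (ha : p ≤ a * N + b') : (g.1.1 b' b).coeff a = 0 := by
  rw [mem_stabH] at hg
  by_cases hpN : p < N
  · have := (smul_cV_iff.1 (hg ⟨p, hpN⟩ (fun h => h₁ (congrArg Fin.val
      (Finset.mem_singleton.1 h)))) b).1 hbp
    rw [root_col_mem_Vlt] at this
    exact this b' a (by exact_mod_cast ha)
  · have := (smul_cV_iff.1 (hg ⟨p - N, by omega⟩ (fun h => h₂ (by
      have := congrArg Fin.val (Finset.mem_singleton.1 h)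
      simp only at this
      omega))) b).2
    rw [root_col_mem_Vlt] at this
    refine this b' a ?_
    have h3 : p - N + N ≤ a * N + b' := by omega
    exact_mod_cast h3

theorem mem_HH_single (hN : 2 ≤ N) (j : Fin N) (g : Up F N) :
    g ∈ HH F N {j} ↔ ∃ a : F, g = rootX j a := by
  refine ⟨fun hg => ⟨(g.1.1 j (rootPrd j)).coeff (rootE j), root_ext ?_⟩, ?_⟩
  swap
  · rintro ⟨a, rfl⟩; exact rootX_mem hN j a
  rw [rootX_val hN]
  obtain ⟨hd, hu⟩ := mem_Up_iff.1 g.2
  ext b' b a
  have hp := rootPrd_val j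
  have hpos := root_pos j
  have hb2 := b.2
  have hb2' := b'.2
  have hj2 := j.2
  rw [Matrix.add_apply, coeff_add, Matrix.one_apply, Matrix.single_apply]
  by_cases h1 : j = b' ∧ rootPrd j = b
  · obtain ⟨rfl, rfl⟩ := h1
    rw [if_neg (rootPrd_ne hN j), if_pos ⟨rfl, rfl⟩, coeff_zero, zero_add, coeff_monomial]
    split_ifs with h2
    · rw [h2]
    · by_cases h3 : rootE j < a
      · refine root_vanish hg _ ((rootPrd j : ℕ) + 2) (by omega) ?_ ?_ ?_ _ _ ?_
        · split_ifs at hp <;> omega
        · split_ifs at hp <;> omega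
        · split_ifs at hp <;> omega
        · have := Nat.mul_le_mul_right N (show rootE j + 1 ≤ a from h3)
          rw [add_mul] at this
          omega
      · have h4 : a = 0 ∧ (j : ℕ) = 0 := by
          unfold rootE at h2 h3
          split_ifs at h2 h3 <;> omega
        rw [h4.1]
        apply hu
        show (j : ℕ) < (rootPrd j : ℕ)
        rw [hp, if_pos h4.2]; omega
  · rw [if_neg h1, coeff_zero, add_zero]
    by_cases h2 : a * N + b' ≤ b
    · have ha : a = 0 := by
        by_contra h3
        have := Nat.mul_le_mul_right N (Nat.pos_of_ne_zero h3)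
        omega
      subst ha
      split_ifs with h3
      · subst h3; rw [hd]; simp
      · rw [hu b' b (by
          have : (b' : ℕ) ≠ b := fun h => h3 (Fin.ext h)
          show (b' : ℕ) < b
          omega)]
        simp
    · have hrhs : (if b' = b then (1 : F[X]) else 0).coeff a = 0 := by
        split_ifs with h3
        · subst h3
          rw [coeff_one, if_neg]
          rintro rfl
          omega
        · simp
      rw [hrhs]
      by_cases h3 : rootPrd j = b
      · subst h3
        have h4 : (j : ℕ) ≠ b' := fun h => h1 ⟨Fin.ext h, rfl⟩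
        refine root_vanish hg _ ((rootPrd j : ℕ) + 2) (by omega) ?_ ?_ ?_ _ _ ?_
        · split_ifs at hp <;> omega
        · split_ifs at hp <;> omega
        · split_ifs at hp <;> omega
        · by_contra h5
          have h6 : a * N + b' = rootE j * N + j := by omega
          have h7 := congrArg (· % N) h6
          simp only [Nat.mul_add_mod_self_right, Nat.mod_eq_of_lt hb2', Nat.mod_eq_of_lt hj2] at h7
          exact h4 h7.symm
      · have h4 : (rootPrd j : ℕ) ≠ b := fun h => h3 (Fin.ext h)
        refine root_vanish hg _ ((b : ℕ) + 1) (by omega) (by omega) ?_ ?_ _ _ (by omega)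
        · split_ifs at hp <;> omega
        · split_ifs at hp <;> omega

omit [NeZero N] in
theorem root_single_add {i j : Fin N} (h : i ≠ j) (p q : F[X]) :
    (1 + Matrix.single i j (p + q) : Matrix (Fin N) (Fin N) F[X]) =
      (1 + Matrix.single i j p) * (1 + Matrix.single i j q) := by
  rw [add_mul, mul_add, mul_add, Matrix.single_mul_single_of_ne _ _ _ _ h.symm, Matrix.single_add]
  simp only [one_mul, mul_one, add_zero]
  abel

omit [NeZero N] in
theorem root_single_comm {i j i' j' : Fin N} (h : j ≠ i') (h' : j' ≠ i) (p q : F[X]) :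
    (1 + Matrix.single i j p : Matrix (Fin N) (Fin N) F[X]) * (1 + Matrix.single i' j' q) =
      (1 + Matrix.single i' j' q) * (1 + Matrix.single i j p) := by
  simp only [add_mul, mul_add, one_mul, mul_one, Matrix.single_mul_single_of_ne _ _ _ _ h,
    Matrix.single_mul_single_of_ne _ _ _ _ h']
  abel

omit [NeZero N] in
theorem root_single_heis {i j l : Fin N} (hij : i ≠ j) (hil : l ≠ i) (p q : F[X]) :
    (1 + Matrix.single i j p : Matrix (Fin N) (Fin N) F[X]) * (1 + Matrix.single j l q) =
      (1 + Matrix.single j l q) * (1 + Matrix.single i j p) * (1 + Matrix.single i l (p * q)) := by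
  simp only [add_mul, mul_add, one_mul, mul_one, Matrix.single_mul_single_of_ne _ _ _ _ hil,
    Matrix.single_mul_single_of_ne _ _ _ _ hij.symm, Matrix.single_mul_single_same, zero_mul]
  abel

theorem pairAngle_HH_heis [Fintype F] (hN : 3 ≤ N) (Ω : Type*) [MulAction (Up F N) Ω] [Fintype Ω]
    (i j : Fin N) (hij : rootPrd j = i) :
    PairAngle Ω (HH F N {j}) (HH F N {i}) (1 / √(Fintype.card F : ℝ)) := by
  have hN2 : 2 ≤ N := by omega
  have hi := rootPrd_val i
  have hj := rootPrd_val j
  rw [hij] at hj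
  have hi2 := i.2
  have hj2 := j.2
  have h1 : j ≠ i := hij ▸ rootPrd_ne hN2 j
  have h2 : i ≠ rootPrd i := rootPrd_ne hN2 i
  have h3 : j ≠ rootPrd i := by
    intro h
    have := congrArg Fin.val h
    split_ifs at hi hj <;> omega
  have hz : ∀ c : F, (rootTv j (rootPrd i) (monomial (rootE j + rootE i) c) : Up F N).1.1 =
      1 + Matrix.single j (rootPrd i) (monomial (rootE j + rootE i) c) := by
    intro c
    refine rootTv_val h3 fun h => ?_
    have h' : (j : ℕ) < (rootPrd i : ℕ) := h
    rw [coeff_monomial, if_neg]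
    have h5 : (j : ℕ) = 0 ∨ (i : ℕ) = 0 := by
      split_ifs at hi hj <;> omega
    unfold rootE
    rcases h5 with h5 | h5 <;> simp [h5]
  refine pairAngle_of_heis _ _ (rootX j) (rootX i)
    (fun c => rootTv j (rootPrd i) (monomial (rootE j + rootE i) c))
    (mem_HH_single hN2 j) (mem_HH_single hN2 i) ?_ ?_ ?_ ?_ ?_ ?_
  · intro a b
    apply root_ext
    rw [root_mul_val, rootX_val hN2, rootX_val hN2, rootX_val hN2, map_add,
      root_single_add (rootPrd_ne hN2 j)]
  · intro a b
    apply root_ext
    rw [root_mul_val, rootX_val hN2, rootX_val hN2, rootX_val hN2, map_add,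
      root_single_add (rootPrd_ne hN2 i)]
  · intro a b
    apply root_ext
    rw [root_mul_val, hz, hz, hz, map_add, root_single_add h3]
  · intro a b
    apply root_ext
    rw [root_mul_val, root_mul_val, hz, rootX_val hN2, hij]
    exact root_single_comm h1.symm h3.symm _ _
  · intro a b
    apply root_ext
    rw [root_mul_val, root_mul_val, hz, rootX_val hN2]
    exact root_single_comm h3.symm h2.symm _ _
  · intro a b
    apply root_ext
    rw [root_mul_val, root_mul_val, root_mul_val, hz, rootX_val hN2, rootX_val hN2, hij,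
      root_single_heis h1 h3.symm, monomial_mul_monomial]

/-- `HH {j}` consists of the transvections `x_j(a) = 1 + (C a * r j) E_{j, j-1}` (cyclic `j - 1`,
`r 0 = X`, `r j = 1` otherwise).  For `j = i + 1` the pair is a Heisenberg pair with centre
`1 + (C c * r i * r j) E_{j, i-1}`; for `j ≠ i ± 1` the groups commute.  Then use
`pairAngle_of_heis`, `pairAngle_of_commute`, `PairAngle.symm`, `PairAngle.mono`. -/
theorem pairAngle_HH [Fintype F] (hN : 3 ≤ N) (Ω : Type*) [MulAction (Up F N) Ω] [Fintype Ω]
    (i j : Fin N) (hij : i ≠ j) :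
    PairAngle Ω (HH F N {i}) (HH F N {j}) (1 / √(Fintype.card F : ℝ)) := by
  have hN2 : 2 ≤ N := by omega
  by_cases h1 : rootPrd j = i
  · exact (pairAngle_HH_heis hN Ω i j h1).symm
  by_cases h2 : rootPrd i = j
  · exact pairAngle_HH_heis hN Ω j i h2
  have : Finite (HH F N {j}) := HH_finite fun h =>
    hij (Finset.mem_singleton.1 (h ▸ Finset.mem_univ i))
  refine (pairAngle_of_commute _ _ fun x hx y hy => ?_).mono (by positivity)
  obtain ⟨a, rfl⟩ := (mem_HH_single hN2 i x).1 hx
  obtain ⟨b, rfl⟩ := (mem_HH_single hN2 j y).1 hy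
  apply root_ext
  rw [root_mul_val, root_mul_val, rootX_val hN2, rootX_val hN2]
  exact root_single_comm h2 h1 _ _

end Crest.Agent.R66
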