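import Crest.Agent.R66.Twisted

/-!
# R66, task T12: the staircase argument
-/

set_option autoImplicit false

namespace Crest.Agent.R66

open scoped Pointwise

section StairAux

variable {k : Type*} [Field k] {Γ : Type*} [Group Γ]

/-- The twisted permutation representation on cochains. -/
noncomputable def stairRep (χ : Γ →* kˣ) (α : Type*) [DecidableEq α] [MulAction Γ α] :
    Representation k Γ (Finset α → k) where
  toFun g := LinearMap.pi fun σ => (χ g : k) • LinearMap.proj (g⁻¹ • σ)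
  map_one' := by ext p σ; simp
  map_mul' g h := by ext p σ; simp [mul_smul]

theorem stairRep_apply (χ : Γ →* kˣ) {α : Type*} [DecidableEq α] [MulAction Γ α] (g : Γ)
    (p : Finset α → k) (σ : Finset α) : stairRep χ α g p σ = χ g * p (g⁻¹ • σ) := rfl

theorem stair_smul_erase {α : Type*} [DecidableEq α] [MulAction Γ α] (g : Γ) (σ : Finset α)
    (v : α) : g • σ.erase v = (g • σ).erase (g • v) :=
  Finset.image_erase (MulAction.injective g) σ v

theorem stair_cob_smul {α : Type*} [DecidableEq α] [MulAction Γ α] (g : Γ) (p : Finset α → k)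
    (σ : Finset α) : cob p (g • σ) = ∑ v ∈ σ, p (g • σ.erase v) := by
  unfold cob
  rw [Finset.smul_finset_def, Finset.sum_image fun a _ b _ h => MulAction.injective g h]
  refine Finset.sum_congr rfl fun v _ => ?_
  rw [stair_smul_erase, Finset.smul_finset_def]

theorem stair_cob_rep (χ : Γ →* kˣ) {α : Type*} [DecidableEq α] [MulAction Γ α] (g : Γ)
    (p : Finset α → k) (σ : Finset α) : cob (stairRep χ α g p) σ = χ g * cob p (g⁻¹ • σ) := by
  rw [stair_cob_smul, Finset.mul_sum]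
  rfl

theorem stair_mem_iff {α : Type*} [DecidableEq α] [MulAction Γ α] {Y : Set (Finset α)}
    (hYinv : ∀ γ : Γ, ∀ σ ∈ Y, γ • σ ∈ Y) (g : Γ) (σ : Finset α) (a : ℕ) :
    (g • σ ∈ Y ∧ (g • σ).card = a) ↔ (σ ∈ Y ∧ σ.card = a) := by
  rw [Finset.card_smul_finset]
  refine and_congr_left fun _ => ⟨fun h => ?_, hYinv g σ⟩
  simpa using hYinv g⁻¹ _ h

theorem stair_erase_mem {α : Type*} [DecidableEq α] {Y : Set (Finset α)} (hY : IsLowerSet Y)
    {σ : Finset α} (hσ : σ ∈ Y) {a : ℕ} (ha : σ.card = a) {v : α} (hv : v ∈ σ) :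
    σ.erase v ∈ Y ∧ (σ.erase v).card = a - 1 :=
  ⟨hY (Finset.erase_subset v σ) hσ, by rw [Finset.card_erase_of_mem hv, ha]⟩

theorem stair_cob_congr {α : Type*} [DecidableEq α] {Y : Set (Finset α)} (hY : IsLowerSet Y)
    {σ : Finset α} (hσ : σ ∈ Y) {a : ℕ} (ha : σ.card = a) {p q : Finset α → k}
    (h : ∀ τ ∈ Y, τ.card = a - 1 → p τ = q τ) : cob p σ = cob q σ :=
  Finset.sum_congr rfl fun _ hv =>
    h _ (stair_erase_mem hY hσ ha hv).1 (stair_erase_mem hY hσ ha hv).2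

variable {α β : Type*} [DecidableEq α] [DecidableEq β] [MulAction Γ α] [MulAction Γ β]

/-- Equivariance on `Y_a × Z_b`. -/
def StairEqv (χ : Γ →* kˣ) (Y : Set (Finset α)) (Z : Set (Finset β)) (a b : ℕ)
    (x : Finset α → Finset β → k) : Prop :=
  ∀ γ : Γ, ∀ σ ∈ Y, σ.card = a → ∀ ζ ∈ Z, ζ.card = b → x (γ • σ) (γ • ζ) = χ γ * x σ ζ

/-- The coboundary in the first variable. -/
def stairDY (x : Finset α → Finset β → k) (σ : Finset α) (ζ : Finset β) : k :=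
  cob (fun τ => x τ ζ) σ

/-- The coboundary in the second variable. -/
def stairDZ (x : Finset α → Finset β → k) (σ : Finset α) (ζ : Finset β) : k := cob (x σ) ζ

omit [MulAction Γ α] [MulAction Γ β] in
theorem stairDY_DZ (x : Finset α → Finset β → k) : stairDY (stairDZ x) = stairDZ (stairDY x) := by
  funext σ ζ
  simp only [stairDY, stairDZ, cob]
  exact Finset.sum_comm

theorem StairEqv.dZ {χ : Γ →* kˣ} {Y : Set (Finset α)} {Z : Set (Finset β)} (hZ : IsLowerSet Z)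
    {a b : ℕ} {x : Finset α → Finset β → k} (hx : StairEqv χ Y Z a b x) :
    StairEqv χ Y Z a (b + 1) (stairDZ x) := by
  intro γ σ hσ ha ζ hζ hb
  rw [stairDZ, stairDZ, stair_cob_smul, cob, Finset.mul_sum]
  exact Finset.sum_congr rfl fun v hv =>
    hx γ σ hσ ha _ (stair_erase_mem hZ hζ hb hv).1 (stair_erase_mem hZ hζ hb hv).2

theorem StairEqv.dY {χ : Γ →* kˣ} {Y : Set (Finset α)} {Z : Set (Finset β)} (hY : IsLowerSet Y)
    {a b : ℕ} {x : Finset α → Finset β → k} (hx : StairEqv χ Y Z (a - 1) b x) :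
    StairEqv χ Y Z a b (stairDY x) := by
  intro γ σ hσ ha ζ hζ hb
  rw [stairDY, stairDY, stair_cob_smul, cob, Finset.mul_sum]
  exact Finset.sum_congr rfl fun v hv =>
    hx γ _ (stair_erase_mem hY hσ ha hv).1 (stair_erase_mem hY hσ ha hv).2 ζ hζ hb

/-- Columns are exact. -/
theorem stair_col {χ : Γ →* kˣ} {Y : Set (Finset α)} (hY : IsLowerSet Y)
    (hYinv : ∀ γ : Γ, ∀ σ ∈ Y, γ • σ ∈ Y) {Z : Set (Finset β)}
    (hZinv : ∀ γ : Γ, ∀ ζ ∈ Z, γ • ζ ∈ Z) {a b : ℕ}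
    (hcol : ∀ ζ ∈ Z, ζ.card = b →
      TwExact k (MulAction.stabilizer Γ ζ) Y (χ.comp (MulAction.stabilizer Γ ζ).subtype) a)
    {x : Finset α → Finset β → k} (hx : StairEqv χ Y Z a b x)
    (hd : ∀ σ ∈ Y, σ.card = a + 1 → ∀ ζ ∈ Z, ζ.card = b → stairDY x σ ζ = 0) :
    ∃ u, StairEqv χ Y Z (a - 1) b u ∧
      ∀ σ ∈ Y, σ.card = a → ∀ ζ ∈ Z, ζ.card = b → x σ ζ = stairDY u σ ζ := by
  classical
  obtain ⟨h, h1, h2⟩ := exists_equivariant (Γ := Γ) (Y := Finset β) (fun g => stairRep χ α g)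
    (fun p => by simp) (fun g g' p => by simp)
    (fun ζ p => ζ ∈ Z ∧ ζ.card = b → ∀ σ ∈ Y, σ.card = a → x σ ζ = cob p σ)
    (fun g ζ p hQ hζ σ hσ ha => by
      have hζ' := (stair_mem_iff hZinv g ζ b).1 hζ
      have hσ' := (stair_mem_iff hYinv g⁻¹ σ a).2 ⟨hσ, ha⟩
      rw [stair_cob_rep, ← hQ hζ' _ hσ'.1 hσ'.2, ← hx g _ hσ'.1 hσ'.2 ζ hζ'.1 hζ'.2,
        smul_inv_smul])
    (fun ζ => by
      by_cases hζ : ζ ∈ Z ∧ ζ.card = b
      · obtain ⟨U, hU1, hU2⟩ := hcol ζ hζ.1 hζ.2 (fun σ => x σ ζ)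
          (fun γ σ hσ ha => by
            have := hx γ σ hσ ha ζ hζ.1 hζ.2
            rw [show (γ : Γ) • ζ = ζ from γ.2] at this
            exact this)
          (fun τ hτ ha => hd τ hτ ha ζ hζ.1 hζ.2)
        refine ⟨fun σ => if σ ∈ Y ∧ σ.card = a - 1 then U σ else 0, fun _ σ hσ ha => ?_,
          fun g hg => ?_⟩
        · rw [hU2 σ hσ ha]
          exact stair_cob_congr hY hσ ha fun τ hτ hc => by rw [if_pos ⟨hτ, hc⟩]
        · funext σ
          rw [stairRep_apply]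
          by_cases hσ : σ ∈ Y ∧ σ.card = a - 1
          · have hσ' := (stair_mem_iff hYinv g⁻¹ σ (a - 1)).2 hσ
            rw [if_pos hσ, if_pos hσ']
            have := hU1 ⟨g, hg⟩ _ hσ'.1 hσ'.2
            rw [show (⟨g, hg⟩ : MulAction.stabilizer Γ ζ) • (g⁻¹ • σ) = g • g⁻¹ • σ from rfl,
              smul_inv_smul] at this
            exact this.symm
          · rw [if_neg hσ, if_neg (fun h => hσ ((stair_mem_iff hYinv g⁻¹ σ (a - 1)).1 h)),
              mul_zero]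
      · exact ⟨0, fun h => absurd h hζ, fun g _ => map_zero _⟩)
  refine ⟨fun σ ζ => h ζ σ, fun γ σ _ _ ζ _ _ => ?_, fun σ hσ ha ζ hζ hb => h1 ζ ⟨hζ, hb⟩ σ hσ ha⟩
  simp only
  rw [h2, stairRep_apply, inv_smul_smul]

/-- Rows of positive size are exact. -/
theorem stair_row_pos [CharP k 2] {χ : Γ →* kˣ} {Y : Set (Finset α)}
    (hYinv : ∀ γ : Γ, ∀ σ ∈ Y, γ • σ ∈ Y) {Z : Set (Finset β)} (hZ : IsLowerSet Z)
    (hZinv : ∀ γ : Γ, ∀ ζ ∈ Z, γ • ζ ∈ Z) {a b : ℕ} (hZac : ∀ b' ≤ b, Acyc k Z b')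
    (hstab : ∀ σ ∈ Y, σ.card = a → Finite (MulAction.stabilizer Γ σ))
    (h2 : ∀ g : Γ, g ^ 2 = 1 → g = 1)
    {x : Finset α → Finset β → k} (hx : StairEqv χ Y Z a b x)
    (hd : ∀ σ ∈ Y, σ.card = a → ∀ ζ ∈ Z, ζ.card = b + 1 → stairDZ x σ ζ = 0) :
    ∃ u, StairEqv χ Y Z a (b - 1) u ∧
      ∀ σ ∈ Y, σ.card = a → ∀ ζ ∈ Z, ζ.card = b → x σ ζ = stairDZ u σ ζ := by
  classical
  let D : (Finset β → k) →ₗ[k] (Finset β → k) := LinearMap.pi fun ζ =>
    if ζ ∈ Z ∧ ζ.card = b then ∑ v ∈ ζ, LinearMap.proj (ζ.erase v) else 0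
  have hD : ∀ p ζ, D p ζ = if ζ ∈ Z ∧ ζ.card = b then cob p ζ else 0 := by
    intro p ζ
    simp only [D, LinearMap.pi_apply]
    split_ifs
    · simp [cob]
    · rfl
  obtain ⟨h, h1, h3⟩ := exists_equivariant (Γ := Γ) (Y := Finset α) (fun g => stairRep χ β g)
    (fun p => by simp) (fun g g' p => by simp)
    (fun σ p => σ ∈ Y ∧ σ.card = a → ∀ ζ ∈ Z, ζ.card = b → x σ ζ = cob p ζ)
    (fun g σ p hQ hσ ζ hζ hb => by
      have hσ' := (stair_mem_iff hYinv g σ a).1 hσ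
      have hζ' := (stair_mem_iff hZinv g⁻¹ ζ b).2 ⟨hζ, hb⟩
      rw [stair_cob_rep, ← hQ hσ' _ hζ'.1 hζ'.2, ← hx g _ hσ'.1 hσ'.2 _ hζ'.1 hζ'.2,
        smul_inv_smul])
    (fun σ => by
      by_cases hσ : σ ∈ Y ∧ σ.card = a
      · obtain ⟨U, hU⟩ := cob_exact hZ b hZac (x σ) (hd σ hσ.1 hσ.2)
        have := hstab σ hσ.1 hσ.2
        obtain ⟨p, -, hp1, hp2⟩ := exists_invariant_solution (stairRep χ β) (stairRep χ β) D
          (fun g p => by
            funext ζ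
            rw [stairRep_apply, hD, hD, stair_cob_rep]
            by_cases hζ : ζ ∈ Z ∧ ζ.card = b
            · rw [if_pos hζ, if_pos ((stair_mem_iff hZinv g⁻¹ ζ b).2 hζ)]
            · rw [if_neg hζ, if_neg (fun h => hζ ((stair_mem_iff hZinv g⁻¹ ζ b).1 h)), mul_zero])
          ⊤ (fun _ _ _ => trivial) (MulAction.stabilizer Γ σ)
          (card_ne_zero_of_no_two_torsion k h2 _)
          (fun ζ => if ζ ∈ Z ∧ ζ.card = b then x σ ζ else 0)
          (fun g hg => by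
            funext ζ
            rw [stairRep_apply]
            by_cases hζ : ζ ∈ Z ∧ ζ.card = b
            · have hζ' := (stair_mem_iff hZinv g⁻¹ ζ b).2 hζ
              rw [if_pos hζ, if_pos hζ', ← hx g σ hσ.1 hσ.2 _ hζ'.1 hζ'.2, smul_inv_smul,
                show g • σ = σ from hg]
            · rw [if_neg hζ, if_neg (fun h => hζ ((stair_mem_iff hZinv g⁻¹ ζ b).1 h)), mul_zero])
          U trivial
          (by
            funext ζ
            rw [hD]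
            split_ifs with hζ
            · exact (hU ζ hζ.1 hζ.2).symm
            · rfl)
        refine ⟨p, fun _ ζ hζ hb => ?_, fun g hg => hp2 g hg⟩
        have := congrFun hp1 ζ
        rw [hD, if_pos ⟨hζ, hb⟩, if_pos ⟨hζ, hb⟩] at this
        exact this.symm
      · exact ⟨0, fun h => absurd h hσ, fun g _ => map_zero _⟩)
  refine ⟨h, fun γ σ _ _ ζ _ _ => ?_, fun σ hσ ha ζ hζ hb => h1 σ ⟨hσ, ha⟩ ζ hζ hb⟩
  rw [h3, stairRep_apply, inv_smul_smul]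

/-- The row of size zero vanishes. -/
theorem stair_row_zero {χ : Γ →* kˣ} {Y : Set (Finset α)} {Z : Set (Finset β)} {b : ℕ}
    (hb : 1 ≤ b) (hcol0 : ∀ ζ ∈ Z, ζ.Nonempty → ∃ γ : Γ, γ • ζ = ζ ∧ χ γ ≠ 1)
    {x : Finset α → Finset β → k} (hx : StairEqv χ Y Z 0 b x) :
    ∀ σ ∈ Y, σ.card = 0 → ∀ ζ ∈ Z, ζ.card = b → x σ ζ = 0 := by
  intro σ hσ ha ζ hζ hb'
  obtain ⟨γ, hγ, hχ⟩ := hcol0 ζ hζ (Finset.card_pos.1 (by omega))
  have h := hx γ σ hσ ha ζ hζ hb'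
  rw [Finset.card_eq_zero] at ha
  subst ha
  rw [hγ, Finset.smul_finset_empty] at h
  by_contra hne
  apply hχ
  have : (χ γ : k) = 1 := mul_right_cancel₀ hne (by rw [← h, one_mul])
  exact Units.ext this

end StairAux

/-- The double complex `E a b` of functions `F σ ζ` (`σ ∈ Y` of size `a`, `ζ ∈ Z` of size `b`) with
`F (γ • σ) (γ • ζ) = χ γ * F σ ζ`.  `E 0 b = 0` (for `b = 0` because `Z` has a vertex by
acyclicity in size `0` and `hZ0`, so `χ ≠ 1`).  Columns (`b ≥ 1`) are exact by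
`hcol` and `exists_equivariant`; rows (`a ≥ 1`) are exact in sizes `≤ a₀` by `cob_exact`,
`exists_invariant_solution` and `exists_equivariant`.  Prove by induction on `a`:
for all `b ≥ 1` with `a + b ≤ a₀ + 1`, every `x ∈ E a b` closed in both directions is `d_Y u` with
`u ∈ E (a-1) b`, `d_Z u = 0`.  Then apply it to `d_Z x`, `x ∈ E a₀ 0`. -/
theorem twExact_of_stair (k : Type*) [Field k] [CharP k 2] {Γ : Type*} [Group Γ]
    {α β : Type*} [DecidableEq α] [DecidableEq β] [MulAction Γ α] [MulAction Γ β]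
    (Y : Set (Finset α)) (hY : IsLowerSet Y) (hYinv : ∀ γ : Γ, ∀ σ ∈ Y, γ • σ ∈ Y)
    (Z : Set (Finset β)) (hZ : IsLowerSet Z) (hZ0 : ∅ ∈ Z) (hZinv : ∀ γ : Γ, ∀ ζ ∈ Z, γ • ζ ∈ Z)
    (a₀ : ℕ) (hZac : ∀ b ≤ a₀, Acyc k Z b)
    (hstab : ∀ σ ∈ Y, σ.Nonempty → Finite (MulAction.stabilizer Γ σ))
    (h2 : ∀ g : Γ, g ^ 2 = 1 → g = 1) (χ : Γ →* kˣ)
    (hcol : ∀ ζ ∈ Z, ζ.Nonempty → ∀ a ≤ a₀,
      TwExact k (MulAction.stabilizer Γ ζ) Y (χ.comp (MulAction.stabilizer Γ ζ).subtype) a)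
    (hcol0 : ∀ ζ ∈ Z, ζ.Nonempty → ∃ γ : Γ, γ • ζ = ζ ∧ χ γ ≠ 1) :
    TwExact k Γ Y χ a₀ := by
  classical
  have hrow : ∀ a b, 1 ≤ b → (a = 0 ∨ b ≤ a₀) → ∀ x : Finset α → Finset β → k,
      StairEqv χ Y Z a b x →
      (∀ σ ∈ Y, σ.card = a → ∀ ζ ∈ Z, ζ.card = b + 1 → stairDZ x σ ζ = 0) →
      ∃ u, StairEqv χ Y Z a (b - 1) u ∧
        ∀ σ ∈ Y, σ.card = a → ∀ ζ ∈ Z, ζ.card = b → x σ ζ = stairDZ u σ ζ := by
    intro a b hb hab x hx hd
    rcases Nat.eq_zero_or_pos a with ha | ha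
    · subst ha
      refine ⟨fun _ _ => 0, fun _ _ _ _ _ _ _ => by simp, fun σ hσ ha ζ hζ hb' => ?_⟩
      rw [stair_row_zero hb hcol0 hx σ hσ ha ζ hζ hb']
      simp [stairDZ, cob]
    · have hb' : b ≤ a₀ := by omega
      exact stair_row_pos hYinv hZ hZinv (fun b' h => hZac b' (h.trans hb'))
        (fun σ hσ hc => hstab σ hσ (Finset.card_pos.1 (by omega))) h2 hx hd
  have main : ∀ a b, 1 ≤ b → a + b ≤ a₀ + 1 → ∀ x : Finset α → Finset β → k,
      StairEqv χ Y Z a b x →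
      (∀ σ ∈ Y, σ.card = a + 1 → ∀ ζ ∈ Z, ζ.card = b → stairDY x σ ζ = 0) →
      (∀ σ ∈ Y, σ.card = a → ∀ ζ ∈ Z, ζ.card = b + 1 → stairDZ x σ ζ = 0) →
      ∃ u, StairEqv χ Y Z (a - 1) b u ∧
        (∀ σ ∈ Y, σ.card = a → ∀ ζ ∈ Z, ζ.card = b → x σ ζ = stairDY u σ ζ) ∧
        ∀ σ ∈ Y, σ.card = a - 1 → ∀ ζ ∈ Z, ζ.card = b + 1 → stairDZ u σ ζ = 0 := by
    intro a
    induction a with
    | zero =>
      intro b hb _ x hx _ _
      refine ⟨fun _ _ => 0, fun _ _ _ _ _ _ _ => by simp, fun σ hσ ha ζ hζ hb' => ?_,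
        fun _ _ _ _ _ _ => by simp [stairDZ, cob]⟩
      rw [stair_row_zero hb hcol0 hx σ hσ ha ζ hζ hb']
      simp [stairDY, cob]
    | succ a ih =>
      intro b hb hab x hx hdY hdZ
      obtain ⟨v, hv1, hv2⟩ := stair_col hY hYinv hZinv
        (fun ζ hζ hc => hcol ζ hζ (Finset.card_pos.1 (by omega)) (a + 1) (by omega)) hx hdY
      simp only [Nat.add_sub_cancel] at hv1 ⊢
      obtain ⟨w, hw1, hw2, hw3⟩ := ih (b + 1) (by omega) (by omega) (stairDZ v) (hv1.dZ hZ)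
        (fun σ hσ ha ζ hζ hb' => by
          rw [stairDY_DZ, ← hdZ σ hσ ha ζ hζ hb', stairDZ, stairDZ]
          exact stair_cob_congr hZ hζ hb' fun τ hτ hc => (hv2 σ hσ ha τ hτ hc).symm)
        (fun σ _ _ ζ _ _ => cob_cob (v σ) ζ)
      obtain ⟨r, hr1, hr2⟩ := hrow (a - 1) (b + 1) (by omega) (by omega) w hw1 hw3
      simp only [Nat.add_sub_cancel] at hr1
      refine ⟨fun σ ζ => v σ ζ + stairDY r σ ζ, fun γ σ hσ ha ζ hζ hb' => ?_,
        fun σ hσ ha ζ hζ hb' => ?_, fun σ hσ ha ζ hζ hb' => ?_⟩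
      · simp only
        rw [hv1 γ σ hσ ha ζ hζ hb', hr1.dY hY γ σ hσ ha ζ hζ hb', mul_add]
      · rw [hv2 σ hσ ha ζ hζ hb']
        have := cob_cob (fun τ => r τ ζ) σ
        simp only [stairDY, cob, Finset.sum_add_distrib] at this ⊢
        rw [this, add_zero]
      · have e1 : stairDZ (fun σ ζ => v σ ζ + stairDY r σ ζ) σ ζ =
            stairDZ v σ ζ + stairDZ (stairDY r) σ ζ := by
          simp only [stairDZ, cob, Finset.sum_add_distrib]
        have e2 : stairDY (stairDZ r) σ ζ = stairDY w σ ζ :=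
          stair_cob_congr hY hσ ha fun τ hτ hc => (hr2 τ hτ hc ζ hζ hb').symm
        rw [e1, ← stairDY_DZ, e2, hw2 σ hσ ha ζ hζ hb', CharTwo.add_self_eq_zero]
  intro F hF hdF
  obtain ⟨u, hu1, hu2, hu3⟩ := main a₀ 1 le_rfl le_rfl (fun σ _ => F σ)
    (fun γ σ hσ ha _ _ _ => hF γ σ hσ ha) (fun σ hσ ha _ _ _ => hdF σ hσ ha)
    (fun σ _ _ ζ _ hb => by
      simp only [stairDZ, cob, Finset.sum_const, hb, nsmul_eq_mul]
      have : ((1 + 1 : ℕ) : k) = 0 := CharP.cast_eq_zero k 2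
      rw [this, zero_mul])
  obtain ⟨r, hr1, hr2⟩ := hrow (a₀ - 1) 1 le_rfl (by omega) u hu1 hu3
  obtain ⟨z, hz, hz1⟩ : ∃ z ∈ Z, z.card = 1 := by
    obtain ⟨w, hw, hw'⟩ := hZac 0 (Nat.zero_le _) (Finsupp.single ∅ 1)
      (mem_Cs.2 fun σ hσ => by
        have := Finsupp.support_single_subset hσ
        rw [Finset.mem_singleton] at this
        subst this
        exact ⟨hZ0, rfl⟩)
      (by rw [bd_single]; simp)
    have hw0 : w ≠ 0 := by
      rintro rfl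
      rw [map_zero] at hw'
      exact one_ne_zero (Finsupp.single_eq_zero.1 hw'.symm)
    obtain ⟨z, hz⟩ := Finsupp.support_nonempty_iff.2 hw0
    exact ⟨z, mem_Cs.1 hw z hz⟩
  refine ⟨fun σ => r σ ∅, fun γ σ hσ ha => ?_, fun σ hσ ha => ?_⟩
  · have := hr1 γ σ hσ ha ∅ hZ0 rfl
    rwa [Finset.smul_finset_empty] at this
  · rw [hu2 σ hσ ha z hz hz1]
    refine stair_cob_congr hY hσ ha fun τ hτ hc => ?_
    rw [hr2 τ hτ hc z hz hz1]
    obtain ⟨v, rfl⟩ := Finset.card_eq_one.1 hz1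
    simp [stairDZ, cob]

/-- The form used in the application. -/
theorem twExact_of_frames (k : Type*) [Field k] [CharP k 2] {Γ : Type*} [Group Γ]
    {α β : Type*} [DecidableEq α] [DecidableEq β] [MulAction Γ α] [MulAction Γ β]
    (Y : Set (Finset α)) (hY : IsLowerSet Y) (hYinv : ∀ γ : Γ, ∀ σ ∈ Y, γ • σ ∈ Y)
    (Z : Set (Finset β)) (hZ : IsLowerSet Z) (hZ0 : ∅ ∈ Z) (hZinv : ∀ γ : Γ, ∀ ζ ∈ Z, γ • ζ ∈ Z)
    (a₀ : ℕ) (hYac : ∀ b ≤ a₀, Acyc k Y b) (hZac : ∀ b ≤ a₀, Acyc k Z b)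
    (hstab : ∀ σ ∈ Y, σ.Nonempty → Finite (MulAction.stabilizer Γ σ))
    (h2 : ∀ g : Γ, g ^ 2 = 1 → g = 1) (χ : Γ →* kˣ)
    (hN : ∀ ζ ∈ Z, ζ.Nonempty → ∃ A : Subgroup (MulAction.stabilizer Γ ζ),
      A.Normal ∧ LocFin A ∧ ∃ n ∈ A, χ (n : Γ) ≠ 1) :
    TwExact k Γ Y χ a₀ := by
  refine twExact_of_stair k Y hY hYinv Z hZ hZ0 hZinv a₀ hZac hstab h2 χ
    (fun ζ hζ hne a ha => ?_) (fun ζ hζ hne => ?_)
  · obtain ⟨A, hA1, hA2, n, hn, hχ⟩ := hN ζ hζ hne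
    refine twExact_of_normal k (Γ := MulAction.stabilizer Γ ζ) Y hY (fun γ σ hσ => hYinv γ σ hσ) a
      (fun b hb => hYac b (hb.trans ha)) (fun σ hσ hσ' => ?_)
      (fun g hg => Subtype.ext (h2 g (by simpa using congrArg Subtype.val hg))) _ A hA2
      ⟨n, hn, hχ⟩
    have := hstab σ hσ hσ'
    refine Finite.of_injective
      (fun g => (⟨g.1.1, g.2⟩ : MulAction.stabilizer Γ σ)) fun g g' h => ?_
    have h' : (g.1.1 : Γ) = g'.1.1 := congrArg (fun x : MulAction.stabilizer Γ σ => (x : Γ)) h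
    exact Subtype.ext (Subtype.ext h')
  · obtain ⟨A, -, -, n, -, hχ⟩ := hN ζ hζ hne
    exact ⟨n, n.2, hχ⟩

end Crest.Agent.R66
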