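import Crest.Agent.R66.GrpBasic
import Crest.Agent.R66.Frames

/-!
# R66, task T14b: characters of `Γ(X^s) / Γ(X^{s+1})` and unipotent radicals of frames
-/

set_option autoImplicit false

namespace Crest.Agent.R66

open Polynomial
open scoped Pointwise

/-- Reduction of polynomial vectors at `X = 0`. -/
noncomputable def red0 {F : Type*} [Field F] {N : ℕ} (w : Fin N → F[X]) : Fin N → F :=
  fun i => (w i).coeff 0

theorem red0_surjective {F : Type*} [Field F] {N : ℕ} :
    Function.Surjective (red0 : (Fin N → F[X]) → Fin N → F) := fun x =>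
  ⟨fun i => C (x i), by ext i; simp [red0]⟩

section Aux

open Matrix

variable {F : Type*} [Field F] {N : ℕ}

theorem theta_red0_eq (w : Fin N → F[X]) : red0 w = constantCoeff ∘ w := by
  ext i; simp [red0]

theorem theta_red0_add (v w : Fin N → F[X]) : red0 (v + w) = red0 v + red0 w := by
  ext i; simp [red0]

theorem theta_red0_C_smul (a : F) (w : Fin N → F[X]) : red0 (C a • w) = a • red0 w := by
  ext i; simp [red0]

/-- The coefficient of `X ^ s` in `M - 1`. -/
noncomputable def thetaM (s : ℕ) (M : Matrix (Fin N) (Fin N) F[X]) : Matrix (Fin N) (Fin N) F :=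
  Matrix.of fun i j => (M i j - (1 : Matrix (Fin N) (Fin N) F[X]) i j).coeff s

theorem thetaM_eq (s : ℕ) (B : Matrix (Fin N) (Fin N) F[X]) :
    thetaM s (1 + (X ^ s : F[X]) • B) = B.map constantCoeff := by
  ext i j
  simp only [thetaM, Matrix.of_apply, Matrix.add_apply, add_sub_cancel_left, Matrix.smul_apply,
    smul_eq_mul, Matrix.map_apply, constantCoeff_apply]
  have := Polynomial.coeff_X_pow_mul (B i j) s 0
  rwa [zero_add] at this

theorem theta_red0_mulVec {s : ℕ} (hs : 1 ≤ s) (B : Matrix (Fin N) (Fin N) F[X])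
    (w : Fin N → F[X]) : red0 ((1 + (X ^ s : F[X]) • B) *ᵥ w) = red0 w := by
  ext i
  rw [Matrix.add_mulVec, Matrix.one_mulVec, Matrix.smul_mulVec]
  simp only [red0, Pi.add_apply, Pi.smul_apply, smul_eq_mul, coeff_add, add_eq_left]
  rw [mul_coeff_zero, coeff_X_pow, if_neg (by omega), zero_mul]

theorem theta_trace {s : ℕ} (hs : 1 ≤ s) (B : Matrix (Fin N) (Fin N) F[X])
    (h : (1 + (X ^ s : F[X]) • B).det = 1) : (B.map constantCoeff).trace = 0 := by
  rw [Matrix.det_one_add_smul] at h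
  set c := eval (X ^ s : F[X]) (1 + (X : F[X][X]) • B.map C).det.divX.divX
  have h1 : (X ^ s : F[X]) * (B.trace + c * X ^ s) = 0 := by linear_combination h
  have h2 : B.trace + c * X ^ s = 0 :=
    (mul_eq_zero.1 h1).resolve_left (pow_ne_zero _ X_ne_zero)
  have h3 : constantCoeff B.trace = 0 := by
    have : B.trace = -(c * X ^ s) := by linear_combination h2
    rw [this, map_neg, map_mul, map_pow, constantCoeff_apply X, coeff_X_zero, zero_pow (by omega),
      mul_zero, neg_zero]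
  rw [← h3, Matrix.trace, Matrix.trace, map_sum]
  rfl

/-- The matrix `M` attached to a character of the additive group of matrices. -/
theorem theta_exists_M {k : Type*} [Field k]
    (ψ : Multiplicative (Matrix (Fin N) (Fin N) F) →* kˣ) (Y₀ : Matrix (Fin N) (Fin N) F)
    (htr : Y₀.trace = 0) (hY : ψ (Multiplicative.ofAdd Y₀) ≠ 1) :
    ∃ M : Matrix (Fin N) (Fin N) F, (∀ c : F, M ≠ c • (1 : Matrix (Fin N) (Fin N) F)) ∧
      ∀ x φ : Fin N → F, φ ⬝ᵥ M *ᵥ x ≠ 0 →
        ∃ a : F, ψ (Multiplicative.ofAdd (a • vecMulVec x φ)) ≠ 1 := by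
  let K : Submodule F (Matrix (Fin N) (Fin N) F) :=
    { carrier := {Y | ∀ a : F, ψ (Multiplicative.ofAdd (a • Y)) = 1}
      add_mem' := fun {Y Y'} h h' a => by
        rw [smul_add, ofAdd_add, map_mul, h a, h' a, one_mul]
      zero_mem' := fun a => by simp
      smul_mem' := fun c Y h a => by
        rw [smul_smul]; exact h _ }
  have hY0 : Y₀ ∉ K := fun h => hY (by simpa using h 1)
  obtain ⟨μ, hμ, hK⟩ := Submodule.exists_dual_map_eq_bot_of_notMem hY0 inferInstance
  have hK' : ∀ Y ∈ K, μ Y = 0 := fun Y h => by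
    have : μ Y ∈ K.map μ := Submodule.mem_map_of_mem h
    rwa [hK, Submodule.mem_bot] at this
  have hexp : ∀ Y : Matrix (Fin N) (Fin N) F,
      μ Y = ∑ i, ∑ j, Y i j * μ (Matrix.single i j 1) := fun Y => by
    conv_lhs => rw [Matrix.matrix_eq_sum_single Y]
    simp only [map_sum]
    refine Finset.sum_congr rfl fun i _ => Finset.sum_congr rfl fun j _ => ?_
    rw [← smul_eq_mul, ← map_smul, Matrix.smul_single, smul_eq_mul, mul_one]
  refine ⟨Matrix.of fun j i => μ (Matrix.single i j 1), fun c hc => hμ ?_, fun x φ h => ?_⟩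
  · rw [hexp]
    have h1 : ∀ i j, μ (Matrix.single i j 1) = if j = i then c else 0 := fun i j => by
      have := congrFun (congrFun hc j) i
      simpa [Matrix.one_apply] using this
    simp only [h1, mul_ite, mul_zero, Finset.sum_ite_eq', Finset.mem_univ, if_true]
    rw [← Finset.sum_mul]
    have : ∑ i, Y₀ i i = 0 := htr
    rw [this, zero_mul]
  · by_contra hcon
    push Not at hcon
    apply h
    have := hK' _ hcon
    rw [hexp] at this
    rw [← this]
    simp only [dotProduct, Matrix.mulVec, Matrix.of_apply, vecMulVec_apply, Finset.mul_sum]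
    rw [Finset.sum_comm]
    refine Finset.sum_congr rfl fun i _ => Finset.sum_congr rfl fun j _ => ?_
    ring

/-- Lifting a covector killing the reduction of a frame. -/
theorem theta_lift_covector (ζ : Finset (Fin N → F[X]))
    (hζ : LinearIndependent F (fun w : ζ => red0 (w : Fin N → F[X]))) (φ : Fin N → F)
    (hφ : ∀ w ∈ ζ, φ ⬝ᵥ red0 w = 0) :
    ∃ φ' : Fin N → F[X], red0 φ' = φ ∧ ∀ w ∈ ζ, φ' ⬝ᵥ w = 0 := by
  classical
  let W : Matrix (Fin N) ζ F[X] := Matrix.of fun i w => (w : Fin N → F[X]) i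
  let W0 : Matrix (Fin N) ζ F := W.map constantCoeff
  have hinj : Function.Injective W0.mulVec := by
    rw [Matrix.mulVec_injective_iff]
    exact hζ
  obtain ⟨g, hg⟩ := LinearMap.exists_leftInverse_of_injective (Matrix.toLin' W0)
    (LinearMap.ker_eq_bot.2 hinj)
  let L : Matrix ζ (Fin N) F := LinearMap.toMatrix' g
  have hL : L * W0 = 1 := by
    have := congrArg LinearMap.toMatrix' hg
    rwa [LinearMap.toMatrix'_comp, LinearMap.toMatrix'_toLin', LinearMap.toMatrix'_id] at this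
  let LC : Matrix ζ (Fin N) F[X] := L.map C
  let B : Matrix ζ ζ F[X] := LC * W
  have hLC : LC.map constantCoeff = L := by
    ext i j; simp [LC]
  have hB : B.map constantCoeff = 1 := by
    rw [Matrix.map_mul, hLC]; exact hL
  have hdet : constantCoeff B.det = 1 := by
    rw [RingHom.map_det, RingHom.mapMatrix_apply, hB, Matrix.det_one]
  let φC : Fin N → F[X] := fun i => C (φ i)
  have hφC : constantCoeff ∘ φC = φ := by ext i; simp [φC]
  let v : ζ → F[X] := φC ᵥ* W
  have hv : constantCoeff ∘ v = 0 := by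
    ext w
    have := hφ w w.2
    rw [Function.comp_apply, RingHom.map_vecMul, hφC]
    exact this
  refine ⟨B.det • φC - (v ᵥ* B.adjugate) ᵥ* LC, ?_, fun w hw => ?_⟩
  · rw [theta_red0_eq]
    ext i
    rw [Function.comp_apply, Pi.sub_apply, map_sub, RingHom.map_vecMul]
    have h0 : constantCoeff ∘ (v ᵥ* B.adjugate) = 0 := by
      ext j
      rw [Function.comp_apply, RingHom.map_vecMul, hv, Matrix.zero_vecMul]
    rw [h0, Matrix.zero_vecMul, Pi.smul_apply, smul_eq_mul, map_mul, hdet]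
    simp [φC]
  · have h1 : (B.det • φC - (v ᵥ* B.adjugate) ᵥ* LC) ᵥ* W = 0 := by
      rw [Matrix.sub_vecMul, Matrix.vecMul_vecMul, Matrix.vecMul_vecMul, Matrix.smul_vecMul]
      change B.det • v - v ᵥ* (B.adjugate * B) = 0
      rw [Matrix.adjugate_mul, Matrix.vecMul_smul, Matrix.vecMul_one, sub_self]
    exact congrFun h1 ⟨w, hw⟩

/-- Lifting a vector of the span of the reduction. -/
theorem theta_lift_vector (ζ : Set (Fin N → F[X])) (x : Fin N → F)
    (hx : x ∈ Submodule.span F (red0 '' ζ)) :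
    ∃ x' ∈ Submodule.span F[X] ζ, red0 x' = x := by
  induction hx using Submodule.span_induction with
  | mem y hy =>
    obtain ⟨w, hw, rfl⟩ := hy
    exact ⟨w, Submodule.subset_span hw, rfl⟩
  | zero => exact ⟨0, Submodule.zero_mem _, by ext i; simp [red0]⟩
  | add y z _ _ hy hz =>
    obtain ⟨y', hy', rfl⟩ := hy
    obtain ⟨z', hz', rfl⟩ := hz
    exact ⟨y' + z', Submodule.add_mem _ hy' hz', theta_red0_add _ _⟩
  | smul a y _ hy =>
    obtain ⟨y', hy', rfl⟩ := hy
    exact ⟨C a • y', Submodule.smul_mem _ _ hy', theta_red0_C_smul _ _⟩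

/-- A covector vanishing on a subspace and not on a given vector outside. -/
theorem theta_exists_covector (S : Submodule F (Fin N → F)) (y : Fin N → F) (hy : y ∉ S) :
    ∃ φ : Fin N → F, φ ⬝ᵥ y ≠ 0 ∧ ∀ z ∈ S, φ ⬝ᵥ z = 0 := by
  obtain ⟨f, hf, hS⟩ := Submodule.exists_dual_map_eq_bot_of_notMem hy inferInstance
  have hexp : ∀ z : Fin N → F, (fun i => f (Pi.single i 1)) ⬝ᵥ z = f z := fun z => by
    conv_rhs => rw [pi_eq_sum_univ' z]
    simp only [map_sum, map_smul, dotProduct, smul_eq_mul, mul_comm]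
  refine ⟨fun i => f (Pi.single i 1), by rwa [hexp], fun z hz => ?_⟩
  have : f z ∈ S.map f := Submodule.mem_map_of_mem hz
  rw [hS, Submodule.mem_bot] at this
  rw [hexp, this]

variable [NeZero N]

theorem theta_smul_def {s : ℕ} (γ : Gam F N s) (w : Fin N → F[X]) : γ • w = γ.1.1.1 *ᵥ w := rfl

theorem theta_mem_Gam {s : ℕ} {g : Up F N} :
    g ∈ Gam F N s ↔ ∃ B : Matrix (Fin N) (Fin N) F[X], g.1.1 = 1 + (X ^ s : F[X]) • B := by
  rw [mem_Gam]
  constructor
  · intro h
    choose B hB using h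
    refine ⟨Matrix.of B, ?_⟩
    ext1 i j
    simp only [Matrix.add_apply, Matrix.smul_apply, Matrix.of_apply, smul_eq_mul, ← hB]
    ring
  · rintro ⟨B, hB⟩ i j
    rw [hB]
    exact ⟨B i j, by simp⟩

theorem theta_red0_smul {s : ℕ} (hs : 1 ≤ s) (γ : Gam F N s) (w : Fin N → F[X]) :
    red0 (γ • w) = red0 w := by
  obtain ⟨B, hB⟩ := theta_mem_Gam.1 γ.2
  rw [theta_smul_def, hB, theta_red0_mulVec hs]

theorem theta_ext {s : ℕ} {γ γ' : Gam F N s} (h : ∀ w : Fin N → F[X], γ • w = γ' • w) :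
    γ = γ' := by
  refine Subtype.ext (Subtype.ext (Subtype.ext ?_))
  exact Matrix.ext_of_mulVec_single fun i => h _

/-- The homomorphism `θ`. -/
noncomputable def thetaHom {s : ℕ} (hs : 1 ≤ s) :
    Gam F N s →* Multiplicative (Matrix (Fin N) (Fin N) F) :=
  MonoidHom.mk' (fun γ => Multiplicative.ofAdd (thetaM s γ.1.1.1)) fun γ γ' => by
    obtain ⟨B, hB⟩ := theta_mem_Gam.1 γ.2
    obtain ⟨B', hB'⟩ := theta_mem_Gam.1 γ'.2
    have h : (γ * γ').1.1.1 = 1 + (X ^ s : F[X]) • (B + B' + (X ^ s : F[X]) • (B * B')) := by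
      change γ.1.1.1 * γ'.1.1.1 = _
      rw [hB, hB']
      simp only [add_mul, mul_add, one_mul, mul_one, smul_add, Matrix.smul_mul, Matrix.mul_smul]
      abel
    rw [← ofAdd_add, h, hB, hB', thetaM_eq, thetaM_eq, thetaM_eq]
    congr 1
    ext i j
    simp only [Matrix.map_apply, Matrix.add_apply, Matrix.smul_apply, smul_eq_mul, map_add,
      map_mul, map_pow, add_eq_left]
    rw [constantCoeff_apply X, coeff_X_zero, zero_pow (by omega), zero_mul]

theorem thetaHom_apply {s : ℕ} (hs : 1 ≤ s) (γ : Gam F N s) :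
    thetaHom hs γ = Multiplicative.ofAdd (thetaM s γ.1.1.1) := rfl

theorem thetaHom_eq_one {s : ℕ} (hs : 1 ≤ s) (γ : Gam F N s) :
    thetaHom hs γ = 1 ↔ (γ : Up F N) ∈ Gam F N (s + 1) := by
  obtain ⟨B, hB⟩ := theta_mem_Gam.1 γ.2
  rw [thetaHom_apply, ofAdd_eq_one, hB, thetaM_eq, mem_Gam, hB, ← Matrix.ext_iff]
  refine forall_congr' fun i => forall_congr' fun j => ?_
  simp only [Matrix.map_apply, constantCoeff_apply, Matrix.zero_apply, Matrix.add_apply,
    add_sub_cancel_left, Matrix.smul_apply, smul_eq_mul]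
  rw [pow_succ, mul_dvd_mul_iff_left (pow_ne_zero _ X_ne_zero), X_dvd_iff]

theorem theta_Zc_smul [DecidableEq F] {s : ℕ} (hs : 1 ≤ s) (M : Matrix (Fin N) (Fin N) F)
    (γ : Gam F N s) (ζ : Finset (Fin N → F[X])) (hζ : ζ ∈ Zc (W := Fin N → F[X]) red0 M) :
    γ • ζ ∈ Zc red0 M := by
  refine ⟨?_, fun τ hτ hne => ?_⟩
  · let e : ↥(γ • ζ) → ↥ζ := fun w => ⟨γ⁻¹ • (w : Fin N → F[X]), Finset.inv_smul_mem_iff.2 w.2⟩
    have he : Function.Injective e := fun w w' h =>
      Subtype.ext (MulAction.injective γ⁻¹ (congrArg Subtype.val h))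
    have := hζ.1.comp e he
    convert this using 1
    ext1 w
    exact (theta_red0_smul hs γ⁻¹ w).symm
  · have h1 : γ⁻¹ • τ ⊆ ζ := by
      intro w hw
      obtain ⟨w', hw', rfl⟩ := Finset.mem_smul_finset.1 hw
      exact Finset.inv_smul_mem_iff.2 (hτ hw')
    have h2 : red0 '' ((γ⁻¹ • τ : Finset (Fin N → F[X])) : Set (Fin N → F[X]))
        = red0 '' (τ : Set (Fin N → F[X])) := by
      ext y
      constructor
      · rintro ⟨w, hw, rfl⟩
        obtain ⟨w', hw', rfl⟩ := Finset.mem_smul_finset.1 hw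
        exact ⟨w', hw', (theta_red0_smul hs _ _).symm⟩
      · rintro ⟨w, hw, rfl⟩
        exact ⟨γ⁻¹ • w, Finset.smul_mem_smul_finset hw, theta_red0_smul hs _ _⟩
    have := hζ.2 _ h1 (hne.smul_finset)
    rwa [h2] at this

theorem theta_smul_span {s : ℕ} (γ : Gam F N s) (ζ : Set (Fin N → F[X]))
    (h : ∀ w ∈ ζ, γ • w ∈ ζ) {u : Fin N → F[X]} (hu : u ∈ Submodule.span F[X] ζ) :
    γ • u ∈ Submodule.span F[X] ζ := by
  induction hu using Submodule.span_induction with
  | mem y hy => exact Submodule.subset_span (h y hy)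
  | zero => rw [smul_zero]; exact Submodule.zero_mem _
  | add y z _ _ hy hz => rw [smul_add]; exact Submodule.add_mem _ hy hz
  | smul a y _ hy =>
    rw [theta_smul_def, Matrix.mulVec_smul, ← theta_smul_def]
    exact Submodule.smul_mem _ _ hy

theorem theta_smul_fix {s : ℕ} (γ : Gam F N s) (ζ : Set (Fin N → F[X]))
    (h : ∀ w ∈ ζ, γ • w = w) {u : Fin N → F[X]} (hu : u ∈ Submodule.span F[X] ζ) :
    γ • u = u := by
  induction hu using Submodule.span_induction with
  | mem y hy => exact h y hy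
  | zero => rw [smul_zero]
  | add y z _ _ hy hz => rw [smul_add, hy, hz]
  | smul a y _ hy => rw [theta_smul_def, Matrix.mulVec_smul, ← theta_smul_def, hy]

/-- The unipotent radical of the stabiliser of a frame. -/
def thetaA [DecidableEq F] (s : ℕ) (ζ : Finset (Fin N → F[X])) :
    Subgroup (MulAction.stabilizer (Gam F N s) ζ) where
  carrier := {g | (∀ w ∈ ζ, (g : Gam F N s) • w = w) ∧
    ∀ w : Fin N → F[X], (g : Gam F N s) • w - w ∈ Submodule.span F[X] (ζ : Set (Fin N → F[X]))}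
  one_mem' := ⟨fun w _ => by simp, fun w => by simp⟩
  mul_mem' := fun {g h} hg hh => ⟨fun w hw => by
      rw [Subgroup.coe_mul, mul_smul, hh.1 w hw, hg.1 w hw], fun w => by
      have := Submodule.add_mem _ (hg.2 ((h : Gam F N s) • w)) (hh.2 w)
      rw [Subgroup.coe_mul, mul_smul]
      simpa using this⟩
  inv_mem' := fun {g} hg => ⟨fun w hw => by
      rw [Subgroup.coe_inv, inv_smul_eq_iff, hg.1 w hw], fun w => by
      have := Submodule.neg_mem _ (hg.2 ((g : Gam F N s)⁻¹ • w))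
      rw [Subgroup.coe_inv]
      simpa using this⟩

theorem theta_stab_mem [DecidableEq F] {s : ℕ} {ζ : Finset (Fin N → F[X])}
    (h : MulAction.stabilizer (Gam F N s) ζ) {w : Fin N → F[X]} (hw : w ∈ ζ) :
    (h : Gam F N s) • w ∈ ζ := by
  have h1 : (h : Gam F N s) • ζ = ζ := h.2
  have h2 : (h : Gam F N s) • w ∈ (h : Gam F N s) • ζ := Finset.smul_mem_smul_finset hw
  rwa [h1] at h2

theorem thetaA_normal [DecidableEq F] (s : ℕ) (ζ : Finset (Fin N → F[X])) :
    (thetaA s ζ).Normal := by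
  refine ⟨fun g hg h => ⟨fun w hw => ?_, fun w => ?_⟩⟩
  · have h1 := theta_stab_mem h⁻¹ hw
    rw [Subgroup.coe_mul, Subgroup.coe_mul, mul_smul, mul_smul, hg.1 _ h1, Subgroup.coe_inv,
      smul_inv_smul]
  · have h1 := theta_smul_span (h : Gam F N s) (ζ : Set (Fin N → F[X]))
      (fun w hw => theta_stab_mem h hw) (hg.2 ((h : Gam F N s)⁻¹ • w))
    rw [smul_sub, smul_inv_smul] at h1
    rw [Subgroup.coe_mul, Subgroup.coe_mul, mul_smul, mul_smul, Subgroup.coe_inv]
    exact h1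

theorem thetaA_comm [DecidableEq F] {s : ℕ} {ζ : Finset (Fin N → F[X])}
    {g h : MulAction.stabilizer (Gam F N s) ζ} (hg : g ∈ thetaA s ζ) (hh : h ∈ thetaA s ζ) :
    g * h = h * g := by
  refine Subtype.ext (theta_ext fun w => ?_)
  have h1 := theta_smul_fix (g : Gam F N s) _ hg.1 (hh.2 w)
  have h2 := theta_smul_fix (h : Gam F N s) _ hh.1 (hg.2 w)
  rw [smul_sub] at h1 h2
  rw [Subgroup.coe_mul, Subgroup.coe_mul, mul_smul, mul_smul]
  linear_combination h1 - h2

theorem thetaA_pow [DecidableEq F] {s : ℕ} {ζ : Finset (Fin N → F[X])}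
    {g : MulAction.stabilizer (Gam F N s) ζ} (hg : g ∈ thetaA s ζ) (n : ℕ) (w : Fin N → F[X]) :
    ((g ^ n : MulAction.stabilizer (Gam F N s) ζ) : Gam F N s) • w
      = w + n • ((g : Gam F N s) • w - w) := by
  induction n with
  | zero => simp
  | succ n ih =>
    have h1 := theta_smul_fix (g : Gam F N s) _ hg.1 (hg.2 w)
    rw [pow_succ', Subgroup.coe_mul, mul_smul, ih, smul_add, smul_comm, h1, add_smul, one_smul]
    abel

theorem thetaA_locFin [Finite F] [DecidableEq F] (s : ℕ) (ζ : Finset (Fin N → F[X])) :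
    LocFin (thetaA s ζ) := by
  intro t ht
  have := Fintype.ofFinite F
  have hcomm : IsMulCommutative (Subgroup.closure (t : Set (MulAction.stabilizer (Gam F N s) ζ))) :=
    Subgroup.isMulCommutative_closure fun x hx y hy => thetaA_comm (ht hx) (ht hy)
  have hle : Subgroup.closure (t : Set (MulAction.stabilizer (Gam F N s) ζ)) ≤ thetaA s ζ :=
    (Subgroup.closure_le _).2 ht
  let _ : CommGroup (Subgroup.closure (t : Set (MulAction.stabilizer (Gam F N s) ζ))) :=
    { mul_comm := fun a b => Subtype.ext (thetaA_comm (hle a.2) (hle b.2)) }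
  refine CommGroup.finite_of_fg_isMulTorsion _ fun g => ?_
  rw [isOfFinOrder_iff_pow_eq_one]
  refine ⟨Fintype.card F, Fintype.card_pos, Subtype.ext (Subtype.ext (theta_ext fun w => ?_))⟩
  have h1 := thetaA_pow (hle g.2) (Fintype.card F) w
  have h2 : ∀ u : Fin N → F[X], Fintype.card F • u = 0 := fun u => by
    rw [← Nat.cast_smul_eq_nsmul F, FiniteField.cast_card_eq_zero, zero_smul]
  rw [h2, add_zero] at h1
  exact h1.trans (one_smul _ _).symm

/-- The transvection-like element `1 + X ^ s • x φᵀ`. -/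
theorem theta_exists_elt {s : ℕ} (hs : 1 ≤ s) (x φ : Fin N → F[X]) (h : φ ⬝ᵥ x = 0) :
    ∃ γ : Gam F N s, γ.1.1.1 = 1 + (X ^ s : F[X]) • vecMulVec x φ := by
  have hdet : (1 + (X ^ s : F[X]) • vecMulVec x φ).det = 1 := by
    rw [← Matrix.smul_vecMulVec, Matrix.vecMulVec_eq Unit,
      Matrix.det_one_add_replicateCol_mul_replicateRow, dotProduct_smul, h, smul_zero, add_zero]
  have hc : ∀ p : F[X], (X ^ s * p).coeff 0 = 0 := fun p => by
    rw [mul_coeff_zero, coeff_X_pow, if_neg (by omega), zero_mul]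
  let g : Matrix.SpecialLinearGroup (Fin N) F[X] := ⟨_, hdet⟩
  have hg : g.1 = 1 + (X ^ s : F[X]) • vecMulVec x φ := rfl
  have hUp : g ∈ Up F N := by
    rw [mem_Up_iff, hg]
    refine ⟨fun i => ?_, fun i j hij => ?_⟩
    · simp only [Matrix.add_apply, Matrix.one_apply_eq, Matrix.smul_apply, smul_eq_mul, coeff_add,
        hc, add_zero, coeff_one_zero]
    · simp only [Matrix.add_apply, Matrix.one_apply_ne hij.ne, Matrix.smul_apply, smul_eq_mul,
        zero_add, hc]
  exact ⟨⟨⟨g, hUp⟩, theta_mem_Gam.2 ⟨_, hg⟩⟩, hg⟩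

end Aux

/-- `θ γ` is the matrix of the coefficients of `X^s` in `γ - 1`; it has trace zero
(`Matrix.det_one_add_smul`).  Given `ψ` with `ψ ∘ θ ≠ 1`, `K' = {Y | ∀ a, ψ (a • Y) = 1}` is an
`F`-subspace missing some trace-zero `Y₀`; take a linear functional `μ` vanishing on `K'` with
`μ Y₀ ≠ 0` and `M j i = μ (E i j)`, so `μ (vecMulVec x φ) = φ ⬝ᵥ M *ᵥ x`; `M` is not scalar.
For `ζ ∈ Zc` non-empty let `A` = elements `g` fixing each `w ∈ ζ` with `g • w - w ∈ span_{F[X]} ζ`
for all `w`: normal in the stabiliser, commutative (`(g-1)(g'-1) = 0`), of exponent `p`, hence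
locally finite.  Non-invariance gives `x ∈ span (red ζ)`, `φ` killing `red ζ`, `a` with
`ψ (a • vecMulVec x φ) ≠ 1`; lift `x` to the `F`-span of `ζ` and `φ` to a polynomial covector
killing `ζ` (Cramer: with dual functionals `λ_i` and `B i j = λ_i (w_j) ≡ δ_ij`, take
`det B • φ - ∑ (φ(w) adj B)_i λ_i`); `n = 1 + X^s • a • vecMulVec x φ`. -/
theorem exists_theta (k : Type*) [Field k] {F : Type*} [Field F] [Finite F] [DecidableEq F]
    {N : ℕ} [NeZero N] (s : ℕ) (hs : 1 ≤ s) :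
    ∃ θ : Gam F N s →* Multiplicative (Matrix (Fin N) (Fin N) F),
      (∀ γ : Gam F N s, θ γ = 1 ↔ (γ : Up F N) ∈ Gam F N (s + 1)) ∧
      ∀ ψ : Multiplicative (Matrix (Fin N) (Fin N) F) →* kˣ, ψ.comp θ ≠ 1 →
        ∃ M : Matrix (Fin N) (Fin N) F, (∀ c : F, M ≠ c • (1 : Matrix (Fin N) (Fin N) F)) ∧
          (∀ γ : Gam F N s, ∀ ζ ∈ Zc (W := Fin N → F[X]) red0 M, γ • ζ ∈ Zc red0 M) ∧
          ∀ ζ ∈ Zc (W := Fin N → F[X]) red0 M, ζ.Nonempty →
            ∃ A : Subgroup (MulAction.stabilizer (Gam F N s) ζ),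
              A.Normal ∧ LocFin A ∧ ∃ n ∈ A, (ψ.comp θ) (n : Gam F N s) ≠ 1 := by
  refine ⟨thetaHom hs, thetaHom_eq_one hs, fun ψ hψ => ?_⟩
  obtain ⟨γ₀, hγ₀⟩ : ∃ γ₀, ψ (thetaHom hs γ₀) ≠ 1 := by
    by_contra hcon
    push Not at hcon
    exact hψ (MonoidHom.ext hcon)
  obtain ⟨B₀, hB₀⟩ := theta_mem_Gam.1 γ₀.2
  rw [thetaHom_apply, hB₀, thetaM_eq] at hγ₀
  obtain ⟨M, hM, hMψ⟩ := theta_exists_M ψ _ (theta_trace hs B₀ (hB₀ ▸ γ₀.1.1.2)) hγ₀
  refine ⟨M, hM, fun γ ζ hζ => theta_Zc_smul hs M γ ζ hζ, fun ζ hζ hne => ?_⟩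
  refine ⟨thetaA s ζ, thetaA_normal s ζ, thetaA_locFin s ζ, ?_⟩
  obtain ⟨x, hx, hMx⟩ := hζ.2 ζ le_rfl hne
  obtain ⟨φ, hφ, hφ0⟩ := theta_exists_covector _ _ hMx
  obtain ⟨a, ha⟩ := hMψ x φ hφ
  obtain ⟨x', hx', rfl⟩ := theta_lift_vector _ x hx
  obtain ⟨φ', rfl, hφ'⟩ := theta_lift_covector ζ hζ.1 φ
    fun w hw => hφ0 _ (Submodule.subset_span ⟨w, hw, rfl⟩)
  have hφx : ∀ u ∈ Submodule.span F[X] (ζ : Set (Fin N → F[X])), φ' ⬝ᵥ u = 0 := fun u hu => by
    induction hu using Submodule.span_induction with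
    | mem y hy => exact hφ' y hy
    | zero => simp
    | add y z _ _ hy hz => rw [dotProduct_add, hy, hz, add_zero]
    | smul c y _ hy => rw [dotProduct_smul, hy, smul_zero]
  obtain ⟨γ, hγ⟩ := theta_exists_elt hs (C a • x') φ' (hφx _ (Submodule.smul_mem _ _ hx'))
  have hact : ∀ w : Fin N → F[X], γ • w = w + (X ^ s * (φ' ⬝ᵥ w) * C a) • x' := fun w => by
    rw [theta_smul_def, hγ, Matrix.add_mulVec, Matrix.one_mulVec, Matrix.smul_mulVec,
      Matrix.vecMulVec_mulVec, op_smul_eq_smul, smul_smul, smul_smul]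
  have hfix : ∀ w ∈ ζ, γ • w = w := fun w hw => by
    rw [hact, hφ' w hw]; simp
  have hstab : γ ∈ MulAction.stabilizer (Gam F N s) ζ := by
    rw [MulAction.mem_stabilizer_iff]
    ext w
    rw [Finset.mem_smul_finset]
    constructor
    · rintro ⟨w', hw', rfl⟩
      rwa [hfix w' hw']
    · exact fun hw => ⟨w, hw, hfix w hw⟩
  refine ⟨⟨γ, hstab⟩, ⟨hfix, fun w => ?_⟩, ?_⟩
  · change γ • w - w ∈ _
    rw [hact, add_sub_cancel_left]
    exact Submodule.smul_mem _ _ hx'
  · change ψ (thetaHom hs γ) ≠ 1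
    rw [thetaHom_apply, hγ, thetaM_eq]
    convert ha using 3
    ext i j
    simp [Matrix.vecMulVec_apply, red0]

end Crest.Agent.R66
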