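import Crest.Agent.R66.CosetDefs
import Crest.Prelude.Def_Cochain

/-!
# R66, task T15: from chamber systems to simplicial complexes on `Fin n`
-/

set_option autoImplicit false

namespace Crest.Agent.R66

open Crest.CombinatoricsR

namespace ToComplex

open Finset

variable {N n : ℕ} {Ω : Type}

/-- The face of type `I` of the chamber `ω`. -/
def face (vtx : Fin N → Ω → Fin n) (I : Finset (Fin N)) (ω : Ω) : Finset (Fin n) :=
  I.image fun i => vtx i ω

/-- The top faces. -/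
def tops [Fintype Ω] (vtx : Fin N → Ω → Fin n) (d : ℕ) : Finset (Finset (Fin n)) :=
  ((univ : Finset (Fin N)).powersetCard (d + 1) ×ˢ (univ : Finset Ω)).image
    fun p => face vtx p.1 p.2

variable {vtx : Fin N → Ω → Fin n}

theorem card_face (hty : ∀ i j ω ω', vtx i ω = vtx j ω' → i = j) (I : Finset (Fin N)) (ω : Ω) :
    (face vtx I ω).card = I.card :=
  card_image_of_injective _ fun i j h => hty i j ω ω h

theorem face_mono {I J : Finset (Fin N)} (h : I ⊆ J) (ω : Ω) : face vtx I ω ⊆ face vtx J ω :=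
  image_subset_image h

theorem of_face_subset (hty : ∀ i j ω ω', vtx i ω = vtx j ω' → i = j) {I J : Finset (Fin N)}
    {ω ω' : Ω} (h : face vtx I ω ⊆ face vtx J ω') {i : Fin N} (hi : i ∈ I) :
    i ∈ J ∧ vtx i ω = vtx i ω' := by
  obtain ⟨j, hj, e⟩ := mem_image.1 (h (mem_image_of_mem _ hi))
  obtain rfl := hty _ _ _ _ e
  exact ⟨hj, e.symm⟩

theorem of_face_eq (hty : ∀ i j ω ω', vtx i ω = vtx j ω' → i = j) {I J : Finset (Fin N)}
    {ω ω' : Ω} (h : face vtx I ω = face vtx J ω') : I = J ∧ ∀ i ∈ I, vtx i ω = vtx i ω' :=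
  ⟨Subset.antisymm (fun _ hi => (of_face_subset hty h.le hi).1)
    (fun _ hi => (of_face_subset hty h.ge hi).1), fun _ hi => (of_face_subset hty h.le hi).2⟩

theorem exists_of_subset_face {σ : Finset (Fin n)} {I : Finset (Fin N)} {ω : Ω}
    (h : σ ⊆ face vtx I ω) : ∃ J ⊆ I, face vtx J ω = σ := by
  obtain ⟨J, hJ, e⟩ := subset_image_iff.1 h
  exact ⟨J, hJ, e⟩

theorem sum_erase {M : Type*} [AddCommMonoid M] {I : Finset (Fin N)} {a : ℕ}
    (hI : I.card = a + 1) (g : Finset (Fin N) → M) :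
    ∑ j ∈ I, g (I.erase j) = ∑ J ∈ I.powersetCard a, g J := by
  refine sum_bij (fun j _ => I.erase j) (fun j hj => ?_) (fun j hj j' hj' h => ?_)
    (fun J hJ => ?_) fun _ _ => rfl
  · rw [mem_powersetCard, card_erase_of_mem hj, hI]
    exact ⟨erase_subset _ _, rfl⟩
  · exact (erase_inj I hj).1 h
  · obtain ⟨hJ1, hJ2⟩ := mem_powersetCard.1 hJ
    obtain ⟨j, hj, e⟩ := exists_eq_insert_iff.2 ⟨hJ1, by rw [hJ2, hI]⟩
    exact ⟨j, e ▸ mem_insert_self _ _, by rw [← e, erase_insert hj]⟩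

theorem sum_powersetCard_face (hty : ∀ i j ω ω', vtx i ω = vtx j ω' → i = j)
    {I : Finset (Fin N)} {a : ℕ} (hI : I.card = a + 1) (ω : Ω) (f : Finset (Fin n) → ZMod 2) :
    ∑ σ ∈ (face vtx I ω).powersetCard a, f σ = dC (fun J ω => f (face vtx J ω)) I ω := by
  rw [dC, sum_erase hI fun J => f (face vtx J ω)]
  symm
  refine sum_bij (fun J _ => face vtx J ω) (fun J hJ => ?_) (fun J _ J' _ h => ?_)
    (fun σ hσ => ?_) fun _ _ => rfl
  · obtain ⟨h1, h2⟩ := mem_powersetCard.1 hJ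
    exact mem_powersetCard.2 ⟨face_mono h1 ω, by rw [card_face hty, h2]⟩
  · exact (of_face_eq hty h).1
  · obtain ⟨h1, h2⟩ := mem_powersetCard.1 hσ
    obtain ⟨J, hJ, rfl⟩ := exists_of_subset_face h1
    exact ⟨J, mem_powersetCard.2 ⟨hJ, by rwa [card_face hty] at h2⟩, rfl⟩

variable [Fintype Ω]

theorem cnt_eq (a : ℕ) (f : Finset (Fin N) → Ω → ZMod 2) :
    cnt a f = (((univ : Finset (Fin N)).powersetCard a ×ˢ (univ : Finset Ω)).filter
      fun p => f p.1 p.2 ≠ 0).card := by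
  rw [cnt, card_filter, sum_product]
  refine sum_congr rfl fun I _ => ?_
  rw [← card_filter, ← Set.ncard_coe_finset]
  congr 1
  ext x
  simp

omit [Fintype Ω] in
theorem cnt_congr {a : ℕ} {f g : Finset (Fin N) → Ω → ZMod 2}
    (h : ∀ I : Finset (Fin N), I.card = a → ∀ ω, f I ω = g I ω) : cnt a f = cnt a g := by
  refine sum_congr rfl fun I hI => ?_
  simp only [h I (mem_powersetCard.1 hI).2]

theorem exists_top {d : ℕ} (hN : d + 1 ≤ N) {I : Finset (Fin N)} (hI : I.card ≤ d + 1) (ω : Ω) :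
    ∃ τ ∈ tops vtx d, face vtx I ω ⊆ τ := by
  obtain ⟨J, hIJ, -, hJ⟩ := exists_subsuperset_card_eq (subset_univ I) hI (by simpa using hN)
  exact ⟨face vtx J ω, mem_image.2 ⟨(J, ω), by simp [mem_powersetCard, hJ], rfl⟩, face_mono hIJ ω⟩

theorem degree_le (hty : ∀ i j ω ω', vtx i ω = vtx j ω' → i = j) {B : ℕ}
    (hB : ∀ i v, (univ.filter fun ω => vtx i ω = v).card ≤ B) (d : ℕ) (i : Fin N) (ω : Ω) :
    ((tops vtx d).filter fun τ => vtx i ω ∈ τ).card ≤ 2 ^ N * B := by
  have : ((tops vtx d).filter fun τ => vtx i ω ∈ τ) ⊆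
      ((univ : Finset (Finset (Fin N))) ×ˢ (univ.filter fun ω' => vtx i ω' = vtx i ω)).image
        fun p => face vtx p.1 p.2 := by
    intro τ hτ
    obtain ⟨h1, h2⟩ := mem_filter.1 hτ
    obtain ⟨p, -, rfl⟩ := mem_image.1 h1
    obtain ⟨j, -, e⟩ := mem_image.1 h2
    obtain rfl := hty _ _ _ _ e
    exact mem_image.2 ⟨p, by simp [e], rfl⟩
  refine (card_le_card this).trans (card_image_le.trans ?_)
  rw [card_product, card_univ, Fintype.card_finset, Fintype.card_fin]
  exact Nat.mul_le_mul_left _ (hB _ _)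

theorem norm_eq (d i : ℕ) (T : Finset (Finset (Fin n))) (F : Finset (Fin n) → ZMod 2) :
    Cochain.cochainNorm d T i F =
      ((∑ σ ∈ (univ.powersetCard (i + 1)).filter (fun σ => F σ ≠ 0),
        (T.filter fun τ => σ ⊆ τ).card : ℕ) : ℝ) / ((d + 1).choose (i + 1) * T.card) := by
  simp only [Cochain.cochainNorm, Cochain.faceWeight]
  rw [← sum_div]
  push_cast
  rfl

theorem sum_deg_le (hty : ∀ i j ω ω', vtx i ω = vtx j ω' → i = j) {B : ℕ}
    (hB : ∀ i v, (univ.filter fun ω => vtx i ω = v).card ≤ B) (d i : ℕ)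
    (F : Finset (Fin n) → ZMod 2) :
    ∑ σ ∈ (univ.powersetCard (i + 1)).filter (fun σ => F σ ≠ 0),
        ((tops vtx d).filter fun τ => σ ⊆ τ).card ≤
      2 ^ N * B * cnt (i + 1) fun J ω => F (face vtx J ω) := by
  rw [cnt_eq]
  set P := ((univ : Finset (Fin N)).powersetCard (i + 1) ×ˢ (univ : Finset Ω)).filter
      fun p => F (face vtx p.1 p.2) ≠ 0 with hP
  rw [← sum_filter_ne_zero]
  refine (sum_le_card_nsmul _ _ (2 ^ N * B) fun σ hσ => ?_).trans ?_
  · obtain ⟨h1, h2⟩ := mem_filter.1 hσ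
    obtain ⟨τ, hτ⟩ := card_pos.1 (Nat.pos_of_ne_zero h2)
    obtain ⟨h3, h4⟩ := mem_filter.1 hτ
    obtain ⟨p, -, rfl⟩ := mem_image.1 h3
    have h5 : σ.card = i + 1 := (mem_powersetCard.1 (mem_filter.1 h1).1).2
    obtain ⟨v, hv⟩ := card_pos.1 (show 0 < σ.card by omega)
    obtain ⟨j, -, rfl⟩ := mem_image.1 (h4 hv)
    refine le_trans (card_le_card fun τ hτ => ?_) (degree_le hty hB d j p.2)
    exact mem_filter.2 ⟨(mem_filter.1 hτ).1, (mem_filter.1 hτ).2 hv⟩
  · rw [smul_eq_mul, mul_comm]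
    refine Nat.mul_le_mul_left _ (le_trans (card_le_card fun σ hσ => ?_)
      (card_image_le (s := P) (f := fun p => face vtx p.1 p.2)))
    obtain ⟨h1, h2⟩ := mem_filter.1 hσ
    obtain ⟨τ, hτ⟩ := card_pos.1 (Nat.pos_of_ne_zero h2)
    obtain ⟨h3, h4⟩ := mem_filter.1 hτ
    obtain ⟨p, -, rfl⟩ := mem_image.1 h3
    obtain ⟨J, -, rfl⟩ := exists_of_subset_face h4
    have h5 := (mem_powersetCard.1 (mem_filter.1 h1).1).2
    rw [card_face hty] at h5
    exact mem_image.2 ⟨(J, p.2), by simpa [hP, mem_powersetCard, h5] using (mem_filter.1 h1).2, rfl⟩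

theorem cnt_le (hty : ∀ i j ω ω', vtx i ω = vtx j ω' → i = j) {B : ℕ}
    (hB : ∀ I : Finset (Fin N), I.Nonempty → ∀ ω,
      (univ.filter fun ω' => face vtx I ω' = face vtx I ω).card ≤ B)
    {d i : ℕ} (hN : d + 1 ≤ N) (hi : i ≤ d) (F : Finset (Fin n) → ZMod 2) :
    (cnt (i + 1) fun J ω => F (face vtx J ω)) ≤
      B * ∑ σ ∈ (univ.powersetCard (i + 1)).filter (fun σ => F σ ≠ 0),
        ((tops vtx d).filter fun τ => σ ⊆ τ).card := by
  rw [cnt_eq]
  set P := ((univ : Finset (Fin N)).powersetCard (i + 1) ×ˢ (univ : Finset Ω)).filter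
      fun p => F (face vtx p.1 p.2) ≠ 0 with hP
  have hmem : ∀ p ∈ P, p.1.card = i + 1 ∧ F (face vtx p.1 p.2) ≠ 0 := fun p hp => by
    simpa [hP, mem_powersetCard] using hp
  refine (card_le_mul_card_image (f := fun p => face vtx p.1 p.2) P B fun σ hσ => ?_).trans
    (Nat.mul_le_mul_left _ ?_)
  · obtain ⟨p, hp, rfl⟩ := mem_image.1 hσ
    have hne : p.1.Nonempty := card_pos.1 ((hmem p hp).1 ▸ Nat.succ_pos i)
    refine le_trans (card_le_card_of_injOn Prod.snd (fun q hq => ?_) fun q hq q' hq' e => ?_)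
      (hB p.1 hne p.2)
    · have h1 := (mem_filter.1 hq).2
      have h2 := (of_face_eq hty h1).1
      simp only [coe_filter, mem_univ, true_and, Set.mem_ofPred_eq]
      rw [← h1, h2]
    · exact Prod.ext (of_face_eq hty
        ((mem_filter.1 hq).2.trans (mem_filter.1 hq').2.symm)).1 e
  · rw [card_eq_sum_ones]
    refine le_trans (sum_le_sum fun σ hσ => ?_) (sum_le_sum_of_subset fun σ hσ => ?_)
    · obtain ⟨p, hp, rfl⟩ := mem_image.1 hσ
      obtain ⟨τ, h1, h2⟩ := exists_top (vtx := vtx) hN (I := p.1)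
        (by rw [(hmem p hp).1]; omega) p.2
      exact card_pos.2 ⟨τ, mem_filter.2 ⟨h1, h2⟩⟩
    · obtain ⟨p, hp, rfl⟩ := mem_image.1 hσ
      exact mem_filter.2 ⟨mem_powersetCard.2 ⟨subset_univ _, by
        rw [card_face hty, (hmem p hp).1]⟩, (hmem p hp).2⟩

theorem exists_vtx {G : Type} [Group G] [MulAction G Ω] (K : Fin N → Subgroup G) :
    ∃ (n : ℕ) (vtx : Fin N → Ω → Fin n), (∀ v, ∃ i ω, vtx i ω = v) ∧
      ∀ i j ω ω', vtx i ω = vtx j ω' ↔ i = j ∧ ω' ∈ MulAction.orbit (K i) ω := by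
  let φ : Fin N × Ω → Fin N × Set Ω := fun p => (p.1, MulAction.orbit (K p.1) p.2)
  have : Finite (Set.range φ) := Set.finite_range φ
  let e := Finite.equivFin (Set.range φ)
  refine ⟨_, fun i ω => e ⟨φ (i, ω), Set.mem_range_self _⟩, fun v => ?_, fun i j ω ω' => ?_⟩
  · obtain ⟨⟨_, p, rfl⟩, rfl⟩ := e.surjective v
    exact ⟨p.1, p.2, rfl⟩
  · rw [e.apply_eq_iff_eq, Subtype.mk.injEq]
    simp only [φ, Prod.mk.injEq]
    refine and_congr_right ?_
    rintro rfl
    rw [eq_comm, MulAction.orbit_eq_iff]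

theorem card_orbit_le {G : Type} [Group G] [MulAction G Ω] (K : Subgroup G) [Finite K] {B : ℕ}
    (hB : Nat.card K ≤ B) (ω : Ω) {s : Finset Ω} (hs : ∀ ω' ∈ s, ω' ∈ MulAction.orbit K ω) :
    s.card ≤ B := by
  have h1 : (s : Set Ω).ncard ≤ (MulAction.orbit K ω).ncard :=
    Set.ncard_le_ncard hs (Set.toFinite _)
  rw [Set.ncard_coe_finset] at h1
  refine h1.trans (le_trans ?_ hB)
  rw [← Nat.card_coe_set_eq]
  exact Nat.card_le_card_of_surjective _ (Set.rangeFactorization_surjective (f := fun g : K => g • ω))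

theorem final_ineq {d i M X Y T : ℕ} (hi : i < d) (h : X ≤ M * Y) (hT : 0 < T) :
    1 / ((M : ℝ) * 2 ^ (d + 1) + 1) * ((X : ℝ) / ((d + 1).choose (i + 1) * T)) ≤
      (Y : ℝ) / ((d + 1).choose (i + 1 + 1) * T) := by
  have l4 : (X : ℝ) ≤ M * Y := by exact_mod_cast h
  have c1 : (1 : ℝ) ≤ (d + 1).choose (i + 1) := by
    exact_mod_cast Nat.choose_pos (by omega : i + 1 ≤ d + 1)
  have c2 : (0 : ℝ) < (d + 1).choose (i + 1 + 1) := by
    exact_mod_cast Nat.choose_pos (by omega : i + 1 + 1 ≤ d + 1)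
  have c3 : ((d + 1).choose (i + 1 + 1) : ℝ) ≤ 2 ^ (d + 1) := by
    exact_mod_cast Nat.choose_le_two_pow _ _
  have hT' : (0 : ℝ) < T := by exact_mod_cast hT
  have hM0 : (0 : ℝ) ≤ M := Nat.cast_nonneg _
  calc 1 / ((M : ℝ) * 2 ^ (d + 1) + 1) * ((X : ℝ) / ((d + 1).choose (i + 1) * T))
      ≤ 1 / ((M : ℝ) * 2 ^ (d + 1) + 1) * (M * Y / (1 * T)) := by gcongr
    _ = M / (M * 2 ^ (d + 1) + 1) * (Y / T) := by ring
    _ ≤ 1 / (d + 1).choose (i + 1 + 1) * (Y / T) := by
      gcongr ?_ * _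
      rw [div_le_div_iff₀ (by positivity) c2]
      nlinarith [mul_le_mul_of_nonneg_left c3 hM0]
    _ = _ := by field_simp

end ToComplex

open ToComplex Finset in
/-- Vertices: pairs `(i, orbit of H {i}ᶜ)`, transported to `Fin n`; the face of type `I` of `ω` is
`I.image (fun i => vtx i ω)`; `T` is the set of faces of types of size `d + 1`.  By `hinter` a
non-empty face has between `1` and `B` chambers `ω` over it, and lies in between `1` and
`D = 2^N * B` top faces, so `cochainNorm` is comparable with `cnt / T.card`.  A cochain `f` on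
finsets gives the coset cochain `I ω ↦ f (face I ω)`; conversely `u` gives `g` with
`g (face I ω) = u I ω` (for `I = ∅` use `htrans`).  Connectivity: apply `hexp` in size `1` to the
indicator of "the vertex `vtx i ω` is reachable from a base vertex". -/
theorem to_complex (d N B L : ℕ) (hd : 1 ≤ d) (hN : d + 1 ≤ N) : ∃ D : ℕ, ∃ ε : ℝ, 0 < ε ∧
    ∀ (G : Type) [Group G] (Ω : Type) [MulAction G Ω] [Fintype Ω] [Nonempty Ω]
      (H : Finset (Fin N) → Subgroup G), Monotone H →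
      (∀ J, J ≠ Finset.univ → Finite (H J) ∧ Nat.card (H J) ≤ B) →
      (∀ ω ω' : Ω, ∃ g ∈ H Finset.univ, g • ω = ω') →
      (∀ I : Finset (Fin N), I.Nonempty → ∀ ω ω' : Ω,
        (∀ i ∈ I, ω' ∈ MulAction.orbit (H {i}ᶜ) ω) → ω' ∈ MulAction.orbit (H Iᶜ) ω) →
      (∀ a : ℕ, 1 ≤ a → a ≤ d → ∀ f : Finset (Fin N) → Ω → ZMod 2, IsCoch H a f →
        ∃ u : Finset (Fin N) → Ω → ZMod 2, IsCoch H (a - 1) u ∧
          cnt a (f - dC u) ≤ L * cnt (a + 1) (dC f)) →
      ∃ n : ℕ, ∃ T : Finset (Finset (Fin n)), Fintype.card Ω ≤ B * n ∧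
        (∀ τ ∈ T, τ.card = d + 1) ∧
        (∀ v : Fin n, 1 ≤ Cochain.vertexDegree T v ∧ Cochain.vertexDegree T v ≤ D) ∧
        (Cochain.skeleton T).Connected ∧
        ∀ i : ℕ, i < d → ∀ f : Finset (Fin n) → ZMod 2,
          ∃ b : Finset (Fin n) → ZMod 2, Cochain.IsCoboundaryClass i b ∧
            ε * Cochain.cochainNorm d T i (f - b) ≤
              Cochain.cochainNorm d T (i + 1) (Cochain.coboundary i f) := by
  classical
  refine ⟨2 ^ N * B, 1 / (2 ^ N * B * L * B * 2 ^ (d + 1) + 1), by positivity, ?_⟩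
  intro G _ Ω _ _ _ H hH hfin htrans hinter hexp
  obtain ⟨n, vtx, hsurj, hv⟩ := exists_vtx (Ω := Ω) fun i : Fin N => H {i}ᶜ
  have hty : ∀ i j ω ω', vtx i ω = vtx j ω' → i = j := fun i j ω ω' h => ((hv i j ω ω').1 h).1
  have hcne : ∀ I : Finset (Fin N), I.Nonempty → Iᶜ ≠ univ := fun I hI h =>
    hI.ne_empty (compl_eq_univ_iff I |>.1 h)
  have horb : ∀ (I : Finset (Fin N)) ω ω', face vtx I ω = face vtx I ω' →
      ω' ∈ MulAction.orbit (H Iᶜ) ω := by
    intro I ω ω' h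
    rcases I.eq_empty_or_nonempty with rfl | hI
    · obtain ⟨g, hg, e⟩ := htrans ω ω'
      rw [compl_empty]
      exact ⟨⟨g, hg⟩, e⟩
    · exact hinter I hI ω ω' fun i hi => ((hv i i ω ω').1 ((of_face_eq hty h).2 i hi)).2
  have hinv : ∀ (I : Finset (Fin N)), ∀ h ∈ H Iᶜ, ∀ ω, face vtx I (h • ω) = face vtx I ω := by
    intro I h hh ω
    refine image_congr fun i hi => ?_
    have : h ∈ H {i}ᶜ := hH (compl_subset_compl.2 (singleton_subset_iff.2 hi)) hh
    exact ((hv i i ω (h • ω)).2 ⟨rfl, ⟨h, this⟩, rfl⟩).symm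
  have hB1 : ∀ i v, (univ.filter fun ω => vtx i ω = v).card ≤ B := by
    intro i v
    rcases (univ.filter fun ω => vtx i ω = v).eq_empty_or_nonempty with h | ⟨ω, hω⟩
    · simp [h]
    · obtain ⟨h1, h2⟩ := hfin _ (hcne {i} (singleton_nonempty i))
      exact card_orbit_le _ h2 ω fun ω' hω' =>
        ((hv i i ω ω').1 ((mem_filter.1 hω).2.trans (mem_filter.1 hω').2.symm)).2
  have hB2 : ∀ I : Finset (Fin N), I.Nonempty → ∀ ω,
      (univ.filter fun ω' => face vtx I ω' = face vtx I ω).card ≤ B := by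
    intro I hI ω
    obtain ⟨h1, h2⟩ := hfin _ (hcne I hI)
    exact card_orbit_le _ h2 ω fun ω' hω' => horb I ω ω' (mem_filter.1 hω').2.symm
  have hcoch : ∀ (a : ℕ) (F : Finset (Fin n) → ZMod 2),
      IsCoch H a fun J ω => F (face vtx J ω) := fun a F I _ h hh ω => by
    simp only [hinv I h hh ω]
  let i₀ : Fin N := ⟨0, by omega⟩
  obtain ⟨ω₀⟩ := ‹Nonempty Ω›
  refine ⟨n, tops vtx d, ?_, ?_, ?_, ?_, ?_⟩
  · have := card_le_mul_card_image (f := vtx i₀) (univ : Finset Ω) B fun v _ => hB1 i₀ v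
    exact this.trans (Nat.mul_le_mul_left _ (by simpa using card_le_univ (image (vtx i₀) univ)))
  · intro τ hτ
    obtain ⟨p, hp, rfl⟩ := mem_image.1 hτ
    rw [card_face hty]
    exact (mem_powersetCard.1 (mem_product.1 hp).1).2
  · intro v
    obtain ⟨i, ω, rfl⟩ := hsurj v
    refine ⟨?_, degree_le hty hB1 d i ω⟩
    obtain ⟨τ, h1, h2⟩ := exists_top (vtx := vtx) hN (I := {i}) (by simp) ω
    exact card_pos.2 ⟨τ, mem_filter.2 ⟨h1, h2 (by simp [face])⟩⟩
  · let F : Finset (Fin n) → ZMod 2 := fun σ =>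
      if ∀ v ∈ σ, (Cochain.skeleton (tops vtx d)).Reachable (vtx i₀ ω₀) v then 1 else 0
    obtain ⟨u, hu, hle⟩ := hexp 1 le_rfl hd _ (hcoch 1 F)
    have h0 : cnt (1 + 1) (dC fun J ω => F (face vtx J ω)) = 0 := by
      rw [cnt_eq, card_eq_zero, filter_eq_empty_iff]
      rintro ⟨I, ω⟩ hp
      obtain ⟨i, j, hij, rfl⟩ := card_eq_two.1 (mem_powersetCard.1 (mem_product.1 hp).1).2
      have hadj : (Cochain.skeleton (tops vtx d)).Adj (vtx i ω) (vtx j ω) := by
        obtain ⟨τ, h1, h2⟩ := exists_top (vtx := vtx) hN (I := {i, j})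
          (by rw [card_pair hij]; omega) ω
        exact ⟨fun h => hij (hty _ _ _ _ h), τ, h1, h2 (by simp [face]), h2 (by simp [face])⟩
      have hiff : (Cochain.skeleton (tops vtx d)).Reachable (vtx i₀ ω₀) (vtx i ω) ↔
          (Cochain.skeleton (tops vtx d)).Reachable (vtx i₀ ω₀) (vtx j ω) :=
        ⟨fun h => h.trans hadj.reachable, fun h => h.trans hadj.symm.reachable⟩
      have e1 : ({i, j} : Finset (Fin N)).erase i = {j} := by
        rw [erase_insert (by simpa using hij)]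
      have e2 : ({i, j} : Finset (Fin N)).erase j = {i} := by
        rw [pair_comm, erase_insert (by simpa using hij.symm)]
      simp only [dC, sum_pair hij, e1, e2, F, face, image_singleton, mem_singleton, forall_eq,
        hiff, ne_eq, not_not]
      exact CharTwo.add_self_eq_zero _
    rw [h0, mul_zero, Nat.le_zero, cnt_eq, card_eq_zero, filter_eq_empty_iff] at hle
    have h1 : ∀ i ω, F (face vtx {i} ω) = u ∅ ω := fun i ω => by
      have := hle (x := ({i}, ω)) (by simp [mem_powersetCard])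
      simpa [dC, sub_eq_zero] using this
    have h2 : ∀ ω, u ∅ ω = u ∅ ω₀ := fun ω => by
      obtain ⟨g, hg, rfl⟩ := htrans ω₀ ω
      exact hu ∅ rfl g (by rwa [compl_empty]) ω₀
    have h3 : ∀ v, (Cochain.skeleton (tops vtx d)).Reachable (vtx i₀ ω₀) v := fun v => by
      obtain ⟨i, ω, rfl⟩ := hsurj v
      have := (h1 i ω).trans ((h2 ω).trans (h1 i₀ ω₀).symm)
      by_contra h
      simp [F, face, h] at this
    have : Nonempty (Fin n) := ⟨vtx i₀ ω₀⟩
    exact ⟨fun v w => (h3 v).symm.trans (h3 w)⟩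
  · intro i hi f
    obtain ⟨u, hu, hle⟩ := hexp (i + 1) (by omega) hi _ (hcoch (i + 1) f)
    rw [Nat.add_sub_cancel] at hu
    let g : Finset (Fin n) → ZMod 2 := fun σ =>
      if h : ∃ p : Finset (Fin N) × Ω, face vtx p.1 p.2 = σ then u h.choose.1 h.choose.2 else 0
    have hg : ∀ I : Finset (Fin N), I.card = i → ∀ ω, g (face vtx I ω) = u I ω := by
      intro I hI ω
      have h : ∃ p : Finset (Fin N) × Ω, face vtx p.1 p.2 = face vtx I ω := ⟨(I, ω), rfl⟩
      simp only [g, dif_pos h]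
      have h1 := h.choose_spec
      have h2 := (of_face_eq hty h1).1
      rw [h2] at h1 ⊢
      obtain ⟨k, hk⟩ := horb I _ _ h1.symm
      rw [← hk]
      exact hu I hI k k.2 ω
    let b : Finset (Fin n) → ZMod 2 := fun σ => ∑ σ' ∈ σ.powersetCard i, g σ'
    refine ⟨b, ?_, ?_⟩
    · rcases Nat.eq_zero_or_pos i with rfl | hi0
      · exact Or.inl ⟨rfl, g ∅, fun σ => by simp [b]⟩
      · refine Or.inr ⟨hi0, g, ?_⟩
        funext σ
        simp only [b, Cochain.coboundary, Nat.sub_add_cancel hi0]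
    · have e1 : (cnt (i + 1) fun J ω => (f - b) (face vtx J ω)) =
          cnt (i + 1) ((fun J ω => f (face vtx J ω)) - dC u) := by
        refine cnt_congr fun I hI ω => ?_
        simp only [Pi.sub_apply, b]
        rw [sum_powersetCard_face hty hI]
        congr 1
        refine sum_congr rfl fun j hj => hg _ ?_ ω
        rw [card_erase_of_mem hj, hI]; rfl
      have e2 : (cnt (i + 1 + 1) fun J ω => Cochain.coboundary i f (face vtx J ω)) =
          cnt (i + 1 + 1) (dC fun J ω => f (face vtx J ω)) :=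
        cnt_congr fun I hI ω => sum_powersetCard_face hty hI ω f
      have l1 := sum_deg_le hty hB1 d i (f - b)
      have l2 := cnt_le hty hB2 hN (i := i + 1) hi (Cochain.coboundary i f)
      rw [e1] at l1
      rw [e2] at l2
      rw [norm_eq, norm_eq]
      generalize (∑ σ ∈ (univ.powersetCard (i + 1)).filter (fun σ => (f - b) σ ≠ 0),
        ((tops vtx d).filter fun τ => σ ⊆ τ).card) = X at l1 ⊢
      generalize (∑ σ ∈ (univ.powersetCard (i + 1 + 1)).filter
        (fun σ => Cochain.coboundary i f σ ≠ 0), ((tops vtx d).filter fun τ => σ ⊆ τ).card) = Y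
        at l2 ⊢
      have l3 : X ≤ 2 ^ N * B * L * B * Y := by
        calc X ≤ _ := l1
          _ ≤ 2 ^ N * B * (L * (B * Y)) :=
            Nat.mul_le_mul_left _ (hle.trans (Nat.mul_le_mul_left _ l2))
          _ = _ := by ring
      have hT : 0 < (tops vtx d).card := by
        obtain ⟨τ, h1, -⟩ := exists_top (vtx := vtx) hN (I := ∅) (Nat.zero_le _) ω₀
        exact card_pos.2 ⟨τ, h1⟩
      have := final_ineq (d := d) (i := i) hi l3 hT
      push_cast at this ⊢
      exact this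

end Crest.Agent.R66
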