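import Crest.Agent.R66.GrpBasic
import Crest.Agent.R66.GoodFill

/-!
# R66, task T6b: `U₊` is transitive on generic chambers
-/

set_option autoImplicit false

namespace Crest.Agent.R66

open Polynomial
open scoped Pointwise

variable {F : Type*} [Field F] {N : ℕ} [NeZero N]

theorem Adj.smul {u v : Vtx F N} (h : Adj u v) (g : Up F N) : Adj (g • u) (g • v) := by
  intro m
  rw [smul_val, smul_val, shL_map_act]
  exact (h m).imp Submodule.map_mono Submodule.map_mono

theorem InvV_smul (g : Up F N) (v : Vtx F N) : InvV (g • v) = InvV v := by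
  unfold InvV InvS
  rw [smul_val, Dset_map_act]

theorem trans_single_mem_Vge (i : ℤ) (c : F) : (Finsupp.single i c : VV F) ∈ Vge F i :=
  mem_Vge.2 fun j hj => Finsupp.single_eq_of_ne (by omega)

theorem trans_single_mem_Vlt {i j : ℤ} (h : i < j) (c : F) :
    (Finsupp.single i c : VV F) ∈ Vlt F j :=
  mem_Vlt.2 fun l hl => Finsupp.single_eq_of_ne (by omega)

/-- A unipotent polynomial matrix whose action hits the basis vectors has determinant one. -/
theorem trans_det_eq_one {M : Matrix (Fin N) (Fin N) F[X]}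
    (hu : ∀ i : ℤ, ∀ x ∈ Vge F i, actM M x - x ∈ Vge F (i + 1))
    (hs : ∀ b : Fin N, ∃ x, actM M x = Finsupp.single ((b : ℕ) : ℤ) 1) : M.det = 1 := by
  choose x hx using hs
  have hx0 : ∀ b, x b ∈ Vge F 0 := fun b =>
    mem_Vge_of_unip hu (by rw [hx]; exact Vge_anti (by positivity) (trans_single_mem_Vge _ _))
  obtain ⟨M', hM'⟩ := exists_col x hx0
  have hMM : M * M' = 1 := by
    refine col_injective fun b => ?_
    rw [← actM_single_coe, ← actM_single_coe, actM_mul_apply, actM_single_coe, hM', hx, actM_one]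
    rfl
  have hunit : IsUnit M.det := by
    have := congrArg Matrix.det hMM
    rw [Matrix.det_mul, Matrix.det_one] at this
    exact IsUnit.of_mul_eq_one _ this
  obtain ⟨c, -, hc⟩ := Polynomial.isUnit_iff.1 hunit
  have hcol := (actM_unip_iff M).1 hu
  have hent : ∀ b b' : Fin N, b' ≤ b → (M b' b).coeff 0 = if b' = b then 1 else 0 := by
    intro b b' hb
    have h1 := col_apply_coe M b b' 0
    have h2 := mem_Vge.1 (hcol b) ((b' : ℕ) : ℤ) (by have : (b' : ℕ) ≤ b := hb; omega)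
    rw [Finsupp.sub_apply, sub_eq_zero] at h2
    simp only [Nat.cast_zero, zero_mul, zero_add] at h1
    rw [← h1, h2, Finsupp.single_apply]
    simp only [Nat.cast_inj, Fin.val_inj, eq_comm]
  have h0 : (M.det).coeff 0 = 1 := by
    have := RingHom.map_det (Polynomial.constantCoeff (R := F)) M
    rw [Polynomial.constantCoeff_apply] at this
    rw [this, Matrix.det_of_isLowerTriangular]
    · refine Finset.prod_eq_one fun b _ => ?_
      simp [hent b b le_rfl]
    · intro i j hij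
      have hij' : i < j := hij
      simp [hent j i hij'.le, hij'.ne]
  rw [← hc, Polynomial.coeff_C_zero] at h0
  rw [← hc, h0, map_one]

/-- Let `Λ j` (`j : ℤ`) be the representative of degree `j` of `v (rs j)`; `Dset (Λ j) = Iio j`,
and `Λ` is monotone.  Choose `f b ∈ Λ (b+1)` with leading position `b` and leading coefficient
`1`, and `M` with columns `f b` (`exists_col`).  Then `actM M` is unipotent, maps `Vlt j` into,
hence (`eq_of_le_of_Dset`) onto `Λ j`; so it is onto, `e_b = actM M x_b` with `x_b ∈ Vge 0`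
(`mem_Vge_of_unip`), `M * M' = 1`, `det M` is a unit of `F[X]`, hence the constant
`det M(0) = 1` (lower unitriangular). -/
theorem exists_smul_cV (v : Fin N → Vtx F N) (hdeg : ∀ i, deg (v i).1 = (i : ℕ))
    (hinv : ∀ i, InvV (v i) = ∅) (hadj : ∀ i j, Adj (v i) (v j)) :
    ∃ g : Up F N, ∀ i, g • cV F N i = v i := by
  have hN : (0 : ℤ) < N := by exact_mod_cast Nat.pos_of_ne_zero (NeZero.ne N)
  let Λ : ℤ → Submodule F (VV F) := fun j => shL (j / N * N) (v (rs N j)).1
  have hrep : ∀ j, Rep (v (rs N j)) (Λ j) := fun j => ⟨j / N, rfl⟩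
  have hlat : ∀ j, IsLat N (Λ j) := fun j => (hrep j).isLat
  have hdg : ∀ j, deg (Λ j) = j := fun j => by
    change deg (shL (j / N * N) (v (rs N j)).1) = j
    rw [deg_shL (v (rs N j)).2.1, hdeg, add_comm, div_mul_add_rs]
  have hD : ∀ j, Dset (Λ j) = Set.Iio j := fun j => by
    have := (InvS_eq_empty_iff (hlat j)).1 (by rw [(hrep j).invS, hinv])
    rwa [hdg] at this
  have hmono : ∀ j j', j ≤ j' → Λ j ≤ Λ j' := fun j j' h =>
    (hadj _ _).le_of_deg_le (hrep j) (hrep j') (by rw [hdg, hdg]; exact h)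
  have hper : ∀ j m, Λ (j + m * N) = shL (m * N) (Λ j) := fun j m => by
    change shL ((j + m * N) / N * N) (v (rs N (j + m * N))).1 =
      shL (m * N) (shL (j / N * N) (v (rs N j)).1)
    rw [rs_add_mul, shL_shL, Int.add_mul_ediv_right _ _ hN.ne']
    congr 1
    ring
  have hf : ∀ b : Fin N, ∃ x ∈ Λ ((b : ℕ) + 1), x ∈ Vge F (b : ℕ) ∧ x (b : ℕ) = 1 := fun b => by
    have : ((b : ℕ) : ℤ) ∈ Dset (Λ ((b : ℕ) + 1)) := by rw [hD]; simp
    obtain ⟨x, hx, hx1, hx2⟩ := this
    refine ⟨(x (b : ℕ))⁻¹ • x, Submodule.smul_mem _ _ hx, Submodule.smul_mem _ _ hx1, ?_⟩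
    rw [Finsupp.smul_apply, smul_eq_mul, inv_mul_cancel₀ hx2]
  choose f hf1 hf2 hf3 using hf
  obtain ⟨M, hM⟩ := exists_col f fun b => Vge_anti (by positivity) (hf2 b)
  have hu : ∀ i : ℤ, ∀ x ∈ Vge F i, actM M x - x ∈ Vge F (i + 1) := by
    refine (actM_unip_iff M).2 fun b => mem_Vge.2 fun j hj => ?_
    rw [hM, Finsupp.sub_apply]
    rcases eq_or_lt_of_le (Int.lt_add_one_iff.1 hj) with h | h
    · rw [h, hf3, Finsupp.single_eq_same, sub_self]
    · rw [mem_Vge.1 (hf2 b) j h, Finsupp.single_eq_of_ne h.ne, sub_self]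
  have hsingle : ∀ (i : ℤ) (c : F), actM M (Finsupp.single i c) ∈ Λ (i + 1) := fun i c => by
    rw [actM_single, hM]
    refine Submodule.smul_mem _ _ ?_
    have e : i + 1 = ((rs N i : ℕ) + 1) + i / N * N := by
      have := div_mul_add_rs (N := N) i
      omega
    rw [e, hper]
    exact Submodule.mem_map_of_mem (hf1 _)
  have hmap : ∀ j, (Vlt F j).map (actM M) = Λ j := fun j => by
    refine eq_of_le_of_Dset ?_ (hlat j).up ?_
    · rintro _ ⟨x, hx, rfl⟩
      rw [← Finsupp.sum_single x, Finsupp.sum, map_sum]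
      refine Submodule.sum_mem _ fun i hi => hmono _ _ ?_ (hsingle i _)
      by_contra h
      exact Finsupp.mem_support_iff.1 hi (mem_Vlt.1 hx i (by omega))
    · rw [hD]
      intro i hi
      have hl := lead_of_unip hu (trans_single_mem_Vge i (1 : F))
      refine ⟨_, Submodule.mem_map_of_mem (trans_single_mem_Vlt hi 1), hl.1, ?_⟩
      rw [hl.2, Finsupp.single_eq_same]
      exact one_ne_zero
  have hdet : M.det = 1 := by
    refine trans_det_eq_one hu fun b => ?_
    obtain ⟨a, ha⟩ := (hlat 0).low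
    have h1 : (Finsupp.single ((b : ℕ) : ℤ) (1 : F) : VV F) ∈ Λ (0 + (|a| + 1) * N) := by
      rw [hper]
      refine shL_le_shL.2 ha ?_
      rw [shL_Vlt]
      refine trans_single_mem_Vlt ?_ 1
      have hb : ((b : ℕ) : ℤ) < N := by exact_mod_cast b.2
      have h2 : -a ≤ |a| := neg_le_abs a
      have h3 : 0 ≤ |a| := abs_nonneg a
      nlinarith
    rw [← hmap] at h1
    obtain ⟨x, -, hx⟩ := h1
    exact ⟨x, hx⟩
  refine ⟨⟨⟨M, hdet⟩, hu⟩, fun i => Subtype.ext ?_⟩
  change (Vlt F (i : ℕ)).map (actM M) = (v i).1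
  rw [hmap]
  change shL (((i : ℕ) : ℤ) / N * N) (v (rs N (i : ℕ))).1 = _
  rw [rs_coe, coe_div, zero_mul, shL_zero]

theorem trans_adj_cV (i j : Fin N) : Adj (cV F N i) (cV F N j) := by
  intro m
  change shL (m * N) (Vlt F (i : ℕ)) ≤ Vlt F (j : ℕ) ∨ Vlt F (j : ℕ) ≤ shL (m * N) (Vlt F (i : ℕ))
  rw [shL_Vlt]
  exact (le_total _ _).imp Vlt_mono Vlt_mono

theorem trans_invV_cV (i : Fin N) : InvV (cV F N i) = ∅ := by
  refine (InvS_eq_empty_iff (cV F N i).2.1).2 ?_
  change Dset (Vlt F (i : ℕ)) = Set.Iio (deg (Vlt F (i : ℕ)))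
  rw [Dset_Vlt, deg_Vlt]

theorem Xt_eq_stdCx [Fintype F] : Xt F N = stdCx (Up F N) (cV F N) Finset.univ := by
  ext σ
  constructor
  · intro hσ
    obtain ⟨v, h1, h2, h3, h4⟩ := exists_chamber σ hσ
    obtain ⟨g, hg⟩ := exists_smul_cV v h1 h2 h3
    refine ⟨g, by rw [stabH_univ]; trivial, Finset.univ.filter fun i => v i ∈ σ,
      Finset.subset_univ _, ?_⟩
    ext u
    simp only [Finset.mem_smul_finset, Finset.mem_image, Finset.mem_filter, Finset.mem_univ,
      true_and]
    constructor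
    · intro hu
      obtain ⟨i, rfl⟩ := h4 u hu
      exact ⟨_, ⟨i, hu, rfl⟩, hg i⟩
    · rintro ⟨_, ⟨i, hi, rfl⟩, rfl⟩
      rwa [hg]
  · rintro ⟨g, -, I, -, rfl⟩
    refine ⟨mem_Delta.2 fun u hu w hw => ?_, fun u hu => ?_⟩
    · obtain ⟨_, hu', rfl⟩ := Finset.mem_smul_finset.1 hu
      obtain ⟨_, hw', rfl⟩ := Finset.mem_smul_finset.1 hw
      obtain ⟨i, -, rfl⟩ := Finset.mem_image.1 hu'
      obtain ⟨j, -, rfl⟩ := Finset.mem_image.1 hw'
      exact (trans_adj_cV i j).smul g
    · obtain ⟨_, hu', rfl⟩ := Finset.mem_smul_finset.1 (Finset.mem_coe.1 hu)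
      obtain ⟨i, -, rfl⟩ := Finset.mem_image.1 hu'
      change InvV _ = ∅
      rw [InvV_smul, trans_invV_cV]

end Crest.Agent.R66
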