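import Crest.Agent.R66.Building
import Crest.Agent.R66.GoodFill
import Crest.Agent.R66.LinkExp
import Crest.Agent.R66.LocGlob
import Crest.Agent.R66.Stair
import Crest.Agent.R66.Chars
import Crest.Agent.R66.ToComplex
import Crest.Agent.R66.Theta
import Crest.Agent.R66.Trans
import Crest.Agent.R66.Level
import Crest.Agent.R66.Root

/-!
# R66: assembly
-/

set_option autoImplicit false

namespace Crest.Agent.R66

open Polynomial
open scoped Pointwise

theorem isLowerSet_Delta (F : Type*) [Field F] (N : ℕ) : IsLowerSet (Delta F N) :=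
  isLowerSet_Cl _ _

theorem isLowerSet_Good {F : Type*} [Field F] {N : ℕ} (ρ : Finset (Vtx F N)) :
    IsLowerSet (Good ρ) := isLowerSet_res (isLowerSet_lk (isLowerSet_Delta F N) ρ) _

theorem isLowerSet_Xt (F : Type*) [Field F] (N : ℕ) : IsLowerSet (Xt F N) :=
  isLowerSet_res (isLowerSet_Delta F N) _

/-- Uniform cones on the generic links. -/
theorem good_cone (N : ℕ) [NeZero N] : ∃ R q₀ : ℕ, ∀ (k : Type) [CommRing k] [CharP k 2]
    (F : Type) [Field F] [Fintype F], q₀ ≤ Fintype.card F →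
    ∀ ρ ∈ Delta F N, ρ.Nonempty → ∀ a₀ : ℕ, a₀ + ρ.card < N →
      ∃ c, IsCone k (Good ρ) a₀ c ∧ ∀ σ ∈ Good ρ, σ.card ≤ a₀ → (c σ).support.card ≤ R := by
  obtain ⟨ρf, hρf, q, hq⟩ := exists_rho (fun r R q => ∀ (k : Type) [CommRing k] [CharP k 2]
      (F : Type) [Field F] [Fintype F], q ≤ Fintype.card F →
      ∀ ρ ∈ Delta F N, ρ.Nonempty → ∀ a : ℕ, a + ρ.card < N → Fill k (Good ρ) a r R)
    (fun r => good_fill N r)
    (fun r R q R' q' h hR hq k _ _ F _ _ hF ρ hρ hne a ha =>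
      (h k F (hq.trans hF) ρ hρ hne a ha).mono le_rfl hR) N
  refine ⟨2 ^ ρf N, q, fun k _ _ F _ _ hF ρ hρ hne a₀ ha₀ => ?_⟩
  obtain ⟨c, hc, hc'⟩ := cone_of_fill (k := k) (isLowerSet_Good ρ) a₀ ρf hρf
    (fun a ha => hq a (by omega) k F hF ρ hρ hne a (by omega))
  exact ⟨c, hc, fun σ hσ h => (hc' σ hσ h).trans
    (Nat.pow_le_pow_right (by norm_num) (hρf (by omega)))⟩

section Fixed

variable {N : ℕ} [NeZero N] {F : Type} [Field F] [Fintype F]

omit [Fintype F] in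
theorem Xt_acyc (k : Type) [CommRing k] [CharP k 2] {R : ℕ}
    (hc : ∀ ρ ∈ Delta F N, ρ.Nonempty → ∀ a₀ : ℕ, a₀ + ρ.card < N →
      ∃ c, IsCone k (Good ρ) a₀ c ∧ ∀ σ ∈ Good ρ, σ.card ≤ a₀ → (c σ).support.card ≤ R)
    (a : ℕ) (ha : a + 2 ≤ N) : Acyc k (Xt F N) a := by
  refine acyc_of_morse (isLowerSet_Delta F N) InvV (fun v => v.2.1.InvS_finite) a
    (fun σ hσ => delta_ess σ hσ) (fun ρ hρ hne hcard => ?_) (delta_acyc k a)
  obtain ⟨c, hc, -⟩ := hc ρ hρ hne (a + 1 - ρ.card) (by omega)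
  exact acyc_of_cone hc le_rfl

omit [Fintype F] in
theorem cV_injective : Function.Injective (cV F N) := fun i j h =>
  cV_typ (1 : Up F N) i j (by rw [one_smul, h])

theorem linkExp_HH (k : Type) [CommRing k] [CharP k 2] {R : ℕ}
    (hc : ∀ ρ ∈ Delta F N, ρ.Nonempty → ∀ a₀ : ℕ, a₀ + ρ.card < N →
      ∃ c, IsCone k (Good ρ) a₀ c ∧ ∀ σ ∈ Good ρ, σ.card ≤ a₀ → (c σ).support.card ≤ R)
    (J : Finset (Fin N)) (hJ : J ≠ Finset.univ) : LinkExp k (HH F N) J (2 ^ N * R) := by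
  by_cases hJ0 : J = ∅
  · intro a _ ha; simp [hJ0] at ha
  have hJc : 1 ≤ J.card := Finset.card_pos.2 (Finset.nonempty_iff_ne_empty.2 hJ0)
  have hmem : Jᶜ.image (cV F N) ∈ Xt F N := by
    rw [Xt_eq_stdCx]
    exact ⟨1, Subgroup.one_mem _, Jᶜ, Finset.subset_univ _, by rw [one_smul]⟩
  have hcard : (Jᶜ.image (cV F N)).card = N - J.card := by
    rw [Finset.card_image_of_injective _ cV_injective, Finset.card_compl, Fintype.card_fin]
  have hJle : J.card ≤ N := by simpa using Finset.card_le_univ J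
  have hne : (Jᶜ.image (cV F N)).Nonempty := by
    refine Finset.Nonempty.image ?_ _
    rw [Finset.nonempty_iff_ne_empty, Ne, Finset.compl_eq_empty_iff]
    exact hJ
  obtain ⟨c, hco, hR⟩ := hc _ hmem.1 hne (J.card - 1) (by omega)
  have heq : Good (Jᶜ.image (cV F N)) = stdCx (Up F N) (cV F N) J := by
    rw [← lk_Xt hmem, Xt_eq_stdCx, lk_stdCx cV_typ]
  rw [heq] at hco hR
  have := HH_finite (F := F) hJ
  simpa using linkExp_of_cone cV_typ J R c hco hR

theorem cosExact_Gam (k : Type) [Field k] [CharP k 2] [IsAlgClosed k] (h2 : (2 : F) ≠ 0)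
    (hX : ∀ a, a + 2 ≤ N → Acyc k (Xt F N) a)
    (hZ : ∀ (W : Type) [DecidableEq W] (red : W → Fin N → F), Function.Surjective red →
      ∀ M : Matrix (Fin N) (Fin N) F, (∀ c : F, M ≠ c • (1 : Matrix (Fin N) (Fin N) F)) →
      ∀ a : ℕ, a + 2 ≤ N → Acyc k (Zc red M) a)
    (a : ℕ) (ha : 1 ≤ a) (haN : a + 2 ≤ N) (s : ℕ) (hs : 1 ≤ s) :
    CosExact k (HH F N) (Gam F N s) 1 a := by
  classical
  induction s, hs using Nat.le_induction with
  | base => exact cosExact_base k _ _ 0 HH_base a ha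
  | succ s hs ih =>
    obtain ⟨θ, hθ, hψ⟩ := exists_theta k (F := F) (N := N) s hs
    have hB : (Nat.card (Multiplicative (Matrix (Fin N) (Fin N) F)) : k) ≠ 0 := by
      have := card_ne_zero_of_no_two_torsion k (Γ := Multiplicative (Matrix (Fin N) (Fin N) F))
        (fun g hg => by
          have h1 : (2 : F) • g.toAdd = 0 := by
            have := congrArg Multiplicative.toAdd hg
            rw [toAdd_pow, toAdd_one] at this
            rw [two_smul]; rwa [two_smul] at this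
          exact Multiplicative.toAdd.injective ((smul_eq_zero.1 h1).resolve_left h2)) ⊤
      rwa [Subgroup.card_top] at this
    have : NeZero ((Monoid.exponent (Multiplicative (Matrix (Fin N) (Fin N) F)) : ℕ) : k) := by
      refine ⟨fun h => hB ?_⟩
      obtain ⟨c, hc⟩ := Group.exponent_dvd_nat_card (G := Multiplicative (Matrix (Fin N) (Fin N) F))
      rw [hc, Nat.cast_mul, h, zero_mul]
    refine cosExact_of_chars k _ (Gam F N s) _ (Gam_anti (Nat.le_succ s)) hB θ hθ a fun ψ => ?_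
    by_cases h1 : ψ.comp θ = 1
    · rw [h1]; exact ih
    obtain ⟨M, hM, hinv, hA⟩ := hψ ψ h1
    refine cosExact_of_twExact cV_typ _ _ a ha ?_
    refine twExact_of_frames k _ (isLowerSet_stdCx _) (fun γ σ hσ => ?_) (Zc red0 M)
      (isLowerSet_Zc _ _) (empty_mem_Zc _ _) hinv a (fun b hb => ?_)
      (fun b hb => hZ _ _ red0_surjective M hM b (by omega)) (fun σ hσ hne => ?_)
      (fun g hg => Subtype.ext (Up_no_two_torsion h2 _ (by simpa using congrArg Subtype.val hg)))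
      _ hA
    · exact smul_mem_stdCx (by rw [stabH_univ]; trivial) hσ
    · rw [← Xt_eq_stdCx]; exact hX b (by omega)
    · have := finite_stabilizer cV_typ (fun i => HH_finite (F := F) (J := {i}ᶜ) (by
        intro h; simpa using congrArg (fun J => i ∈ J) h)) hσ hne
      refine Finite.of_injective (β := MulAction.stabilizer (Up F N) σ)
        (fun g => ⟨(g.1 : Up F N), g.2⟩) fun g g' h => ?_
      exact Subtype.ext (Subtype.ext (Subtype.mk.inj h))

end Fixed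

theorem SpecGap.mono {ι : Type*} [DecidableEq ι] {G : Type*} [Group G] {Ω : Type*}
    [MulAction G Ω] [Fintype Ω] {H : Finset ι → Subgroup G} {δ δ' : ℝ} (h : SpecGap Ω H δ)
    (hδ : δ ≤ δ') : SpecGap Ω H δ' := fun J v hv φ hφ =>
  (h J v hv φ hφ).trans (mul_le_mul_of_nonneg_right hδ (Finset.sum_nonneg fun _ _ => sq_nonneg _))

open Crest.CombinatoricsR in
theorem main (d : ℕ) (hd : 1 ≤ d) :
    ∃ D : ℕ, ∃ ε : ℝ, 0 < ε ∧ ∀ N : ℕ, ∃ n : ℕ, ∃ T : Finset (Finset (Fin n)), N ≤ n ∧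
      (∀ τ ∈ T, τ.card = d + 1) ∧
      (∀ v : Fin n, 1 ≤ Cochain.vertexDegree T v ∧ Cochain.vertexDegree T v ≤ D) ∧
      (Cochain.skeleton T).Connected ∧
      ∀ i : ℕ, i < d → ∀ f : Finset (Fin n) → ZMod 2,
        ∃ b : Finset (Fin n) → ZMod 2, Cochain.IsCoboundaryClass i b ∧
          ε * Cochain.cochainNorm d T i (f - b) ≤
            Cochain.cochainNorm d T (i + 1) (Cochain.coboundary i f) := by
  classical
  obtain ⟨N, hN⟩ : ∃ N, N = d + 2 := ⟨_, rfl⟩
  have : NeZero N := ⟨by omega⟩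
  obtain ⟨R, q₁, hcone⟩ := good_cone N
  obtain ⟨q₂, hfr⟩ := frames_acyc N
  obtain ⟨δ₀, hδ₀, hlg⟩ := local_to_global N (2 ^ N * R)
  obtain ⟨p, hp, hpp⟩ := Nat.exists_infinite_primes
    (max (max q₁ q₂) (max 4 ⌈(8 * N / δ₀) ^ 2⌉₊))
  have : Fact p.Prime := ⟨hpp⟩
  have hp4 : 4 ≤ p := le_trans (le_trans (le_max_left _ _) (le_max_right _ _)) hp
  have hcardF : Fintype.card (ZMod p) = p := ZMod.card p
  have hq₁ : q₁ ≤ Fintype.card (ZMod p) := by
    rw [hcardF]; exact le_trans (le_trans (le_max_left _ _) (le_max_left _ _)) hp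
  have hq₂ : q₂ ≤ Fintype.card (ZMod p) := by
    rw [hcardF]; exact le_trans (le_trans (le_max_right _ _) (le_max_left _ _)) hp
  have h2 : (2 : ZMod p) ≠ 0 := by
    intro h
    have : ((2 : ℕ) : ZMod p) = 0 := by exact_mod_cast h
    have := Nat.le_of_dvd (by norm_num) ((ZMod.natCast_eq_zero_iff 2 p).1 this)
    omega
  have hsq : (2 : ℝ) ≤ √(p : ℝ) := by
    refine Real.le_sqrt_of_sq_le ?_
    have : (4 : ℝ) ≤ p := by exact_mod_cast hp4
    linarith
  have hδ : 8 * (N : ℝ) * (1 / √(p : ℝ)) ≤ δ₀ := by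
    have h1 : (8 * N / δ₀) ^ 2 ≤ (p : ℝ) := by
      have := le_trans (le_trans (le_max_right _ _) (le_max_right _ _)) hp
      exact (Nat.le_ceil _).trans (by exact_mod_cast this)
    have h2 : 8 * N / δ₀ ≤ √(p : ℝ) := Real.le_sqrt_of_sq_le h1
    rw [div_le_iff₀ hδ₀] at h2
    rw [mul_one_div, div_le_iff₀ (by linarith)]
    linarith
  -- the bound on the stabilisers
  obtain ⟨B, hB⟩ : ∃ B : ℕ, ∀ J : Finset (Fin N), Nat.card (HH (ZMod p) N J) ≤ B :=
    ⟨Finset.univ.sup fun J : Finset (Fin N) => Nat.card (HH (ZMod p) N J), fun J =>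
      Finset.le_sup (f := fun J : Finset (Fin N) => Nat.card (HH (ZMod p) N J)) (Finset.mem_univ J)⟩
  obtain ⟨L, hL⟩ := hlg B
  obtain ⟨D, ε, hε, htc⟩ := to_complex d N B L hd (by omega)
  refine ⟨D, ε, hε, fun n₀ => ?_⟩
  obtain ⟨s₀, hs₀⟩ := exists_level (F := ZMod p) (N := N)
  obtain ⟨s₁, hs₁⟩ := card_quot_large (F := ZMod p) (N := N) (by omega) (B * n₀ + 1)
  obtain ⟨s, hs⟩ : ∃ s, s = max 1 (max s₀ s₁) := ⟨_, rfl⟩
  obtain ⟨hfree, hinter⟩ := hs₀ s (by omega)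
  have hlarge := hs₁ s (by omega)
  have := finite_quot_Gam (F := ZMod p) (N := N) s
  let : Fintype (Up (ZMod p) N ⧸ Gam (ZMod p) N s) := Fintype.ofFinite _
  have hfin : ∀ J, J ≠ Finset.univ → Finite (HH (ZMod p) N J) ∧ Nat.card (HH (ZMod p) N J) ≤ B :=
    fun J hJ => ⟨HH_finite hJ, hB J⟩
  have htrans : ∀ ω ω' : Up (ZMod p) N ⧸ Gam (ZMod p) N s,
      ∃ g ∈ HH (ZMod p) N Finset.univ, g • ω = ω' := fun ω ω' => by
    obtain ⟨g, hg⟩ := MulAction.exists_smul_eq (Up (ZMod p) N) ω ω'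
    exact ⟨g, by rw [HH, stabH_univ]; trivial, hg⟩
  have hlink := linkExp_HH (F := ZMod p) (ZMod 2) (hcone (ZMod 2) (ZMod p) hq₁)
  have hom : ∀ a, 1 ≤ a → a + 2 ≤ N →
      OmExact (ZMod 2) (Up (ZMod p) N ⧸ Gam (ZMod p) N s) (HH (ZMod p) N) a := fun a ha haN =>
    omExact_descend (ZMod 2) (AlgebraicClosure (ZMod 2)) _ a (omExact_of_cosExact _ _ _ a
      (cosExact_Gam (AlgebraicClosure (ZMod 2)) h2
        (Xt_acyc _ (hcone (AlgebraicClosure (ZMod 2)) (ZMod p) hq₁))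
        (hfr (AlgebraicClosure (ZMod 2)) (ZMod p) hq₂) a ha haN s (by omega)))
  have hgap : SpecGap (Up (ZMod p) N ⧸ Gam (ZMod p) N s) (HH (ZMod p) N) δ₀ := by
    refine (specGap_of_pairs _ (stabH_mono _) (invU_of_forall_single (ZMod 2) _ (stabH_mono _)
      HH_empty (fun J hJ => HH_finite hJ) _ hlink (by simp; omega) (hom 1 le_rfl (by omega)))
      (1 / √(Fintype.card (ZMod p) : ℝ)) (by positivity) ?_
      (fun i j hij => pairAngle_HH (by omega) _ i j hij)).mono ?_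
    · rw [hcardF]; exact one_div_le_one_div_of_le (by norm_num) hsq
    · rw [hcardF, Fintype.card_fin]; exact hδ
  obtain ⟨n, T, hn, hT⟩ := htc (Up (ZMod p) N) (Up (ZMod p) N ⧸ Gam (ZMod p) N s)
    (HH (ZMod p) N) (stabH_mono _) hfin htrans hinter (fun a ha had f hf =>
      cobExp_of_cosys _ a L (hom a ha (by omega))
        (hL (ZMod 2) _ _ _ (stabH_mono _) hfin hfree htrans hlink hgap a ha (by omega)) f hf)
  refine ⟨n, T, ?_, hT⟩
  rw [Nat.card_eq_fintype_card] at hlarge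
  by_contra hlt
  have : B * n ≤ B * n₀ := Nat.mul_le_mul_left _ (by omega)
  omega

end Crest.Agent.R66
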