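import Crest.Agent.R66.Chain

/-!
# R66, task T11: equivariant choices; vanishing from a normal locally finite subgroup
-/

set_option autoImplicit false

namespace Crest.Agent.R66

open scoped Pointwise

/-- Equivariant choice from stabiliser-invariant choices: choose orbit representatives. -/
theorem exists_equivariant {Γ : Type*} [Group Γ] {Y P : Type*} [MulAction Γ Y]
    (ρ : Γ → P → P) (hρ₁ : ∀ p, ρ 1 p = p) (hρ : ∀ g g' p, ρ (g * g') p = ρ g (ρ g' p))
    (Q : Y → P → Prop) (hQ : ∀ g y p, Q y p → Q (g • y) (ρ g p))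
    (hex : ∀ y, ∃ p, Q y p ∧ ∀ g : Γ, g • y = y → ρ g p = p) :
    ∃ h : Y → P, (∀ y, Q y (h y)) ∧ ∀ g y, h (g • y) = ρ g (h y) := by
  classical
  choose p hpQ hpfix using hex
  let rep : Y → Y := fun y => (Quotient.mk (MulAction.orbitRel Γ Y) y).out
  have hrep : ∀ y, ∃ g : Γ, g • rep y = y := by
    intro y
    have h1 : (MulAction.orbitRel Γ Y) y (rep y) :=
      (MulAction.orbitRel Γ Y).symm (Quotient.mk_out (s := MulAction.orbitRel Γ Y) y)
    exact MulAction.mem_orbit_iff.1 (MulAction.orbitRel_apply.1 h1)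
  have hrepg : ∀ (g : Γ) y, rep (g • y) = rep y := by
    intro g y
    have h1 : Quotient.mk (MulAction.orbitRel Γ Y) (g • y) =
        Quotient.mk (MulAction.orbitRel Γ Y) y :=
      Quotient.sound (MulAction.orbitRel_apply.2 (MulAction.mem_orbit y g))
    simp only [rep, h1]
  choose u hu using hrep
  refine ⟨fun y => ρ (u y) (p (rep y)), fun y => ?_, fun g y => ?_⟩
  · have h1 := hQ (u y) (rep y) (p (rep y)) (hpQ _)
    rwa [hu] at h1
  · have h1 : ((g * u y)⁻¹ * u (g • y)) • rep y = rep y := by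
      have h2 := hu (g • y)
      rw [hrepg] at h2
      rw [mul_smul, h2, inv_smul_eq_iff, mul_smul, hu]
    have h2 := hpfix (rep y) _ h1
    show ρ (u (g • y)) (p (rep (g • y))) = ρ g (ρ (u y) (p (rep y)))
    rw [hrepg, ← hρ]
    conv_rhs => rw [← h2, ← hρ, mul_inv_cancel_left]

/-- In a group without elements of order two, finite subgroups have odd order. -/
theorem card_ne_zero_of_no_two_torsion (k : Type*) [Field k] [CharP k 2] {Γ : Type*} [Group Γ]
    (h2 : ∀ g : Γ, g ^ 2 = 1 → g = 1) (A : Subgroup Γ) [Finite A] : (Nat.card A : k) ≠ 0 := by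
  intro h0
  have hdvd : 2 ∣ Nat.card A := (CharP.cast_eq_zero_iff k 2 _).1 h0
  have : Fact (Nat.Prime 2) := ⟨Nat.prime_two⟩
  obtain ⟨x, hx⟩ := exists_prime_orderOf_dvd_card' (G := A) 2 hdvd
  have h1 : x ^ 2 = 1 := by rw [← hx]; exact pow_orderOf_eq_one x
  have h3 : (x : Γ) = 1 := h2 x (by exact_mod_cast congrArg Subtype.val h1)
  have h4 : x = 1 := Subtype.ext h3
  rw [h4, orderOf_one] at hx
  exact absurd hx (by decide)

/-- Averaging a solution of an equivariant linear problem over a finite stabiliser of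
invertible order. -/
theorem exists_invariant_solution {k : Type*} [Field k] {Γ : Type*} [Group Γ] {P P' : Type*}
    [AddCommGroup P] [Module k P] [AddCommGroup P'] [Module k P']
    (ρ : Representation k Γ P) (ρ' : Representation k Γ P') (D : P →ₗ[k] P')
    (hD : ∀ g p, D (ρ g p) = ρ' g (D p)) (W : Submodule k P) (hW : ∀ g, ∀ p ∈ W, ρ g p ∈ W)
    (A : Subgroup Γ) [Finite A] (hA : (Nat.card A : k) ≠ 0) (t : P') (ht : ∀ g ∈ A, ρ' g t = t)
    (p : P) (hp : p ∈ W) (hpt : D p = t) : ∃ p' ∈ W, D p' = t ∧ ∀ g ∈ A, ρ g p' = p' := by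
  classical
  have : Fintype A := Fintype.ofFinite A
  refine ⟨(Nat.card A : k)⁻¹ • ∑ n : A, ρ n p,
    W.smul_mem _ (W.sum_mem fun n _ => hW _ _ hp), ?_, fun g hg => ?_⟩
  · have h1 : ∀ n : A, D (ρ n p) = t := fun n => by rw [hD, hpt, ht _ n.2]
    rw [map_smul, map_sum, Finset.sum_congr rfl fun n _ => h1 n, Finset.sum_const,
      Finset.card_univ, ← Nat.card_eq_fintype_card, ← Nat.cast_smul_eq_nsmul k, smul_smul,
      inv_mul_cancel₀ hA, one_smul]
  · rw [map_smul, map_sum]
    congr 1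
    refine Fintype.sum_equiv (Equiv.mulLeft (⟨g, hg⟩ : A)) _ _ fun n => ?_
    simp [map_mul]

section Aux

variable (k : Type*) [Field k] (Γ : Type*) [Group Γ] {α : Type*} [DecidableEq α] [MulAction Γ α]

/-- The permutation representation on chains. -/
noncomputable def twistedPerm : Representation k Γ (Chain k α) where
  toFun g := Finsupp.lmapDomain k k (fun σ : Finset α => g • σ)
  map_one' := by ext; simp
  map_mul' x y := by ext; simp [mul_smul]

variable {k Γ}

theorem twistedPerm_single (g : Γ) (σ : Finset α) (x : k) :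
    twistedPerm k Γ g (Finsupp.single σ x) = Finsupp.single (g • σ) x := by
  simp [twistedPerm]

theorem twisted_smul_erase (g : Γ) (σ : Finset α) (v : α) :
    g • σ.erase v = (g • σ).erase (g • v) := by
  simp only [Finset.smul_finset_def]
  exact Finset.image_erase (MulAction.injective g) σ v

theorem twisted_sum_smul {M : Type*} [AddCommMonoid M] (g : Γ) (σ : Finset α)
    (f : Finset α → M) :
    ∑ v ∈ g • σ, f ((g • σ).erase v) = ∑ v ∈ σ, f (g • σ.erase v) := by
  conv_lhs => rw [Finset.smul_finset_def]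
  rw [Finset.sum_image fun x _ y _ h => MulAction.injective g h]
  refine Finset.sum_congr rfl fun v _ => ?_
  rw [twisted_smul_erase, Finset.smul_finset_def]

theorem twistedPerm_bd (g : Γ) (x : Chain k α) :
    bd k (twistedPerm k Γ g x) = twistedPerm k Γ g (bd k x) := by
  induction x using Finsupp.induction_linear with
  | zero => simp
  | add x y hx hy => simp [map_add, hx, hy]
  | single σ c =>
    rw [twistedPerm_single, bd_single, bd_single, map_sum,
      twisted_sum_smul g σ (fun τ => Finsupp.single τ c)]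
    exact Finset.sum_congr rfl fun v _ => (twistedPerm_single g _ c).symm

theorem twistedPerm_mem_Cs {Y : Set (Finset α)} (hinv : ∀ γ : Γ, ∀ σ ∈ Y, γ • σ ∈ Y) (b : ℕ)
    (g : Γ) {x : Chain k α} (hx : x ∈ Cs k Y b) : twistedPerm k Γ g x ∈ Cs k Y b := by
  classical
  rw [mem_Cs] at hx ⊢
  intro σ hσ
  have h1 : σ ∈ x.support.image (fun τ => g • τ) := Finsupp.mapDomain_support hσ
  obtain ⟨τ, hτ, rfl⟩ := Finset.mem_image.1 h1
  exact ⟨hinv g τ (hx τ hτ).1, by rw [Finset.card_smul_finset]; exact (hx τ hτ).2⟩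

/-- The span of the twisted differences. -/
noncomputable def twistedI (χ : Γ →* kˣ) (A : Subgroup Γ) (α : Type*) [DecidableEq α] [MulAction Γ α] :
    Submodule k (Chain k α) :=
  Submodule.span k {y | ∃ n ∈ A, ∃ x : Chain k α, y = twistedPerm k Γ n x - (χ n : k) • x}

theorem twistedI_mem (χ : Γ →* kˣ) (A : Subgroup Γ) {n : Γ} (hn : n ∈ A) (x : Chain k α) :
    twistedPerm k Γ n x - (χ n : k) • x ∈ twistedI χ A α :=
  Submodule.subset_span ⟨n, hn, x, rfl⟩

theorem twistedI_le_perm (χ : Γ →* kˣ) (A : Subgroup Γ) [hA : A.Normal] (g : Γ) :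
    twistedI χ A α ≤ (twistedI χ A α).comap (twistedPerm k Γ g) := by
  refine Submodule.span_le.2 ?_
  rintro _ ⟨n, hn, x, rfl⟩
  have h1 := twistedI_mem χ A (hA.conj_mem n hn g) (twistedPerm k Γ g x)
  have h2 : χ (g * n * g⁻¹) = χ n := by
    rw [map_mul, map_mul, map_inv, mul_inv_cancel_comm]
  have h3 : twistedPerm k Γ (g * n * g⁻¹) (twistedPerm k Γ g x) =
      twistedPerm k Γ g (twistedPerm k Γ n x) := by
    rw [← Module.End.mul_apply, ← map_mul, ← Module.End.mul_apply, ← map_mul,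
      inv_mul_cancel_right]
  rw [h2, h3] at h1
  simpa [map_sub, map_smul] using h1

theorem twistedI_le_bd (χ : Γ →* kˣ) (A : Subgroup Γ) :
    twistedI χ A α ≤ (twistedI χ A α).comap (bd k) := by
  refine Submodule.span_le.2 ?_
  rintro _ ⟨n, hn, x, rfl⟩
  have h1 := twistedI_mem χ A hn (bd k x)
  rw [← twistedPerm_bd] at h1
  simpa [map_sub, map_smul] using h1

/-- An element of `twistedI` comes from finitely many group elements. -/
theorem twistedI_finite (χ : Γ →* kˣ) (A : Subgroup Γ) {y : Chain k α}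
    (hy : y ∈ twistedI χ A α) :
    ∃ s : Finset Γ, (s : Set Γ) ⊆ A ∧ y ∈ twistedI χ (Subgroup.closure (s : Set Γ)) α := by
  classical
  have hmono : ∀ {s t : Finset Γ}, s ⊆ t → twistedI χ (Subgroup.closure (s : Set Γ)) α ≤
      twistedI χ (Subgroup.closure (t : Set Γ)) α := by
    intro s t hst
    refine Submodule.span_mono ?_
    rintro _ ⟨n, hn, x, rfl⟩
    exact ⟨n, Subgroup.closure_mono (Finset.coe_subset.2 hst) hn, x, rfl⟩
  induction hy using Submodule.span_induction with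
  | mem y hy =>
    obtain ⟨n, hn, x, rfl⟩ := hy
    refine ⟨{n}, by simpa using hn, twistedI_mem χ _ (Subgroup.subset_closure (by simp)) x⟩
  | zero => exact ⟨∅, by simp, Submodule.zero_mem _⟩
  | add x y _ _ hx hy =>
    obtain ⟨s, hs, hx⟩ := hx
    obtain ⟨t, ht, hy⟩ := hy
    refine ⟨s ∪ t, by simp [hs, ht], Submodule.add_mem _ (hmono Finset.subset_union_left hx)
      (hmono Finset.subset_union_right hy)⟩
  | smul c x _ hx =>
    obtain ⟨s, hs, hx⟩ := hx
    exact ⟨s, hs, Submodule.smul_mem _ c hx⟩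

/-- The twisted sum over a finite subgroup. -/
noncomputable def twistedAv (χ : Γ →* kˣ) (B : Subgroup Γ) [Fintype B] :
    Chain k α →ₗ[k] Chain k α :=
  ∑ n : B, ((χ n)⁻¹ : kˣ).val • twistedPerm k Γ n

theorem twistedAv_apply (χ : Γ →* kˣ) (B : Subgroup Γ) [Fintype B] (x : Chain k α) :
    twistedAv χ B x = ∑ n : B, ((χ n)⁻¹ : kˣ).val • twistedPerm k Γ n x := by
  simp [twistedAv]

theorem twistedAv_kill (χ : Γ →* kˣ) (B : Subgroup Γ) [Fintype B] {y : Chain k α}
    (hy : y ∈ twistedI χ B α) : twistedAv χ B y = 0 := by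
  have h : twistedI χ B α ≤ LinearMap.ker (twistedAv χ B) := by
    refine Submodule.span_le.2 ?_
    rintro _ ⟨m, hm, x, rfl⟩
    show twistedAv χ B _ = 0
    rw [map_sub, map_smul, sub_eq_zero, twistedAv_apply, twistedAv_apply, Finset.smul_sum]
    refine Fintype.sum_equiv (Equiv.mulRight (⟨m, hm⟩ : B)) _ _ fun n => ?_
    simp only [Equiv.coe_mulRight, Subgroup.coe_mul, map_mul, Module.End.mul_apply, smul_smul,
      mul_inv_rev, Units.val_mul]
    rw [← mul_assoc, Units.mul_inv, one_mul]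
  exact h hy

/-- Exactness modulo `twistedI`. -/
theorem twisted_exact_mod [CharP k 2] {Y : Set (Finset α)} (hinv : ∀ γ : Γ, ∀ σ ∈ Y, γ • σ ∈ Y)
    {b : ℕ} (hac : Acyc k Y b) (h2 : ∀ g : Γ, g ^ 2 = 1 → g = 1) (χ : Γ →* kˣ)
    (A : Subgroup Γ) (hA : LocFin A) {x : Chain k α} (hx : x ∈ Cs k Y b)
    (hbd : bd k x ∈ twistedI χ A α) :
    ∃ y ∈ Cs k Y (b + 1), bd k y - x ∈ twistedI χ A α := by
  classical
  obtain ⟨s, hs, hbd⟩ := twistedI_finite χ A hbd
  have := hA s hs
  set B := Subgroup.closure (s : Set Γ) with hB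
  have : Fintype B := Fintype.ofFinite B
  have hBA : B ≤ A := (Subgroup.closure_le A).2 hs
  have hcard : (Nat.card B : k) ≠ 0 := card_ne_zero_of_no_two_torsion k h2 B
  have hmem : twistedAv χ B x ∈ Cs k Y b := by
    rw [twistedAv_apply]
    exact Submodule.sum_mem _ fun n _ =>
      Submodule.smul_mem _ _ (twistedPerm_mem_Cs hinv b _ hx)
  have hcyc : bd k (twistedAv χ B x) = 0 := by
    rw [← twistedAv_kill χ B hbd, twistedAv_apply, twistedAv_apply, map_sum]
    exact Finset.sum_congr rfl fun n _ => by rw [map_smul, twistedPerm_bd]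
  obtain ⟨w, hw, hwx⟩ := hac _ hmem hcyc
  refine ⟨(Nat.card B : k)⁻¹ • w, Submodule.smul_mem _ _ hw, ?_⟩
  have h1 : bd k ((Nat.card B : k)⁻¹ • w) - x = (Nat.card B : k)⁻¹ •
      ∑ n : B, ((χ n)⁻¹ : kˣ).val • (twistedPerm k Γ n x - (χ n : k) • x) := by
    have h3 : ∀ n : B, ((χ n)⁻¹ : kˣ).val • (twistedPerm k Γ n x - (χ n : k) • x) =
        ((χ n)⁻¹ : kˣ).val • twistedPerm k Γ n x - x := fun n => by
      rw [smul_sub, smul_smul, Units.inv_mul, one_smul]
    rw [Finset.sum_congr rfl fun n _ => h3 n, Finset.sum_sub_distrib, ← twistedAv_apply, ← hwx,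
      Finset.sum_const, Finset.card_univ, ← Nat.card_eq_fintype_card,
      ← Nat.cast_smul_eq_nsmul k, smul_sub, smul_smul, inv_mul_cancel₀ hcard, one_smul, map_smul]
  rw [h1]
  exact Submodule.smul_mem _ _ (Submodule.sum_mem _ fun n _ =>
    Submodule.smul_mem _ _ (twistedI_mem χ A (hBA n.2) x))

omit [MulAction Γ α] [Group Γ] in
theorem twisted_sum_sum_erase {M : Type*} [AddCommGroup M] (hM : ∀ m : M, m + m = 0)
    (f : Finset α → M) (σ : Finset α) :
    ∑ v ∈ σ, ∑ w ∈ σ.erase v, f ((σ.erase v).erase w) = 0 := by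
  rw [Finset.sum_sigma']
  refine Finset.sum_involution (fun p _ => ⟨p.2, p.1⟩) ?_ ?_ ?_ ?_
  · intro p _
    rw [Finset.erase_right_comm]
    exact hM _
  · intro p hp _ h
    obtain ⟨v, w⟩ := p
    simp only [Finset.mem_sigma, Finset.mem_erase] at hp
    simp only [Sigma.mk.injEq, heq_eq_eq] at h
    exact hp.2.1 h.1
  · intro p hp
    obtain ⟨v, w⟩ := p
    simp only [Finset.mem_sigma, Finset.mem_erase] at hp ⊢
    exact ⟨hp.2.2, fun h => hp.2.1 h.symm, hp.1⟩
  · intro p _
    rfl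

end Aux

/-- Twisted cochains are exact when `χ` is non-trivial on a normal locally finite subgroup `A`.
Let `C = Chain k α` with the permutation representation `ρ₀`, `I` the span of all
`ρ₀ n x - χ n • x` (`n ∈ A`), `P = C ⧸ I` (`I` is `Γ`- and `∂`-invariant).  (i) `[∅] ∈ I`.
(ii) If `x ∈ Cs Y b` (`b ≤ a`) has `∂ x ∈ I` then `∂ x` is killed by the idempotent
`e = |A'|⁻¹ ∑_{n ∈ A'} χ(n)⁻¹ ρ₀ n` of a finite subgroup `A' ≤ A`, so `e x = ∂ y` and `x ≡ e x`
mod `I`.  (iii) By recursion on the size build an equivariant `h : Y_b → image of Cs Y (b+1) in P`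
with `π σ = ∂ (h σ) + ∑ h (σ.erase v)` (`h ∅ = 0`; `exists_equivariant`,
`exists_invariant_solution`).  (iv) `F` (cut off outside `Y_a`) kills `I`; put
`U σ = F (h σ)`. -/
theorem twExact_of_normal (k : Type*) [Field k] [CharP k 2] {Γ : Type*} [Group Γ] {α : Type*}
    [DecidableEq α] [MulAction Γ α] (Y : Set (Finset α)) (hY : IsLowerSet Y)
    (hinv : ∀ γ : Γ, ∀ σ ∈ Y, γ • σ ∈ Y) (a : ℕ) (hac : ∀ b ≤ a, Acyc k Y b)
    (hstab : ∀ σ ∈ Y, σ.Nonempty → Finite (MulAction.stabilizer Γ σ))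
    (h2 : ∀ g : Γ, g ^ 2 = 1 → g = 1) (χ : Γ →* kˣ) (A : Subgroup Γ) [A.Normal] (hA : LocFin A)
    (hχ : ∃ n ∈ A, χ n ≠ 1) : TwExact k Γ Y χ a := by
  classical
  set I : Submodule k (Chain k α) := twistedI χ A α with hI
  let ρ : Representation k Γ (Chain k α ⧸ I) :=
    (twistedPerm k Γ).quotient I (twistedI_le_perm χ A)
  let D : (Chain k α ⧸ I) →ₗ[k] (Chain k α ⧸ I) := I.mapQ I (bd k) (twistedI_le_bd χ A)
  let π : Chain k α →ₗ[k] (Chain k α ⧸ I) := I.mkQ
  let W : ℕ → Submodule k (Chain k α ⧸ I) := fun b => (Cs k Y b).map π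
  have hρπ : ∀ g x, ρ g (π x) = π (twistedPerm k Γ g x) := fun g x => rfl
  have hDπ : ∀ x, D (π x) = π (bd k x) := fun x => rfl
  have hπsurj : Function.Surjective π := I.mkQ_surjective
  have hDρ : ∀ g p, D (ρ g p) = ρ g (D p) := by
    intro g p
    obtain ⟨x, rfl⟩ := hπsurj p
    rw [hρπ, hDπ, hDπ, hρπ, twistedPerm_bd]
  have hWρ : ∀ b g, ∀ p ∈ W b, ρ g p ∈ W b := by
    rintro b g _ ⟨x, hx, rfl⟩
    exact ⟨_, twistedPerm_mem_Cs hinv b g hx, (hρπ g x).symm⟩
  have hchar : ∀ p : Chain k α ⧸ I, p + p = 0 := by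
    intro p
    rw [← two_smul k, CharTwo.two_eq_zero, zero_smul]
  have hDD : ∀ p, D (D p) = 0 := by
    intro p
    obtain ⟨x, rfl⟩ := hπsurj p
    rw [hDπ, hDπ, bd_bd, map_zero]
  have hYiff : ∀ (g : Γ) σ, g • σ ∈ Y ↔ σ ∈ Y := fun g σ =>
    ⟨fun h => by simpa using hinv g⁻¹ _ h, hinv g σ⟩
  have hexact : ∀ b ≤ a, ∀ t ∈ W b, D t = 0 → ∃ p ∈ W (b + 1), D p = t := by
    rintro b hb _ ⟨x, hx, rfl⟩ hD0
    rw [hDπ] at hD0
    have h1 : bd k x ∈ I := (Submodule.Quotient.mk_eq_zero I).1 hD0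
    obtain ⟨y, hy, hyx⟩ := twisted_exact_mod hinv (hac b hb) h2 χ A hA hx h1
    exact ⟨π y, ⟨y, hy, rfl⟩, by rw [hDπ]; exact (Submodule.Quotient.eq I).2 hyx⟩
  have hempty : π (Finsupp.single ∅ 1) = 0 := by
    obtain ⟨n, hn, hχn⟩ := hχ
    have h1 := twistedI_mem (α := α) χ A hn (Finsupp.single ∅ 1)
    rw [twistedPerm_single, Finset.smul_finset_empty] at h1
    have h3 : (1 - (χ n : k)) ≠ 0 := by
      intro h
      exact hχn (Units.ext (by rw [Units.val_one]; exact (sub_eq_zero.1 h).symm))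
    have h4 : (Finsupp.single ∅ 1 : Chain k α) =
        (1 - (χ n : k))⁻¹ • (Finsupp.single ∅ 1 - (χ n : k) • Finsupp.single ∅ (1 : k)) := by
      rw [show (Finsupp.single ∅ 1 - (χ n : k) • Finsupp.single ∅ (1 : k) : Chain k α) =
        (1 - (χ n : k)) • Finsupp.single ∅ (1 : k) by rw [sub_smul, one_smul], smul_smul,
        inv_mul_cancel₀ h3, one_smul]
    refine (Submodule.Quotient.mk_eq_zero I).2 ?_
    rw [h4]
    exact I.smul_mem _ h1
  -- the equivariant homotopy
  have key : ∀ b ≤ a, ∃ h : Finset α → Chain k α ⧸ I, (∀ (g : Γ) σ, h (g • σ) = ρ g (h σ)) ∧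
      ∀ σ ∈ Y, σ.card ≤ b → h σ ∈ W (σ.card + 1) ∧
        D (h σ) + ∑ v ∈ σ, h (σ.erase v) = π (Finsupp.single σ 1) := by
    intro b
    induction b with
    | zero =>
      intro _
      refine ⟨fun _ => 0, fun g σ => by simp, fun σ _ hσ => ⟨Submodule.zero_mem _, ?_⟩⟩
      obtain rfl : σ = ∅ := Finset.card_eq_zero.1 (Nat.le_zero.1 hσ)
      simp [hempty]
    | succ b ih =>
      intro hb
      obtain ⟨h, hequi, hh⟩ := ih (Nat.le_of_succ_le hb)
      have hsum : ∀ (g : Γ) σ, ρ g (∑ v ∈ σ, h (σ.erase v)) = ∑ v ∈ g • σ, h ((g • σ).erase v) := by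
        intro g σ
        rw [twisted_sum_smul g σ h, map_sum]
        exact Finset.sum_congr rfl fun v _ => (hequi g _).symm
      have hsingle : ∀ (g : Γ) σ, ρ g (π (Finsupp.single σ 1)) = π (Finsupp.single (g • σ) 1) := by
        intro g σ
        rw [hρπ, twistedPerm_single]
      obtain ⟨h', hQ', hequi'⟩ := exists_equivariant (Γ := Γ) (Y := Finset α)
        (fun g p => ρ g p) (fun p => by simp) (fun g g' p => by simp [map_mul])
        (fun σ p => (σ ∈ Y ∧ σ.card = b + 1 → p ∈ W (b + 2) ∧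
            D p + ∑ v ∈ σ, h (σ.erase v) = π (Finsupp.single σ 1)) ∧
          (¬ (σ ∈ Y ∧ σ.card = b + 1) → p = h σ))
        (by
          rintro g σ p ⟨hp1, hp2⟩
          rw [hYiff, Finset.card_smul_finset]
          refine ⟨fun hσ => ⟨hWρ _ g p (hp1 hσ).1, ?_⟩, fun hσ => ?_⟩
          · rw [hDρ, ← hsum, ← map_add, (hp1 hσ).2, hsingle]
          · rw [hp2 hσ, hequi])
        (by
          intro σ
          by_cases hσ : σ ∈ Y ∧ σ.card = b + 1
          · have hface : ∀ v ∈ σ, σ.erase v ∈ Y ∧ (σ.erase v).card = b := fun v hv =>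
              ⟨hY (Finset.erase_subset v σ) hσ.1, by rw [Finset.card_erase_of_mem hv, hσ.2]; rfl⟩
            have ht : π (Finsupp.single σ 1) - ∑ v ∈ σ, h (σ.erase v) ∈ W (b + 1) := by
              refine Submodule.sub_mem _ ⟨_, ?_, rfl⟩ (Submodule.sum_mem _ fun v hv => ?_)
              · exact Finsupp.single_mem_supported k 1 hσ
              · have h1 := (hh _ (hface v hv).1 (hface v hv).2.le).1
                rwa [(hface v hv).2] at h1
            have hDt : D (π (Finsupp.single σ 1) - ∑ v ∈ σ, h (σ.erase v)) = 0 := by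
              rw [map_sub, hDπ, bd_single, map_sum, map_sum, ← Finset.sum_sub_distrib,
                ← twisted_sum_sum_erase hchar h σ]
              refine Finset.sum_congr rfl fun v hv => ?_
              rw [← (hh _ (hface v hv).1 (hface v hv).2.le).2, add_sub_cancel_left]
            obtain ⟨p, hpW, hpD⟩ := hexact (b + 1) hb _ ht hDt
            have hne : σ.Nonempty := Finset.card_pos.1 (by rw [hσ.2]; exact Nat.succ_pos b)
            have := hstab σ hσ.1 hne
            obtain ⟨p', hp'W, hp'D, hp'fix⟩ := exists_invariant_solution ρ ρ D hDρ (W (b + 2))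
              (hWρ _) (MulAction.stabilizer Γ σ) (card_ne_zero_of_no_two_torsion k h2 _) _
              (by
                intro g hg
                rw [map_sub, hsingle, hsum, MulAction.mem_stabilizer_iff.1 hg]) p hpW hpD
            refine ⟨p', ⟨fun _ => ⟨hp'W, ?_⟩, fun h => absurd hσ h⟩, fun g hg => hp'fix g hg⟩
            rw [hp'D, sub_add_cancel]
          · refine ⟨h σ, ⟨fun h => absurd h hσ, fun _ => rfl⟩, fun g hg => ?_⟩
            show ρ g (h σ) = h σ
            rw [← hequi, hg])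
      refine ⟨h', hequi', fun σ hσ hcard => ?_⟩
      have hfaces : ∑ v ∈ σ, h' (σ.erase v) = ∑ v ∈ σ, h (σ.erase v) := by
        refine Finset.sum_congr rfl fun v hv => (hQ' _).2 ?_
        rintro ⟨-, h1⟩
        rw [Finset.card_erase_of_mem hv] at h1
        have := Finset.card_pos.2 ⟨v, hv⟩
        omega
      rw [hfaces]
      rcases Nat.lt_or_eq_of_le hcard with hlt | heq
      · have h1 : h' σ = h σ := (hQ' σ).2 fun h => absurd h.2 hlt.ne
        rw [h1]
        exact hh σ hσ (Nat.le_of_lt_succ hlt)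
      · rw [heq]
        exact (hQ' σ).1 ⟨hσ, heq⟩
  obtain ⟨h, hequi, hh⟩ := key a le_rfl
  intro F hF hcob
  let F' : Finset α → k := fun σ => if σ ∈ Y ∧ σ.card = a then F σ else 0
  have hF' : ∀ (g : Γ) σ, F' (g • σ) = χ g * F' σ := by
    intro g σ
    simp only [F', hYiff, Finset.card_smul_finset]
    split_ifs with hσ
    · exact hF g σ hσ.1 hσ.2
    · rw [mul_zero]
  have hpair : ∀ (g : Γ) x, pair F' (twistedPerm k Γ g x) = χ g * pair F' x := by
    intro g x
    induction x using Finsupp.induction_linear with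
    | zero => simp
    | add x y hx hy => simp [map_add, hx, hy, mul_add]
    | single σ c => rw [twistedPerm_single, pair_single, pair_single, hF']; ring
  have hker : I ≤ LinearMap.ker (pair F') := by
    refine Submodule.span_le.2 ?_
    rintro _ ⟨n, _, x, rfl⟩
    show pair F' _ = 0
    rw [map_sub, map_smul, hpair, smul_eq_mul, sub_self]
  let Fb : (Chain k α ⧸ I) →ₗ[k] k := I.liftQ (pair F') hker
  have hFb : ∀ x, Fb (π x) = pair F' x := fun x => rfl
  refine ⟨fun σ => Fb (h σ), fun g σ _ _ => ?_, fun σ hσ hcard => ?_⟩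
  · obtain ⟨x, hx⟩ := hπsurj (h σ)
    show Fb (h (g • σ)) = χ g * Fb (h σ)
    rw [hequi, ← hx, hρπ, hFb, hFb, hpair]
  · obtain ⟨⟨w, hw, hwσ⟩, h1⟩ := hh σ hσ hcard.le
    have h3 := congrArg Fb h1
    rw [map_add, map_sum, hFb, pair_single, one_mul, ← hwσ, hDπ, hFb, pair_bd,
      pair_eq_zero, zero_add] at h3
    · have h4 : F' σ = F σ := if_pos ⟨hσ, hcard⟩
      rw [← h4, ← h3]
      rfl
    · intro τ hτ
      obtain ⟨hτY, hτc⟩ := mem_Cs.1 hw τ hτ
      rw [← hcob τ hτY (by rw [hτc, hcard])]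
      refine Finset.sum_congr rfl fun v hv => if_pos ⟨hY (Finset.erase_subset v τ) hτY, ?_⟩
      rw [Finset.card_erase_of_mem hv, hτc, hcard]
      rfl

end Crest.Agent.R66
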